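import Mathlib

/-!
# Brunn-Minkowski type inequalities in dimensions one and two
-/

namespace Vale.Agent.Helper11

open Set MeasureTheory

/-- The one-dimensional Brunn-Minkowski inequality, in pointwise form: if `W` contains all
combinations `l * x + k * y` with `x ∈ I`, `y ∈ J`, then `|W| ≥ l |I| + k |J|`. -/
theorem one_dim_bm {I J W : Set ℝ} (hJ : MeasurableSet J)
    (hIne : I.Nonempty) (hJne : J.Nonempty) (hIb : BddAbove I) (hJb : BddBelow J)
    {l k : ℝ} (hl : 0 < l) (hk : 0 < k) (hW : ∀ x ∈ I, ∀ y ∈ J, l * x + k * y ∈ W) :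
    ENNReal.ofReal l * volume I + ENNReal.ofReal k * volume J ≤ volume W := by
  apply ENNReal.le_of_forall_pos_le_add
  intro ε hε _
  have hεr : (0 : ℝ) < ε := by exact_mod_cast hε
  have hlk : 0 < l + k := add_pos hl hk
  have hδ : 0 < (ε : ℝ) / (l + k) := div_pos hεr hlk
  obtain ⟨i, hi, hi'⟩ : ∃ i ∈ I, sSup I - ε / (l + k) < i :=
    exists_lt_of_lt_csSup hIne (by linarith)
  obtain ⟨j, hj, hj'⟩ : ∃ j ∈ J, j < sInf J + ε / (l + k) :=
    exists_lt_of_csInf_lt hJne (by linarith)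
  obtain ⟨S₁, hS₁⟩ : ∃ S₁ : Set ℝ, S₁ = (fun w => w + -(k * j)) ⁻¹' ((· * l⁻¹) ⁻¹' I) := ⟨_, rfl⟩
  obtain ⟨S₂, hS₂⟩ : ∃ S₂ : Set ℝ, S₂ = (fun w => w + -(l * i)) ⁻¹' ((· * k⁻¹) ⁻¹' J) := ⟨_, rfl⟩
  have hS₁W : S₁ ⊆ W := by
    intro w hw
    rw [hS₁] at hw
    have h := hW _ hw j hj
    have e : l * ((w + -(k * j)) * l⁻¹) + k * j = w := by field_simp; ring
    rw [e] at h
    exact h
  have hS₂W : S₂ ⊆ W := by
    intro w hw
    rw [hS₂] at hw
    have h := hW i hi _ hw
    have e : l * i + k * ((w + -(l * i)) * k⁻¹) = w := by field_simp; ring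
    rw [e] at h
    exact h
  have hS₂m : MeasurableSet S₂ := by
    rw [hS₂]
    exact (measurable_add_const _) ((measurable_mul_const _) hJ)
  have hv₁ : volume S₁ = ENNReal.ofReal l * volume I := by
    rw [hS₁, measure_preimage_add_right, Real.volume_preimage_mul_right (inv_ne_zero hl.ne')]
    simp [abs_of_pos hl]
  have hv₂ : volume S₂ = ENNReal.ofReal k * volume J := by
    rw [hS₂, measure_preimage_add_right, Real.volume_preimage_mul_right (inv_ne_zero hk.ne')]
    simp [abs_of_pos hk]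
  have hinter : S₁ ∩ S₂ ⊆ Icc (l * i + k * sInf J) (l * sSup I + k * j) := by
    rintro w ⟨h1, h2⟩
    rw [hS₁] at h1
    rw [hS₂] at h2
    have h1' : (w + -(k * j)) * l⁻¹ ≤ sSup I := le_csSup hIb h1
    have h2' : sInf J ≤ (w + -(l * i)) * k⁻¹ := csInf_le hJb h2
    rw [← div_eq_mul_inv, div_le_iff₀ hl] at h1'
    rw [← div_eq_mul_inv, le_div_iff₀ hk] at h2'
    constructor <;> linarith
  have hlen : volume (Icc (l * i + k * sInf J) (l * sSup I + k * j)) ≤ (ε : ENNReal) := by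
    rw [Real.volume_Icc]
    have h1 : l * sSup I + k * j - (l * i + k * sInf J) ≤ ε := by
      have a1 : l * (sSup I - i) ≤ l * (ε / (l + k)) := by
        apply mul_le_mul_of_nonneg_left _ hl.le
        linarith
      have a2 : k * (j - sInf J) ≤ k * (ε / (l + k)) := by
        apply mul_le_mul_of_nonneg_left _ hk.le
        linarith
      have a3 : l * (ε / (l + k)) + k * (ε / (l + k)) = ε := by field_simp
      linarith
    calc ENNReal.ofReal (l * sSup I + k * j - (l * i + k * sInf J))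
        ≤ ENNReal.ofReal ε := ENNReal.ofReal_le_ofReal h1
      _ = (ε : ENNReal) := ENNReal.ofReal_coe_nnreal
  calc ENNReal.ofReal l * volume I + ENNReal.ofReal k * volume J
      = volume S₁ + volume S₂ := by rw [hv₁, hv₂]
    _ = volume (S₁ ∪ S₂) + volume (S₁ ∩ S₂) := (measure_union_add_inter S₁ hS₂m).symm
    _ ≤ volume W + ε :=
        add_le_add (measure_mono (union_subset hS₁W hS₂W)) ((measure_mono hinter).trans hlen)

theorem setLIntegral_Ioi_eq_Ioo {f : ℝ → ENNReal} (hf : ∀ u, 1 ≤ u → f u = 0) :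
    ∫⁻ u in Ioi (0 : ℝ), f u = ∫⁻ u in Ioo (0 : ℝ) 1, f u := by
  rw [← lintegral_indicator measurableSet_Ioi, ← lintegral_indicator measurableSet_Ioo]
  congr 1
  funext u
  by_cases h1 : u ∈ Ioo (0 : ℝ) 1
  · rw [indicator_of_mem h1, indicator_of_mem (show u ∈ Ioi (0 : ℝ) from h1.1)]
  · rw [indicator_of_notMem h1]
    by_cases h0 : u ∈ Ioi (0 : ℝ)
    · rw [indicator_of_mem h0]
      apply hf
      by_contra hc
      push Not at hc
      exact h1 ⟨h0, hc⟩
    · rw [indicator_of_notMem h0]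

/-- The algebraic step (Cauchy-Schwarz) in the sectional proof of the planar inequality. -/
theorem bm_alg {θ α β a b c : ℝ} (hθ0 : 0 < θ) (hθ1 : θ < 1) (hα : 0 < α) (hβ : 0 < β)
    (ha : 0 ≤ a) (hb : 0 ≤ b)
    (h : (1 - θ) * (a / α) + θ * (b / β) ≤ c / ((1 - θ) * α + θ * β)) :
    (1 - θ) * Real.sqrt a + θ * Real.sqrt b ≤ Real.sqrt c := by
  have hγ : 0 < (1 - θ) * α + θ * β := by
    have : 0 < 1 - θ := by linarith
    positivity
  obtain ⟨x, hx⟩ : ∃ x : ℝ, x = Real.sqrt a := ⟨_, rfl⟩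
  obtain ⟨y, hy⟩ : ∃ y : ℝ, y = Real.sqrt b := ⟨_, rfl⟩
  have hx0 : 0 ≤ x := by rw [hx]; exact Real.sqrt_nonneg _
  have hy0 : 0 ≤ y := by rw [hy]; exact Real.sqrt_nonneg _
  have hxa : x ^ 2 = a := by rw [hx]; exact Real.sq_sqrt ha
  have hyb : y ^ 2 = b := by rw [hy]; exact Real.sq_sqrt hb
  rw [← hx, ← hy]
  apply Real.le_sqrt_of_sq_le
  have h2 : ((1 - θ) * (a / α) + θ * (b / β)) * ((1 - θ) * α + θ * β) ≤ c := by
    rwa [le_div_iff₀ hγ] at h
  have h3 : ((1 - θ) * x + θ * y) ^ 2 ≤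
      ((1 - θ) * (a / α) + θ * (b / β)) * ((1 - θ) * α + θ * β) := by
    rw [← hxa, ← hyb]
    have e : ((1 - θ) * (x ^ 2 / α) + θ * (y ^ 2 / β)) * ((1 - θ) * α + θ * β)
        - ((1 - θ) * x + θ * y) ^ 2 = (1 - θ) * θ * (β * x - α * y) ^ 2 / (α * β) := by
      field_simp
      ring
    have h4 : 0 ≤ (1 - θ) * θ * (β * x - α * y) ^ 2 / (α * β) := by
      have : 0 < 1 - θ := by linarith
      positivity
    linarith
  linarith

/-- The Brunn-Minkowski inequality in the plane, for measurable subsets of a compact set, in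
pointwise form: if `C` contains all combinations `(1 - θ) p + θ q`, `p ∈ A`, `q ∈ B`, then
`√|C| ≥ (1 - θ) √|A| + θ √|B|`. -/
theorem planar_bm {A B C Q : Set (ℝ × ℝ)} (hA : MeasurableSet A) (hB : MeasurableSet B)
    (hC : MeasurableSet C) (hQ : IsCompact Q) (hAQ : A ⊆ Q) (hBQ : B ⊆ Q) (hCQ : C ⊆ Q)
    (hAne : A.Nonempty) (hBne : B.Nonempty) {θ : ℝ} (hθ0 : 0 < θ) (hθ1 : θ < 1)
    (hcomb : ∀ p ∈ A, ∀ q ∈ B, (1 - θ) • p + θ • q ∈ C) :
    (1 - θ) * Real.sqrt (volume A).toReal + θ * Real.sqrt (volume B).toReal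
      ≤ Real.sqrt (volume C).toReal := by
  have h1θ : 0 < 1 - θ := by linarith
  have hQt : volume Q ≠ ⊤ := hQ.measure_lt_top.ne
  have hAt : volume A ≠ ⊤ := ne_top_of_le_ne_top hQt (measure_mono hAQ)
  have hBt : volume B ≠ ⊤ := ne_top_of_le_ne_top hQt (measure_mono hBQ)
  have hCt : volume C ≠ ⊤ := ne_top_of_le_ne_top hQt (measure_mono hCQ)
  -- degenerate cases
  by_cases hB0 : volume B = 0
  · obtain ⟨q₀, hq₀⟩ := hBne
    have hsub : AffineMap.homothety q₀ (1 - θ) '' A ⊆ C := by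
      rintro _ ⟨p, hp, rfl⟩
      have h := hcomb p hp q₀ hq₀
      have e : (AffineMap.homothety q₀ (1 - θ) p : ℝ × ℝ) = (1 - θ) • p + θ • q₀ := by
        simp only [AffineMap.homothety_apply, vsub_eq_sub, vadd_eq_add]
        ext
        · simp only [Prod.fst_add, Prod.smul_fst, Prod.fst_sub, smul_eq_mul]; ring
        · simp only [Prod.snd_add, Prod.smul_snd, Prod.snd_sub, smul_eq_mul]; ring
      rw [e]
      exact h
    have hvol : ENNReal.ofReal ((1 - θ) ^ 2) * volume A ≤ volume C := by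
      calc ENNReal.ofReal ((1 - θ) ^ 2) * volume A
          = volume (AffineMap.homothety q₀ (1 - θ) '' A) := by
            rw [Measure.addHaar_image_homothety]
            simp [abs_of_nonneg (sq_nonneg (1 - θ))]
        _ ≤ volume C := measure_mono hsub
    have hr := ENNReal.toReal_mono hCt hvol
    rw [ENNReal.toReal_mul, ENNReal.toReal_ofReal (sq_nonneg _)] at hr
    rw [hB0]
    simp only [ENNReal.toReal_zero, Real.sqrt_zero, mul_zero, add_zero]
    apply Real.le_sqrt_of_sq_le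
    rw [mul_pow, Real.sq_sqrt ENNReal.toReal_nonneg]
    exact hr
  by_cases hA0 : volume A = 0
  · obtain ⟨p₀, hp₀⟩ := hAne
    have hsub : AffineMap.homothety p₀ θ '' B ⊆ C := by
      rintro _ ⟨q, hq, rfl⟩
      have h := hcomb p₀ hp₀ q hq
      have e : (AffineMap.homothety p₀ θ q : ℝ × ℝ) = (1 - θ) • p₀ + θ • q := by
        simp only [AffineMap.homothety_apply, vsub_eq_sub, vadd_eq_add]
        ext
        · simp only [Prod.fst_add, Prod.smul_fst, Prod.fst_sub, smul_eq_mul]; ring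
        · simp only [Prod.snd_add, Prod.smul_snd, Prod.snd_sub, smul_eq_mul]; ring
      rw [e]
      exact h
    have hvol : ENNReal.ofReal (θ ^ 2) * volume B ≤ volume C := by
      calc ENNReal.ofReal (θ ^ 2) * volume B
          = volume (AffineMap.homothety p₀ θ '' B) := by
            rw [Measure.addHaar_image_homothety]
            simp [abs_of_nonneg (sq_nonneg θ)]
        _ ≤ volume C := measure_mono hsub
    have hr := ENNReal.toReal_mono hCt hvol
    rw [ENNReal.toReal_mul, ENNReal.toReal_ofReal (sq_nonneg _)] at hr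
    rw [hA0]
    simp only [ENNReal.toReal_zero, Real.sqrt_zero, mul_zero, zero_add]
    apply Real.le_sqrt_of_sq_le
    rw [mul_pow, Real.sq_sqrt ENNReal.toReal_nonneg]
    exact hr
  -- main case: sections
  have hZc : IsCompact (Prod.snd '' Q) := hQ.image continuous_snd
  have hYc : IsCompact (Prod.fst '' Q) := hQ.image continuous_fst
  have hMt : volume (Prod.snd '' Q) ≠ ⊤ := hZc.measure_lt_top.ne
  have hsec_le : ∀ {S : Set (ℝ × ℝ)}, S ⊆ Q → ∀ x, volume (Prod.mk x ⁻¹' S) ≤ volume (Prod.snd '' Q) := by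
    intro S hS x
    apply measure_mono
    intro y hy
    exact ⟨(x, y), hS hy, rfl⟩
  have hsec_t : ∀ {S : Set (ℝ × ℝ)}, S ⊆ Q → ∀ x, volume (Prod.mk x ⁻¹' S) ≠ ⊤ :=
    fun hS x => ne_top_of_le_ne_top hMt (hsec_le hS x)
  -- real-valued section functions
  obtain ⟨ar, har⟩ : ∃ ar : ℝ → ℝ, ar = fun x => (volume (Prod.mk x ⁻¹' A)).toReal := ⟨_, rfl⟩
  obtain ⟨br, hbr⟩ : ∃ br : ℝ → ℝ, br = fun x => (volume (Prod.mk x ⁻¹' B)).toReal := ⟨_, rfl⟩
  obtain ⟨cr, hcr⟩ : ∃ cr : ℝ → ℝ, cr = fun x => (volume (Prod.mk x ⁻¹' C)).toReal := ⟨_, rfl⟩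
  have harm : Measurable ar := by
    rw [har]; exact (measurable_measure_prodMk_left hA).ennreal_toReal
  have hbrm : Measurable br := by
    rw [hbr]; exact (measurable_measure_prodMk_left hB).ennreal_toReal
  have hcrm : Measurable cr := by
    rw [hcr]; exact (measurable_measure_prodMk_left hC).ennreal_toReal
  have har0 : ∀ x, 0 ≤ ar x := fun x => by rw [har]; exact ENNReal.toReal_nonneg
  have hbr0 : ∀ x, 0 ≤ br x := fun x => by rw [hbr]; exact ENNReal.toReal_nonneg
  have hcr0 : ∀ x, 0 ≤ cr x := fun x => by rw [hcr]; exact ENNReal.toReal_nonneg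
  have hAint : volume A = ∫⁻ x, ENNReal.ofReal (ar x) := by
    rw [Measure.volume_eq_prod, Measure.prod_apply hA, har]
    simp_rw [ENNReal.ofReal_toReal (hsec_t hAQ _)]
  have hBint : volume B = ∫⁻ x, ENNReal.ofReal (br x) := by
    rw [Measure.volume_eq_prod, Measure.prod_apply hB, hbr]
    simp_rw [ENNReal.ofReal_toReal (hsec_t hBQ _)]
  have hCint : volume C = ∫⁻ x, ENNReal.ofReal (cr x) := by
    rw [Measure.volume_eq_prod, Measure.prod_apply hC, hcr]
    simp_rw [ENNReal.ofReal_toReal (hsec_t hCQ _)]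
  -- suprema of the section functions
  have hbddA : BddAbove (range ar) := by
    refine ⟨(volume (Prod.snd '' Q)).toReal, ?_⟩
    rintro _ ⟨x, rfl⟩
    rw [har]
    exact ENNReal.toReal_mono hMt (hsec_le hAQ x)
  have hbddB : BddAbove (range br) := by
    refine ⟨(volume (Prod.snd '' Q)).toReal, ?_⟩
    rintro _ ⟨x, rfl⟩
    rw [hbr]
    exact ENNReal.toReal_mono hMt (hsec_le hBQ x)
  obtain ⟨α, hα⟩ : ∃ α : ℝ, α = ⨆ x, ar x := ⟨_, rfl⟩
  obtain ⟨β, hβ⟩ : ∃ β : ℝ, β = ⨆ x, br x := ⟨_, rfl⟩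
  have harα : ∀ x, ar x ≤ α := fun x => by rw [hα]; exact le_ciSup hbddA x
  have hbrβ : ∀ x, br x ≤ β := fun x => by rw [hβ]; exact le_ciSup hbddB x
  have hαpos : 0 < α := by
    by_contra hcon
    push Not at hcon
    apply hA0
    rw [hAint]
    have : ∀ x, ENNReal.ofReal (ar x) = 0 := fun x =>
      ENNReal.ofReal_eq_zero.mpr ((harα x).trans hcon)
    simp [this]
  have hβpos : 0 < β := by
    by_contra hcon
    push Not at hcon
    apply hB0
    rw [hBint]
    have : ∀ x, ENNReal.ofReal (br x) = 0 := fun x =>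
      ENNReal.ofReal_eq_zero.mpr ((hbrβ x).trans hcon)
    simp [this]
  obtain ⟨γ, hγ⟩ : ∃ γ : ℝ, γ = (1 - θ) * α + θ * β := ⟨_, rfl⟩
  have hγpos : 0 < γ := by rw [hγ]; positivity
  -- the key level set inequality
  have hlevel : ∀ u ∈ Ioo (0 : ℝ) 1,
      ENNReal.ofReal (1 - θ) * volume {x | u < ar x / α} + ENNReal.ofReal θ * volume {y | u < br y / β}
        ≤ volume {z | u < cr z / γ} := by
    intro u hu
    have hIne : {x | u < ar x / α}.Nonempty := by
      have h1 : u * α < α := by nlinarith [hu.2]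
      obtain ⟨x, hx⟩ := exists_lt_of_lt_ciSup (show u * α < ⨆ x, ar x by rw [← hα]; exact h1)
      refine ⟨x, ?_⟩
      show u < ar x / α
      rw [lt_div_iff₀ hαpos]
      exact hx
    have hJne : {y | u < br y / β}.Nonempty := by
      have h1 : u * β < β := by nlinarith [hu.2]
      obtain ⟨y, hy⟩ := exists_lt_of_lt_ciSup (show u * β < ⨆ x, br x by rw [← hβ]; exact h1)
      refine ⟨y, ?_⟩
      show u < br y / β
      rw [lt_div_iff₀ hβpos]
      exact hy
    have hposA : ∀ x, u < ar x / α → (Prod.mk x ⁻¹' A).Nonempty := by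
      intro x hx
      have h1 : 0 < ar x := by
        have : 0 < ar x / α := lt_trans hu.1 hx
        exact (div_pos_iff_of_pos_right hαpos).mp this
      rw [har] at h1
      by_contra hcon
      rw [not_nonempty_iff_eq_empty] at hcon
      simp only at h1
      rw [hcon] at h1
      simp at h1
    have hposB : ∀ y, u < br y / β → (Prod.mk y ⁻¹' B).Nonempty := by
      intro y hy
      have h1 : 0 < br y := by
        have : 0 < br y / β := lt_trans hu.1 hy
        exact (div_pos_iff_of_pos_right hβpos).mp this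
      rw [hbr] at h1
      by_contra hcon
      rw [not_nonempty_iff_eq_empty] at hcon
      simp only at h1
      rw [hcon] at h1
      simp at h1
    have hIb : BddAbove {x | u < ar x / α} := by
      refine (hYc.bddAbove).mono ?_
      intro x hx
      obtain ⟨y, hy⟩ := hposA x hx
      exact ⟨(x, y), hAQ hy, rfl⟩
    have hJb : BddBelow {y | u < br y / β} := by
      refine (hYc.bddBelow).mono ?_
      intro y hy
      obtain ⟨η, hη⟩ := hposB y hy
      exact ⟨(y, η), hBQ hη, rfl⟩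
    have hJm : MeasurableSet {y | u < br y / β} :=
      measurableSet_lt measurable_const (hbrm.div_const _)
    apply one_dim_bm hJm hIne hJne hIb hJb h1θ hθ0
    intro x hx y hy
    show u < cr ((1 - θ) * x + θ * y) / γ
    -- sections
    have hsec := one_dim_bm (I := Prod.mk x ⁻¹' A) (J := Prod.mk y ⁻¹' B)
      (W := Prod.mk ((1 - θ) * x + θ * y) ⁻¹' C) (measurable_prodMk_left hB)
      (hposA x hx) (hposB y hy)
      (hZc.bddAbove.mono (fun η hη => (⟨(x, η), hAQ hη, rfl⟩ : η ∈ Prod.snd '' Q)))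
      (hZc.bddBelow.mono (fun η hη => (⟨(y, η), hBQ hη, rfl⟩ : η ∈ Prod.snd '' Q))) h1θ hθ0
      (fun η hη ζ hζ => by
        have h := hcomb (x, η) hη (y, ζ) hζ
        simpa using h)
    have hsecr := ENNReal.toReal_mono (hsec_t hCQ _) hsec
    rw [ENNReal.toReal_add (ENNReal.mul_ne_top ENNReal.ofReal_ne_top (hsec_t hAQ _))
      (ENNReal.mul_ne_top ENNReal.ofReal_ne_top (hsec_t hBQ _)), ENNReal.toReal_mul,
      ENNReal.toReal_mul, ENNReal.toReal_ofReal h1θ.le, ENNReal.toReal_ofReal hθ0.le] at hsecr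
    have hx' : u * α < ar x := by
      have : u < ar x / α := hx
      rwa [lt_div_iff₀ hαpos] at this
    have hy' : u * β < br y := by
      have : u < br y / β := hy
      rwa [lt_div_iff₀ hβpos] at this
    rw [lt_div_iff₀ hγpos, hγ]
    have e1 : ar x = (volume (Prod.mk x ⁻¹' A)).toReal := by rw [har]
    have e2 : br y = (volume (Prod.mk y ⁻¹' B)).toReal := by rw [hbr]
    have e3 : cr ((1 - θ) * x + θ * y)
        = (volume (Prod.mk ((1 - θ) * x + θ * y) ⁻¹' C)).toReal := by rw [hcr]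
    rw [e3]
    rw [e1] at hx'
    rw [e2] at hy'
    nlinarith
  -- layer cakes
  have lcA := lintegral_eq_lintegral_meas_lt volume (f := fun x => ar x / α)
    (Filter.Eventually.of_forall (fun x => div_nonneg (har0 x) hαpos.le))
    (harm.div_const _).aemeasurable
  have lcB := lintegral_eq_lintegral_meas_lt volume (f := fun x => br x / β)
    (Filter.Eventually.of_forall (fun x => div_nonneg (hbr0 x) hβpos.le))
    (hbrm.div_const _).aemeasurable
  have lcC := lintegral_eq_lintegral_meas_lt volume (f := fun x => cr x / γ)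
    (Filter.Eventually.of_forall (fun x => div_nonneg (hcr0 x) hγpos.le))
    (hcrm.div_const _).aemeasurable
  have hzeroA : ∀ u ∈ Ioi (0 : ℝ), u ∉ Ioo (0 : ℝ) 1 → volume {x | u < ar x / α} = 0 := by
    intro u hu hu1
    have h1 : 1 ≤ u := by
      by_contra hcon
      push Not at hcon
      exact hu1 ⟨hu, hcon⟩
    have : {x | u < ar x / α} = ∅ := by
      ext x
      simp only [mem_ofPred_eq, mem_empty_iff_false, iff_false, not_lt]
      calc ar x / α ≤ 1 := (div_le_one hαpos).mpr (harα x)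
        _ ≤ u := h1
    rw [this, measure_empty]
  have hzeroB : ∀ u ∈ Ioi (0 : ℝ), u ∉ Ioo (0 : ℝ) 1 → volume {y | u < br y / β} = 0 := by
    intro u hu hu1
    have h1 : 1 ≤ u := by
      by_contra hcon
      push Not at hcon
      exact hu1 ⟨hu, hcon⟩
    have : {y | u < br y / β} = ∅ := by
      ext x
      simp only [mem_ofPred_eq, mem_empty_iff_false, iff_false, not_lt]
      calc br x / β ≤ 1 := (div_le_one hβpos).mpr (hbrβ x)
        _ ≤ u := h1
    rw [this, measure_empty]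
  have hsubI : Ioo (0 : ℝ) 1 ⊆ Ioi 0 := fun u hu => hu.1
  have lcA' : ∫⁻ u in Ioi (0 : ℝ), volume {x | u < ar x / α}
      = ∫⁻ u in Ioo (0 : ℝ) 1, volume {x | u < ar x / α} :=
    setLIntegral_Ioi_eq_Ioo (fun u hu => by
      by_cases h0 : u ∈ Ioi (0 : ℝ)
      · exact hzeroA u h0 (fun h => absurd h.2 (not_lt.mpr hu))
      · exact absurd (lt_of_lt_of_le one_pos hu) h0)
  have lcB' : ∫⁻ u in Ioi (0 : ℝ), volume {y | u < br y / β}
      = ∫⁻ u in Ioo (0 : ℝ) 1, volume {y | u < br y / β} :=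
    setLIntegral_Ioi_eq_Ioo (fun u hu => by
      by_cases h0 : u ∈ Ioi (0 : ℝ)
      · exact hzeroB u h0 (fun h => absurd h.2 (not_lt.mpr hu))
      · exact absurd (lt_of_lt_of_le one_pos hu) h0)
  have hdivA : ∫⁻ x, ENNReal.ofReal (ar x / α) = volume A / ENNReal.ofReal α := by
    simp_rw [ENNReal.ofReal_div_of_pos hαpos, div_eq_mul_inv]
    rw [lintegral_mul_const' _ _ (ENNReal.inv_ne_top.mpr (ENNReal.ofReal_pos.mpr hαpos).ne'),
      ← hAint]
  have hdivB : ∫⁻ x, ENNReal.ofReal (br x / β) = volume B / ENNReal.ofReal β := by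
    simp_rw [ENNReal.ofReal_div_of_pos hβpos, div_eq_mul_inv]
    rw [lintegral_mul_const' _ _ (ENNReal.inv_ne_top.mpr (ENNReal.ofReal_pos.mpr hβpos).ne'),
      ← hBint]
  have hdivC : ∫⁻ x, ENNReal.ofReal (cr x / γ) = volume C / ENNReal.ofReal γ := by
    simp_rw [ENNReal.ofReal_div_of_pos hγpos, div_eq_mul_inv]
    rw [lintegral_mul_const' _ _ (ENNReal.inv_ne_top.mpr (ENNReal.ofReal_pos.mpr hγpos).ne'),
      ← hCint]
  have hmain : ENNReal.ofReal (1 - θ) * (volume A / ENNReal.ofReal α)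
      + ENNReal.ofReal θ * (volume B / ENNReal.ofReal β) ≤ volume C / ENNReal.ofReal γ := by
    calc ENNReal.ofReal (1 - θ) * (volume A / ENNReal.ofReal α)
          + ENNReal.ofReal θ * (volume B / ENNReal.ofReal β)
        = (∫⁻ u in Ioo (0 : ℝ) 1, ENNReal.ofReal (1 - θ) * volume {x | u < ar x / α})
          + ∫⁻ u in Ioo (0 : ℝ) 1, ENNReal.ofReal θ * volume {y | u < br y / β} := by
          rw [lintegral_const_mul' _ _ ENNReal.ofReal_ne_top,
            lintegral_const_mul' _ _ ENNReal.ofReal_ne_top, ← lcA', ← lcB', ← lcA, ← lcB,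
            hdivA, hdivB]
      _ ≤ ∫⁻ u in Ioo (0 : ℝ) 1, (ENNReal.ofReal (1 - θ) * volume {x | u < ar x / α}
          + ENNReal.ofReal θ * volume {y | u < br y / β}) := le_lintegral_add _ _
      _ ≤ ∫⁻ u in Ioo (0 : ℝ) 1, volume {z | u < cr z / γ} :=
          setLIntegral_mono' measurableSet_Ioo hlevel
      _ ≤ ∫⁻ u in Ioi (0 : ℝ), volume {z | u < cr z / γ} := lintegral_mono_set hsubI
      _ = volume C / ENNReal.ofReal γ := by rw [← lcC, hdivC]
  have hfin : volume C / ENNReal.ofReal γ ≠ ⊤ :=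
    ENNReal.div_ne_top hCt (ENNReal.ofReal_pos.mpr hγpos).ne'
  have hr := ENNReal.toReal_mono hfin hmain
  rw [ENNReal.toReal_add
      (ENNReal.mul_ne_top ENNReal.ofReal_ne_top
        (ENNReal.div_ne_top hAt (ENNReal.ofReal_pos.mpr hαpos).ne'))
      (ENNReal.mul_ne_top ENNReal.ofReal_ne_top
        (ENNReal.div_ne_top hBt (ENNReal.ofReal_pos.mpr hβpos).ne')),
    ENNReal.toReal_mul, ENNReal.toReal_mul, ENNReal.toReal_div, ENNReal.toReal_div,
    ENNReal.toReal_div, ENNReal.toReal_ofReal h1θ.le, ENNReal.toReal_ofReal hθ0.le,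
    ENNReal.toReal_ofReal hαpos.le, ENNReal.toReal_ofReal hβpos.le,
    ENNReal.toReal_ofReal hγpos.le, hγ] at hr
  exact bm_alg hθ0 hθ1 hαpos hβpos ENNReal.toReal_nonneg ENNReal.toReal_nonneg hr

end Vale.Agent.Helper11
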