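import Vale.Agent.Helper11.SqPlankMeas

/-!
# The plank theorem for centrally symmetric planar convex bodies

Finitely many strips whose widths, divided by the widths of a centrally symmetric planar convex
body `L` in the same directions, add up to less than `1` do not cover `L` (the planar case of
Ball's plank theorem).  The proof chooses a Euclidean structure on the plane by maximising an
auxiliary function of a positive definite matrix `(p, q; q, s)`, and then runs Bang's sign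
argument in that structure.
-/

namespace Vale.Agent.Helper11

open Set MeasureTheory

section bangq

variable {ι : Type*} [Fintype ι]

/-- Bang's sign lemma for the symmetric kernel of the quadratic form `(s, -q; -q, p)`. -/
theorem quad_bang (A B m c : ι → ℝ) (hc : ∀ j, 0 ≤ c j) (p q s : ℝ) :
    ∃ ε : ι → Bool, ∀ i, c i * (s * A i ^ 2 - 2 * q * A i * B i + p * B i ^ 2) ≤
      |A i * (s * (∑ j, sgn (ε j) * c j * A j) - q * (∑ j, sgn (ε j) * c j * B j))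
        + B i * (p * (∑ j, sgn (ε j) * c j * B j) - q * (∑ j, sgn (ε j) * c j * A j)) - m i| := by
  classical
  obtain ⟨ε, hε⟩ := Finite.exists_max (fun ε : ι → Bool =>
    s * (∑ j, sgn (ε j) * c j * A j) ^ 2
      - 2 * q * (∑ j, sgn (ε j) * c j * A j) * (∑ j, sgn (ε j) * c j * B j)
      + p * (∑ j, sgn (ε j) * c j * B j) ^ 2
      - 2 * ∑ j, sgn (ε j) * c j * m j)
  refine ⟨ε, fun i => ?_⟩
  have h := hε (Function.update ε i (!ε i))
  rw [sum_flip ε i c A, sum_flip ε i c B, sum_flip ε i c m] at h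
  obtain ⟨X, hX⟩ : ∃ X : ℝ, X = ∑ j, sgn (ε j) * c j * A j := ⟨_, rfl⟩
  obtain ⟨Y, hY⟩ : ∃ Y : ℝ, Y = ∑ j, sgn (ε j) * c j * B j := ⟨_, rfl⟩
  obtain ⟨M, hM⟩ : ∃ M : ℝ, M = ∑ j, sgn (ε j) * c j * m j := ⟨_, rfl⟩
  rw [← hX, ← hY, ← hM] at h
  rw [← hX, ← hY]
  obtain ⟨Δ, hΔ⟩ : ∃ Δ : ℝ, Δ = A i * (s * X - q * Y) + B i * (p * Y - q * X) - m i := ⟨_, rfl⟩
  rw [← hΔ]
  have hs := sgn_sq (ε i)
  obtain ⟨σ, hσdef⟩ : ∃ σ : ℝ, σ = sgn (ε i) := ⟨_, rfl⟩
  rw [← hσdef] at h hs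
  have h2 : c i * c i * (s * A i ^ 2 - 2 * q * A i * B i + p * B i ^ 2) ≤ σ * c i * Δ := by
    have e : s * (X - 2 * (σ * c i * A i)) ^ 2
        - 2 * q * (X - 2 * (σ * c i * A i)) * (Y - 2 * (σ * c i * B i))
        + p * (Y - 2 * (σ * c i * B i)) ^ 2
        - 2 * (M - 2 * (σ * c i * m i)) - (s * X ^ 2 - 2 * q * X * Y + p * Y ^ 2 - 2 * M)
        = 4 * ((σ * σ) * (c i * c i * (s * A i ^ 2 - 2 * q * A i * B i + p * B i ^ 2))
          - σ * c i * Δ) := by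
      rw [hΔ]; ring
    rw [hs, one_mul] at e
    linarith
  have h3 : σ * c i * Δ ≤ c i * |Δ| := by
    have h4 : σ * c i * Δ ≤ |σ * c i * Δ| := le_abs_self _
    have hsabs : |σ| = 1 := by rw [hσdef]; exact abs_sgn _
    rw [abs_mul, abs_mul, hsabs, one_mul, abs_of_nonneg (hc i)] at h4
    exact h4
  rcases (hc i).eq_or_lt with h0 | h0
  · rw [← h0, zero_mul]
    exact abs_nonneg _
  · have h5 : c i * (c i * (s * A i ^ 2 - 2 * q * A i * B i + p * B i ^ 2)) ≤ c i * |Δ| := by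
      calc c i * (c i * (s * A i ^ 2 - 2 * q * A i * B i + p * B i ^ 2))
          = c i * c i * (s * A i ^ 2 - 2 * q * A i * B i + p * B i ^ 2) := by ring
        _ ≤ σ * c i * Δ := h2
        _ ≤ c i * |Δ| := h3
    exact le_of_mul_le_mul_left h5 h0

end bangq

section quad

/-- The value on `(a, b)` of the quadratic form with matrix `(s, -q; -q, p)`. -/
def qQ (p q s a b : ℝ) : ℝ := s * a ^ 2 - 2 * q * a * b + p * b ^ 2

theorem qQ_pos {p q s a b : ℝ} (hp : 0 < p) (hΔ : 0 < p * s - q ^ 2) (hab : a ≠ 0 ∨ b ≠ 0) :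
    0 < qQ p q s a b := by
  have h : p * qQ p q s a b = (p * b - q * a) ^ 2 + (p * s - q ^ 2) * a ^ 2 := by
    unfold qQ; ring
  have h2 : 0 < p * qQ p q s a b := by
    rw [h]
    by_cases ha : a = 0
    · have hb : b ≠ 0 := by
        rcases hab with h1 | h1
        · exact absurd ha h1
        · exact h1
      rw [ha]
      have : 0 < (p * b) ^ 2 := by positivity
      nlinarith
    · have h3 : 0 < (p * s - q ^ 2) * a ^ 2 := by positivity
      nlinarith [sq_nonneg (p * b - q * a)]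
  by_contra hcon
  push Not at hcon
  nlinarith [mul_nonpos_of_nonneg_of_nonpos hp.le hcon]

theorem qQ_nonneg {p q s : ℝ} (hp : 0 < p) (hΔ : 0 < p * s - q ^ 2) (a b : ℝ) :
    0 ≤ qQ p q s a b := by
  by_cases hab : a ≠ 0 ∨ b ≠ 0
  · exact (qQ_pos hp hΔ hab).le
  · push Not at hab
    unfold qQ
    rw [hab.1, hab.2]
    simp

/-- Cauchy-Schwarz between the form `(p, q; q, s)` and its adjugate, and the arithmetic-geometric
mean inequality. -/
theorem sqrt_div_le {p q s a b X Y : ℝ} (hp : 0 < p) (hΔ : 0 < p * s - q ^ 2)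
    (hXY : a * X + b * Y = 1) :
    Real.sqrt ((p * s - q ^ 2) / qQ p q s a b)
      ≤ (1 + (p * X ^ 2 + 2 * q * X * Y + s * Y ^ 2)) / 2 := by
  have hab : a ≠ 0 ∨ b ≠ 0 := by
    by_contra h
    push Not at h
    rw [h.1, h.2] at hXY
    norm_num at hXY
  have hQ := qQ_pos hp hΔ hab
  obtain ⟨T, hT⟩ : ∃ T : ℝ, T = p * X ^ 2 + 2 * q * X * Y + s * Y ^ 2 := ⟨_, rfl⟩
  rw [← hT]
  have hid : qQ p q s a b * T - (p * s - q ^ 2) * (a * X + b * Y) ^ 2
      = ((a * q - b * p) * X + (a * s - b * q) * Y) ^ 2 := by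
    rw [hT]; unfold qQ; ring
  rw [hXY] at hid
  have h1 : (p * s - q ^ 2) / qQ p q s a b ≤ T := by
    rw [div_le_iff₀ hQ]
    nlinarith [sq_nonneg ((a * q - b * p) * X + (a * s - b * q) * Y)]
  have hT0 : 0 ≤ T := le_trans (div_pos hΔ hQ).le h1
  calc Real.sqrt ((p * s - q ^ 2) / qQ p q s a b) ≤ Real.sqrt T := Real.sqrt_le_sqrt h1
    _ ≤ (1 + T) / 2 := by
        have h2 := Real.sq_sqrt hT0
        nlinarith [sq_nonneg (Real.sqrt T - 1)]

theorem hasDerivAt_sqrt_div {f g : ℝ → ℝ} {f' g' x : ℝ} (hf : HasDerivAt f f' x)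
    (hg : HasDerivAt g g' x) (hf0 : 0 < f x) (hg0 : 0 < g x) :
    HasDerivAt (fun t => Real.sqrt (f t / g t))
      ((f' * g x - f x * g') / g x ^ 2 / (2 * Real.sqrt (f x / g x))) x :=
  (hf.div hg hg0.ne').sqrt (div_pos hf0 hg0).ne'

/-- The first-order condition at a local maximum of the auxiliary function along a curve. -/
theorem stat_eq {κ : Type*} [Fintype κ] (w : κ → ℝ) (f L : ℝ → ℝ) (g : κ → ℝ → ℝ)
    (f' L' : ℝ) (g' : κ → ℝ) (kb x : ℝ) (hf : HasDerivAt f f' x)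
    (hg : ∀ k, HasDerivAt (g k) (g' k) x) (hL : HasDerivAt L L' x) (hf0 : 0 < f x)
    (hg0 : ∀ k, 0 < g k x)
    (hmax : IsLocalMax (fun t => ∑ k, w k * Real.sqrt (f t / g k t) - L t / 2
      + kb * Real.log (f t)) x) :
    ∑ k, w k * ((f' * g k x - f x * g' k) / g k x ^ 2 / (2 * Real.sqrt (f x / g k x)))
      - L' / 2 + kb * (f' / f x) = 0 := by
  have h1 : HasDerivAt (fun t => ∑ k, w k * Real.sqrt (f t / g k t))
      (∑ k, w k * ((f' * g k x - f x * g' k) / g k x ^ 2 / (2 * Real.sqrt (f x / g k x)))) x :=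
    HasDerivAt.fun_sum (fun k _ => (hasDerivAt_sqrt_div hf (hg k) hf0 (hg0 k)).const_mul (w k))
  have h2 : HasDerivAt (fun t => L t / 2) (L' / 2) x := hL.div_const 2
  have h3 : HasDerivAt (fun t => kb * Real.log (f t)) (kb * (f' / f x)) x :=
    (hf.log hf0.ne').const_mul kb
  exact hmax.hasDerivAt_eq_zero ((h1.sub h2).add h3)

end quad

section opt

variable {κ : Type*} [Fintype κ]

/-- The auxiliary function of the positive definite matrix `(p, q; q, s)`. -/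
noncomputable def ballF (a b w : κ → ℝ) (G11 G12 G22 kb : ℝ) (p q s : ℝ) : ℝ :=
  ∑ k, w k * Real.sqrt ((p * s - q ^ 2) / qQ p q s (a k) (b k))
    - (p * G11 + 2 * q * G12 + s * G22) / 2 + kb * Real.log (p * s - q ^ 2)

theorem sum_sqrt_le (a b w X Y : κ → ℝ) (hw : ∀ k, 0 ≤ w k)
    (hXY : ∀ k, a k * X k + b k * Y k = 1) {p q s : ℝ} (hp : 0 < p) (hΔ : 0 < p * s - q ^ 2) :
    ∑ k, w k * Real.sqrt ((p * s - q ^ 2) / qQ p q s (a k) (b k))
      ≤ (∑ k, w k) / 2 + (p * ∑ k, w k * X k ^ 2 + 2 * q * ∑ k, w k * X k * Y k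
        + s * ∑ k, w k * Y k ^ 2) / 2 := by
  have h1 : ∀ k, w k * Real.sqrt ((p * s - q ^ 2) / qQ p q s (a k) (b k))
      ≤ w k / 2 + (p * (w k * X k ^ 2) + 2 * q * (w k * X k * Y k) + s * (w k * Y k ^ 2)) / 2 := by
    intro k
    have h := mul_le_mul_of_nonneg_left (sqrt_div_le hp hΔ (hXY k)) (hw k)
    calc w k * Real.sqrt ((p * s - q ^ 2) / qQ p q s (a k) (b k))
        ≤ w k * ((1 + (p * X k ^ 2 + 2 * q * X k * Y k + s * Y k ^ 2)) / 2) := h
      _ = w k / 2 + (p * (w k * X k ^ 2) + 2 * q * (w k * X k * Y k)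
          + s * (w k * Y k ^ 2)) / 2 := by ring
  calc ∑ k, w k * Real.sqrt ((p * s - q ^ 2) / qQ p q s (a k) (b k))
      ≤ ∑ k, (w k / 2 + (p * (w k * X k ^ 2) + 2 * q * (w k * X k * Y k)
          + s * (w k * Y k ^ 2)) / 2) := Finset.sum_le_sum (fun k _ => h1 k)
    _ = (∑ k, w k) / 2 + (p * ∑ k, w k * X k ^ 2 + 2 * q * ∑ k, w k * X k * Y k
        + s * ∑ k, w k * Y k ^ 2) / 2 := by
        rw [Finset.sum_add_distrib, ← Finset.sum_div, ← Finset.sum_div, Finset.sum_add_distrib,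
          Finset.sum_add_distrib, ← Finset.mul_sum, ← Finset.mul_sum, ← Finset.mul_sum]

theorem ballF_le (a b w X Y : κ → ℝ) (hw : ∀ k, 0 ≤ w k)
    (hXY : ∀ k, a k * X k + b k * Y k = 1) (g kb : ℝ) {p q s : ℝ} (hp : 0 < p)
    (hΔ : 0 < p * s - q ^ 2) :
    ballF a b w (∑ k, w k * X k ^ 2 + g) (∑ k, w k * X k * Y k) (∑ k, w k * Y k ^ 2 + g) kb p q s
      ≤ (∑ k, w k) / 2 - g * (p + s) / 2 + kb * Real.log (p * s - q ^ 2) := by
  have h := sum_sqrt_le a b w X Y hw hXY hp hΔ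
  unfold ballF
  linarith

/-- The auxiliary function attains its maximum on the set of positive definite matrices. -/
theorem ball_max_exists (a b w X Y : κ → ℝ) (hw : ∀ k, 0 ≤ w k)
    (hXY : ∀ k, a k * X k + b k * Y k = 1) {g kb : ℝ} (hg : 0 < g) (hkb : 0 < kb) :
    ∃ p q s : ℝ, 0 < p ∧ 0 < p * s - q ^ 2 ∧ ∀ p' q' s' : ℝ, 0 < p' → 0 < p' * s' - q' ^ 2 →
      ballF a b w (∑ k, w k * X k ^ 2 + g) (∑ k, w k * X k * Y k) (∑ k, w k * Y k ^ 2 + g) kb
        p' q' s'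
      ≤ ballF a b w (∑ k, w k * X k ^ 2 + g) (∑ k, w k * X k * Y k) (∑ k, w k * Y k ^ 2 + g) kb
        p q s := by
  obtain ⟨F, hF⟩ : ∃ F : ℝ → ℝ → ℝ → ℝ, F = ballF a b w (∑ k, w k * X k ^ 2 + g)
    (∑ k, w k * X k * Y k) (∑ k, w k * Y k ^ 2 + g) kb := ⟨_, rfl⟩
  rw [← hF]
  obtain ⟨W, hW⟩ : ∃ W : ℝ, W = ∑ k, w k := ⟨_, rfl⟩
  have hub : ∀ p q s : ℝ, 0 < p → 0 < p * s - q ^ 2 →
      F p q s ≤ W / 2 - g * (p + s) / 2 + kb * Real.log (p * s - q ^ 2) := by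
    intro p q s hp hΔ
    rw [hF, hW]
    exact ballF_le a b w X Y hw hXY g kb hp hΔ
  obtain ⟨c0, hc0⟩ : ∃ c0 : ℝ, c0 = F 1 0 1 := ⟨_, rfl⟩
  obtain ⟨μ, hμ⟩ : ∃ μ : ℝ, μ = g / (4 * kb) := ⟨_, rfl⟩
  have hμ0 : 0 < μ := by rw [hμ]; positivity
  obtain ⟨T0, hT0⟩ : ∃ T0 : ℝ, T0 = 4 * (W / 2 - 2 * kb * (1 + Real.log μ) - c0) / g := ⟨_, rfl⟩
  obtain ⟨δ0, hδ0⟩ : ∃ δ0 : ℝ, δ0 = Real.exp ((c0 - W / 2) / kb) := ⟨_, rfl⟩
  have hδ0pos : 0 < δ0 := by rw [hδ0]; exact Real.exp_pos _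
  have hkey : ∀ p q s : ℝ, 0 < p → 0 < p * s - q ^ 2 → c0 ≤ F p q s →
      δ0 ≤ p * s - q ^ 2 ∧ p + s ≤ T0 := by
    intro p q s hp hΔ hc
    have h1 := hub p q s hp hΔ
    have hs : 0 < s := by
      by_contra hcon
      push Not at hcon
      nlinarith [sq_nonneg q, mul_nonpos_of_nonneg_of_nonpos hp.le hcon]
    constructor
    · have h2 : (c0 - W / 2) / kb ≤ Real.log (p * s - q ^ 2) := by
        rw [div_le_iff₀ hkb]
        nlinarith [mul_pos hg (add_pos hp hs)]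
      rw [hδ0]
      calc Real.exp ((c0 - W / 2) / kb) ≤ Real.exp (Real.log (p * s - q ^ 2)) :=
            Real.exp_le_exp.mpr h2
        _ = p * s - q ^ 2 := Real.exp_log hΔ
    · have ht : 0 < (p + s) / 2 := by linarith
      have h3 : p * s - q ^ 2 ≤ ((p + s) / 2) ^ 2 := by nlinarith [sq_nonneg (p - s), sq_nonneg q]
      have h4 : Real.log (p * s - q ^ 2) ≤ 2 * Real.log ((p + s) / 2) := by
        have := Real.log_le_log hΔ h3
        rw [Real.log_pow] at this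
        simpa using this
      have h5 : Real.log ((p + s) / 2) ≤ μ * ((p + s) / 2) - 1 - Real.log μ := by
        have h6 := Real.log_le_sub_one_of_pos (mul_pos hμ0 ht)
        rw [Real.log_mul hμ0.ne' ht.ne'] at h6
        linarith
      have h7 : kb * Real.log (p * s - q ^ 2) ≤ g * (p + s) / 4 - 2 * kb * (1 + Real.log μ) := by
        have h8 : kb * Real.log (p * s - q ^ 2)
            ≤ kb * (2 * (μ * ((p + s) / 2) - 1 - Real.log μ)) :=
          mul_le_mul_of_nonneg_left (h4.trans (by linarith)) hkb.le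
        have e : kb * (2 * (μ * ((p + s) / 2) - 1 - Real.log μ))
            = g * (p + s) / 4 - 2 * kb * (1 + Real.log μ) := by
          rw [hμ]; field_simp; ring
        linarith
      rw [hT0, le_div_iff₀ hg]
      linarith
  obtain ⟨K0, hK0⟩ : ∃ K0 : Set (ℝ × ℝ × ℝ), K0 = {x | δ0 ≤ x.1 * x.2.2 - x.2.1 ^ 2}
    ∩ {x | 0 ≤ x.1} ∩ {x | x.1 + x.2.2 ≤ T0} := ⟨_, rfl⟩
  have hK0U : ∀ x ∈ K0, 0 < x.1 ∧ 0 < x.1 * x.2.2 - x.2.1 ^ 2 := by
    intro x hx
    rw [hK0] at hx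
    obtain ⟨⟨h1, h2⟩, -⟩ := hx
    have h1' : δ0 ≤ x.1 * x.2.2 - x.2.1 ^ 2 := h1
    have h2' : 0 ≤ x.1 := h2
    refine ⟨?_, by linarith⟩
    rcases h2'.eq_or_lt with h0 | h0
    · rw [← h0] at h1'
      nlinarith [sq_nonneg x.2.1]
    · exact h0
  have hK0closed : IsClosed K0 := by
    rw [hK0]
    exact ((isClosed_le continuous_const (by fun_prop)).inter
      (isClosed_le continuous_const (by fun_prop))).inter
      (isClosed_le (by fun_prop) continuous_const)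
  have hK0sub : K0 ⊆ Icc 0 T0 ×ˢ (Icc (-T0) T0 ×ˢ Icc 0 T0) := by
    intro x hx
    obtain ⟨hp, hΔ⟩ := hK0U x hx
    rw [hK0] at hx
    obtain ⟨⟨h1, -⟩, h3⟩ := hx
    have h3' : x.1 + x.2.2 ≤ T0 := h3
    have hs : 0 < x.2.2 := by
      by_contra hcon
      push Not at hcon
      nlinarith [sq_nonneg x.2.1, mul_nonpos_of_nonneg_of_nonpos hp.le hcon]
    have hq : x.2.1 ^ 2 ≤ T0 ^ 2 := by nlinarith
    have hT : 0 ≤ T0 := by linarith
    have hq' := abs_le_of_sq_le_sq' hq hT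
    exact ⟨⟨hp.le, by linarith⟩, ⟨hq'.1, hq'.2⟩, ⟨hs.le, by linarith⟩⟩
  have hK0c : IsCompact K0 :=
    IsCompact.of_isClosed_subset (isCompact_Icc.prod (isCompact_Icc.prod isCompact_Icc))
      hK0closed hK0sub
  have hI : ((1 : ℝ), (0 : ℝ), (1 : ℝ)) ∈ K0 := by
    have h := hkey 1 0 1 one_pos (by norm_num) (by rw [hc0])
    rw [hK0]
    refine ⟨⟨h.1, ?_⟩, h.2⟩
    show (0 : ℝ) ≤ 1
    norm_num
  have hcont : ContinuousOn (fun x : ℝ × ℝ × ℝ => F x.1 x.2.1 x.2.2) K0 := by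
    rw [hF]
    unfold ballF
    refine ContinuousOn.add (ContinuousOn.sub (continuousOn_finsetSum _ fun k _ => ?_) ?_) ?_
    · refine continuousOn_const.mul (ContinuousOn.sqrt (ContinuousOn.div ?_ ?_ ?_))
      · exact Continuous.continuousOn (by fun_prop)
      · exact Continuous.continuousOn (by unfold qQ; fun_prop)
      · intro x hx
        obtain ⟨hp, hΔ⟩ := hK0U x hx
        have hab : a k ≠ 0 ∨ b k ≠ 0 := by
          by_contra h
          push Not at h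
          have := hXY k
          rw [h.1, h.2] at this
          norm_num at this
        exact (qQ_pos hp hΔ hab).ne'
    · exact Continuous.continuousOn (by fun_prop)
    · refine continuousOn_const.mul (ContinuousOn.log (Continuous.continuousOn (by fun_prop)) ?_)
      intro x hx
      exact (hK0U x hx).2.ne'
  obtain ⟨x, hxK, hxmax⟩ := hK0c.exists_isMaxOn ⟨_, hI⟩ hcont
  refine ⟨x.1, x.2.1, x.2.2, (hK0U x hxK).1, (hK0U x hxK).2, ?_⟩
  intro p' q' s' hp' hΔ'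
  have hc0x : c0 ≤ F x.1 x.2.1 x.2.2 := by
    have := hxmax hI
    rw [hc0]
    exact this
  by_cases hc : c0 ≤ F p' q' s'
  · have h := hkey p' q' s' hp' hΔ' hc
    have hmem : (p', q', s') ∈ K0 := by
      rw [hK0]
      exact ⟨⟨h.1, hp'.le⟩, h.2⟩
    exact hxmax hmem
  · push Not at hc
    linarith

theorem hasDerivAt_quad (c0 c1 c2 x : ℝ) :
    HasDerivAt (fun t : ℝ => c0 + c1 * t + c2 * t ^ 2) (c1 + 2 * c2 * x) x := by
  have h1 : HasDerivAt (fun t : ℝ => c1 * t) c1 x := by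
    simpa using (hasDerivAt_id' x).const_mul c1
  have h2 : HasDerivAt (fun t : ℝ => c2 * t ^ 2) (2 * c2 * x) x := by
    have h := (((hasDerivAt_id' x).mul (hasDerivAt_id' x)).const_mul c2).congr_deriv
      (show c2 * (1 * x + x * 1) = 2 * c2 * x by ring)
    have e : (fun t : ℝ => c2 * t ^ 2) = fun y => c2 * (y * y) := by
      funext t; ring
    rw [e]
    exact h
  exact (h1.const_add c0).add h2

/-- The maximiser of the auxiliary function: the consequences of the first-order conditions. -/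
theorem ball_opt (a b w X Y : κ → ℝ) (hw : ∀ k, 0 ≤ w k)
    (hXY : ∀ k, a k * X k + b k * Y k = 1) {g kb : ℝ} (hg : 0 < g) (hkb : 0 < kb) :
    ∃ p q s : ℝ, 0 < p ∧ 0 < p * s - q ^ 2 ∧
      (∑ k, w k * Real.sqrt ((p * s - q ^ 2) / qQ p q s (a k) (b k)) ≤ ∑ k, w k + 4 * kb) ∧
      ∀ c d : ℝ, ∑ k, w k / Real.sqrt ((p * s - q ^ 2) / qQ p q s (a k) (b k))
          * ((c * (s * a k - q * b k) + d * (p * b k - q * a k)) / qQ p q s (a k) (b k)) ^ 2
        ≤ c ^ 2 * (∑ k, w k * X k ^ 2 + g) + 2 * c * d * (∑ k, w k * X k * Y k)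
          + d ^ 2 * (∑ k, w k * Y k ^ 2 + g) := by
  obtain ⟨p, q, s, hp, hΔ, hmax⟩ := ball_max_exists a b w X Y hw hXY hg hkb
  refine ⟨p, q, s, hp, hΔ, ?_⟩
  obtain ⟨G11, hG11⟩ : ∃ G11 : ℝ, G11 = ∑ k, w k * X k ^ 2 + g := ⟨_, rfl⟩
  obtain ⟨G12, hG12⟩ : ∃ G12 : ℝ, G12 = ∑ k, w k * X k * Y k := ⟨_, rfl⟩
  obtain ⟨G22, hG22⟩ : ∃ G22 : ℝ, G22 = ∑ k, w k * Y k ^ 2 + g := ⟨_, rfl⟩
  rw [← hG11, ← hG12, ← hG22] at hmax ⊢
  have hs : 0 < s := by
    by_contra hcon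
    push Not at hcon
    nlinarith [sq_nonneg q, mul_nonpos_of_nonneg_of_nonpos hp.le hcon]
  have hab : ∀ k, a k ≠ 0 ∨ b k ≠ 0 := by
    intro k
    by_contra h
    push Not at h
    have := hXY k
    rw [h.1, h.2] at this
    norm_num at this
  have hQ : ∀ k, 0 < qQ p q s (a k) (b k) := fun k => qQ_pos hp hΔ (hab k)
  -- the three first-order conditions
  have Ep : ∑ k, w k * ((s * qQ p q s (a k) (b k) - (p * s - q ^ 2) * b k ^ 2)
      / qQ p q s (a k) (b k) ^ 2 / (2 * Real.sqrt ((p * s - q ^ 2) / qQ p q s (a k) (b k))))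
      - G11 / 2 + kb * (s / (p * s - q ^ 2)) = 0 := by
    have hf : HasDerivAt (fun t : ℝ => t * s - q ^ 2) s p := by
      have e : (fun t : ℝ => t * s - q ^ 2) = fun t => -q ^ 2 + s * t + 0 * t ^ 2 := by
        funext t; ring
      rw [e]
      have := hasDerivAt_quad (-q ^ 2) s 0 p
      convert this using 1
      ring
    have hgk : ∀ k, HasDerivAt (fun t : ℝ => qQ t q s (a k) (b k)) (b k ^ 2) p := by
      intro k
      have e : (fun t : ℝ => qQ t q s (a k) (b k))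
          = fun t => (s * a k ^ 2 - 2 * q * a k * b k) + b k ^ 2 * t + 0 * t ^ 2 := by
        funext t; unfold qQ; ring
      rw [e]
      have := hasDerivAt_quad (s * a k ^ 2 - 2 * q * a k * b k) (b k ^ 2) 0 p
      convert this using 1
      ring
    have hL : HasDerivAt (fun t : ℝ => t * G11 + 2 * q * G12 + s * G22) G11 p := by
      have e : (fun t : ℝ => t * G11 + 2 * q * G12 + s * G22)
          = fun t => (2 * q * G12 + s * G22) + G11 * t + 0 * t ^ 2 := by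
        funext t; ring
      rw [e]
      have := hasDerivAt_quad (2 * q * G12 + s * G22) G11 0 p
      convert this using 1
      ring
    have hloc : IsLocalMax (fun t : ℝ => ∑ k, w k * Real.sqrt ((t * s - q ^ 2)
        / qQ t q s (a k) (b k)) - (t * G11 + 2 * q * G12 + s * G22) / 2
        + kb * Real.log (t * s - q ^ 2)) p := by
      have hopen : IsOpen {t : ℝ | 0 < t ∧ 0 < t * s - q ^ 2} :=
        (isOpen_lt continuous_const continuous_id).inter
          (isOpen_lt (f := fun _ : ℝ => (0 : ℝ)) (g := fun t : ℝ => t * s - q ^ 2)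
            continuous_const (by fun_prop))
      exact Filter.mem_of_superset (hopen.mem_nhds ⟨hp, hΔ⟩)
        (fun t ht => hmax t q s ht.1 ht.2)
    exact stat_eq w (fun t : ℝ => t * s - q ^ 2) (fun t : ℝ => t * G11 + 2 * q * G12 + s * G22)
      (fun k t => qQ t q s (a k) (b k)) s G11 (fun k => b k ^ 2) kb p hf hgk hL hΔ hQ hloc
  have Es : ∑ k, w k * ((p * qQ p q s (a k) (b k) - (p * s - q ^ 2) * a k ^ 2)
      / qQ p q s (a k) (b k) ^ 2 / (2 * Real.sqrt ((p * s - q ^ 2) / qQ p q s (a k) (b k))))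
      - G22 / 2 + kb * (p / (p * s - q ^ 2)) = 0 := by
    have hf : HasDerivAt (fun t : ℝ => p * t - q ^ 2) p s := by
      have e : (fun t : ℝ => p * t - q ^ 2) = fun t => -q ^ 2 + p * t + 0 * t ^ 2 := by
        funext t; ring
      rw [e]
      have := hasDerivAt_quad (-q ^ 2) p 0 s
      convert this using 1
      ring
    have hgk : ∀ k, HasDerivAt (fun t : ℝ => qQ p q t (a k) (b k)) (a k ^ 2) s := by
      intro k
      have e : (fun t : ℝ => qQ p q t (a k) (b k))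
          = fun t => (p * b k ^ 2 - 2 * q * a k * b k) + a k ^ 2 * t + 0 * t ^ 2 := by
        funext t; unfold qQ; ring
      rw [e]
      have := hasDerivAt_quad (p * b k ^ 2 - 2 * q * a k * b k) (a k ^ 2) 0 s
      convert this using 1
      ring
    have hL : HasDerivAt (fun t : ℝ => p * G11 + 2 * q * G12 + t * G22) G22 s := by
      have e : (fun t : ℝ => p * G11 + 2 * q * G12 + t * G22)
          = fun t => (p * G11 + 2 * q * G12) + G22 * t + 0 * t ^ 2 := by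
        funext t; ring
      rw [e]
      have := hasDerivAt_quad (p * G11 + 2 * q * G12) G22 0 s
      convert this using 1
      ring
    have hloc : IsLocalMax (fun t : ℝ => ∑ k, w k * Real.sqrt ((p * t - q ^ 2)
        / qQ p q t (a k) (b k)) - (p * G11 + 2 * q * G12 + t * G22) / 2
        + kb * Real.log (p * t - q ^ 2)) s := by
      have hopen : IsOpen {t : ℝ | 0 < p * t - q ^ 2} :=
        isOpen_lt (f := fun _ : ℝ => (0 : ℝ)) (g := fun t : ℝ => p * t - q ^ 2)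
          continuous_const (by fun_prop)
      exact Filter.mem_of_superset (hopen.mem_nhds hΔ)
        (fun t ht => hmax p q t hp ht)
    exact stat_eq w (fun t : ℝ => p * t - q ^ 2) (fun t : ℝ => p * G11 + 2 * q * G12 + t * G22)
      (fun k t => qQ p q t (a k) (b k)) p G22 (fun k => a k ^ 2) kb s hf hgk hL hΔ hQ hloc
  have Eq : ∑ k, w k * (((-(2 * q)) * qQ p q s (a k) (b k)
      - (p * s - q ^ 2) * (-(2 * a k * b k)))
      / qQ p q s (a k) (b k) ^ 2 / (2 * Real.sqrt ((p * s - q ^ 2) / qQ p q s (a k) (b k))))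
      - (2 * G12) / 2 + kb * ((-(2 * q)) / (p * s - q ^ 2)) = 0 := by
    have hf : HasDerivAt (fun t : ℝ => p * s - t ^ 2) (-(2 * q)) q := by
      have e : (fun t : ℝ => p * s - t ^ 2) = fun t => p * s + 0 * t + (-1) * t ^ 2 := by
        funext t; ring
      rw [e]
      have := hasDerivAt_quad (p * s) 0 (-1) q
      convert this using 1
      ring
    have hgk : ∀ k, HasDerivAt (fun t : ℝ => qQ p t s (a k) (b k)) (-(2 * a k * b k)) q := by
      intro k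
      have e : (fun t : ℝ => qQ p t s (a k) (b k))
          = fun t => (s * a k ^ 2 + p * b k ^ 2) + (-(2 * a k * b k)) * t + 0 * t ^ 2 := by
        funext t; unfold qQ; ring
      rw [e]
      have := hasDerivAt_quad (s * a k ^ 2 + p * b k ^ 2) (-(2 * a k * b k)) 0 q
      convert this using 1
      ring
    have hL : HasDerivAt (fun t : ℝ => p * G11 + 2 * t * G12 + s * G22) (2 * G12) q := by
      have e : (fun t : ℝ => p * G11 + 2 * t * G12 + s * G22)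
          = fun t => (p * G11 + s * G22) + (2 * G12) * t + 0 * t ^ 2 := by
        funext t; ring
      rw [e]
      have := hasDerivAt_quad (p * G11 + s * G22) (2 * G12) 0 q
      convert this using 1
      ring
    have hloc : IsLocalMax (fun t : ℝ => ∑ k, w k * Real.sqrt ((p * s - t ^ 2)
        / qQ p t s (a k) (b k)) - (p * G11 + 2 * t * G12 + s * G22) / 2
        + kb * Real.log (p * s - t ^ 2)) q := by
      have hopen : IsOpen {t : ℝ | 0 < p * s - t ^ 2} :=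
        isOpen_lt (f := fun _ : ℝ => (0 : ℝ)) (g := fun t : ℝ => p * s - t ^ 2)
          continuous_const (by fun_prop)
      exact Filter.mem_of_superset (hopen.mem_nhds hΔ)
        (fun t ht => hmax p t s hp ht)
    exact stat_eq w (fun t : ℝ => p * s - t ^ 2) (fun t : ℝ => p * G11 + 2 * t * G12 + s * G22)
      (fun k t => qQ p t s (a k) (b k)) (-(2 * q)) (2 * G12) (fun k => -(2 * a k * b k)) kb q
      hf hgk hL hΔ hQ hloc
  obtain ⟨Δ, hΔdef⟩ : ∃ Δ : ℝ, Δ = p * s - q ^ 2 := ⟨_, rfl⟩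
  rw [← hΔdef] at hΔ Ep Es Eq ⊢
  obtain ⟨σ, hσdef⟩ : ∃ σ : κ → ℝ, σ = fun k => Real.sqrt (Δ / qQ p q s (a k) (b k)) :=
    ⟨_, rfl⟩
  have hσk : ∀ k, Real.sqrt (Δ / qQ p q s (a k) (b k)) = σ k := by
    intro k; rw [hσdef]
  have hσpos : ∀ k, 0 < σ k := by
    intro k; rw [hσdef]; exact Real.sqrt_pos.mpr (div_pos hΔ (hQ k))
  have hσ2 : ∀ k, σ k ^ 2 = Δ / qQ p q s (a k) (b k) := by
    intro k; rw [hσdef]; exact Real.sq_sqrt (div_pos hΔ (hQ k)).le
  simp_rw [hσk] at Ep Es Eq ⊢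
  obtain ⟨Tp, hTp⟩ : ∃ Tp : κ → ℝ, Tp = fun k => w k * ((s * qQ p q s (a k) (b k)
      - Δ * b k ^ 2) / qQ p q s (a k) (b k) ^ 2 / (2 * σ k)) := ⟨_, rfl⟩
  obtain ⟨Ts, hTs⟩ : ∃ Ts : κ → ℝ, Ts = fun k => w k * ((p * qQ p q s (a k) (b k)
      - Δ * a k ^ 2) / qQ p q s (a k) (b k) ^ 2 / (2 * σ k)) := ⟨_, rfl⟩
  obtain ⟨Tq, hTq⟩ : ∃ Tq : κ → ℝ, Tq = fun k => w k * (((-(2 * q)) * qQ p q s (a k) (b k)
      - Δ * (-(2 * a k * b k))) / qQ p q s (a k) (b k) ^ 2 / (2 * σ k)) := ⟨_, rfl⟩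
  have Ep' : ∑ k, Tp k = G11 / 2 - kb * (s / Δ) := by
    rw [hTp]; linarith
  have Es' : ∑ k, Ts k = G22 / 2 - kb * (p / Δ) := by
    rw [hTs]; linarith
  have Eq' : ∑ k, Tq k = G12 + kb * (2 * q / Δ) := by
    rw [hTq]
    have e : kb * (-(2 * q) / Δ) = -(kb * (2 * q / Δ)) := by ring
    rw [e] at Eq
    linarith
  constructor
  · -- the scaling identity
    have hterm : ∀ k, w k * σ k / 2 = p * Tp k + s * Ts k + q * Tq k := by
      intro k
      rw [hTp, hTs, hTq]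
      simp only
      have hQk := (hQ k).ne'
      have hσk' := (hσpos k).ne'
      have hnum : p * (s * qQ p q s (a k) (b k) - Δ * b k ^ 2)
          + s * (p * qQ p q s (a k) (b k) - Δ * a k ^ 2)
          + q * ((-(2 * q)) * qQ p q s (a k) (b k) - Δ * (-(2 * a k * b k)))
          = Δ * qQ p q s (a k) (b k) := by
        rw [hΔdef]; unfold qQ; ring
      have h1 : p * (w k * ((s * qQ p q s (a k) (b k) - Δ * b k ^ 2)
            / qQ p q s (a k) (b k) ^ 2 / (2 * σ k)))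
          + s * (w k * ((p * qQ p q s (a k) (b k) - Δ * a k ^ 2)
            / qQ p q s (a k) (b k) ^ 2 / (2 * σ k)))
          + q * (w k * (((-(2 * q)) * qQ p q s (a k) (b k) - Δ * (-(2 * a k * b k)))
            / qQ p q s (a k) (b k) ^ 2 / (2 * σ k)))
          = w k * ((p * (s * qQ p q s (a k) (b k) - Δ * b k ^ 2)
          + s * (p * qQ p q s (a k) (b k) - Δ * a k ^ 2)
          + q * ((-(2 * q)) * qQ p q s (a k) (b k) - Δ * (-(2 * a k * b k))))
            / qQ p q s (a k) (b k) ^ 2 / (2 * σ k)) := by ring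
      rw [h1, hnum]
      have h2 : Δ * qQ p q s (a k) (b k) / qQ p q s (a k) (b k) ^ 2 = σ k ^ 2 := by
        rw [hσ2 k]; field_simp
      rw [h2]
      field_simp
    have hsum : (∑ k, w k * σ k) / 2 = (p * G11 + 2 * q * G12 + s * G22) / 2 - 2 * kb := by
      rw [Finset.sum_div, Finset.sum_congr rfl (fun k _ => hterm k), Finset.sum_add_distrib,
        Finset.sum_add_distrib, ← Finset.mul_sum, ← Finset.mul_sum, ← Finset.mul_sum, Ep', Es',
        Eq']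
      have hΔ' := hΔ.ne'
      rw [hΔdef] at hΔ' ⊢
      field_simp
      ring
    have hle := sum_sqrt_le a b w X Y hw hXY hp (by rw [← hΔdef]; exact hΔ)
    rw [← hΔdef] at hle
    simp_rw [hσk] at hle
    have hgps : 0 ≤ g * (p + s) := mul_nonneg hg.le (by linarith)
    rw [hG11, hG22, hG12] at hsum
    linarith
  · intro c d
    have hterm : ∀ k, w k / σ k * ((c * (s * a k - q * b k) + d * (p * b k - q * a k))
        / qQ p q s (a k) (b k)) ^ 2 = 2 * c ^ 2 * Tp k + 2 * c * d * Tq k + 2 * d ^ 2 * Ts k := by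
      intro k
      rw [hTp, hTs, hTq]
      simp only
      have hQk := (hQ k).ne'
      have hσk' := (hσpos k).ne'
      have hexp : (c * (s * a k - q * b k) + d * (p * b k - q * a k)) ^ 2
          = c ^ 2 * (s * qQ p q s (a k) (b k) - Δ * b k ^ 2)
            + c * d * ((-(2 * q)) * qQ p q s (a k) (b k) - Δ * (-(2 * a k * b k)))
            + d ^ 2 * (p * qQ p q s (a k) (b k) - Δ * a k ^ 2) := by
        rw [hΔdef]; unfold qQ; ring
      rw [div_pow, hexp]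
      field_simp
    rw [Finset.sum_congr rfl (fun k _ => hterm k), Finset.sum_add_distrib,
      Finset.sum_add_distrib, ← Finset.mul_sum, ← Finset.mul_sum, ← Finset.mul_sum, Ep', Es',
      Eq']
    have hform : 0 ≤ qQ p q s c d := qQ_nonneg hp (by rw [← hΔdef]; exact hΔ) c d
    have e : 2 * c ^ 2 * (G11 / 2 - kb * (s / Δ)) + 2 * c * d * (G12 + kb * (2 * q / Δ))
        + 2 * d ^ 2 * (G22 / 2 - kb * (p / Δ))
        = c ^ 2 * G11 + 2 * c * d * G12 + d ^ 2 * G22 - 2 * kb / Δ * qQ p q s c d := by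
      unfold qQ
      field_simp
      ring
    rw [e]
    have : 0 ≤ 2 * kb / Δ * qQ p q s c d := mul_nonneg (by positivity) hform
    linarith

/-- Cauchy-Schwarz step: a linear functional bounded by `u` on the data is bounded by `u` at
the point produced by the sign argument. -/
theorem ball_cs (a b w X Y e : κ → ℝ) (hw : ∀ k, 0 ≤ w k) {W : ℝ} (hWdef : W = ∑ k, w k)
    (hW : W < 1) (he : ∀ k, e k * e k = 1)
    {p q s r : ℝ} (hΔ : 0 < p * s - q ^ 2) (hQ : ∀ k, 0 < qQ p q s (a k) (b k))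
    (h1 : ∑ k, w k * Real.sqrt ((p * s - q ^ 2) / qQ p q s (a k) (b k)) ≤ (1 + W) / 2)
    {c d u : ℝ}
    (h2 : ∑ k, w k / Real.sqrt ((p * s - q ^ 2) / qQ p q s (a k) (b k))
          * ((c * (s * a k - q * b k) + d * (p * b k - q * a k)) / qQ p q s (a k) (b k)) ^ 2
        ≤ c ^ 2 * (∑ k, w k * X k ^ 2 + (1 - W) / 4 * r ^ 2)
          + 2 * c * d * (∑ k, w k * X k * Y k)
          + d ^ 2 * (∑ k, w k * Y k ^ 2 + (1 - W) / 4 * r ^ 2))
    (hXYu : ∀ k, (c * X k + d * Y k) ^ 2 ≤ u ^ 2) (hc2 : (c * r) ^ 2 ≤ u ^ 2)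
    (hd2 : (d * r) ^ 2 ≤ u ^ 2)
    {Xb Yb : ℝ} (hXb : Xb = ∑ j, e j * (w j / qQ p q s (a j) (b j)) * a j)
    (hYb : Yb = ∑ j, e j * (w j / qQ p q s (a j) (b j)) * b j) :
    (c * (s * Xb - q * Yb) + d * (p * Yb - q * Xb)) ^ 2 ≤ u ^ 2 := by
  have hW0 : 0 ≤ W := by rw [hWdef]; exact Finset.sum_nonneg (fun k _ => hw k)
  obtain ⟨σ, hσdef⟩ : ∃ σ : κ → ℝ, σ = fun k => Real.sqrt ((p * s - q ^ 2)
      / qQ p q s (a k) (b k)) := ⟨_, rfl⟩
  have hσk : ∀ k, Real.sqrt ((p * s - q ^ 2) / qQ p q s (a k) (b k)) = σ k := by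
    intro k; rw [hσdef]
  have hσpos : ∀ k, 0 < σ k := by
    intro k; rw [hσdef]; exact Real.sqrt_pos.mpr (div_pos hΔ (hQ k))
  simp_rw [hσk] at h1 h2
  obtain ⟨t, ht⟩ : ∃ t : κ → ℝ, t = fun k => (c * (s * a k - q * b k)
      + d * (p * b k - q * a k)) / qQ p q s (a k) (b k) := ⟨_, rfl⟩
  have htk : ∀ k, (c * (s * a k - q * b k) + d * (p * b k - q * a k)) / qQ p q s (a k) (b k)
      = t k := by
    intro k; rw [ht]
  simp_rw [htk] at h2
  have hψe : c * (s * Xb - q * Yb) + d * (p * Yb - q * Xb)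
      = ∑ k, Real.sqrt (w k * σ k) * (e k * (Real.sqrt (w k / σ k) * t k)) := by
    rw [hXb, hYb, Finset.mul_sum, Finset.mul_sum, ← Finset.sum_sub_distrib, Finset.mul_sum,
      Finset.mul_sum, Finset.mul_sum, ← Finset.sum_sub_distrib, Finset.mul_sum,
      ← Finset.sum_add_distrib]
    apply Finset.sum_congr rfl
    intro k _
    have hsq : Real.sqrt (w k * σ k) * Real.sqrt (w k / σ k) = w k := by
      rw [← Real.sqrt_mul (mul_nonneg (hw k) (hσpos k).le)]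
      have e1 : w k * σ k * (w k / σ k) = w k ^ 2 := by
        have := (hσpos k).ne'
        field_simp
      rw [e1, Real.sqrt_sq (hw k)]
    have e2 : Real.sqrt (w k * σ k) * (e k * (Real.sqrt (w k / σ k) * t k))
        = e k * (Real.sqrt (w k * σ k) * Real.sqrt (w k / σ k)) * t k := by ring
    rw [e2, hsq, ht]
    have := (hQ k).ne'
    field_simp
  have hCS := Finset.sum_mul_sq_le_sq_mul_sq Finset.univ (fun k => Real.sqrt (w k * σ k))
    (fun k => e k * (Real.sqrt (w k / σ k) * t k))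
  rw [← hψe] at hCS
  have hA : ∑ k, Real.sqrt (w k * σ k) ^ 2 = ∑ k, w k * σ k := by
    apply Finset.sum_congr rfl
    intro k _
    exact Real.sq_sqrt (mul_nonneg (hw k) (hσpos k).le)
  have hB : ∑ k, (e k * (Real.sqrt (w k / σ k) * t k)) ^ 2
      = ∑ k, w k / σ k * t k ^ 2 := by
    apply Finset.sum_congr rfl
    intro k _
    have e1 : (e k * (Real.sqrt (w k / σ k) * t k)) ^ 2
        = (e k * e k) * (Real.sqrt (w k / σ k) ^ 2 * t k ^ 2) := by ring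
    rw [e1, he, one_mul, Real.sq_sqrt (div_nonneg (hw k) (hσpos k).le)]
  rw [hA, hB] at hCS
  have hG : c ^ 2 * (∑ k, w k * X k ^ 2 + (1 - W) / 4 * r ^ 2)
      + 2 * c * d * (∑ k, w k * X k * Y k)
      + d ^ 2 * (∑ k, w k * Y k ^ 2 + (1 - W) / 4 * r ^ 2)
      = ∑ k, w k * (c * X k + d * Y k) ^ 2 + (1 - W) / 4 * ((c * r) ^ 2 + (d * r) ^ 2) := by
    have e1 : ∑ k, w k * (c * X k + d * Y k) ^ 2
        = c ^ 2 * ∑ k, w k * X k ^ 2 + 2 * c * d * ∑ k, w k * X k * Y k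
          + d ^ 2 * ∑ k, w k * Y k ^ 2 := by
      rw [Finset.mul_sum, Finset.mul_sum, Finset.mul_sum, ← Finset.sum_add_distrib,
        ← Finset.sum_add_distrib]
      apply Finset.sum_congr rfl
      intro k _
      ring
    rw [e1]; ring
  have hS1 : ∑ k, w k * (c * X k + d * Y k) ^ 2 ≤ W * u ^ 2 := by
    rw [hWdef, Finset.sum_mul]
    exact Finset.sum_le_sum (fun k _ => mul_le_mul_of_nonneg_left (hXYu k) (hw k))
  have hS2 : (1 - W) / 4 * ((c * r) ^ 2 + (d * r) ^ 2) ≤ (1 - W) / 4 * (u ^ 2 + u ^ 2) :=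
    mul_le_mul_of_nonneg_left (add_le_add hc2 hd2) (by linarith)
  have hR : ∑ k, w k / σ k * t k ^ 2 ≤ (1 + W) / 2 * u ^ 2 := by
    rw [hG] at h2
    linarith
  have hR0 : 0 ≤ ∑ k, w k / σ k * t k ^ 2 :=
    Finset.sum_nonneg (fun k _ => mul_nonneg (div_nonneg (hw k) (hσpos k).le) (sq_nonneg _))
  have hfin : (c * (s * Xb - q * Yb) + d * (p * Yb - q * Xb)) ^ 2
      ≤ (1 + W) / 2 * ((1 + W) / 2 * u ^ 2) :=
    hCS.trans (mul_le_mul h1 hR hR0 (by linarith))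
  have h7 : 0 ≤ u ^ 2 := sq_nonneg _
  have h8 : (1 + W) / 2 * u ^ 2 ≤ 1 * u ^ 2 :=
    mul_le_mul_of_nonneg_right (by linarith) h7
  have h9 : (1 + W) / 2 * ((1 + W) / 2 * u ^ 2) ≤ 1 * ((1 + W) / 2 * u ^ 2) :=
    mul_le_mul_of_nonneg_right (by linarith) (mul_nonneg (by linarith) h7)
  linarith

/-- Separation step: the point produced by the sign argument lies in `L`. -/
theorem ball_mem (L : Set (ℝ × ℝ)) (hLcl : IsClosed L) (hLconv : Convex ℝ L)
    {p0 q0 r : ℝ}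
    (hsym : ∀ x ∈ L, (2 * p0 - x.1, 2 * q0 - x.2) ∈ L)
    (hr1 : (p0 + r, q0) ∈ L) (hr2 : (p0, q0 + r) ∈ L)
    (a b w X Y e : κ → ℝ) (hw : ∀ k, 0 ≤ w k) {W : ℝ} (hWdef : W = ∑ k, w k) (hW : W < 1)
    (hXYL : ∀ k, (p0 + X k, q0 + Y k) ∈ L) (he : ∀ k, e k * e k = 1)
    {p q s : ℝ} (hΔ : 0 < p * s - q ^ 2) (hQ : ∀ k, 0 < qQ p q s (a k) (b k))
    (h1 : ∑ k, w k * Real.sqrt ((p * s - q ^ 2) / qQ p q s (a k) (b k)) ≤ (1 + W) / 2)
    (h2 : ∀ c d : ℝ, ∑ k, w k / Real.sqrt ((p * s - q ^ 2) / qQ p q s (a k) (b k))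
          * ((c * (s * a k - q * b k) + d * (p * b k - q * a k)) / qQ p q s (a k) (b k)) ^ 2
        ≤ c ^ 2 * (∑ k, w k * X k ^ 2 + (1 - W) / 4 * r ^ 2)
          + 2 * c * d * (∑ k, w k * X k * Y k)
          + d ^ 2 * (∑ k, w k * Y k ^ 2 + (1 - W) / 4 * r ^ 2))
    {Xb Yb : ℝ} (hXb : Xb = ∑ j, e j * (w j / qQ p q s (a j) (b j)) * a j)
    (hYb : Yb = ∑ j, e j * (w j / qQ p q s (a j) (b j)) * b j) :
    ((p0 + (s * Xb - q * Yb), q0 + (p * Yb - q * Xb)) : ℝ × ℝ) ∈ L := by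
  by_contra hx
  obtain ⟨f, u, hfu, hux⟩ := geometric_hahn_banach_closed_point hLconv hLcl hx
  obtain ⟨c, hc⟩ : ∃ c : ℝ, c = f (1, 0) := ⟨_, rfl⟩
  obtain ⟨d, hd⟩ : ∃ d : ℝ, d = f (0, 1) := ⟨_, rfl⟩
  have hf : ∀ y1 y2 : ℝ, f (y1, y2) = c * y1 + d * y2 := by
    intro y1 y2
    have e : ((y1, y2) : ℝ × ℝ) = y1 • ((1 : ℝ), (0 : ℝ)) + y2 • ((0 : ℝ), (1 : ℝ)) := by
      ext <;> simp
    rw [e, map_add, map_smul, map_smul, ← hc, ← hd]
    simp
    ring
  obtain ⟨u', hu'⟩ : ∃ u' : ℝ, u' = u - (c * p0 + d * q0) := ⟨_, rfl⟩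
  have hL1 : ∀ y1 y2 : ℝ, (p0 + y1, q0 + y2) ∈ L → |c * y1 + d * y2| < u' := by
    intro y1 y2 hy
    have h3 := hfu _ hy
    have h4' : ((2 * p0 - (p0 + y1), 2 * q0 - (q0 + y2)) : ℝ × ℝ) ∈ L := hsym _ hy
    have h4 := hfu _ h4'
    rw [hf] at h3 h4
    rw [abs_lt, hu']
    constructor <;> linarith
  have hψ : u' < c * (s * Xb - q * Yb) + d * (p * Yb - q * Xb) := by
    rw [hf] at hux
    rw [hu']
    linarith
  have hcr : |c * r| < u' := by
    have := hL1 r 0 (by simpa using hr1)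
    simpa using this
  have hdr : |d * r| < u' := by
    have := hL1 0 r (by simpa using hr2)
    simpa using this
  have hu0 : 0 < u' := lt_of_le_of_lt (abs_nonneg _) hcr
  have hXYu : ∀ k, (c * X k + d * Y k) ^ 2 ≤ u' ^ 2 := by
    intro k
    have := hL1 (X k) (Y k) (hXYL k)
    exact sq_le_sq' (by linarith [(abs_lt.mp this).1]) (abs_lt.mp this).2.le
  have hc2 : (c * r) ^ 2 ≤ u' ^ 2 :=
    sq_le_sq' (by linarith [(abs_lt.mp hcr).1]) (abs_lt.mp hcr).2.le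
  have hd2 : (d * r) ^ 2 ≤ u' ^ 2 :=
    sq_le_sq' (by linarith [(abs_lt.mp hdr).1]) (abs_lt.mp hdr).2.le
  have hfin := ball_cs a b w X Y e hw hWdef hW he hΔ hQ h1 (h2 c d) hXYu hc2 hd2 hXb hYb
  have hlt : u' ^ 2 < (c * (s * Xb - q * Yb) + d * (p * Yb - q * Xb)) ^ 2 :=
    pow_lt_pow_left₀ hψ hu0.le two_ne_zero
  linarith

/-- **Ball's plank theorem in the plane, core form.**  `L` is a closed convex set symmetric
about `(p0, q0)` containing `(p0 + r, q0)` and `(p0, q0 + r)`; each functional `(a k, b k)` takes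
the value `1` at a point `(X k, Y k)` of `L - (p0, q0)`; the weights add up to less than `1`.
Then some point of `L` avoids all the strips `|a k * x + b k * y - m k| < w k`. -/
theorem ball_core (L : Set (ℝ × ℝ)) (hLcl : IsClosed L) (hLconv : Convex ℝ L)
    {p0 q0 r : ℝ} (hr : 0 < r)
    (hsym : ∀ x ∈ L, (2 * p0 - x.1, 2 * q0 - x.2) ∈ L)
    (hr1 : (p0 + r, q0) ∈ L) (hr2 : (p0, q0 + r) ∈ L)
    (a b m w X Y : κ → ℝ) (hw : ∀ k, 0 ≤ w k) (hW : ∑ k, w k < 1)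
    (hXY : ∀ k, a k * X k + b k * Y k = 1)
    (hXYL : ∀ k, (p0 + X k, q0 + Y k) ∈ L) :
    ∃ x1 x2 : ℝ, (x1, x2) ∈ L ∧ ∀ k, w k ≤ |a k * (x1 - p0) + b k * (x2 - q0) - m k| := by
  classical
  obtain ⟨W, hWdef⟩ : ∃ W : ℝ, W = ∑ k, w k := ⟨_, rfl⟩
  rw [← hWdef] at hW
  have hkb0 : 0 < (1 - W) / 8 := by linarith
  have hg0 : 0 < (1 - W) / 4 * r ^ 2 := by
    have : 0 < (1 - W) / 4 := by linarith
    positivity
  obtain ⟨p, q, s, hp, hΔ, h1, h2⟩ := ball_opt a b w X Y hw hXY hg0 hkb0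
  rw [← hWdef] at h1
  have h1' : ∑ k, w k * Real.sqrt ((p * s - q ^ 2) / qQ p q s (a k) (b k)) ≤ (1 + W) / 2 := by
    linarith
  have hab : ∀ k, a k ≠ 0 ∨ b k ≠ 0 := by
    intro k
    by_contra h
    push Not at h
    have := hXY k
    rw [h.1, h.2] at this
    norm_num at this
  have hQ : ∀ k, 0 < qQ p q s (a k) (b k) := fun k => qQ_pos hp hΔ (hab k)
  obtain ⟨ε, hε⟩ := quad_bang a b m (fun k => w k / qQ p q s (a k) (b k))
    (fun k => div_nonneg (hw k) (hQ k).le) p q s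
  obtain ⟨Xb, hXb⟩ : ∃ Xb : ℝ, Xb = ∑ j, sgn (ε j) * (w j / qQ p q s (a j) (b j)) * a j :=
    ⟨_, rfl⟩
  obtain ⟨Yb, hYb⟩ : ∃ Yb : ℝ, Yb = ∑ j, sgn (ε j) * (w j / qQ p q s (a j) (b j)) * b j :=
    ⟨_, rfl⟩
  simp only [← hXb, ← hYb] at hε
  refine ⟨p0 + (s * Xb - q * Yb), q0 + (p * Yb - q * Xb), ?_, ?_⟩
  · exact ball_mem L hLcl hLconv hsym hr1 hr2 a b w X Y (fun k => sgn (ε k)) hw hWdef hW hXYL
      (fun k => sgn_sq (ε k)) hΔ hQ h1' h2 hXb hYb
  · intro k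
    have h3 := hε k
    have h5 : s * a k ^ 2 - 2 * q * a k * b k + p * b k ^ 2 = qQ p q s (a k) (b k) := by
      unfold qQ; ring
    rw [h5, div_mul_cancel₀ _ (hQ k).ne'] at h3
    have e3 : a k * (p0 + (s * Xb - q * Yb) - p0) + b k * (q0 + (p * Yb - q * Xb) - q0) - m k
        = a k * (s * Xb - q * Yb) + b k * (p * Yb - q * Xb) - m k := by
      ring
    rw [e3]
    exact h3

end opt

section plank

variable {ι : Type*} [Fintype ι]

/-- **Plank theorem for a centrally symmetric planar convex body.**  `H j` is a value attained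
on `L - (p0, q0)` by the functional `(a j, b j)` (in the application: half of the width of `L`
in that direction).  Strips of half-widths `w j` with `∑ w j / H j < 1` do not cover `L`. -/
theorem sym_plank (L : Set (ℝ × ℝ)) (hLcl : IsClosed L) (hLconv : Convex ℝ L)
    {p0 q0 r : ℝ} (hr : 0 < r)
    (hsym : ∀ x ∈ L, (2 * p0 - x.1, 2 * q0 - x.2) ∈ L)
    (hr1 : (p0 + r, q0) ∈ L) (hr2 : (p0, q0 + r) ∈ L)
    (a b m w H : ι → ℝ) (hH : ∀ j, 0 < H j)
    (hHat : ∀ j, ∃ X Y : ℝ, (p0 + X, q0 + Y) ∈ L ∧ a j * X + b j * Y = H j)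
    (hw : ∀ j, 0 ≤ w j) (hσ : ∑ j, w j / H j < 1) :
    ∃ x1 x2 : ℝ, (x1, x2) ∈ L ∧ ∀ j, w j < |a j * x1 + b j * x2 - m j| := by
  obtain ⟨σ, hσdef⟩ : ∃ σ : ℝ, σ = ∑ j, w j / H j := ⟨_, rfl⟩
  rw [← hσdef] at hσ
  obtain ⟨n, hn⟩ : ∃ n : ℝ, n = (Fintype.card ι : ℝ) := ⟨_, rfl⟩
  have hn0 : 0 ≤ n := by rw [hn]; positivity
  obtain ⟨η, hη⟩ : ∃ η : ℝ, η = (1 - σ) / (2 * (n + 1)) := ⟨_, rfl⟩
  have hη0 : 0 < η := by
    rw [hη]
    apply div_pos (by linarith) (by linarith)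
  choose X Y hXYL hXY using hHat
  have hσ' : ∑ j, (w j / H j + η) < 1 := by
    rw [Finset.sum_add_distrib, ← hσdef]
    simp only [Finset.sum_const, Finset.card_univ, nsmul_eq_mul]
    rw [← hn]
    have h2 : n * η = (1 - σ) * (n / (2 * (n + 1))) := by
      rw [hη]; field_simp
    have h3 : n / (2 * (n + 1)) < 1 := by
      rw [div_lt_one (by linarith)]
      linarith
    have h4 : (1 - σ) * (n / (2 * (n + 1))) < (1 - σ) * 1 :=
      mul_lt_mul_of_pos_left h3 (by linarith)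
    linarith
  obtain ⟨x1, x2, hxL, hx⟩ := ball_core L hLcl hLconv hr hsym hr1 hr2
    (fun j => a j / H j) (fun j => b j / H j)
    (fun j => (m j - a j * p0 - b j * q0) / H j) (fun j => w j / H j + η) X Y
    (fun j => add_nonneg (div_nonneg (hw j) (hH j).le) hη0.le) hσ'
    (fun j => by
      have h1 := hXY j
      have h2 := (hH j).ne'
      show a j / H j * X j + b j / H j * Y j = 1
      field_simp
      linarith) hXYL
  refine ⟨x1, x2, hxL, fun j => ?_⟩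
  have h1 := hx j
  have h2 := hH j
  have e : a j / H j * (x1 - p0) + b j / H j * (x2 - q0) - (m j - a j * p0 - b j * q0) / H j
      = (a j * x1 + b j * x2 - m j) / H j := by
    field_simp
    ring
  rw [e, abs_div, abs_of_pos h2, le_div_iff₀ h2] at h1
  have h3 : (w j / H j + η) * H j = w j + η * H j := by
    field_simp
  rw [h3] at h1
  have h4 : 0 < η * H j := mul_pos hη0 h2
  linarith

end plank

/-- **Plank theorem for a centrally symmetric planar convex body, measure form.**  If the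
compact convex set `L`, symmetric about `(p0, q0)`, is covered by the sets
`{x | a j * x.1 + b j * x.2 ∈ S j}`, and `H j` is a value attained by `(a j, b j)` on
`L - (p0, q0)`, then `∑ volume (S j) / (2 * H j) ≥ 1`. -/
theorem sym_plank_measure {ι : Type*} [Fintype ι] (L : Set (ℝ × ℝ)) (hLc : IsCompact L)
    (hLconv : Convex ℝ L) {p0 q0 r : ℝ} (hr : 0 < r)
    (hsym : ∀ x ∈ L, (2 * p0 - x.1, 2 * q0 - x.2) ∈ L)
    (hr1 : (p0 + r, q0) ∈ L) (hr2 : (p0, q0 + r) ∈ L)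
    (a b H : ι → ℝ) (S : ι → Set ℝ) (hH : ∀ j, 0 < H j)
    (hHat : ∀ j, ∃ X Y : ℝ, (p0 + X, q0 + Y) ∈ L ∧ a j * X + b j * Y = H j)
    (hcov : ∀ x ∈ L, ∃ j, a j * x.1 + b j * x.2 ∈ S j) :
    1 ≤ ∑ j, volume (S j) / ENNReal.ofReal (2 * H j) := by
  classical
  by_contra hlt
  push Not at hlt
  obtain ⟨d, hd⟩ : ∃ d : ι → ℝ, d = fun j => 2 * H j := ⟨_, rfl⟩
  have hdpos : ∀ j, 0 < d j := by
    intro j
    rw [hd]
    have := hH j
    show 0 < 2 * H j
    linarith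
  have hdE : ∀ j, ENNReal.ofReal (2 * H j) = ENNReal.ofReal (d j) := by
    intro j; rw [hd]
  simp_rw [hdE] at hlt
  have hd0 : ∀ j, ENNReal.ofReal (d j) ≠ 0 := fun j => (ENNReal.ofReal_pos.mpr (hdpos j)).ne'
  have hdt : ∀ j, ENNReal.ofReal (d j) ≠ ⊤ := fun j => ENNReal.ofReal_ne_top
  obtain ⟨sE, hsE⟩ : ∃ sE : ENNReal, sE = ∑ j, volume (S j) / ENNReal.ofReal (d j) := ⟨_, rfl⟩
  rw [← hsE] at hlt
  have hsEfin : sE ≠ ⊤ := (hlt.trans ENNReal.one_lt_top).ne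
  have hSfin : ∀ j, volume (S j) ≠ ⊤ := by
    intro j hj
    have h1 : volume (S j) / ENNReal.ofReal (d j) ≤ sE := by
      rw [hsE]
      exact Finset.single_le_sum (f := fun j => volume (S j) / ENNReal.ofReal (d j))
        (fun i _ => zero_le) (Finset.mem_univ j)
    rw [hj, ENNReal.top_div_of_ne_top (hdt j)] at h1
    exact hsEfin (top_le_iff.mp h1)
  obtain ⟨σ, hσ⟩ : ∃ σ : ℝ, σ = sE.toReal := ⟨_, rfl⟩
  have hσ1 : σ < 1 := by
    rw [hσ]
    have := (ENNReal.toReal_lt_toReal hsEfin ENNReal.one_ne_top).mpr hlt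
    simpa using this
  have hσ0 : 0 ≤ σ := by rw [hσ]; exact ENNReal.toReal_nonneg
  have hσE : ENNReal.ofReal σ = sE := by rw [hσ]; exact ENNReal.ofReal_toReal hsEfin
  obtain ⟨D, hD⟩ : ∃ D : ℝ, D = ∑ j, 1 / d j := ⟨_, rfl⟩
  have hD0 : 0 ≤ D := by
    rw [hD]
    exact Finset.sum_nonneg (fun j _ => (div_pos one_pos (hdpos j)).le)
  obtain ⟨η, hη⟩ : ∃ η : ℝ, η = (1 - σ) / (2 * (D + 1)) := ⟨_, rfl⟩
  have hη0 : 0 < η := by
    rw [hη]
    exact div_pos (by linarith) (by linarith)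
  have hηD : σ + η * D < 1 := by
    have h2 : η * D = (1 - σ) * (D / (2 * (D + 1))) := by
      rw [hη]; field_simp
    have h3 : D / (2 * (D + 1)) < 1 := by
      rw [div_lt_one (by linarith)]
      linarith
    have h4 : (1 - σ) * (D / (2 * (D + 1))) < (1 - σ) * 1 :=
      mul_lt_mul_of_pos_left h3 (by linarith)
    linarith
  -- open supersets
  have hopen : ∀ j, ∃ U : Set ℝ, S j ⊆ U ∧ IsOpen U ∧
      volume U < volume (S j) + ENNReal.ofReal η := by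
    intro j
    obtain ⟨U, hSU, hUo, hUv⟩ := (S j).exists_isOpen_lt_add (hSfin j)
      (ENNReal.ofReal_pos.mpr hη0).ne'
    exact ⟨U, hSU, hUo, hUv⟩
  choose U hSU hUo hUv using hopen
  have hcomp : ∀ j, ∃ 𝒞 : Set (Set ℝ),
      (∀ C ∈ 𝒞, IsOpen C ∧ C.OrdConnected ∧ C.Nonempty ∧ C ⊆ U j) ∧
      (∀ y ∈ U j, ∃ C ∈ 𝒞, y ∈ C) ∧ ∑' C : 𝒞, volume (C : Set ℝ) ≤ volume (U j) :=
    fun j => open_components (hUo j)
  choose 𝒞 h𝒞 h𝒞cov h𝒞vol using hcomp
  have hUfin : ∀ j, volume (U j) ≠ ⊤ := by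
    intro j
    exact ((hUv j).trans_le le_top).ne
  have hCfin : ∀ j, ∀ C ∈ 𝒞 j, volume C ≠ ⊤ := by
    intro j C hC
    exact ne_top_of_le_ne_top (hUfin j) (measure_mono (h𝒞 j C hC).2.2.2)
  -- finite subcover
  obtain ⟨V, hV⟩ : ∃ V : (Σ j : ι, ↥(𝒞 j)) → Set (ℝ × ℝ),
      V = fun k => {x : ℝ × ℝ | a k.1 * x.1 + b k.1 * x.2 ∈ (k.2 : Set ℝ)} := ⟨_, rfl⟩
  have hVo : ∀ k, IsOpen (V k) := by
    intro k
    rw [hV]
    exact (h𝒞 k.1 k.2 k.2.2).1.preimage (by fun_prop)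
  have hRcov : L ⊆ ⋃ k, V k := by
    intro x hxL
    obtain ⟨j, hj⟩ := hcov x hxL
    obtain ⟨C, hC, hyC⟩ := h𝒞cov j _ (hSU j hj)
    refine mem_iUnion.mpr ⟨⟨j, ⟨C, hC⟩⟩, ?_⟩
    rw [hV]
    exact hyC
  obtain ⟨t, ht⟩ := hLc.elim_finite_subcover V hVo hRcov
  -- the finite family of strips
  have hbdd : ∀ k : (Σ j : ι, ↥(𝒞 j)), BddBelow (k.2 : Set ℝ) ∧ BddAbove (k.2 : Set ℝ) :=
    fun k => ordConnected_bdd (h𝒞 k.1 k.2 k.2.2).2.1 (hCfin k.1 k.2 k.2.2)
  have hvg : ∀ k : (Σ j : ι, ↥(𝒞 j)),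
      ENNReal.ofReal (sSup (k.2 : Set ℝ) - sInf (k.2 : Set ℝ)) ≤ volume (k.2 : Set ℝ) ∧
      (k.2 : Set ℝ) ⊆ Icc (sInf (k.2 : Set ℝ)) (sSup (k.2 : Set ℝ)) :=
    fun k => ordConnected_volume_ge (h𝒞 k.1 k.2 k.2.2).2.1 (h𝒞 k.1 k.2 k.2.2).2.2.1
      (hbdd k).1 (hbdd k).2
  have hw0 : ∀ k : (Σ j : ι, ↥(𝒞 j)), 0 ≤ (sSup (k.2 : Set ℝ) - sInf (k.2 : Set ℝ)) / 2 := by
    intro k
    obtain ⟨y, hy⟩ := (h𝒞 k.1 k.2 k.2.2).2.2.1
    have := (hvg k).2 hy
    have : sInf (k.2 : Set ℝ) ≤ sSup (k.2 : Set ℝ) := this.1.trans this.2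
    linarith
  have hsum : ∑ k : ↥t, ((sSup ((k : Σ j : ι, ↥(𝒞 j)).2 : Set ℝ)
      - sInf ((k : Σ j : ι, ↥(𝒞 j)).2 : Set ℝ)) / 2)
      / H (k : Σ j : ι, ↥(𝒞 j)).1 < 1 := by
    rw [← ENNReal.ofReal_lt_ofReal_iff one_pos, ENNReal.ofReal_one]
    rw [ENNReal.ofReal_sum_of_nonneg (fun k _ => div_nonneg (hw0 _) (hH _).le)]
    have hterm : ∀ k : (Σ j : ι, ↥(𝒞 j)),
        ENNReal.ofReal (((sSup (k.2 : Set ℝ) - sInf (k.2 : Set ℝ)) / 2) / H k.1)
        ≤ volume (k.2 : Set ℝ) / ENNReal.ofReal (d k.1) := by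
      intro k
      have e : ((sSup (k.2 : Set ℝ) - sInf (k.2 : Set ℝ)) / 2) / H k.1
          = (sSup (k.2 : Set ℝ) - sInf (k.2 : Set ℝ)) / d k.1 := by
        have h1 := (hH k.1).ne'
        have h2 : d k.1 = 2 * H k.1 := by rw [hd]
        rw [h2]
        field_simp
      rw [e, ENNReal.ofReal_div_of_pos (hdpos k.1)]
      exact ENNReal.div_le_div_right (hvg k).1 _
    calc ∑ k : ↥t, ENNReal.ofReal (((sSup ((k : Σ j : ι, ↥(𝒞 j)).2 : Set ℝ)
          - sInf ((k : Σ j : ι, ↥(𝒞 j)).2 : Set ℝ)) / 2)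
          / H (k : Σ j : ι, ↥(𝒞 j)).1)
        ≤ ∑ k : ↥t, volume (((k : Σ j : ι, ↥(𝒞 j)).2 : Set ℝ))
            / ENNReal.ofReal (d (k : Σ j : ι, ↥(𝒞 j)).1) :=
          Finset.sum_le_sum (fun k _ => hterm k)
      _ = ∑ k ∈ t, volume ((k.2 : Set ℝ)) / ENNReal.ofReal (d k.1) :=
          Finset.sum_coe_sort t (fun k => volume ((k.2 : Set ℝ)) / ENNReal.ofReal (d k.1))
      _ ≤ ∑' k : (Σ j : ι, ↥(𝒞 j)), volume ((k.2 : Set ℝ)) / ENNReal.ofReal (d k.1) :=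
          ENNReal.sum_le_tsum t
      _ = ∑' j : ι, ∑' C : ↥(𝒞 j), volume (C : Set ℝ) / ENNReal.ofReal (d j) :=
          ENNReal.tsum_sigma (fun j (C : ↥(𝒞 j)) => volume (C : Set ℝ) / ENNReal.ofReal (d j))
      _ = ∑ j : ι, ∑' C : ↥(𝒞 j), volume (C : Set ℝ) / ENNReal.ofReal (d j) := tsum_fintype _
      _ = ∑ j : ι, (∑' C : ↥(𝒞 j), volume (C : Set ℝ)) / ENNReal.ofReal (d j) := by
          apply Finset.sum_congr rfl
          intro j _
          simp_rw [div_eq_mul_inv]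
          rw [ENNReal.tsum_mul_right]
      _ ≤ ∑ j : ι, (volume (S j) + ENNReal.ofReal η) / ENNReal.ofReal (d j) := by
          apply Finset.sum_le_sum
          intro j _
          exact ENNReal.div_le_div_right ((h𝒞vol j).trans (hUv j).le) _
      _ = sE + ENNReal.ofReal (η * D) := by
          simp_rw [ENNReal.add_div]
          rw [Finset.sum_add_distrib, ← hsE]
          congr 1
          rw [hD, Finset.mul_sum, ENNReal.ofReal_sum_of_nonneg
            (fun j _ => mul_nonneg hη0.le (div_pos one_pos (hdpos j)).le)]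
          apply Finset.sum_congr rfl
          intro j _
          rw [← ENNReal.ofReal_div_of_pos (hdpos j)]
          congr 1
          ring
      _ = ENNReal.ofReal (σ + η * D) := by
          rw [ENNReal.ofReal_add hσ0 (mul_nonneg hη0.le hD0), hσE]
      _ < 1 := by
          rw [← ENNReal.ofReal_one]
          exact (ENNReal.ofReal_lt_ofReal_iff one_pos).mpr hηD
  obtain ⟨x1, x2, hxL, hpq⟩ := sym_plank L hLc.isClosed hLconv hr hsym hr1 hr2
    (fun k : ↥t => a (k : Σ j : ι, ↥(𝒞 j)).1) (fun k : ↥t => b (k : Σ j : ι, ↥(𝒞 j)).1)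
    (fun k : ↥t => (sInf ((k : Σ j : ι, ↥(𝒞 j)).2 : Set ℝ)
      + sSup ((k : Σ j : ι, ↥(𝒞 j)).2 : Set ℝ)) / 2)
    (fun k : ↥t => (sSup ((k : Σ j : ι, ↥(𝒞 j)).2 : Set ℝ)
      - sInf ((k : Σ j : ι, ↥(𝒞 j)).2 : Set ℝ)) / 2)
    (fun k : ↥t => H (k : Σ j : ι, ↥(𝒞 j)).1)
    (fun k => hH _) (fun k => hHat _) (fun k => hw0 _) hsum
  have hmem := ht hxL
  obtain ⟨k, hk, hkV⟩ := mem_iUnion₂.mp hmem
  rw [hV] at hkV
  have hin := (hvg k).2 hkV
  have hlt2 := hpq ⟨k, hk⟩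
  simp only at hlt2
  have : |a k.1 * x1 + b k.1 * x2 - (sInf (k.2 : Set ℝ) + sSup (k.2 : Set ℝ)) / 2|
      ≤ (sSup (k.2 : Set ℝ) - sInf (k.2 : Set ℝ)) / 2 := by
    rw [abs_le]
    constructor <;> linarith [hin.1, hin.2]
  linarith

end Vale.Agent.Helper11
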