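import Vale.Agent.Helper11.SqPlankMeas

/-!
# Bang's plank theorem for compact convex sets in the plane

If every directional width of a compact convex set `L` in the plane is at least `W`, and `L` is
covered by finitely many sets `{x : a j * x.1 + b j * x.2 ∈ S j}` with unit vectors `(a j, b j)`
and arbitrary sets `S j` of reals, then the measures of the `S j` add up to at least `W`.
The proof is Bang's: shrink the set along the plank normals, then apply the sign lemma.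
-/

namespace Vale.Agent.Helper11

open Set MeasureTheory

/-- Every directional width of `L` is at least `W`. -/
def WidthGE (L : Set (ℝ × ℝ)) (W : ℝ) : Prop :=
  ∀ α β : ℝ, α ^ 2 + β ^ 2 = 1 → ∃ p ∈ L, ∃ q ∈ L, W ≤ α * (p.1 - q.1) + β * (p.2 - q.2)

theorem WidthGE.mono {L : Set (ℝ × ℝ)} {W W' : ℝ} (h : WidthGE L W) (hW : W' ≤ W) :
    WidthGE L W' := by
  intro α β hαβ
  obtain ⟨p, hp, q, hq, hpq⟩ := h α β hαβ
  exact ⟨p, hp, q, hq, hW.trans hpq⟩

theorem WidthGE.nonempty {L : Set (ℝ × ℝ)} {W : ℝ} (h : WidthGE L W) : L.Nonempty := by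
  obtain ⟨p, hp, -⟩ := h 1 0 (by norm_num)
  exact ⟨p, hp⟩

/-- A compact convex set of width at least `t` in every direction contains a chord of length `t`
in every direction. -/
theorem exists_chord {L : Set (ℝ × ℝ)} (hLc : IsCompact L) (hL : Convex ℝ L) {t : ℝ}
    (ht0 : 0 ≤ t) (hW : WidthGE L t) {a b : ℝ} (hab : a ^ 2 + b ^ 2 = 1) :
    ∃ c ∈ L, (c.1 + t * a, c.2 + t * b) ∈ L := by
  by_contra hcon
  push Not at hcon
  obtain ⟨T, hT⟩ : ∃ T : Set (ℝ × ℝ),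
      T = (fun x : ℝ × ℝ => (x.1 + t * a, x.2 + t * b)) ⁻¹' L := ⟨_, rfl⟩
  have hTconv : Convex ℝ T := by
    rw [hT]
    intro x hx y hy r s hr hs hrs
    have h := hL hx hy hr hs hrs
    rw [mem_preimage]
    convert h using 1
    ext
    · simp only [Prod.fst_add, Prod.smul_fst, smul_eq_mul]
      linear_combination (-(t * a)) * hrs
    · simp only [Prod.snd_add, Prod.smul_snd, smul_eq_mul]
      linear_combination (-(t * b)) * hrs
  have hTclosed : IsClosed T := by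
    rw [hT]
    exact hLc.isClosed.preimage (by fun_prop)
  have hdisj : Disjoint L T := by
    rw [Set.disjoint_left]
    intro x hx hxT
    rw [hT] at hxT
    exact hcon x hx hxT
  obtain ⟨f, u, v, hfu, huv, hfv⟩ :=
    geometric_hahn_banach_compact_closed hL hLc hTconv hTclosed hdisj
  obtain ⟨α₀, hα⟩ : ∃ α₀ : ℝ, α₀ = f ((1 : ℝ), (0 : ℝ)) := ⟨_, rfl⟩
  obtain ⟨β₀, hβ⟩ : ∃ β₀ : ℝ, β₀ = f ((0 : ℝ), (1 : ℝ)) := ⟨_, rfl⟩
  have hf : ∀ x : ℝ × ℝ, f x = α₀ * x.1 + β₀ * x.2 := by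
    intro x
    have e : x = x.1 • ((1 : ℝ), (0 : ℝ)) + x.2 • ((0 : ℝ), (1 : ℝ)) := by
      ext <;> simp
    conv_lhs => rw [e]
    rw [map_add, map_smul, map_smul, ← hα, ← hβ]
    simp only [smul_eq_mul]
    ring
  have hkey : ∀ p ∈ L, ∀ q ∈ L,
      α₀ * (p.1 - q.1) + β₀ * (p.2 - q.2) < -(t * (α₀ * a + β₀ * b)) := by
    intro p hp q hq
    have h1 := hfu p hp
    have hq' : ((q.1 - t * a, q.2 - t * b) : ℝ × ℝ) ∈ T := by
      rw [hT, mem_preimage]
      simpa using hq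
    have h2 := hfv _ hq'
    rw [hf] at h1 h2
    simp only at h2
    linarith
  obtain ⟨p0, hp0⟩ := hW.nonempty
  have h0 := hkey p0 hp0 p0 hp0
  simp only [sub_self, mul_zero, add_zero] at h0
  obtain ⟨s, hs⟩ : ∃ s : ℝ, s = α₀ * a + β₀ * b := ⟨_, rfl⟩
  rw [← hs] at h0 hkey
  have hr2 : 0 < α₀ ^ 2 + β₀ ^ 2 := by
    by_contra hneg
    push Not at hneg
    have h1 : α₀ ^ 2 = 0 := by nlinarith [sq_nonneg α₀, sq_nonneg β₀]
    have h2 : β₀ ^ 2 = 0 := by nlinarith [sq_nonneg α₀, sq_nonneg β₀]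
    have h3 : α₀ = 0 := by simpa using h1
    have h4 : β₀ = 0 := by simpa using h2
    rw [hs, h3, h4] at h0
    simp at h0
  obtain ⟨r, hr⟩ : ∃ r : ℝ, r = Real.sqrt (α₀ ^ 2 + β₀ ^ 2) := ⟨_, rfl⟩
  have hr0 : 0 < r := by rw [hr]; exact Real.sqrt_pos.mpr hr2
  have hrsq : r ^ 2 = α₀ ^ 2 + β₀ ^ 2 := by rw [hr]; exact Real.sq_sqrt hr2.le
  have hunit : (α₀ / r) ^ 2 + (β₀ / r) ^ 2 = 1 := by
    rw [div_pow, div_pow, ← add_div, hrsq]
    exact div_self hr2.ne'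
  obtain ⟨p, hp, q, hq, hpq⟩ := hW _ _ hunit
  have h1 := hkey p hp q hq
  have e : α₀ / r * (p.1 - q.1) + β₀ / r * (p.2 - q.2)
      = (α₀ * (p.1 - q.1) + β₀ * (p.2 - q.2)) / r := by ring
  rw [e, le_div_iff₀ hr0] at hpq
  have hsr : s ^ 2 ≤ r ^ 2 := by
    rw [hrsq, hs]
    have h5 : (α₀ ^ 2 + β₀ ^ 2) - (α₀ * a + β₀ * b) ^ 2 = (α₀ * b - β₀ * a) ^ 2 := by
      have : (α₀ ^ 2 + β₀ ^ 2) = (α₀ ^ 2 + β₀ ^ 2) * (a ^ 2 + b ^ 2) := by rw [hab, mul_one]
      rw [this]; ring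
    nlinarith [sq_nonneg (α₀ * b - β₀ * a)]
  have hsr' : |s| ≤ r := abs_le_of_sq_le_sq hsr hr0.le
  have hs1 : -s ≤ r := (neg_le_abs s).trans hsr'
  -- t * r ≤ ... < -(t * s) ≤ t * r when t ≥ 0; and t > 0 is forced
  have ht : 0 < t := by
    rcases ht0.eq_or_lt with h | h
    · rw [← h] at h0
      simp at h0
    · exact h
  nlinarith

/-- The points of the plane whose two translates by `∓ c • (a, b)` lie in `L`. -/
def shrinkSet (L : Set (ℝ × ℝ)) (c a b : ℝ) : Set (ℝ × ℝ) :=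
  (fun x : ℝ × ℝ => (x.1 - c * a, x.2 - c * b)) ⁻¹' L ∩
    (fun x : ℝ × ℝ => (x.1 + c * a, x.2 + c * b)) ⁻¹' L

theorem mem_shrinkSet {L : Set (ℝ × ℝ)} {c a b : ℝ} {x : ℝ × ℝ} :
    x ∈ shrinkSet L c a b ↔
      (x.1 - c * a, x.2 - c * b) ∈ L ∧ (x.1 + c * a, x.2 + c * b) ∈ L := Iff.rfl

theorem isCompact_shrinkSet {L : Set (ℝ × ℝ)} (hLc : IsCompact L) (c a b : ℝ) :
    IsCompact (shrinkSet L c a b) := by
  have hcl : IsClosed (shrinkSet L c a b) :=
    (hLc.isClosed.preimage (by fun_prop)).inter (hLc.isClosed.preimage (by fun_prop))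
  have himg : IsCompact ((fun x : ℝ × ℝ => (x.1 + c * a, x.2 + c * b)) '' L) :=
    hLc.image (by fun_prop)
  apply himg.of_isClosed_subset hcl
  intro x hx
  refine ⟨_, hx.1, ?_⟩
  ext <;> simp

theorem convex_shrinkSet {L : Set (ℝ × ℝ)} (hL : Convex ℝ L) (c a b : ℝ) :
    Convex ℝ (shrinkSet L c a b) := by
  intro x hx y hy r s hr hs hrs
  rw [mem_shrinkSet] at hx hy ⊢
  constructor
  · have h := hL hx.1 hy.1 hr hs hrs
    convert h using 1
    ext
    · simp only [Prod.fst_add, Prod.smul_fst, smul_eq_mul]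
      linear_combination (c * a) * hrs
    · simp only [Prod.snd_add, Prod.smul_snd, smul_eq_mul]
      linear_combination (c * b) * hrs
  · have h := hL hx.2 hy.2 hr hs hrs
    convert h using 1
    ext
    · simp only [Prod.fst_add, Prod.smul_fst, smul_eq_mul]
      linear_combination (-(c * a)) * hrs
    · simp only [Prod.snd_add, Prod.smul_snd, smul_eq_mul]
      linear_combination (-(c * b)) * hrs

/-- Bang's shrinking lemma: the set of midpoints of chords of length `2 c` in a unit direction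
has all widths at least `W - 2 c`. -/
theorem widthGE_shrinkSet {L : Set (ℝ × ℝ)} (hLc : IsCompact L) (hL : Convex ℝ L) {W c : ℝ}
    (hc : 0 ≤ c) (hcW : 2 * c ≤ W) (hW : WidthGE L W) {a b : ℝ} (hab : a ^ 2 + b ^ 2 = 1) :
    WidthGE (shrinkSet L c a b) (W - 2 * c) := by
  intro α β hαβ
  rcases eq_or_lt_of_le (by linarith : (0 : ℝ) ≤ W) with hW0 | hW0
  · have hc0 : c = 0 := by linarith
    obtain ⟨p, hp⟩ := hW.nonempty
    have hp' : p ∈ shrinkSet L c a b := by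
      rw [mem_shrinkSet, hc0]
      simpa using hp
    refine ⟨p, hp', p, hp', ?_⟩
    simp only [sub_self, mul_zero, add_zero]
    linarith
  · obtain ⟨e, he, he'⟩ := exists_chord hLc hL hW0.le hW hab
    obtain ⟨p, hp, q, hq, hpq⟩ := hW α β hαβ
    obtain ⟨μ, hμ⟩ : ∃ μ : ℝ, μ = 2 * c / W := ⟨_, rfl⟩
    have hμW : μ * W = 2 * c := by rw [hμ]; field_simp
    have hμ0 : 0 ≤ μ := by rw [hμ]; exact div_nonneg (by linarith) hW0.le
    have hμ1 : μ ≤ 1 := by rw [hμ, div_le_one hW0]; exact hcW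
    have hlam : 0 ≤ 1 - μ := by linarith
    have hone : (1 - μ) + μ = 1 := by ring
    have key : ∀ y ∈ L, ((1 - μ) * y.1 + μ * (e.1 + W / 2 * a),
        (1 - μ) * y.2 + μ * (e.2 + W / 2 * b)) ∈ shrinkSet L c a b := by
      intro y hy
      rw [mem_shrinkSet]
      constructor
      · have h := hL hy he hlam hμ0 hone
        convert h using 1
        ext
        · simp only [Prod.fst_add, Prod.smul_fst, smul_eq_mul]
          linear_combination (a / 2) * hμW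
        · simp only [Prod.snd_add, Prod.smul_snd, smul_eq_mul]
          linear_combination (b / 2) * hμW
      · have h := hL hy he' hlam hμ0 hone
        convert h using 1
        ext
        · simp only [Prod.fst_add, Prod.smul_fst, smul_eq_mul]
          linear_combination (-a / 2) * hμW
        · simp only [Prod.snd_add, Prod.smul_snd, smul_eq_mul]
          linear_combination (-b / 2) * hμW
    refine ⟨_, key p hp, _, key q hq, ?_⟩
    simp only
    have e1 : α * ((1 - μ) * p.1 + μ * (e.1 + W / 2 * a) - ((1 - μ) * q.1 + μ * (e.1 + W / 2 * a)))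
        + β * ((1 - μ) * p.2 + μ * (e.2 + W / 2 * b) - ((1 - μ) * q.2 + μ * (e.2 + W / 2 * b)))
        = (1 - μ) * (α * (p.1 - q.1) + β * (p.2 - q.2)) := by ring
    rw [e1]
    have h2 : (1 - μ) * W ≤ (1 - μ) * (α * (p.1 - q.1) + β * (p.2 - q.2)) :=
      mul_le_mul_of_nonneg_left hpq hlam
    linarith

/-- Bang's centre: if the widths `2 c j` add up to at most `W`, some translate of all the sign
combinations `∑ ± c j • (a j, b j)` lies in `L`. -/
theorem exists_center {κ : Type*} [DecidableEq κ] (a b c : κ → ℝ)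
    (hab : ∀ j, a j ^ 2 + b j ^ 2 = 1) (hc : ∀ j, 0 ≤ c j) (s : Finset κ) :
    ∀ (L : Set (ℝ × ℝ)) (W : ℝ), IsCompact L → Convex ℝ L → WidthGE L W →
      ∑ j ∈ s, 2 * c j ≤ W →
      ∃ x : ℝ × ℝ, ∀ ε : κ → Bool,
        (x.1 + ∑ j ∈ s, sgn (ε j) * c j * a j, x.2 + ∑ j ∈ s, sgn (ε j) * c j * b j) ∈ L := by
  induction s using Finset.induction_on with
  | empty =>
    intro L W hLc hL hW hsum
    obtain ⟨p, hp⟩ := hW.nonempty
    refine ⟨p, fun ε => ?_⟩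
    simpa using hp
  | insert j₀ s hj₀ ih =>
    intro L W hLc hL hW hsum
    rw [Finset.sum_insert hj₀] at hsum
    have hs0 : 0 ≤ ∑ j ∈ s, 2 * c j :=
      Finset.sum_nonneg (fun j _ => by have := hc j; linarith)
    obtain ⟨x, hx⟩ := ih (shrinkSet L (c j₀) (a j₀) (b j₀)) (W - 2 * c j₀)
      (isCompact_shrinkSet hLc _ _ _) (convex_shrinkSet hL _ _ _)
      (widthGE_shrinkSet hLc hL (hc j₀) (by linarith) hW (hab j₀)) (by linarith)
    refine ⟨x, fun ε => ?_⟩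
    rw [Finset.sum_insert hj₀, Finset.sum_insert hj₀]
    have hmem := hx ε
    rw [mem_shrinkSet] at hmem
    cases hε : ε j₀ with
    | true =>
      have h := hmem.2
      convert h using 1
      ext
      · simp only [sgn, if_true]; ring
      · simp only [sgn, if_true]; ring
    | false =>
      have h := hmem.1
      convert h using 1
      ext
      · simp only [sgn, Bool.false_eq_true, if_false]; ring
      · simp only [sgn, Bool.false_eq_true, if_false]; ring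

/-- Bang's sign lemma for unit vectors. -/
theorem bang_unit {κ : Type*} [Fintype κ] (a b m c : κ → ℝ) (hab : ∀ j, a j ^ 2 + b j ^ 2 = 1)
    (hc : ∀ j, 0 ≤ c j) :
    ∃ ε : κ → Bool, ∀ i, c i ≤
      |a i * (∑ j, sgn (ε j) * c j * a j) + b i * (∑ j, sgn (ε j) * c j * b j) - m i| := by
  obtain ⟨ε, hε⟩ := sq_bang a b m c hc 1
  refine ⟨ε, fun i => ?_⟩
  have h := hε i
  rw [one_mul, one_mul, hab i, mul_one] at h
  exact h

/-- **Bang's plank theorem in the plane**, for finitely many closed strips. -/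
theorem planar_plank {κ : Type*} [Fintype κ] {L : Set (ℝ × ℝ)} (hLc : IsCompact L)
    (hL : Convex ℝ L) {W : ℝ} (hW : WidthGE L W) (a b m c : κ → ℝ)
    (hab : ∀ j, a j ^ 2 + b j ^ 2 = 1) (hc : ∀ j, 0 ≤ c j) (hsum : ∑ j, 2 * c j < W) :
    ∃ x ∈ L, ∀ j, c j < |a j * x.1 + b j * x.2 - m j| := by
  classical
  obtain ⟨σ, hσ⟩ : ∃ σ : ℝ, σ = ∑ j, 2 * c j := ⟨_, rfl⟩
  rw [← hσ] at hsum
  obtain ⟨n, hn⟩ : ∃ n : ℝ, n = (Fintype.card κ : ℝ) := ⟨_, rfl⟩
  have hn0 : 0 ≤ n := by rw [hn]; positivity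
  obtain ⟨η, hη⟩ : ∃ η : ℝ, η = (W - σ) / (2 * (n + 1)) := ⟨_, rfl⟩
  have hη0 : 0 < η := by
    rw [hη]
    exact div_pos (by linarith) (by linarith)
  have hsum' : ∑ j, 2 * (c j + η) ≤ W := by
    have e : ∀ j, 2 * (c j + η) = 2 * c j + 2 * η := fun j => by ring
    simp_rw [e]
    rw [Finset.sum_add_distrib, ← hσ]
    simp only [Finset.sum_const, Finset.card_univ, nsmul_eq_mul]
    rw [← hn]
    have h2 : n * (2 * η) = (W - σ) * (n / (n + 1)) := by
      rw [hη]; field_simp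
    have h3 : n / (n + 1) ≤ 1 := by
      rw [div_le_one (by linarith)]
      linarith
    have h4 : (W - σ) * (n / (n + 1)) ≤ (W - σ) * 1 :=
      mul_le_mul_of_nonneg_left h3 (by linarith)
    linarith
  obtain ⟨x₀, hx₀⟩ := exists_center a b (fun j => c j + η) hab
    (fun j => by have := hc j; linarith) Finset.univ L W hLc hL hW hsum'
  obtain ⟨ε, hε⟩ := bang_unit a b (fun j => m j - (a j * x₀.1 + b j * x₀.2))
    (fun j => c j + η) hab (fun j => by have := hc j; linarith)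
  refine ⟨_, hx₀ ε, fun i => ?_⟩
  have h := hε i
  simp only at h ⊢
  have e : a i * (x₀.1 + ∑ j, sgn (ε j) * (c j + η) * a j)
      + b i * (x₀.2 + ∑ j, sgn (ε j) * (c j + η) * b j) - m i
      = a i * (∑ j, sgn (ε j) * (c j + η) * a j) + b i * (∑ j, sgn (ε j) * (c j + η) * b j)
        - (m i - (a i * x₀.1 + b i * x₀.2)) := by ring
  rw [e]
  linarith

/-- **Bang's plank theorem in the plane, measure form.**  If a compact convex set `L`, all of
whose directional widths are at least `W`, is covered by the sets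
`{x : a j * x.1 + b j * x.2 ∈ S j}` with unit vectors `(a j, b j)` and arbitrary sets `S j` of
reals, then the measures of the `S j` add up to at least `W`. -/
theorem planar_plank_measure {ι : Type*} [Fintype ι] {L : Set (ℝ × ℝ)} (hLc : IsCompact L)
    (hL : Convex ℝ L) {W : ℝ} (hW : WidthGE L W) (a b : ι → ℝ) (S : ι → Set ℝ)
    (hab : ∀ j, a j ^ 2 + b j ^ 2 = 1)
    (hcov : ∀ x ∈ L, ∃ j, a j * x.1 + b j * x.2 ∈ S j) :
    ENNReal.ofReal W ≤ ∑ j, volume (S j) := by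
  classical
  by_contra hlt
  push Not at hlt
  obtain ⟨sE, hsE⟩ : ∃ sE : ENNReal, sE = ∑ j, volume (S j) := ⟨_, rfl⟩
  rw [← hsE] at hlt
  have hsEfin : sE ≠ ⊤ := (hlt.trans_le le_top).ne
  have hSfin : ∀ j, volume (S j) ≠ ⊤ := by
    intro j hj
    have h1 : volume (S j) ≤ sE := by
      rw [hsE]
      exact Finset.single_le_sum (f := fun j => volume (S j))
        (fun i _ => zero_le) (Finset.mem_univ j)
    rw [hj] at h1
    exact hsEfin (top_le_iff.mp h1)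
  obtain ⟨σ, hσ⟩ : ∃ σ : ℝ, σ = sE.toReal := ⟨_, rfl⟩
  have hσ0 : 0 ≤ σ := by rw [hσ]; exact ENNReal.toReal_nonneg
  have hσE : ENNReal.ofReal σ = sE := by rw [hσ]; exact ENNReal.ofReal_toReal hsEfin
  have hσW : σ < W := by
    rw [← hσE] at hlt
    exact (ENNReal.ofReal_lt_ofReal_iff_of_nonneg hσ0).mp hlt
  have hWpos : 0 < W := lt_of_le_of_lt hσ0 hσW
  obtain ⟨n, hn⟩ : ∃ n : ℝ, n = (Fintype.card ι : ℝ) := ⟨_, rfl⟩
  have hn0 : 0 ≤ n := by rw [hn]; positivity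
  obtain ⟨η, hη⟩ : ∃ η : ℝ, η = (W - σ) / (2 * (n + 1)) := ⟨_, rfl⟩
  have hη0 : 0 < η := by
    rw [hη]
    exact div_pos (by linarith) (by linarith)
  have hηn : σ + n * η < W := by
    have h2 : n * η = (W - σ) * (n / (2 * (n + 1))) := by
      rw [hη]; field_simp
    have h3 : n / (2 * (n + 1)) < 1 := by
      rw [div_lt_one (by linarith)]
      linarith
    have h4 : (W - σ) * (n / (2 * (n + 1))) < (W - σ) * 1 :=
      mul_lt_mul_of_pos_left h3 (by linarith)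
    linarith
  -- open supersets
  have hopen : ∀ j, ∃ U : Set ℝ, S j ⊆ U ∧ IsOpen U ∧
      volume U < volume (S j) + ENNReal.ofReal η := by
    intro j
    obtain ⟨U, hSU, hUo, hUv⟩ := (S j).exists_isOpen_lt_add (hSfin j)
      (ENNReal.ofReal_pos.mpr hη0).ne'
    exact ⟨U, hSU, hUo, hUv⟩
  choose U hSU hUo hUv using hopen
  have hcomp : ∀ j, ∃ 𝒞 : Set (Set ℝ),
      (∀ C ∈ 𝒞, IsOpen C ∧ C.OrdConnected ∧ C.Nonempty ∧ C ⊆ U j) ∧
      (∀ y ∈ U j, ∃ C ∈ 𝒞, y ∈ C) ∧ ∑' C : 𝒞, volume (C : Set ℝ) ≤ volume (U j) :=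
    fun j => open_components (hUo j)
  choose 𝒞 h𝒞 h𝒞cov h𝒞vol using hcomp
  have hUfin : ∀ j, volume (U j) ≠ ⊤ := by
    intro j
    exact ((hUv j).trans_le le_top).ne
  have hCfin : ∀ j, ∀ C ∈ 𝒞 j, volume C ≠ ⊤ := by
    intro j C hC
    exact ne_top_of_le_ne_top (hUfin j) (measure_mono (h𝒞 j C hC).2.2.2)
  -- finite subcover
  obtain ⟨V, hV⟩ : ∃ V : (Σ j : ι, ↥(𝒞 j)) → Set (ℝ × ℝ),
      V = fun k => {x : ℝ × ℝ | a k.1 * x.1 + b k.1 * x.2 ∈ (k.2 : Set ℝ)} := ⟨_, rfl⟩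
  have hVo : ∀ k, IsOpen (V k) := by
    intro k
    rw [hV]
    exact (h𝒞 k.1 k.2 k.2.2).1.preimage (by fun_prop)
  have hLcov : L ⊆ ⋃ k, V k := by
    intro x hx
    obtain ⟨j, hj⟩ := hcov x hx
    obtain ⟨C, hC, hyC⟩ := h𝒞cov j _ (hSU j hj)
    refine mem_iUnion.mpr ⟨⟨j, ⟨C, hC⟩⟩, ?_⟩
    rw [hV]
    exact hyC
  obtain ⟨t, ht⟩ := hLc.elim_finite_subcover V hVo hLcov
  have hbdd : ∀ k : (Σ j : ι, ↥(𝒞 j)), BddBelow (k.2 : Set ℝ) ∧ BddAbove (k.2 : Set ℝ) :=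
    fun k => ordConnected_bdd (h𝒞 k.1 k.2 k.2.2).2.1 (hCfin k.1 k.2 k.2.2)
  have hvg : ∀ k : (Σ j : ι, ↥(𝒞 j)),
      ENNReal.ofReal (sSup (k.2 : Set ℝ) - sInf (k.2 : Set ℝ)) ≤ volume (k.2 : Set ℝ) ∧
      (k.2 : Set ℝ) ⊆ Icc (sInf (k.2 : Set ℝ)) (sSup (k.2 : Set ℝ)) :=
    fun k => ordConnected_volume_ge (h𝒞 k.1 k.2 k.2.2).2.1 (h𝒞 k.1 k.2 k.2.2).2.2.1
      (hbdd k).1 (hbdd k).2
  have hw0 : ∀ k : (Σ j : ι, ↥(𝒞 j)), 0 ≤ (sSup (k.2 : Set ℝ) - sInf (k.2 : Set ℝ)) / 2 := by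
    intro k
    obtain ⟨y, hy⟩ := (h𝒞 k.1 k.2 k.2.2).2.2.1
    have := (hvg k).2 hy
    have : sInf (k.2 : Set ℝ) ≤ sSup (k.2 : Set ℝ) := this.1.trans this.2
    linarith
  have hsum : ∑ k : ↥t, 2 * ((sSup ((k : Σ j : ι, ↥(𝒞 j)).2 : Set ℝ)
      - sInf ((k : Σ j : ι, ↥(𝒞 j)).2 : Set ℝ)) / 2) < W := by
    rw [← ENNReal.ofReal_lt_ofReal_iff hWpos]
    rw [ENNReal.ofReal_sum_of_nonneg (fun k _ => mul_nonneg (by norm_num) (hw0 _))]
    have hterm : ∀ k : (Σ j : ι, ↥(𝒞 j)),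
        ENNReal.ofReal (2 * ((sSup (k.2 : Set ℝ) - sInf (k.2 : Set ℝ)) / 2))
        ≤ volume (k.2 : Set ℝ) := by
      intro k
      have e : 2 * ((sSup (k.2 : Set ℝ) - sInf (k.2 : Set ℝ)) / 2)
          = sSup (k.2 : Set ℝ) - sInf (k.2 : Set ℝ) := by ring
      rw [e]
      exact (hvg k).1
    calc ∑ k : ↥t, ENNReal.ofReal (2 * ((sSup ((k : Σ j : ι, ↥(𝒞 j)).2 : Set ℝ)
          - sInf ((k : Σ j : ι, ↥(𝒞 j)).2 : Set ℝ)) / 2))
        ≤ ∑ k : ↥t, volume (((k : Σ j : ι, ↥(𝒞 j)).2 : Set ℝ)) :=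
          Finset.sum_le_sum (fun k _ => hterm k)
      _ = ∑ k ∈ t, volume ((k.2 : Set ℝ)) :=
          Finset.sum_coe_sort t (fun k => volume ((k.2 : Set ℝ)))
      _ ≤ ∑' k : (Σ j : ι, ↥(𝒞 j)), volume ((k.2 : Set ℝ)) := ENNReal.sum_le_tsum t
      _ = ∑' j : ι, ∑' C : ↥(𝒞 j), volume (C : Set ℝ) :=
          ENNReal.tsum_sigma (fun j (C : ↥(𝒞 j)) => volume (C : Set ℝ))
      _ = ∑ j : ι, ∑' C : ↥(𝒞 j), volume (C : Set ℝ) := tsum_fintype _
      _ ≤ ∑ j : ι, (volume (S j) + ENNReal.ofReal η) := by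
          apply Finset.sum_le_sum
          intro j _
          exact (h𝒞vol j).trans (hUv j).le
      _ = sE + ENNReal.ofReal (n * η) := by
          rw [Finset.sum_add_distrib, ← hsE]
          congr 1
          simp only [Finset.sum_const, Finset.card_univ, nsmul_eq_mul]
          rw [ENNReal.ofReal_mul hn0, hn, ENNReal.ofReal_natCast]
      _ = ENNReal.ofReal (σ + n * η) := by
          rw [ENNReal.ofReal_add hσ0 (mul_nonneg hn0 hη0.le), hσE]
      _ < ENNReal.ofReal W := (ENNReal.ofReal_lt_ofReal_iff hWpos).mpr hηn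
  obtain ⟨x, hxL, hx⟩ := planar_plank hLc hL hW
    (fun k : ↥t => a (k : Σ j : ι, ↥(𝒞 j)).1) (fun k : ↥t => b (k : Σ j : ι, ↥(𝒞 j)).1)
    (fun k : ↥t => (sInf ((k : Σ j : ι, ↥(𝒞 j)).2 : Set ℝ)
      + sSup ((k : Σ j : ι, ↥(𝒞 j)).2 : Set ℝ)) / 2)
    (fun k : ↥t => (sSup ((k : Σ j : ι, ↥(𝒞 j)).2 : Set ℝ)
      - sInf ((k : Σ j : ι, ↥(𝒞 j)).2 : Set ℝ)) / 2)
    (fun k => hab _) (fun k => hw0 _) hsum
  have hmem := ht hxL
  obtain ⟨k, hk, hkV⟩ := mem_iUnion₂.mp hmem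
  rw [hV] at hkV
  have hin := (hvg k).2 hkV
  have hlt2 := hx ⟨k, hk⟩
  simp only at hlt2
  have : |a k.1 * x.1 + b k.1 * x.2 - (sInf (k.2 : Set ℝ) + sSup (k.2 : Set ℝ)) / 2|
      ≤ (sSup (k.2 : Set ℝ) - sInf (k.2 : Set ℝ)) / 2 := by
    rw [abs_le]
    constructor <;> linarith [hin.1, hin.2]
  linarith

end Vale.Agent.Helper11
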