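import Mathlib

/-!
# A volume bound for the part of a convex body inside a cylinder

Model space: `(ℝ × ℝ) × ℝ`, points `(p, y)`; the cylinder over `B ⊆ ℝ × ℝ` is `Prod.fst ⁻¹' B`.
-/

namespace Vale.Agent.Helper11

open Set MeasureTheory

/-- The fibre of `G ⊆ (ℝ × ℝ) × ℝ` over the point `p` of the plane. -/
def fib (G : Set ((ℝ × ℝ) × ℝ)) (p : ℝ × ℝ) : Set ℝ := Prod.mk p ⁻¹' G

theorem fib_empty_of_notMem {G : Set ((ℝ × ℝ) × ℝ)} {p : ℝ × ℝ} (hp : p ∉ Prod.fst '' G) :
    fib G p = ∅ := by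
  ext y
  simp only [fib, mem_preimage, mem_empty_iff_false, iff_false]
  intro h
  exact hp ⟨(p, y), h, rfl⟩

theorem measurable_volume_fib {G : Set ((ℝ × ℝ) × ℝ)} (hG : MeasurableSet G) :
    Measurable fun p => volume (fib G p) :=
  measurable_measure_prodMk_left hG

theorem volume_fib_le {G : Set ((ℝ × ℝ) × ℝ)} (p : ℝ × ℝ) :
    volume (fib G p) ≤ volume (Prod.snd '' G) := by
  apply measure_mono
  intro y hy
  exact ⟨(p, y), hy, rfl⟩

theorem volume_inter_cyl {G : Set ((ℝ × ℝ) × ℝ)} (hG : MeasurableSet G) {B : Set (ℝ × ℝ)}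
    (hB : MeasurableSet B) :
    volume (G ∩ Prod.fst ⁻¹' B) = ∫⁻ p in B, volume (fib G p) := by
  rw [Measure.volume_eq_prod, Measure.prod_apply (hG.inter (measurable_fst hB)),
    ← lintegral_indicator hB]
  congr 1
  funext p
  by_cases hp : p ∈ B
  · rw [indicator_of_mem hp]
    congr 1
    ext y
    simp [fib, hp]
  · rw [indicator_of_notMem hp]
    have : Prod.mk p ⁻¹' (G ∩ Prod.fst ⁻¹' B) = ∅ := by
      ext y
      simp [hp]
    rw [this, measure_empty]

theorem volume_eq_lintegral_fib {G : Set ((ℝ × ℝ) × ℝ)} (hG : MeasurableSet G) :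
    volume G = ∫⁻ p, volume (fib G p) := by
  rw [Measure.volume_eq_prod, Measure.prod_apply hG]
  rfl

/-- Fibres over a homothetic copy of the projection are at least proportionally long. -/
theorem fib_homothety_ge {G : Set ((ℝ × ℝ) × ℝ)} (hG : Convex ℝ G) {p₀ q : ℝ × ℝ}
    (hq : q ∈ Prod.fst '' G) {l : ℝ} (hl0 : 0 ≤ l) (hl1 : l ≤ 1) :
    ENNReal.ofReal (1 - l) * volume (fib G p₀) ≤ volume (fib G (AffineMap.homothety p₀ l q)) := by
  obtain ⟨⟨q', yq⟩, hmem, rfl⟩ := hq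
  have hsub : AffineMap.homothety yq (1 - l) '' fib G p₀ ⊆
      fib G (AffineMap.homothety p₀ l q') := by
    rintro _ ⟨y, hy, rfl⟩
    have h := hG hy hmem (sub_nonneg.mpr hl1) hl0 (by ring)
    show (AffineMap.homothety p₀ l q', AffineMap.homothety yq (1 - l) y) ∈ G
    have e : ((AffineMap.homothety p₀ l q', AffineMap.homothety yq (1 - l) y) : (ℝ × ℝ) × ℝ)
        = (1 - l) • (p₀, y) + l • (q', yq) := by
      simp only [AffineMap.homothety_apply, vsub_eq_sub, vadd_eq_add, Prod.smul_mk, Prod.mk_add_mk]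
      ext
      · simp only [Prod.fst_add, Prod.smul_fst, Prod.fst_sub, smul_eq_mul]; ring
      · simp only [Prod.snd_add, Prod.smul_snd, Prod.snd_sub, smul_eq_mul]; ring
      · simp only [smul_eq_mul]; ring
    rw [e]
    exact h
  calc ENNReal.ofReal (1 - l) * volume (fib G p₀)
      = volume (AffineMap.homothety yq (1 - l) '' fib G p₀) := by
        rw [Measure.addHaar_image_homothety]
        simp [abs_of_nonneg (sub_nonneg.mpr hl1)]
    _ ≤ volume (fib G (AffineMap.homothety p₀ l q')) := measure_mono hsub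

theorem homothety_mem_of_convex {D : Set (ℝ × ℝ)} (hD : Convex ℝ D) {p₀ q : ℝ × ℝ} (hp₀ : p₀ ∈ D)
    (hq : q ∈ D) {l : ℝ} (hl0 : 0 ≤ l) (hl1 : l ≤ 1) : AffineMap.homothety p₀ l q ∈ D := by
  have h := hD hp₀ hq (sub_nonneg.mpr hl1) hl0 (by ring)
  have e : (AffineMap.homothety p₀ l q : ℝ × ℝ) = (1 - l) • p₀ + l • q := by
    simp only [AffineMap.homothety_apply, vsub_eq_sub, vadd_eq_add]
    ext
    · simp only [Prod.fst_add, Prod.smul_fst, Prod.fst_sub, smul_eq_mul]; ring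
    · simp only [Prod.snd_add, Prod.smul_snd, Prod.snd_sub, smul_eq_mul]; ring
  rw [e]
  exact h

theorem lintegral_quad {s : ℝ} (hs0 : 0 ≤ s) (hs1 : s ≤ 1) :
    ∫⁻ t in Ioc (0 : ℝ) (1 - s), ENNReal.ofReal ((1 - t) ^ 2 - s ^ 2)
      = ENNReal.ofReal ((1 - 3 * s ^ 2 + 2 * s ^ 3) / 3) := by
  have hcont : Continuous fun t : ℝ => (1 - t) ^ 2 - s ^ 2 := by fun_prop
  have hint : IntegrableOn (fun t : ℝ => (1 - t) ^ 2 - s ^ 2) (Ioc 0 (1 - s)) :=
    (hcont.integrableOn_Icc (a := 0) (b := 1 - s)).mono_set Ioc_subset_Icc_self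
  have hnn : 0 ≤ᵐ[volume.restrict (Ioc (0 : ℝ) (1 - s))] fun t : ℝ => (1 - t) ^ 2 - s ^ 2 := by
    filter_upwards [ae_restrict_mem measurableSet_Ioc] with t ht
    have h1 : s ≤ 1 - t := by linarith [ht.2]
    have h2 : s ^ 2 ≤ (1 - t) ^ 2 := pow_le_pow_left₀ hs0 h1 2
    simpa using sub_nonneg.mpr h2
  rw [← ofReal_integral_eq_lintegral_ofReal hint hnn]
  congr 1
  rw [← intervalIntegral.integral_of_le (by linarith)]
  have hderiv : ∀ t ∈ Set.uIcc 0 (1 - s),
      HasDerivAt (fun t : ℝ => -(1 - t) ^ 3 / 3 - s ^ 2 * t) ((1 - t) ^ 2 - s ^ 2) t := by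
    intro t _
    have h1 : HasDerivAt (fun t : ℝ => 1 - t) (-1) t := by
      simpa using (hasDerivAt_id t).const_sub 1
    have h2 : HasDerivAt (fun t : ℝ => (1 - t) ^ 3) (3 * (1 - t) ^ 2 * (-1)) t := by
      have h := HasDerivAt.pow h1 3
      norm_num at h
      have e : (3 * (1 - t) ^ 2 * (-1) : ℝ) = -(3 * (1 - t) ^ 2) := by ring
      rw [e]
      exact h
    have h3 : HasDerivAt (fun t : ℝ => s ^ 2 * t) (s ^ 2) t := by
      simpa using (hasDerivAt_id t).const_mul (s ^ 2)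
    have h4 := (h2.neg.div_const 3).sub h3
    have e : -(3 * (1 - t) ^ 2 * -1) / 3 - s ^ 2 = (1 - t) ^ 2 - s ^ 2 := by ring
    rw [e] at h4
    exact h4
  rw [intervalIntegral.integral_eq_sub_of_hasDerivAt hderiv (hcont.intervalIntegrable _ _)]
  ring

/-- The volume of a convex body outside a cylinder whose base has relative area `s ^ 2`. -/
theorem lintegral_diff_ge {G : Set ((ℝ × ℝ) × ℝ)} (hG : Convex ℝ G) (hGc : IsCompact G)
    {B : Set (ℝ × ℝ)} (hB : MeasurableSet B) {s : ℝ} (hs0 : 0 ≤ s) (hs1 : s ≤ 1)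
    (hBs : volume (B ∩ Prod.fst '' G) = ENNReal.ofReal (s ^ 2) * volume (Prod.fst '' G))
    {p₀ : ℝ × ℝ} (hp₀ : p₀ ∈ Prod.fst '' G) :
    volume (fib G p₀) * (ENNReal.ofReal ((1 - 3 * s ^ 2 + 2 * s ^ 3) / 3) * volume (Prod.fst '' G))
      ≤ ∫⁻ p in Prod.fst '' G \ B, volume (fib G p) := by
  have hGm : MeasurableSet G := hGc.isClosed.measurableSet
  have hDc : IsCompact (Prod.fst '' G) := hGc.image continuous_fst
  have hDconv : Convex ℝ (Prod.fst '' G) := by
    have := hG.linear_image (LinearMap.fst ℝ (ℝ × ℝ) ℝ)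
    simpa using this
  have hPt : volume (Prod.fst '' G) ≠ ⊤ := hDc.measure_lt_top.ne
  have hZt : volume (Prod.snd '' G) ≠ ⊤ := (hGc.image continuous_snd).measure_lt_top.ne
  have hXt : ∀ p, volume (fib G p) ≠ ⊤ := fun p => ne_top_of_le_ne_top hZt (volume_fib_le p)
  by_cases ha0 : volume (fib G p₀) = 0
  · rw [ha0, zero_mul]; exact zero_le
  obtain ⟨ar, har⟩ : ∃ ar : ℝ, ar = (volume (fib G p₀)).toReal := ⟨_, rfl⟩
  have harpos : 0 < ar := by rw [har]; exact ENNReal.toReal_pos ha0 (hXt p₀)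
  have haof : ENNReal.ofReal ar = volume (fib G p₀) := by
    rw [har]; exact ENNReal.ofReal_toReal (hXt p₀)
  obtain ⟨Y, hY⟩ : ∃ Y : ℝ × ℝ → ℝ, Y = fun p => (volume (fib G p)).toReal / ar := ⟨_, rfl⟩
  have hYm : Measurable Y := by
    rw [hY]
    exact ((measurable_volume_fib hGm).ennreal_toReal).div_const _
  have hYnn : ∀ p, 0 ≤ Y p := by
    intro p; rw [hY]; exact div_nonneg ENNReal.toReal_nonneg harpos.le
  have e1 : ∀ p, volume (fib G p) = volume (fib G p₀) * ENNReal.ofReal (Y p) := by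
    intro p
    rw [hY]
    simp only
    rw [ENNReal.ofReal_div_of_pos harpos, ENNReal.ofReal_toReal (hXt p), haof,
      ENNReal.mul_div_cancel ha0 (hXt p₀)]
  -- layer cake
  have hlc := lintegral_eq_lintegral_meas_le (volume.restrict (Prod.fst '' G \ B))
    (Filter.Eventually.of_forall hYnn) hYm.aemeasurable
  -- pointwise lower bound
  have hpt : ∀ t ∈ Ioc (0 : ℝ) (1 - s),
      ENNReal.ofReal ((1 - t) ^ 2 - s ^ 2) * volume (Prod.fst '' G)
        ≤ (volume.restrict (Prod.fst '' G \ B)) {p | t ≤ Y p} := by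
    intro t ht
    have hl0 : 0 ≤ 1 - t := by linarith [ht.2]
    have hl1 : 1 - t ≤ 1 := by linarith [ht.1]
    have hsub : AffineMap.homothety p₀ (1 - t) '' (Prod.fst '' G) \ B ⊆
        {p | t ≤ Y p} ∩ (Prod.fst '' G \ B) := by
      rintro p ⟨⟨q, hq, rfl⟩, hpB⟩
      refine ⟨?_, homothety_mem_of_convex hDconv hp₀ hq hl0 hl1, hpB⟩
      have h := fib_homothety_ge hG (p₀ := p₀) hq hl0 hl1
      have h2 : t * ar ≤ (volume (fib G (AffineMap.homothety p₀ (1 - t) q))).toReal := by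
        have h3 := ENNReal.toReal_mono (hXt _) h
        rw [ENNReal.toReal_mul, ENNReal.toReal_ofReal (by linarith), ← har] at h3
        linarith
      show t ≤ Y (AffineMap.homothety p₀ (1 - t) q)
      rw [hY]
      simp only
      rw [le_div_iff₀ harpos]
      exact h2
    have hvol : volume (AffineMap.homothety p₀ (1 - t) '' (Prod.fst '' G))
        = ENNReal.ofReal ((1 - t) ^ 2) * volume (Prod.fst '' G) := by
      rw [Measure.addHaar_image_homothety]
      simp [abs_of_nonneg (sq_nonneg (1 - t))]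
    have hle : volume (AffineMap.homothety p₀ (1 - t) '' (Prod.fst '' G))
        ≤ volume (AffineMap.homothety p₀ (1 - t) '' (Prod.fst '' G) \ B)
          + volume (B ∩ Prod.fst '' G) := by
      refine (measure_mono ?_).trans (measure_union_le _ _)
      rintro p hp
      by_cases hpB : p ∈ B
      · right
        obtain ⟨q, hq, rfl⟩ := hp
        exact ⟨hpB, homothety_mem_of_convex hDconv hp₀ hq hl0 hl1⟩
      · left; exact ⟨hp, hpB⟩
    rw [Measure.restrict_apply' (hDc.isClosed.measurableSet.diff hB)]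
    calc ENNReal.ofReal ((1 - t) ^ 2 - s ^ 2) * volume (Prod.fst '' G)
        = ENNReal.ofReal ((1 - t) ^ 2) * volume (Prod.fst '' G)
          - ENNReal.ofReal (s ^ 2) * volume (Prod.fst '' G) := by
          rw [ENNReal.ofReal_sub _ (sq_nonneg s), ENNReal.sub_mul (fun _ _ => hPt)]
      _ = volume (AffineMap.homothety p₀ (1 - t) '' (Prod.fst '' G))
          - volume (B ∩ Prod.fst '' G) := by rw [hvol, hBs]
      _ ≤ volume (AffineMap.homothety p₀ (1 - t) '' (Prod.fst '' G) \ B) :=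
          tsub_le_iff_right.mpr hle
      _ ≤ volume ({p | t ≤ Y p} ∩ (Prod.fst '' G \ B)) := measure_mono hsub
  calc volume (fib G p₀) * (ENNReal.ofReal ((1 - 3 * s ^ 2 + 2 * s ^ 3) / 3)
        * volume (Prod.fst '' G))
      = volume (fib G p₀) * ∫⁻ t in Ioc (0 : ℝ) (1 - s),
          ENNReal.ofReal ((1 - t) ^ 2 - s ^ 2) * volume (Prod.fst '' G) := by
        rw [lintegral_mul_const' _ _ hPt, lintegral_quad hs0 hs1]
    _ ≤ volume (fib G p₀) * ∫⁻ t in Ioc (0 : ℝ) (1 - s),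
          (volume.restrict (Prod.fst '' G \ B)) {p | t ≤ Y p} := by
        gcongr 1
        exact setLIntegral_mono' measurableSet_Ioc hpt
    _ ≤ volume (fib G p₀) * ∫⁻ t in Ioi (0 : ℝ),
          (volume.restrict (Prod.fst '' G \ B)) {p | t ≤ Y p} := by
        gcongr 1
        exact lintegral_mono_set Ioc_subset_Ioi_self
    _ = volume (fib G p₀) * ∫⁻ p in Prod.fst '' G \ B, ENNReal.ofReal (Y p) := by rw [hlc]
    _ = ∫⁻ p in Prod.fst '' G \ B, volume (fib G p₀) * ENNReal.ofReal (Y p) := by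
        rw [lintegral_const_mul' _ _ (hXt p₀)]
    _ = ∫⁻ p in Prod.fst '' G \ B, volume (fib G p) := by
        simp_rw [← e1]

/-- The chord bound: if the base `B` meets the projection `D` of the convex body `G` in a set of
relative area `s ^ 2`, then the part of `G` inside the cylinder over `B` has volume at most
`3 s ^ 2 / (1 + 2 s ^ 3)` times the volume of `G`. -/
theorem chord_bound {G : Set ((ℝ × ℝ) × ℝ)} (hG : Convex ℝ G) (hGc : IsCompact G)
    {B : Set (ℝ × ℝ)} (hB : MeasurableSet B) {s : ℝ} (hs0 : 0 ≤ s) (hs1 : s ≤ 1)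
    (hBs : volume (B ∩ Prod.fst '' G) = ENNReal.ofReal (s ^ 2) * volume (Prod.fst '' G)) :
    volume (G ∩ Prod.fst ⁻¹' B) * ENNReal.ofReal (1 + 2 * s ^ 3)
      ≤ ENNReal.ofReal (3 * s ^ 2) * volume G := by
  have hGm : MeasurableSet G := hGc.isClosed.measurableSet
  have hDc : IsCompact (Prod.fst '' G) := hGc.image continuous_fst
  have hDm : MeasurableSet (Prod.fst '' G) := hDc.isClosed.measurableSet
  have hsubD : G ⊆ Prod.fst ⁻¹' (Prod.fst '' G) := fun x hx => ⟨x, hx, rfl⟩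
  -- the three integrals
  have eN : volume (G ∩ Prod.fst ⁻¹' B) = ∫⁻ p in Prod.fst '' G ∩ B, volume (fib G p) := by
    rw [← volume_inter_cyl hGm (hDm.inter hB)]
    congr 1
    ext x
    constructor
    · rintro ⟨hx, hxB⟩
      exact ⟨hx, hsubD hx, hxB⟩
    · rintro ⟨hx, -, hxB⟩
      exact ⟨hx, hxB⟩
  have eV : volume G = ∫⁻ p in Prod.fst '' G, volume (fib G p) := by
    rw [← volume_inter_cyl hGm hDm, inter_eq_self_of_subset_left hsubD]
  have esplit : (∫⁻ p in Prod.fst '' G ∩ B, volume (fib G p))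
      + ∫⁻ p in Prod.fst '' G \ B, volume (fib G p)
      = ∫⁻ p in Prod.fst '' G, volume (fib G p) :=
    lintegral_inter_add_sdiff (μ := volume) (fun p => volume (fib G p)) (Prod.fst '' G) hB
  obtain ⟨N, hN⟩ : ∃ N : ENNReal, N = ∫⁻ p in Prod.fst '' G ∩ B, volume (fib G p) := ⟨_, rfl⟩
  obtain ⟨M, hM⟩ : ∃ M : ENNReal, M = ∫⁻ p in Prod.fst '' G \ B, volume (fib G p) := ⟨_, rfl⟩
  rw [eN, eV, ← esplit, ← hN, ← hM]
  obtain ⟨h, hh⟩ : ∃ h : ENNReal, h = ⨆ p, volume (fib G p) := ⟨_, rfl⟩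
  obtain ⟨A, hA⟩ : ∃ A : ENNReal, A = ENNReal.ofReal (s ^ 2) := ⟨_, rfl⟩
  obtain ⟨C, hC⟩ : ∃ C : ENNReal, C = ENNReal.ofReal ((1 - 3 * s ^ 2 + 2 * s ^ 3) / 3) := ⟨_, rfl⟩
  have hCnn : 0 ≤ (1 - 3 * s ^ 2 + 2 * s ^ 3) / 3 := by
    have : 1 - 3 * s ^ 2 + 2 * s ^ 3 = (1 - s) ^ 2 * (1 + 2 * s) := by ring
    rw [this]
    have h1 : 0 ≤ (1 - s) ^ 2 := sq_nonneg _
    have h2 : 0 ≤ 1 + 2 * s := by linarith
    positivity
  -- upper bound for N
  have hNle : N ≤ h * (A * volume (Prod.fst '' G)) := by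
    rw [hN, hA, ← hBs, inter_comm B]
    calc ∫⁻ p in Prod.fst '' G ∩ B, volume (fib G p)
        ≤ ∫⁻ _p in Prod.fst '' G ∩ B, h := by
          apply lintegral_mono
          intro p
          rw [hh]
          exact le_iSup (fun p => volume (fib G p)) p
      _ = h * volume (Prod.fst '' G ∩ B) := by
          rw [lintegral_const, Measure.restrict_apply MeasurableSet.univ, univ_inter]
  -- lower bound for M
  have hMge : h * (C * volume (Prod.fst '' G)) ≤ M := by
    rw [hh, ENNReal.iSup_mul]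
    apply iSup_le
    intro p
    by_cases hp : p ∈ Prod.fst '' G
    · rw [hM, hC]
      exact lintegral_diff_ge hG hGc hB hs0 hs1 hBs hp
    · rw [fib_empty_of_notMem hp, measure_empty, zero_mul]
      exact zero_le
  -- algebra
  have e3 : ENNReal.ofReal (1 + 2 * s ^ 3) = 3 * C + 3 * A := by
    rw [hC, hA]
    have h3 : (3 : ENNReal) = ENNReal.ofReal 3 := by simp
    rw [h3, ← ENNReal.ofReal_mul (by norm_num), ← ENNReal.ofReal_mul (by norm_num),
      ← ENNReal.ofReal_add (by linarith) (by positivity)]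
    congr 1
    ring
  have e4 : ENNReal.ofReal (3 * s ^ 2) = 3 * A := by
    rw [hA]
    have h3 : (3 : ENNReal) = ENNReal.ofReal 3 := by simp
    rw [h3, ← ENNReal.ofReal_mul (by norm_num)]
  rw [e3, e4]
  have hNC : N * C ≤ A * M := by
    calc N * C ≤ h * (A * volume (Prod.fst '' G)) * C := by gcongr
      _ = A * (h * (C * volume (Prod.fst '' G))) := by ring
      _ ≤ A * M := by gcongr
  calc N * (3 * C + 3 * A) = 3 * (N * C) + 3 * A * N := by ring
    _ ≤ 3 * (A * M) + 3 * A * N := by gcongr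
    _ = 3 * A * (N + M) := by ring

end Vale.Agent.Helper11
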