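import Mathlib

/-!
# A one-dimensional lemma: two concave probability densities on a common interval overlap
in total mass at least `1/2`.
-/

namespace Vale.Agent.Helper11

open Set MeasureTheory

/-- Midpoint bound: a nonnegative concave function on `[z0, z1]` (zero outside) with integral `1`
has value at least `1 / (z1 - z0)` at the midpoint. -/
theorem mid_ge {F : ℝ → ℝ} {z0 z1 : ℝ} (hFm : Measurable F)
    (hF0 : ∀ z, 0 ≤ F z) (hFout : ∀ z, z ∉ Icc z0 z1 → F z = 0)
    (hFc : ConcaveOn ℝ (Icc z0 z1) F) (hFi : ∫⁻ z, ENNReal.ofReal (F z) = 1) :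
    1 ≤ F ((z0 + z1) / 2) * (z1 - z0) := by
  have hrefl : ∫⁻ z, ENNReal.ofReal (F (z0 + z1 - z)) = 1 := by
    rw [← hFi]
    exact lintegral_sub_left_eq_self (fun z => ENNReal.ofReal (F z)) (z0 + z1)
  have hsum : ∫⁻ z, (ENNReal.ofReal (F z) + ENNReal.ofReal (F (z0 + z1 - z))) = 2 := by
    rw [lintegral_add_left hFm.ennreal_ofReal, hFi, hrefl]; norm_num
  have hpt : ∀ z, ENNReal.ofReal (F z) + ENNReal.ofReal (F (z0 + z1 - z)) ≤
      (Icc z0 z1).indicator (fun _ => ENNReal.ofReal (2 * F ((z0 + z1) / 2))) z := by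
    intro z
    by_cases hz : z ∈ Icc z0 z1
    · rw [indicator_of_mem hz]
      have hz' : z0 + z1 - z ∈ Icc z0 z1 := ⟨by linarith [hz.2], by linarith [hz.1]⟩
      have h := hFc.2 hz hz' (by norm_num : (0 : ℝ) ≤ 1 / 2) (by norm_num : (0 : ℝ) ≤ 1 / 2)
        (by norm_num)
      simp only [smul_eq_mul] at h
      have e : (1 / 2 : ℝ) * z + 1 / 2 * (z0 + z1 - z) = (z0 + z1) / 2 := by ring
      rw [e] at h
      rw [← ENNReal.ofReal_add (hF0 _) (hF0 _)]
      apply ENNReal.ofReal_le_ofReal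
      linarith
    · rw [indicator_of_notMem hz]
      have hz' : z0 + z1 - z ∉ Icc z0 z1 := fun h => hz ⟨by linarith [h.2], by linarith [h.1]⟩
      rw [hFout z hz, hFout _ hz']; simp
  have hle := lintegral_mono (μ := volume) hpt
  rw [hsum, lintegral_indicator measurableSet_Icc, setLIntegral_const, Real.volume_Icc] at hle
  by_cases h01 : z0 ≤ z1
  · rw [← ENNReal.ofReal_mul (by have := hF0 ((z0 + z1) / 2); linarith)] at hle
    have h2 : (2 : ENNReal) = ENNReal.ofReal 2 := by simp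
    rw [h2, ENNReal.ofReal_le_ofReal_iff (by
      have := hF0 ((z0 + z1) / 2)
      have h3 : 0 ≤ z1 - z0 := by linarith
      positivity)] at hle
    linarith
  · have : z1 - z0 ≤ 0 := by linarith
    rw [ENNReal.ofReal_of_nonpos this, mul_zero] at hle
    simp at hle

/-- A nonnegative concave function on `[z0, z1]` has integral at least `(z1 - z0)/2` times its
value at the midpoint. -/
theorem lintegral_ge_mid {M : ℝ → ℝ} {z0 z1 : ℝ} (h01 : z0 ≤ z1) (hMm : Measurable M)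
    (hM0 : ∀ z, 0 ≤ M z) (hMc : ConcaveOn ℝ (Icc z0 z1) M) :
    ENNReal.ofReal (M ((z0 + z1) / 2) * ((z1 - z0) / 2)) ≤ ∫⁻ z, ENNReal.ofReal (M z) := by
  obtain ⟨zm, hzm⟩ : ∃ zm : ℝ, zm = (z0 + z1) / 2 := ⟨_, rfl⟩
  obtain ⟨c, hc⟩ : ∃ c : ℝ, c = (z1 - z0) / 2 := ⟨_, rfl⟩
  rw [← hzm, ← hc]
  have hc0 : 0 ≤ c := by rw [hc]; linarith
  have hdisj : Disjoint (Ioc z0 zm) (Ioc zm z1) := by
    rw [Set.disjoint_left]
    intro x hx hx'
    exact absurd hx.2 (not_le.mpr hx'.1)
  have h1 : ∫⁻ z in Ioc z0 zm ∪ Ioc zm z1, ENNReal.ofReal (M z) ≤ ∫⁻ z, ENNReal.ofReal (M z) :=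
    setLIntegral_le_lintegral _ _
  rw [lintegral_union measurableSet_Ioc hdisj] at h1
  -- translate the second piece
  have h2 : ∫⁻ z in Ioc zm z1, ENNReal.ofReal (M z) =
      ∫⁻ z in Ioc z0 zm, ENNReal.ofReal (M (z + c)) := by
    rw [← lintegral_indicator measurableSet_Ioc, ← lintegral_indicator measurableSet_Ioc]
    rw [← lintegral_add_right_eq_self
      (fun z => (Ioc zm z1).indicator (fun z => ENNReal.ofReal (M z)) z) c]
    apply lintegral_congr
    intro z
    by_cases hz : z ∈ Ioc z0 zm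
    · have hz' : z + c ∈ Ioc zm z1 := by
        constructor
        · rw [hzm, hc]; linarith [hz.1]
        · have := hz.2; rw [hzm] at this; rw [hc]; linarith
      rw [indicator_of_mem hz, indicator_of_mem hz']
    · have hz' : z + c ∉ Ioc zm z1 := by
        intro h
        apply hz
        constructor
        · have := h.1; rw [hzm, hc] at this; linarith
        · have := h.2; rw [hc] at this; rw [hzm]; linarith
      rw [indicator_of_notMem hz, indicator_of_notMem hz']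
  rw [h2, ← lintegral_add_left hMm.ennreal_ofReal] at h1
  refine le_trans ?_ h1
  have hpt : ∀ z ∈ Ioc z0 zm, ENNReal.ofReal (M zm) ≤
      ENNReal.ofReal (M z) + ENNReal.ofReal (M (z + c)) := by
    intro z hz
    rw [← ENNReal.ofReal_add (hM0 _) (hM0 _)]
    apply ENNReal.ofReal_le_ofReal
    have hz0m : z0 < zm := lt_of_lt_of_le hz.1 hz.2
    have hcpos : 0 < c := by rw [hc]; rw [hzm] at hz0m; linarith
    have hzmI : zm ∈ Icc z0 z1 := by rw [hzm]; constructor <;> linarith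
    have hz0I : z0 ∈ Icc z0 z1 := ⟨le_refl _, h01⟩
    have hz1I : z1 ∈ Icc z0 z1 := ⟨h01, le_refl _⟩
    -- z = (1 - μ) z0 + μ zm with μ = (z - z0)/c
    obtain ⟨μ, hμ⟩ : ∃ μ : ℝ, μ = (z - z0) / c := ⟨_, rfl⟩
    have hμ0 : 0 ≤ μ := by rw [hμ]; exact div_nonneg (by linarith [hz.1]) hc0
    have hμ1 : μ ≤ 1 := by
      rw [hμ, div_le_one hcpos]
      have := hz.2; rw [hzm] at this; rw [hc]; linarith
    have hμc : μ * c = z - z0 := by rw [hμ]; field_simp
    have e1 : (1 - μ) • z0 + μ • zm = z := by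
      simp only [smul_eq_mul]
      have : zm = z0 + c := by rw [hzm, hc]; ring
      rw [this]; linarith
    have e2 : (1 - μ) • zm + μ • z1 = z + c := by
      simp only [smul_eq_mul]
      have h3 : zm = z0 + c := by rw [hzm, hc]; ring
      have h4 : z1 = z0 + 2 * c := by rw [hc]; ring
      rw [h3, h4]; linarith
    have c1 := hMc.2 hz0I hzmI (by linarith : (0 : ℝ) ≤ 1 - μ) hμ0 (by ring)
    have c2 := hMc.2 hzmI hz1I (by linarith : (0 : ℝ) ≤ 1 - μ) hμ0 (by ring)
    rw [e1] at c1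
    rw [e2] at c2
    simp only [smul_eq_mul] at c1 c2
    have n0 := hM0 z0
    have n1 := hM0 z1
    have n2 : 0 ≤ (1 - μ) * M z0 := mul_nonneg (by linarith) n0
    have n3 : 0 ≤ μ * M z1 := mul_nonneg hμ0 n1
    linarith
  calc ENNReal.ofReal (M zm * c) = ENNReal.ofReal (M zm) * ENNReal.ofReal c :=
        ENNReal.ofReal_mul (hM0 _)
    _ = ENNReal.ofReal (M zm) * volume (Ioc z0 zm) := by
        rw [Real.volume_Ioc]
        congr 2
        rw [hzm, hc]; ring
    _ = ∫⁻ _ in Ioc z0 zm, ENNReal.ofReal (M zm) := (setLIntegral_const _ _).symm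
    _ ≤ ∫⁻ z in Ioc z0 zm, (ENNReal.ofReal (M z) + ENNReal.ofReal (M (z + c))) :=
        setLIntegral_mono' measurableSet_Ioc hpt

/-- Two concave probability densities on a common interval: the integral of their minimum is at
least `1/2`. -/
theorem concave_min_lintegral {F G : ℝ → ℝ} {z0 z1 : ℝ}
    (hFm : Measurable F) (hGm : Measurable G)
    (hF0 : ∀ z, 0 ≤ F z) (hG0 : ∀ z, 0 ≤ G z)
    (hFout : ∀ z, z ∉ Icc z0 z1 → F z = 0) (hGout : ∀ z, z ∉ Icc z0 z1 → G z = 0)
    (hFc : ConcaveOn ℝ (Icc z0 z1) F) (hGc : ConcaveOn ℝ (Icc z0 z1) G)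
    (hFi : ∫⁻ z, ENNReal.ofReal (F z) = 1) (hGi : ∫⁻ z, ENNReal.ofReal (G z) = 1) :
    (1 : ENNReal) / 2 ≤ ∫⁻ z, ENNReal.ofReal (min (F z) (G z)) := by
  have hF := mid_ge hFm hF0 hFout hFc hFi
  have hG := mid_ge hGm hG0 hGout hGc hGi
  have h01 : z0 < z1 := by
    by_contra h
    have h1 : z1 - z0 ≤ 0 := by linarith
    nlinarith [hF0 ((z0 + z1) / 2)]
  have hMc : ConcaveOn ℝ (Icc z0 z1) (fun z => min (F z) (G z)) := hFc.inf hGc
  have hM := lintegral_ge_mid (M := fun z => min (F z) (G z)) h01.le (hFm.min hGm)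
    (fun z => le_min (hF0 z) (hG0 z)) hMc
  refine le_trans ?_ hM
  have hl : 0 < z1 - z0 := by linarith
  have h2 : (1 : ENNReal) / 2 = ENNReal.ofReal (1 / 2) := by
    rw [ENNReal.ofReal_div_of_pos (by norm_num)]; simp
  rw [h2]
  apply ENNReal.ofReal_le_ofReal
  have : 1 ≤ min (F ((z0 + z1) / 2)) (G ((z0 + z1) / 2)) * (z1 - z0) := by
    rcases min_cases (F ((z0 + z1) / 2)) (G ((z0 + z1) / 2)) with h | h
    · rw [h.1]; exact hF
    · rw [h.1]; exact hG
  linarith

end Vale.Agent.Helper11
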