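import Vale.Agent.Helper11.TwoPlank

/-!
# The planar covering lemma for arbitrary measurable sets (two directions, many strips)
-/

namespace Vale.Agent.Helper11

open Set MeasureTheory

/-- The set of abscissas `x` in the projection of `L` all of whose fibre lies in `C`. -/
def fibreIn (L : Set (ℝ × ℝ)) (C : Set ℝ) : Set ℝ :=
  {x | x ∈ Prod.fst '' L ∧ ∀ q ∈ L, q.1 = x → q.2 ∈ C}

theorem ennreal_cancel {x a b : ENNReal} (ha : a ≠ ⊤) (h1 : x + a ≤ 1) (h2 : 1 ≤ a + b) : x ≤ b := by
  have : a + x ≤ a + b := by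
    rw [add_comm a x]; exact h1.trans h2
  exact (ENNReal.add_le_add_iff_left ha).mp this

theorem isClosed_lowerBounds' (C : Set ℝ) : IsClosed (lowerBounds C) := by
  have : lowerBounds C = ⋂ c ∈ C, Iic c := by
    ext y; simp [lowerBounds]
  rw [this]
  exact isClosed_biInter fun _ _ => isClosed_Iic

theorem isClosed_upperBounds' (C : Set ℝ) : IsClosed (upperBounds C) := by
  have : upperBounds C = ⋂ c ∈ C, Ici c := by
    ext y; simp [upperBounds]
  rw [this]
  exact isClosed_biInter fun _ _ => isClosed_Ici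

theorem convex_lowerBounds (C : Set ℝ) : Convex ℝ (lowerBounds C) := by
  apply Set.OrdConnected.convex
  constructor
  intro y1 _ y2 hy2 y hy c hc
  exact hy.2.trans (hy2 hc)

theorem convex_upperBounds (C : Set ℝ) : Convex ℝ (upperBounds C) := by
  apply Set.OrdConnected.convex
  constructor
  intro y1 hy1 y2 _ y hy c hc
  exact (hy1 hc).trans hy.1

theorem convex_fst_image_inter {L : Set (ℝ × ℝ)} (hL : Convex ℝ L) {D : Set ℝ} (hD : Convex ℝ D) :
    Convex ℝ (Prod.fst '' (L ∩ Prod.snd ⁻¹' D)) := by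
  have h1 : Convex ℝ (L ∩ Prod.snd ⁻¹' D) :=
    hL.inter (hD.is_linear_preimage (IsLinearMap.mk (fun _ _ => rfl) (fun _ _ => rfl)))
  have := h1.linear_image (LinearMap.fst ℝ ℝ ℝ)
  simpa using this

/-- One open interval `C` in the second coordinate. -/
theorem plank_interval {L : Set (ℝ × ℝ)} (hL : Convex ℝ L) (hLc : IsCompact L)
    (hI : volume (Prod.fst '' L) ≠ 0) (hJ : volume (Prod.snd '' L) ≠ 0)
    {C : Set ℝ} (hCo : IsOpen C) (hCc : C.OrdConnected) :
    volume (fibreIn L C) / volume (Prod.fst '' L) ≤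
      volume (C ∩ Prod.snd '' L) / volume (Prod.snd '' L) := by
  have hIc : IsCompact (Prod.fst '' L) := hLc.image continuous_fst
  have hJc : IsCompact (Prod.snd '' L) := hLc.image continuous_snd
  have hvIt : volume (Prod.fst '' L) ≠ ⊤ := hIc.measure_lt_top.ne
  have hvJt : volume (Prod.snd '' L) ≠ ⊤ := hJc.measure_lt_top.ne
  have hDlc : IsClosed (lowerBounds C) := isClosed_lowerBounds' C
  have hDuc : IsClosed (upperBounds C) := isClosed_upperBounds' C
  by_cases hCne : C.Nonempty
  swap
  · have : fibreIn L C = ∅ := by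
      ext x
      simp only [mem_empty_iff_false, iff_false]
      rintro ⟨⟨q, hq, hqx⟩, h⟩
      exact hCne ⟨q.2, h q hq hqx⟩
    rw [this]; simp
  have F1 : ∀ y, y ∉ C → y ∈ lowerBounds C ∨ y ∈ upperBounds C := by
    intro y hy
    by_contra hcon
    rw [not_or] at hcon
    obtain ⟨h1, h2⟩ := hcon
    simp only [lowerBounds, upperBounds, mem_ofPred_eq, not_forall, not_le] at h1 h2
    obtain ⟨c1, hc1, hc1y⟩ := h1
    obtain ⟨c2, hc2, hc2y⟩ := h2
    exact hy (hCc.out hc1 hc2 ⟨hc1y.le, hc2y.le⟩)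
  have F4l : ∀ y ∈ C, y ∉ lowerBounds C := by
    intro y hy hyl
    obtain ⟨ε, hε, hball⟩ := Metric.isOpen_iff.mp hCo y hy
    have hmem : y - ε / 2 ∈ C := hball (by
      rw [Metric.mem_ball, Real.dist_eq, abs_lt]; constructor <;> linarith)
    have := hyl hmem
    linarith
  have F4u : ∀ y ∈ C, y ∉ upperBounds C := by
    intro y hy hyl
    obtain ⟨ε, hε, hball⟩ := Metric.isOpen_iff.mp hCo y hy
    have hmem : y + ε / 2 ∈ C := hball (by
      rw [Metric.mem_ball, Real.dist_eq, abs_lt]; constructor <;> linarith)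
    have := hyl hmem
    linarith
  have F2l : (lowerBounds C)ᶜ.OrdConnected := by
    constructor
    intro y1 hy1 y2 _ y hy
    simp only [mem_compl_iff, lowerBounds, mem_ofPred_eq, not_forall, not_le] at hy1 ⊢
    obtain ⟨c, hc, hcy⟩ := hy1
    exact ⟨c, hc, lt_of_lt_of_le hcy hy.1⟩
  have F2u : (upperBounds C)ᶜ.OrdConnected := by
    constructor
    intro y1 _ y2 hy2 y hy
    simp only [mem_compl_iff, upperBounds, mem_ofPred_eq, not_forall, not_le] at hy2 ⊢
    obtain ⟨c, hc, hcy⟩ := hy2
    exact ⟨c, hc, lt_of_le_of_lt hy.2 hcy⟩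
  obtain ⟨Pm, hPm⟩ : ∃ Pm : Set ℝ, Pm = Prod.fst '' (L ∩ Prod.snd ⁻¹' lowerBounds C) := ⟨_, rfl⟩
  obtain ⟨Pp, hPp⟩ : ∃ Pp : Set ℝ, Pp = Prod.fst '' (L ∩ Prod.snd ⁻¹' upperBounds C) := ⟨_, rfl⟩
  have hPmc : IsCompact Pm := by
    rw [hPm]
    exact (hLc.inter_right (hDlc.preimage continuous_snd)).image continuous_fst
  have hPpc : IsCompact Pp := by
    rw [hPp]
    exact (hLc.inter_right (hDuc.preimage continuous_snd)).image continuous_fst
  have hPmconv : Convex ℝ Pm := by
    rw [hPm]; exact convex_fst_image_inter hL (convex_lowerBounds C)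
  have hPpconv : Convex ℝ Pp := by
    rw [hPp]; exact convex_fst_image_inter hL (convex_upperBounds C)
  have hPmI : Pm ⊆ Prod.fst '' L := by
    rw [hPm]; exact image_mono inter_subset_left
  have hPpI : Pp ⊆ Prod.fst '' L := by
    rw [hPp]; exact image_mono inter_subset_left
  have hPmm : MeasurableSet Pm := hPmc.isClosed.measurableSet
  have hPpm : MeasurableSet Pp := hPpc.isClosed.measurableSet
  -- the fibre set avoids Pm ∪ Pp
  have hsub : fibreIn L C ⊆ Prod.fst '' L \ (Pm ∪ Pp) := by
    rintro x ⟨hxI, hx⟩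
    refine ⟨hxI, ?_⟩
    rintro (h | h)
    · rw [hPm] at h
      obtain ⟨q, ⟨hq, hq2⟩, hqx⟩ := h
      exact F4l _ (hx q hq hqx) hq2
    · rw [hPp] at h
      obtain ⟨q, ⟨hq, hq2⟩, hqx⟩ := h
      exact F4u _ (hx q hq hqx) hq2
  -- key inequality
  have key : 1 ≤ volume (Pm ∪ Pp) / volume (Prod.fst '' L)
      + volume (C ∩ Prod.snd '' L) / volume (Prod.snd '' L) := by
    by_cases hov : (Pm ∩ Pp).Nonempty
    · have hoc : (Pm ∪ Pp).OrdConnected :=
        (IsPreconnected.union' hov hPmconv.isPreconnected hPpconv.isPreconnected).ordConnected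
      have h := two_plank_measure hL hLc hoc hCc (fun q hq => by
        by_cases hqC : q.2 ∈ C
        · right; exact hqC
        · left
          rcases F1 q.2 hqC with h | h
          · left; rw [hPm]; exact ⟨q, ⟨hq, h⟩, rfl⟩
          · right; rw [hPp]; exact ⟨q, ⟨hq, h⟩, rfl⟩) hI hJ
      rwa [inter_eq_self_of_subset_left (union_subset hPmI hPpI)] at h
    · have hdisj : Disjoint Pm Pp := by
        rw [Set.disjoint_iff_inter_eq_empty]
        exact not_nonempty_iff_eq_empty.mp hov
      have h1 := two_plank_measure hL hLc hPmconv.ordConnected F2l (fun q hq => by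
        by_cases hq2 : q.2 ∈ lowerBounds C
        · left; rw [hPm]; exact ⟨q, ⟨hq, hq2⟩, rfl⟩
        · right; exact hq2) hI hJ
      have h2 := two_plank_measure hL hLc hPpconv.ordConnected F2u (fun q hq => by
        by_cases hq2 : q.2 ∈ upperBounds C
        · left; rw [hPp]; exact ⟨q, ⟨hq, hq2⟩, rfl⟩
        · right; exact hq2) hI hJ
      rw [inter_eq_self_of_subset_left hPmI] at h1
      rw [inter_eq_self_of_subset_left hPpI] at h2
      have hJm : MeasurableSet (Prod.snd '' L) := hJc.isClosed.measurableSet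
      have hm2 : MeasurableSet ((upperBounds C)ᶜ ∩ Prod.snd '' L) :=
        hDuc.measurableSet.compl.inter hJm
      have hJ2 : volume ((lowerBounds C)ᶜ ∩ Prod.snd '' L)
          + volume ((upperBounds C)ᶜ ∩ Prod.snd '' L)
          ≤ volume (Prod.snd '' L) + volume (C ∩ Prod.snd '' L) := by
        rw [← measure_union_add_inter _ hm2]
        apply add_le_add
        · exact measure_mono (union_subset inter_subset_right inter_subset_right)
        · apply measure_mono
          rintro y ⟨⟨hy1, hyJ⟩, ⟨hy2, _⟩⟩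
          refine ⟨?_, hyJ⟩
          by_contra hyC
          rcases F1 y hyC with h | h
          · exact hy1 h
          · exact hy2 h
      have hsum : (1 : ENNReal) + 1 ≤ 1 + (volume (Pm ∪ Pp) / volume (Prod.fst '' L)
          + volume (C ∩ Prod.snd '' L) / volume (Prod.snd '' L)) := by
        calc (1 : ENNReal) + 1 ≤ (volume Pm / volume (Prod.fst '' L)
              + volume ((lowerBounds C)ᶜ ∩ Prod.snd '' L) / volume (Prod.snd '' L))
              + (volume Pp / volume (Prod.fst '' L)
              + volume ((upperBounds C)ᶜ ∩ Prod.snd '' L) / volume (Prod.snd '' L)) :=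
              add_le_add h1 h2
          _ = (volume Pm + volume Pp) / volume (Prod.fst '' L)
              + (volume ((lowerBounds C)ᶜ ∩ Prod.snd '' L)
                + volume ((upperBounds C)ᶜ ∩ Prod.snd '' L)) / volume (Prod.snd '' L) := by
              rw [ENNReal.add_div, ENNReal.add_div]; ring
          _ ≤ volume (Pm ∪ Pp) / volume (Prod.fst '' L)
              + (volume (Prod.snd '' L) + volume (C ∩ Prod.snd '' L)) / volume (Prod.snd '' L) := by
              rw [measure_union hdisj hPpm]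
              exact add_le_add le_rfl (ENNReal.div_le_div_right hJ2 _)
          _ = 1 + (volume (Pm ∪ Pp) / volume (Prod.fst '' L)
              + volume (C ∩ Prod.snd '' L) / volume (Prod.snd '' L)) := by
              rw [ENNReal.add_div, ENNReal.div_self hJ hvJt]; ring
      exact (ENNReal.add_le_add_iff_left ENNReal.one_ne_top).mp hsum
  -- conclude
  have hQm : MeasurableSet (Pm ∪ Pp) := hPmm.union hPpm
  have hQI : Pm ∪ Pp ⊆ Prod.fst '' L := union_subset hPmI hPpI
  have hsplit : volume (Prod.fst '' L \ (Pm ∪ Pp)) + volume (Pm ∪ Pp) = volume (Prod.fst '' L) := by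
    have := measure_sdiff_add_inter (μ := volume) (Prod.fst '' L) hQm
    rwa [inter_eq_self_of_subset_right hQI] at this
  have h1 : volume (fibreIn L C) / volume (Prod.fst '' L)
      + volume (Pm ∪ Pp) / volume (Prod.fst '' L) ≤ 1 := by
    rw [← ENNReal.add_div]
    calc (volume (fibreIn L C) + volume (Pm ∪ Pp)) / volume (Prod.fst '' L)
        ≤ (volume (Prod.fst '' L \ (Pm ∪ Pp)) + volume (Pm ∪ Pp)) / volume (Prod.fst '' L) :=
          ENNReal.div_le_div_right (add_le_add (measure_mono hsub) le_rfl) _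
      _ = 1 := by rw [hsplit, ENNReal.div_self hI hvIt]
  have hfin : volume (Pm ∪ Pp) / volume (Prod.fst '' L) ≠ ⊤ := by
    apply ne_top_of_le_ne_top ENNReal.one_ne_top
    exact le_trans le_add_self h1
  exact ennreal_cancel hfin h1 key

/-- Many open intervals: an arbitrary open set `O` in the second coordinate. -/
theorem plank_open {L : Set (ℝ × ℝ)} (hL : Convex ℝ L) (hLc : IsCompact L)
    (hI : volume (Prod.fst '' L) ≠ 0) (hJ : volume (Prod.snd '' L) ≠ 0)
    {O : Set ℝ} (hO : IsOpen O) {U : Set ℝ} (hUI : U ⊆ Prod.fst '' L)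
    (hU : ∀ q ∈ L, q.1 ∈ U → q.2 ∈ O) :
    volume U / volume (Prod.fst '' L) ≤ volume O / volume (Prod.snd '' L) := by
  have hIc : IsCompact (Prod.fst '' L) := hLc.image continuous_fst
  have hJc : IsCompact (Prod.snd '' L) := hLc.image continuous_snd
  have hvIt : volume (Prod.fst '' L) ≠ ⊤ := hIc.measure_lt_top.ne
  have hvJt : volume (Prod.snd '' L) ≠ ⊤ := hJc.measure_lt_top.ne
  have hJm : MeasurableSet (Prod.snd '' L) := hJc.isClosed.measurableSet
  obtain ⟨𝒞, h𝒞⟩ : ∃ 𝒞 : Set (Set ℝ), 𝒞 = (fun y => connectedComponentIn O y) '' O := ⟨_, rfl⟩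
  have hCopen : ∀ C ∈ 𝒞, IsOpen C := by
    intro C hC
    rw [h𝒞] at hC
    obtain ⟨y, -, rfl⟩ := hC
    exact hO.connectedComponentIn
  have hCord : ∀ C ∈ 𝒞, C.OrdConnected := by
    intro C hC
    rw [h𝒞] at hC
    obtain ⟨y, -, rfl⟩ := hC
    exact isPreconnected_connectedComponentIn.ordConnected
  have hCne : ∀ C ∈ 𝒞, C.Nonempty := by
    intro C hC
    rw [h𝒞] at hC
    obtain ⟨y, hy, rfl⟩ := hC
    exact ⟨y, mem_connectedComponentIn hy⟩
  have hCsub : ∀ C ∈ 𝒞, C ⊆ O := by
    intro C hC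
    rw [h𝒞] at hC
    obtain ⟨y, -, rfl⟩ := hC
    exact connectedComponentIn_subset O y
  have hdisj : 𝒞.PairwiseDisjoint id := by
    intro C hC C' hC' hne
    rw [h𝒞] at hC hC'
    obtain ⟨y, -, rfl⟩ := hC
    obtain ⟨y', -, rfl⟩ := hC'
    rw [Function.onFun, Set.disjoint_iff_inter_eq_empty]
    by_contra hcon
    obtain ⟨z, hz1, hz2⟩ := nonempty_iff_ne_empty.mpr hcon
    apply hne
    show connectedComponentIn O y = connectedComponentIn O y'
    rw [connectedComponentIn_eq hz1, connectedComponentIn_eq hz2]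
  have hcount : 𝒞.Countable := hdisj.countable_of_isOpen hCopen hCne
  -- U is covered by the fibre sets
  have hUcov : U ⊆ ⋃ C ∈ 𝒞, fibreIn L C := by
    intro x hx
    obtain ⟨q0, hq0, hq0x⟩ := hUI hx
    have hy0 : q0.2 ∈ O := hU q0 hq0 (by rw [hq0x]; exact hx)
    have hFconv : Convex ℝ {y : ℝ | (x, y) ∈ L} := by
      intro y hy y' hy' a b ha hb hab
      have := hL hy hy' ha hb hab
      have e : a • (x, y) + b • (x, y') = (x, a • y + b • y') := by
        ext
        · simp only [Prod.fst_add, Prod.smul_fst, smul_eq_mul]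
          rw [← add_mul, hab, one_mul]
        · simp
      rw [e] at this
      exact this
    have hFsub : {y : ℝ | (x, y) ∈ L} ⊆ O := by
      intro y hy
      exact hU (x, y) hy hx
    have hmem0 : q0.2 ∈ {y : ℝ | (x, y) ∈ L} := by
      show (x, q0.2) ∈ L
      rw [← hq0x]; exact hq0
    have hsubC := hFconv.isPreconnected.subset_connectedComponentIn hmem0 hFsub
    refine mem_iUnion₂.mpr ⟨connectedComponentIn O q0.2, ?_, ?_⟩
    · rw [h𝒞]; exact ⟨q0.2, hy0, rfl⟩
    · refine ⟨hUI hx, ?_⟩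
      intro q hq hqx
      apply hsubC
      show (x, q.2) ∈ L
      rw [← hqx]; exact hq
  -- estimate
  have h1 : volume U ≤ ∑' C : 𝒞, volume (fibreIn L (C : Set ℝ)) :=
    (measure_mono hUcov).trans (measure_biUnion_le volume hcount _)
  have h2 : ∀ C : 𝒞, volume (fibreIn L (C : Set ℝ)) ≤
      volume ((C : Set ℝ) ∩ Prod.snd '' L) * (volume (Prod.fst '' L) / volume (Prod.snd '' L)) := by
    intro C
    have h := plank_interval hL hLc hI hJ (hCopen C C.2) (hCord C C.2)
    rw [ENNReal.div_le_iff hI hvIt] at h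
    calc volume (fibreIn L (C : Set ℝ))
        ≤ volume ((C : Set ℝ) ∩ Prod.snd '' L) / volume (Prod.snd '' L) * volume (Prod.fst '' L) := h
      _ = volume ((C : Set ℝ) ∩ Prod.snd '' L) * (volume (Prod.fst '' L) / volume (Prod.snd '' L)) := by
          rw [div_eq_mul_inv, div_eq_mul_inv]; ring
  have h3 : ∑' C : 𝒞, volume ((C : Set ℝ) ∩ Prod.snd '' L) ≤ volume O := by
    have hd2 : 𝒞.PairwiseDisjoint (fun C : Set ℝ => C ∩ Prod.snd '' L) := by
      intro C hC C' hC' hne
      exact (hdisj hC hC' hne).mono inter_subset_left inter_subset_left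
    rw [← measure_biUnion hcount hd2 (fun C hC => (hCopen C hC).measurableSet.inter hJm)]
    apply measure_mono
    intro y hy
    obtain ⟨C, hC, hyC⟩ := mem_iUnion₂.mp hy
    exact hCsub C hC hyC.1
  have h4 : volume U ≤ volume O * (volume (Prod.fst '' L) / volume (Prod.snd '' L)) := by
    calc volume U ≤ ∑' C : 𝒞, volume (fibreIn L (C : Set ℝ)) := h1
      _ ≤ ∑' C : 𝒞, volume ((C : Set ℝ) ∩ Prod.snd '' L)
            * (volume (Prod.fst '' L) / volume (Prod.snd '' L)) := ENNReal.tsum_le_tsum h2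
      _ = (∑' C : 𝒞, volume ((C : Set ℝ) ∩ Prod.snd '' L))
            * (volume (Prod.fst '' L) / volume (Prod.snd '' L)) := ENNReal.tsum_mul_right
      _ ≤ volume O * (volume (Prod.fst '' L) / volume (Prod.snd '' L)) := mul_le_mul_left h3 _
  rw [ENNReal.div_le_iff hI hvIt]
  calc volume U ≤ volume O * (volume (Prod.fst '' L) / volume (Prod.snd '' L)) := h4
    _ = volume O / volume (Prod.snd '' L) * volume (Prod.fst '' L) := by
        rw [div_eq_mul_inv, div_eq_mul_inv]; ring

/-- The planar covering lemma for arbitrary sets `A` (measurable) and `B` (arbitrary). -/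
theorem plank_general {L : Set (ℝ × ℝ)} (hL : Convex ℝ L) (hLc : IsCompact L)
    (hI : volume (Prod.fst '' L) ≠ 0) (hJ : volume (Prod.snd '' L) ≠ 0)
    {A B : Set ℝ} (hA : MeasurableSet A) (hcov : ∀ q ∈ L, q.1 ∈ A ∨ q.2 ∈ B) :
    1 ≤ volume (A ∩ Prod.fst '' L) / volume (Prod.fst '' L)
      + volume (B ∩ Prod.snd '' L) / volume (Prod.snd '' L) := by
  have hIc : IsCompact (Prod.fst '' L) := hLc.image continuous_fst
  have hJc : IsCompact (Prod.snd '' L) := hLc.image continuous_snd
  have hvIt : volume (Prod.fst '' L) ≠ ⊤ := hIc.measure_lt_top.ne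
  have hvJt : volume (Prod.snd '' L) ≠ ⊤ := hJc.measure_lt_top.ne
  have hstep : volume (Prod.fst '' L \ A) / volume (Prod.fst '' L)
      ≤ volume (B ∩ Prod.snd '' L) / volume (Prod.snd '' L) := by
    rw [ENNReal.le_div_iff_mul_le (Or.inl hJ) (Or.inl hvJt)]
    rw [Set.measure_eq_iInf_isOpen (B ∩ Prod.snd '' L) volume]
    refine le_iInf fun O => le_iInf fun hBO => le_iInf fun hO => ?_
    rw [← ENNReal.le_div_iff_mul_le (Or.inl hJ) (Or.inl hvJt)]
    apply plank_open hL hLc hI hJ hO sdiff_subset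
    intro q hq hqU
    apply hBO
    refine ⟨?_, ⟨q, hq, rfl⟩⟩
    rcases hcov q hq with h | h
    · exact absurd h hqU.2
    · exact h
  have hsplit : volume (A ∩ Prod.fst '' L) + volume (Prod.fst '' L \ A) = volume (Prod.fst '' L) := by
    rw [inter_comm]
    exact measure_inter_add_sdiff _ hA
  calc (1 : ENNReal) = volume (Prod.fst '' L) / volume (Prod.fst '' L) :=
        (ENNReal.div_self hI hvIt).symm
    _ = volume (A ∩ Prod.fst '' L) / volume (Prod.fst '' L)
          + volume (Prod.fst '' L \ A) / volume (Prod.fst '' L) := by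
        rw [← ENNReal.add_div, hsplit]
    _ ≤ volume (A ∩ Prod.fst '' L) / volume (Prod.fst '' L)
          + volume (B ∩ Prod.snd '' L) / volume (Prod.snd '' L) := add_le_add le_rfl hstep

end Vale.Agent.Helper11
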