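import Vale.Agent.Helper11.TwoCyl
import Vale.Agent.Helper11.PlanarGeneral

/-!
# Coverings of a convex body in a three-dimensional Euclidean space by two cylinders:
arbitrary measurable bases and arbitrary axis directions
-/

namespace Vale.Agent.Helper11

open Set MeasureTheory
open scoped InnerProductSpace

/-- Two cylinders with arbitrary measurable bases and axes along the first two coordinate
directions. -/
theorem two_cyl_measurable (K : Set (ℝ × ℝ × ℝ)) (hK : Convex ℝ K) (hKc : IsCompact K)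
    (hV₁ : volume ((fun p : ℝ × ℝ × ℝ => (p.2.1, p.2.2)) '' K) ≠ 0)
    (hV₂ : volume ((fun p : ℝ × ℝ × ℝ => (p.1, p.2.2)) '' K) ≠ 0)
    (B₁ B₂ : Set (ℝ × ℝ)) (hB₁m : MeasurableSet B₁) (hB₂m : MeasurableSet B₂)
    (hcov : ∀ p ∈ K, (p.2.1, p.2.2) ∈ B₁ ∨ (p.1, p.2.2) ∈ B₂) :
    (1 : ENNReal) / 2 ≤
      volume B₁ / volume ((fun p : ℝ × ℝ × ℝ => (p.2.1, p.2.2)) '' K)
      + volume B₂ / volume ((fun p : ℝ × ℝ × ℝ => (p.1, p.2.2)) '' K) := by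
  apply two_cyl_of_planar K hK hKc hV₁ hV₂ B₁ B₂ hB₁m hB₂m hcov
  intro z L hL hLc hcovL hI hJ
  exact plank_general hL hLc hI hJ (measurable_prodMk_right hB₂m) hcovL

/-- A reflection of the coordinate plane. -/
def refl2 (α β : ℝ) (q : ℝ × ℝ) : ℝ × ℝ := (-β * q.1 + α * q.2, α * q.1 + β * q.2)

theorem refl2_refl2 {α β : ℝ} (h : α ^ 2 + β ^ 2 = 1) (q : ℝ × ℝ) :
    refl2 α β (refl2 α β q) = q := by
  unfold refl2
  ext
  · simp only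
    linear_combination q.1 * h
  · simp only
    linear_combination q.2 * h

theorem continuous_refl2 (α β : ℝ) : Continuous (refl2 α β) := by
  unfold refl2
  fun_prop

theorem volume_preimage_refl2 {α β : ℝ} (h : α ^ 2 + β ^ 2 = 1) (S : Set (ℝ × ℝ)) :
    volume (refl2 α β ⁻¹' S) = volume S := by
  have e : refl2 α β =
      ⇑(Matrix.toLin (Module.Basis.finTwoProd ℝ) (Module.Basis.finTwoProd ℝ) !![-β, α; α, β]) := by
    funext q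
    rw [Matrix.toLin_finTwoProd_apply]
    rfl
  have hdet : LinearMap.det
      (Matrix.toLin (Module.Basis.finTwoProd ℝ) (Module.Basis.finTwoProd ℝ) !![-β, α; α, β])
      = -1 := by
    rw [LinearMap.det_toLin, Matrix.det_fin_two_of]
    linear_combination -h
  rw [e, Measure.addHaar_preimage_linearMap volume (by rw [hdet]; norm_num), hdet]
  simp

theorem image_refl2 {α β : ℝ} (h : α ^ 2 + β ^ 2 = 1) (S : Set (ℝ × ℝ)) :
    refl2 α β '' S = refl2 α β ⁻¹' S :=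
  congrFun (Set.image_eq_preimage_of_inverse (refl2_refl2 h) (refl2_refl2 h)) S

section frames

variable {E : Type*} [NormedAddCommGroup E] [InnerProductSpace ℝ E]

theorem norm_sq_comb {v w : E} (hv : ‖v‖ = 1) (hw : ‖w‖ = 1) (hvw : ⟪v, w⟫_ℝ = 0) (a b : ℝ) :
    ‖a • v + b • w‖ ^ 2 = a ^ 2 + b ^ 2 := by
  rw [← real_inner_self_eq_norm_sq]
  simp only [inner_add_left, inner_add_right, inner_smul_left, inner_smul_right,
    real_inner_self_eq_norm_sq, hv, hw, hvw, real_inner_comm v w]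
  simp
  ring

theorem exists_common [FiniteDimensional ℝ E] (hdim : Module.finrank ℝ E = 3) (v₁ w₁ v₂ w₂ : E)
    (hv₁ : ‖v₁‖ = 1) (hw₁ : ‖w₁‖ = 1) (hvw₁ : ⟪v₁, w₁⟫_ℝ = 0)
    (hv₂ : ‖v₂‖ = 1) (hw₂ : ‖w₂‖ = 1) (hvw₂ : ⟪v₂, w₂⟫_ℝ = 0) :
    ∃ α₁ β₁ α₂ β₂ : ℝ, α₁ ^ 2 + β₁ ^ 2 = 1 ∧ α₂ ^ 2 + β₂ ^ 2 = 1 ∧
      α₁ • v₁ + β₁ • w₁ = α₂ • v₂ + β₂ • w₂ := by
  have hnot : ¬ LinearIndependent ℝ ![v₁, w₁, v₂, w₂] := by
    intro h
    have := h.fintype_card_le_finrank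
    rw [hdim] at this
    simp at this
  rw [Fintype.not_linearIndependent_iff] at hnot
  obtain ⟨g, hg, hne⟩ := hnot
  rw [Fin.sum_univ_four] at hg
  simp only [Matrix.cons_val_zero, Matrix.cons_val_one, Matrix.cons_val] at hg
  obtain ⟨n', hn'⟩ : ∃ n' : E, n' = g 0 • v₁ + g 1 • w₁ := ⟨_, rfl⟩
  have hn'2 : n' = (-(g 2)) • v₂ + (-(g 3)) • w₂ := by
    rw [hn', neg_smul, neg_smul, ← neg_add, eq_neg_iff_add_eq_zero, ← hg]
    abel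
  have e1 := norm_sq_comb hv₁ hw₁ hvw₁ (g 0) (g 1)
  have e2 := norm_sq_comb hv₂ hw₂ hvw₂ (-(g 2)) (-(g 3))
  rw [← hn'] at e1
  rw [← hn'2] at e2
  have hn'0 : n' ≠ 0 := by
    intro h0
    rw [h0, norm_zero] at e1 e2
    have hall : ∀ i, g i = 0 := by
      intro i
      fin_cases i
      · show g 0 = 0
        nlinarith [sq_nonneg (g 0), sq_nonneg (g 1)]
      · show g 1 = 0
        nlinarith [sq_nonneg (g 0), sq_nonneg (g 1)]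
      · show g 2 = 0
        nlinarith [sq_nonneg (g 2), sq_nonneg (g 3)]
      · show g 3 = 0
        nlinarith [sq_nonneg (g 2), sq_nonneg (g 3)]
    obtain ⟨i, hi⟩ := hne
    exact hi (hall i)
  have hpos : 0 < ‖n'‖ := norm_pos_iff.mpr hn'0
  refine ⟨g 0 / ‖n'‖, g 1 / ‖n'‖, -(g 2) / ‖n'‖, -(g 3) / ‖n'‖, ?_, ?_, ?_⟩
  · field_simp
    linarith
  · field_simp
    linarith
  · have a1 : (g 0 / ‖n'‖) • v₁ + (g 1 / ‖n'‖) • w₁ = (1 / ‖n'‖) • n' := by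
      rw [hn', smul_add, smul_smul, smul_smul]
      congr 2 <;> ring
    have a2 : (-(g 2) / ‖n'‖) • v₂ + (-(g 3) / ‖n'‖) • w₂ = (1 / ‖n'‖) • n' := by
      rw [hn'2, smul_add, smul_smul, smul_smul]
      congr 2 <;> ring
    rw [a1, a2]

theorem frame_volume_ne_zero [FiniteDimensional ℝ E] {K : Set E} (hKi : (interior K).Nonempty)
    {v w : E} (hv : ‖v‖ = 1) (hw : ‖w‖ = 1) (hvw : ⟪v, w⟫_ℝ = 0) :
    volume ((fun x : E => (⟪v, x⟫_ℝ, ⟪w, x⟫_ℝ)) '' K) ≠ 0 := by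
  obtain ⟨f, hf⟩ : ∃ f : E →ₗ[ℝ] ℝ × ℝ, f = (innerₛₗ ℝ v).prod (innerₛₗ ℝ w) := ⟨_, rfl⟩
  have hfx : ∀ x, f x = (⟪v, x⟫_ℝ, ⟪w, x⟫_ℝ) := by
    intro x
    rw [hf]
    rfl
  have hsurj : Function.Surjective f := by
    intro q
    refine ⟨q.1 • v + q.2 • w, ?_⟩
    rw [hfx]
    ext
    · simp [inner_add_right, inner_smul_right, hv, hvw]
    · simp [inner_add_right, inner_smul_right, hw, real_inner_comm v w, hvw]
  have hopen : IsOpen (f '' interior K) := (f.isOpenMap_of_finiteDimensional hsurj) _ isOpen_interior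
  have hne : (f '' interior K).Nonempty := hKi.image _
  have heq : (fun x : E => (⟪v, x⟫_ℝ, ⟪w, x⟫_ℝ)) '' K = f '' K := image_congr (fun x _ => (hfx x).symm)
  rw [heq]
  exact ((hopen.measure_pos volume hne).trans_le (measure_mono (image_mono interior_subset))).ne'

/-- Two cylinders in a three-dimensional Euclidean space, with arbitrary axis directions and
arbitrary measurable bases; each cylinder is given by an orthonormal frame of its base plane and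
its base in the coordinates of that frame. -/
theorem two_cyl_general [FiniteDimensional ℝ E] (hdim : Module.finrank ℝ E = 3)
    (K : Set E) (hK : Convex ℝ K) (hKc : IsCompact K) (hKi : (interior K).Nonempty)
    (v₁ w₁ v₂ w₂ : E)
    (hv₁ : ‖v₁‖ = 1) (hw₁ : ‖w₁‖ = 1) (hvw₁ : ⟪v₁, w₁⟫_ℝ = 0)
    (hv₂ : ‖v₂‖ = 1) (hw₂ : ‖w₂‖ = 1) (hvw₂ : ⟪v₂, w₂⟫_ℝ = 0)
    (B₁ B₂ : Set (ℝ × ℝ)) (hB₁ : MeasurableSet B₁) (hB₂ : MeasurableSet B₂)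
    (hcov : ∀ x ∈ K, (⟪v₁, x⟫_ℝ, ⟪w₁, x⟫_ℝ) ∈ B₁ ∨ (⟪v₂, x⟫_ℝ, ⟪w₂, x⟫_ℝ) ∈ B₂) :
    (1 : ENNReal) / 2 ≤
      volume B₁ / volume ((fun x : E => (⟪v₁, x⟫_ℝ, ⟪w₁, x⟫_ℝ)) '' K)
      + volume B₂ / volume ((fun x : E => (⟪v₂, x⟫_ℝ, ⟪w₂, x⟫_ℝ)) '' K) := by
  obtain ⟨α₁, β₁, α₂, β₂, h1, h2, hn⟩ :=
    exists_common hdim v₁ w₁ v₂ w₂ hv₁ hw₁ hvw₁ hv₂ hw₂ hvw₂
  have hf₁ : ∀ x : E, (⟪(-β₁) • v₁ + α₁ • w₁, x⟫_ℝ, ⟪α₁ • v₁ + β₁ • w₁, x⟫_ℝ)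
      = refl2 α₁ β₁ (⟪v₁, x⟫_ℝ, ⟪w₁, x⟫_ℝ) := by
    intro x
    simp [refl2, inner_add_left, inner_smul_left]
  have hf₂ : ∀ x : E, (⟪(-β₂) • v₂ + α₂ • w₂, x⟫_ℝ, ⟪α₁ • v₁ + β₁ • w₁, x⟫_ℝ)
      = refl2 α₂ β₂ (⟪v₂, x⟫_ℝ, ⟪w₂, x⟫_ℝ) := by
    intro x
    rw [hn]
    simp [refl2, inner_add_left, inner_smul_left]
  obtain ⟨T, hT⟩ : ∃ T : E → ℝ × ℝ × ℝ, T = fun x =>
      (⟪(-β₂) • v₂ + α₂ • w₂, x⟫_ℝ, ⟪(-β₁) • v₁ + α₁ • w₁, x⟫_ℝ, ⟪α₁ • v₁ + β₁ • w₁, x⟫_ℝ) :=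
    ⟨_, rfl⟩
  have hTlin : IsLinearMap ℝ T := by
    rw [hT]
    constructor
    · intro x y
      simp only [inner_add_right, Prod.mk_add_mk]
    · intro c x
      simp only [inner_smul_right, Prod.smul_mk, smul_eq_mul]
  have hTcont : Continuous T := by
    rw [hT]
    fun_prop
  have hK' : Convex ℝ (T '' K) := hK.is_linear_image hTlin
  have hKc' : IsCompact (T '' K) := hKc.image hTcont
  have himg₁ : (fun p : ℝ × ℝ × ℝ => (p.2.1, p.2.2)) '' (T '' K)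
      = refl2 α₁ β₁ ⁻¹' ((fun x : E => (⟪v₁, x⟫_ℝ, ⟪w₁, x⟫_ℝ)) '' K) := by
    rw [← image_refl2 h1, image_image, image_image]
    apply image_congr
    intro x _
    rw [hT]
    exact hf₁ x
  have himg₂ : (fun p : ℝ × ℝ × ℝ => (p.1, p.2.2)) '' (T '' K)
      = refl2 α₂ β₂ ⁻¹' ((fun x : E => (⟪v₂, x⟫_ℝ, ⟪w₂, x⟫_ℝ)) '' K) := by
    rw [← image_refl2 h2, image_image, image_image]
    apply image_congr
    intro x _
    rw [hT]
    exact hf₂ x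
  have hV₁ : volume ((fun p : ℝ × ℝ × ℝ => (p.2.1, p.2.2)) '' (T '' K)) ≠ 0 := by
    rw [himg₁, volume_preimage_refl2 h1]
    exact frame_volume_ne_zero hKi hv₁ hw₁ hvw₁
  have hV₂ : volume ((fun p : ℝ × ℝ × ℝ => (p.1, p.2.2)) '' (T '' K)) ≠ 0 := by
    rw [himg₂, volume_preimage_refl2 h2]
    exact frame_volume_ne_zero hKi hv₂ hw₂ hvw₂
  have hcov' : ∀ p ∈ T '' K, (p.2.1, p.2.2) ∈ refl2 α₁ β₁ ⁻¹' B₁ ∨
      (p.1, p.2.2) ∈ refl2 α₂ β₂ ⁻¹' B₂ := by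
    rintro p ⟨x, hx, rfl⟩
    rcases hcov x hx with h | h
    · left
      show refl2 α₁ β₁ ((T x).2.1, (T x).2.2) ∈ B₁
      have : ((T x).2.1, (T x).2.2) = refl2 α₁ β₁ (⟪v₁, x⟫_ℝ, ⟪w₁, x⟫_ℝ) := by
        rw [hT]; exact hf₁ x
      rw [this, refl2_refl2 h1]
      exact h
    · right
      show refl2 α₂ β₂ ((T x).1, (T x).2.2) ∈ B₂
      have : ((T x).1, (T x).2.2) = refl2 α₂ β₂ (⟪v₂, x⟫_ℝ, ⟪w₂, x⟫_ℝ) := by
        rw [hT]; exact hf₂ x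
      rw [this, refl2_refl2 h2]
      exact h
  have main := two_cyl_measurable (T '' K) hK' hKc' hV₁ hV₂ (refl2 α₁ β₁ ⁻¹' B₁)
    (refl2 α₂ β₂ ⁻¹' B₂) ((continuous_refl2 α₁ β₁).measurable hB₁)
    ((continuous_refl2 α₂ β₂).measurable hB₂) hcov'
  rw [himg₁, himg₂, volume_preimage_refl2 h1, volume_preimage_refl2 h1,
    volume_preimage_refl2 h2, volume_preimage_refl2 h2] at main
  exact main

/-- The same statement for arbitrary bases (no measurability assumption; `volume` of a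
non-measurable set is its outer measure). -/
theorem two_cyl_general' [FiniteDimensional ℝ E] (hdim : Module.finrank ℝ E = 3)
    (K : Set E) (hK : Convex ℝ K) (hKc : IsCompact K) (hKi : (interior K).Nonempty)
    (v₁ w₁ v₂ w₂ : E)
    (hv₁ : ‖v₁‖ = 1) (hw₁ : ‖w₁‖ = 1) (hvw₁ : ⟪v₁, w₁⟫_ℝ = 0)
    (hv₂ : ‖v₂‖ = 1) (hw₂ : ‖w₂‖ = 1) (hvw₂ : ⟪v₂, w₂⟫_ℝ = 0)
    (B₁ B₂ : Set (ℝ × ℝ))
    (hcov : ∀ x ∈ K, (⟪v₁, x⟫_ℝ, ⟪w₁, x⟫_ℝ) ∈ B₁ ∨ (⟪v₂, x⟫_ℝ, ⟪w₂, x⟫_ℝ) ∈ B₂) :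
    (1 : ENNReal) / 2 ≤
      volume B₁ / volume ((fun x : E => (⟪v₁, x⟫_ℝ, ⟪w₁, x⟫_ℝ)) '' K)
      + volume B₂ / volume ((fun x : E => (⟪v₂, x⟫_ℝ, ⟪w₂, x⟫_ℝ)) '' K) := by
  have main := two_cyl_general hdim K hK hKc hKi v₁ w₁ v₂ w₂ hv₁ hw₁ hvw₁ hv₂ hw₂ hvw₂
    (toMeasurable volume B₁) (toMeasurable volume B₂) (measurableSet_toMeasurable _ _)
    (measurableSet_toMeasurable _ _) (fun x hx => by
      rcases hcov x hx with h | h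
      · left; exact subset_toMeasurable _ _ h
      · right; exact subset_toMeasurable _ _ h)
  rwa [measure_toMeasurable, measure_toMeasurable] at main

end frames

end Vale.Agent.Helper11
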