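import Vale.Agent.Helper11.ChordBound
import Vale.Agent.Helper11.TwoCylGeneral

/-!
# Coverings of a convex body by `m` cylinders: the bound `1 / 3 + 1 / (8 m √m)`
-/

namespace Vale.Agent.Helper11

open Set MeasureTheory
open scoped InnerProductSpace

theorem quintic_tangent {x a : ℝ} (hx : 0 ≤ x) (ha : 0 ≤ a) :
    a ^ 5 + 5 / 2 * a ^ 3 * (x ^ 2 - a ^ 2) ≤ x ^ 5 := by
  have h : x ^ 5 - (a ^ 5 + 5 / 2 * a ^ 3 * (x ^ 2 - a ^ 2))
      = (x - a) ^ 2 * (x ^ 3 + 2 * a * x ^ 2 + 3 * a ^ 2 * x + 3 / 2 * a ^ 3) := by ring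
  have h2 : 0 ≤ (x - a) ^ 2 * (x ^ 3 + 2 * a * x ^ 2 + 3 * a ^ 2 * x + 3 / 2 * a ^ 3) := by
    positivity
  linarith

theorem real_core {ι : Type*} [Fintype ι] (c s : ι → ℝ) (hc0 : ∀ i, 0 ≤ c i) (hs0 : ∀ i, 0 ≤ s i)
    (h : ∀ i, c i * (1 + 2 * s i ^ 3) ≤ 3 * s i ^ 2) (hsum : 1 ≤ ∑ i, c i) :
    1 / 3 + 1 / (8 * (Fintype.card ι : ℝ) * Real.sqrt (Fintype.card ι)) ≤ ∑ i, s i ^ 2 := by
  have hne : Nonempty ι := by
    by_contra hemp
    rw [not_nonempty_iff] at hemp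
    simp at hsum
    linarith
  obtain ⟨m, hm⟩ : ∃ m : ℝ, m = (Fintype.card ι : ℝ) := ⟨_, rfl⟩
  have hm1 : 1 ≤ m := by
    rw [hm]
    exact_mod_cast Fintype.card_pos
  rw [← hm]
  have hmpos : 0 < m := by linarith
  -- σ and σ₀
  obtain ⟨σ, hσ⟩ : ∃ σ : ι → ℝ, σ = fun i => Real.sqrt (c i / 3) := ⟨_, rfl⟩
  have hσ0 : ∀ i, 0 ≤ σ i := fun i => by rw [hσ]; exact Real.sqrt_nonneg _
  have hσsq : ∀ i, σ i ^ 2 = c i / 3 := fun i => by
    rw [hσ]; exact Real.sq_sqrt (by have := hc0 i; positivity)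
  obtain ⟨a, ha⟩ : ∃ a : ℝ, a = Real.sqrt (1 / (3 * m)) := ⟨_, rfl⟩
  have ha0 : 0 ≤ a := by rw [ha]; exact Real.sqrt_nonneg _
  have hasq : a ^ 2 = 1 / (3 * m) := by rw [ha]; exact Real.sq_sqrt (by positivity)
  -- pointwise
  have hpt : ∀ i, σ i ^ 2 + 2 * σ i ^ 5 ≤ s i ^ 2 := by
    intro i
    have h1 := h i
    have hc : c i = 3 * σ i ^ 2 := by rw [hσsq]; ring
    have hle : σ i ≤ s i := by
      have h2 : c i ≤ 3 * s i ^ 2 := by
        have : 0 ≤ c i * (2 * s i ^ 3) := mul_nonneg (hc0 i) (by have := hs0 i; positivity)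
        linarith
      have h3 : σ i ^ 2 ≤ s i ^ 2 := by rw [hσsq]; linarith
      exact (pow_le_pow_iff_left₀ (hσ0 i) (hs0 i) (by norm_num)).mp h3
    have h3 : σ i ^ 3 ≤ s i ^ 3 := pow_le_pow_left₀ (hσ0 i) hle 3
    have h4 : c i * (1 + 2 * σ i ^ 3) ≤ c i * (1 + 2 * s i ^ 3) :=
      mul_le_mul_of_nonneg_left (by linarith) (hc0 i)
    rw [hc] at h4 h1
    nlinarith
  have hsumσ : 1 / 3 ≤ ∑ i, σ i ^ 2 := by
    simp_rw [hσsq]
    rw [← Finset.sum_div]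
    linarith
  have hq : ∀ i, a ^ 5 + 5 / 2 * a ^ 3 * (σ i ^ 2 - a ^ 2) ≤ σ i ^ 5 :=
    fun i => quintic_tangent (hσ0 i) ha0
  have hsum5 : m * a ^ 5 ≤ ∑ i, σ i ^ 5 := by
    have h1 : ∑ i : ι, (a ^ 5 + 5 / 2 * a ^ 3 * (σ i ^ 2 - a ^ 2)) ≤ ∑ i, σ i ^ 5 :=
      Finset.sum_le_sum (fun i _ => hq i)
    have h2 : ∑ i : ι, (a ^ 5 + 5 / 2 * a ^ 3 * (σ i ^ 2 - a ^ 2))
        = m * a ^ 5 + 5 / 2 * a ^ 3 * (∑ i, σ i ^ 2 - m * a ^ 2) := by
      rw [Finset.sum_add_distrib, ← Finset.mul_sum, Finset.sum_sub_distrib]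
      simp only [Finset.sum_const, Finset.card_univ, nsmul_eq_mul]
      rw [hm]
    have h3 : m * a ^ 2 = 1 / 3 := by rw [hasq]; field_simp
    have h4 : 0 ≤ 5 / 2 * a ^ 3 * (∑ i, σ i ^ 2 - m * a ^ 2) := by
      apply mul_nonneg (by positivity)
      linarith
    linarith
  -- m * a^5 ≥ 1/(16 m √m)
  have hfin : 1 / (16 * m * Real.sqrt m) ≤ m * a ^ 5 := by
    have hsm : 0 < Real.sqrt m := Real.sqrt_pos.mpr hmpos
    have hsmsq : Real.sqrt m ^ 2 = m := Real.sq_sqrt hmpos.le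
    have hapos : 0 < a := by
      rw [ha]; exact Real.sqrt_pos.mpr (by positivity)
    -- a * √m * √3 = 1, so a ≥ 9/(16 √m) as √3 ≤ 16/9
    have h1 : (a * Real.sqrt m) ^ 2 = 1 / 3 := by
      rw [mul_pow, hasq, hsmsq]; field_simp
    have h2 : 9 / 16 ≤ a * Real.sqrt m := by
      by_contra hcon
      push Not at hcon
      have : (a * Real.sqrt m) ^ 2 < (9 / 16) ^ 2 :=
        pow_lt_pow_left₀ hcon (by positivity) (by norm_num)
      rw [h1] at this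
      norm_num at this
    have h3 : m * a ^ 5 = a / (9 * m) := by
      have : a ^ 5 = a * (a ^ 2) ^ 2 := by ring
      rw [this, hasq]; field_simp; norm_num
    rw [h3, div_le_div_iff₀ (by positivity) (by positivity)]
    nlinarith
  have hgoal : ∑ i, (σ i ^ 2 + 2 * σ i ^ 5) ≤ ∑ i, s i ^ 2 :=
    Finset.sum_le_sum (fun i _ => hpt i)
  rw [Finset.sum_add_distrib, ← Finset.mul_sum] at hgoal
  have e : 1 / (8 * m * Real.sqrt m) = 2 * (1 / (16 * m * Real.sqrt m)) := by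
    field_simp; ring
  rw [e]
  linarith

section frames

variable {E : Type*} [NormedAddCommGroup E] [InnerProductSpace ℝ E] [FiniteDimensional ℝ E]
  [MeasurableSpace E] [BorelSpace E]

theorem exists_frame_equiv (hdim : Module.finrank ℝ E = 3) {v w : E} (hv : ‖v‖ = 1)
    (hw : ‖w‖ = 1) (hvw : ⟪v, w⟫_ℝ = 0) :
    ∃ (u : E) (e : E ≃ᵐ (ℝ × ℝ) × ℝ), MeasurePreserving e volume volume ∧
      ∀ x, e x = ((⟪v, x⟫_ℝ, ⟪w, x⟫_ℝ), ⟪u, x⟫_ℝ) := by
  have hon : Orthonormal ℝ (({0, 1} : Set (Fin 3)).domRestrict ![v, w, 0]) := by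
    constructor
    · rintro ⟨i, hi⟩
      rcases hi with rfl | rfl
      · simpa using hv
      · simpa using hw
    · rintro ⟨i, hi⟩ ⟨j, hj⟩ hij
      rcases hi with rfl | rfl <;> rcases hj with rfl | rfl
      · exact absurd rfl hij
      · simpa using hvw
      · simpa [real_inner_comm] using hvw
      · exact absurd rfl hij
  obtain ⟨b, hb⟩ := Orthonormal.exists_orthonormalBasis_extension_of_card_eq (𝕜 := ℝ)
    (by simp [hdim]) hon
  have hb0 : b 0 = v := by simpa using hb 0 (by simp)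
  have hb1 : b 1 = w := by simpa using hb 1 (by simp)
  refine ⟨b 2, b.measurableEquiv.trans ((MeasurableEquiv.toLp 2 (Fin 3 → ℝ)).symm.trans
    ((MeasurableEquiv.piFinSuccAbove (fun _ => ℝ) 2).trans
    ((MeasurableEquiv.prodCongr (MeasurableEquiv.refl ℝ) MeasurableEquiv.finTwoArrow).trans
    MeasurableEquiv.prodComm))), ?_, ?_⟩
  · refine b.measurePreserving_measurableEquiv.trans ?_
    refine (EuclideanSpace.volume_preserving_symm_measurableEquiv_toLp (Fin 3)).trans ?_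
    refine (volume_preserving_piFinSuccAbove (fun _ : Fin 3 => ℝ) 2).trans ?_
    refine MeasurePreserving.trans ?_ ?_ (μb := volume)
    · exact (MeasurePreserving.id volume).prod (volume_preserving_finTwoArrow ℝ)
    · exact Measure.measurePreserving_swap
  · intro x
    have h0 := b.repr_apply_apply x 0
    have h1 := b.repr_apply_apply x 1
    have h2 := b.repr_apply_apply x 2
    rw [hb0] at h0
    rw [hb1] at h1
    rw [← h0, ← h1, ← h2]
    rfl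

/-- The chord bound for a cylinder given by an orthonormal frame of its base plane. -/
theorem chord_bound_frame (hdim : Module.finrank ℝ E = 3) {K : Set E} (hK : Convex ℝ K)
    (hKc : IsCompact K) {v w : E} (hv : ‖v‖ = 1) (hw : ‖w‖ = 1) (hvw : ⟪v, w⟫_ℝ = 0)
    {B : Set (ℝ × ℝ)} (hB : MeasurableSet B) {s : ℝ} (hs0 : 0 ≤ s) (hs1 : s ≤ 1)
    (hBs : volume (B ∩ (fun x : E => (⟪v, x⟫_ℝ, ⟪w, x⟫_ℝ)) '' K)
      = ENNReal.ofReal (s ^ 2) * volume ((fun x : E => (⟪v, x⟫_ℝ, ⟪w, x⟫_ℝ)) '' K)) :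
    volume (K ∩ (fun x : E => (⟪v, x⟫_ℝ, ⟪w, x⟫_ℝ)) ⁻¹' B) * ENNReal.ofReal (1 + 2 * s ^ 3)
      ≤ ENNReal.ofReal (3 * s ^ 2) * volume K := by
  obtain ⟨u, e, hmp, hex⟩ := exists_frame_equiv hdim hv hw hvw
  have hlin : IsLinearMap ℝ e := by
    constructor
    · intro x y
      rw [hex, hex, hex]
      simp [inner_add_right]
    · intro c x
      rw [hex, hex]
      simp [inner_smul_right]
  have hcont : Continuous e := by
    have he : (e : E → (ℝ × ℝ) × ℝ) = fun x => ((⟪v, x⟫_ℝ, ⟪w, x⟫_ℝ), ⟪u, x⟫_ℝ) := funext hex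
    rw [he]
    fun_prop
  have hG : Convex ℝ (e '' K) := hK.is_linear_image hlin
  have hGc : IsCompact (e '' K) := hKc.image hcont
  have hfst : Prod.fst '' (e '' K) = (fun x : E => (⟪v, x⟫_ℝ, ⟪w, x⟫_ℝ)) '' K := by
    rw [image_image]
    exact image_congr (fun x _ => by rw [hex])
  have hvolK : volume (e '' K) = volume K := by
    rw [← hmp.measure_preimage_equiv, e.injective.preimage_image]
  have hvolKC : volume (e '' K ∩ Prod.fst ⁻¹' B)
      = volume (K ∩ (fun x : E => (⟪v, x⟫_ℝ, ⟪w, x⟫_ℝ)) ⁻¹' B) := by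
    rw [← hmp.measure_preimage_equiv, preimage_inter, e.injective.preimage_image]
    congr 2
    ext x
    simp [hex]
  have main := chord_bound hG hGc hB hs0 hs1 (by rw [hfst]; exact hBs)
  rwa [hvolK, hvolKC] at main

/-- Every covering of a convex body in a three-dimensional Euclidean space by `m` cylinders has
directionwise relative area at least `1 / 3 + 1 / (8 m √m)`. -/
theorem many_cylinders (hdim : Module.finrank ℝ E = 3) (K : Set E) (hK : Convex ℝ K)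
    (hKc : IsCompact K) (hKi : (interior K).Nonempty)
    {ι : Type*} [Fintype ι] (v w : ι → E) (B : ι → Set (ℝ × ℝ))
    (hv : ∀ i, ‖v i‖ = 1) (hw : ∀ i, ‖w i‖ = 1) (hvw : ∀ i, ⟪v i, w i⟫_ℝ = 0)
    (hcov : ∀ x ∈ K, ∃ i, (⟪v i, x⟫_ℝ, ⟪w i, x⟫_ℝ) ∈ B i) :
    ENNReal.ofReal (1 / 3 + 1 / (8 * (Fintype.card ι : ℝ) * Real.sqrt (Fintype.card ι))) ≤
      ∑ i, volume (B i) / volume ((fun x : E => (⟪v i, x⟫_ℝ, ⟪w i, x⟫_ℝ)) '' K) := by
  have hV0 : volume K ≠ 0 :=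
    ((isOpen_interior.measure_pos volume hKi).trans_le (measure_mono interior_subset)).ne'
  have hVt : volume K ≠ ⊤ := hKc.measure_lt_top.ne
  have hVpos : 0 < (volume K).toReal := ENNReal.toReal_pos hV0 hVt
  have hD0 : ∀ i, volume ((fun x : E => (⟪v i, x⟫_ℝ, ⟪w i, x⟫_ℝ)) '' K) ≠ 0 :=
    fun i => frame_volume_ne_zero hKi (hv i) (hw i) (hvw i)
  have hDt : ∀ i, volume ((fun x : E => (⟪v i, x⟫_ℝ, ⟪w i, x⟫_ℝ)) '' K) ≠ ⊤ :=
    fun i => (hKc.image (by fun_prop)).measure_lt_top.ne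
  have hDpos : ∀ i, 0 < (volume ((fun x : E => (⟪v i, x⟫_ℝ, ⟪w i, x⟫_ℝ)) '' K)).toReal :=
    fun i => ENNReal.toReal_pos (hD0 i) (hDt i)
  -- measurable hulls of the bases
  obtain ⟨B', hB'⟩ : ∃ B' : ι → Set (ℝ × ℝ), B' = fun i => toMeasurable volume (B i) := ⟨_, rfl⟩
  have hB'm : ∀ i, MeasurableSet (B' i) := fun i => by
    rw [hB']; exact measurableSet_toMeasurable _ _
  have hB'sub : ∀ i, B i ⊆ B' i := fun i => by
    rw [hB']; exact subset_toMeasurable _ _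
  have hB'vol : ∀ i, volume (B' i) = volume (B i) := fun i => by
    rw [hB']; exact measure_toMeasurable _
  -- relative areas
  obtain ⟨b, hb⟩ : ∃ b : ι → ENNReal, b = fun i =>
      volume (B' i ∩ (fun x : E => (⟪v i, x⟫_ℝ, ⟪w i, x⟫_ℝ)) '' K) := ⟨_, rfl⟩
  have hble : ∀ i, b i ≤ volume ((fun x : E => (⟪v i, x⟫_ℝ, ⟪w i, x⟫_ℝ)) '' K) := fun i => by
    rw [hb]; exact measure_mono inter_subset_right
  have hbt : ∀ i, b i ≠ ⊤ := fun i => ne_top_of_le_ne_top (hDt i) (hble i)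
  obtain ⟨s, hs⟩ : ∃ s : ι → ℝ, s = fun i => Real.sqrt ((b i).toReal /
      (volume ((fun x : E => (⟪v i, x⟫_ℝ, ⟪w i, x⟫_ℝ)) '' K)).toReal) := ⟨_, rfl⟩
  have hs0 : ∀ i, 0 ≤ s i := fun i => by rw [hs]; exact Real.sqrt_nonneg _
  have hssq : ∀ i, s i ^ 2 = (b i).toReal /
      (volume ((fun x : E => (⟪v i, x⟫_ℝ, ⟪w i, x⟫_ℝ)) '' K)).toReal := fun i => by
    rw [hs]
    exact Real.sq_sqrt (div_nonneg ENNReal.toReal_nonneg ENNReal.toReal_nonneg)
  have hs1 : ∀ i, s i ≤ 1 := fun i => by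
    have h1 : s i ^ 2 ≤ 1 := by
      rw [hssq, div_le_one (hDpos i)]
      exact ENNReal.toReal_mono (hDt i) (hble i)
    nlinarith [hs0 i]
  have hofs : ∀ i, ENNReal.ofReal (s i ^ 2)
      = b i / volume ((fun x : E => (⟪v i, x⟫_ℝ, ⟪w i, x⟫_ℝ)) '' K) := fun i => by
    rw [hssq, ENNReal.ofReal_div_of_pos (hDpos i), ENNReal.ofReal_toReal (hbt i),
      ENNReal.ofReal_toReal (hDt i)]
  have hbs : ∀ i, volume (B' i ∩ (fun x : E => (⟪v i, x⟫_ℝ, ⟪w i, x⟫_ℝ)) '' K)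
      = ENNReal.ofReal (s i ^ 2) * volume ((fun x : E => (⟪v i, x⟫_ℝ, ⟪w i, x⟫_ℝ)) '' K) :=
    fun i => by
      rw [hofs, ENNReal.div_mul_cancel (hD0 i) (hDt i), hb]
  -- the chord bound for every cylinder
  have hchord : ∀ i, volume (K ∩ (fun x : E => (⟪v i, x⟫_ℝ, ⟪w i, x⟫_ℝ)) ⁻¹' B' i)
      * ENNReal.ofReal (1 + 2 * s i ^ 3) ≤ ENNReal.ofReal (3 * s i ^ 2) * volume K :=
    fun i => chord_bound_frame hdim hK hKc (hv i) (hw i) (hvw i) (hB'm i) (hs0 i) (hs1 i) (hbs i)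
  have hNt : ∀ i, volume (K ∩ (fun x : E => (⟪v i, x⟫_ℝ, ⟪w i, x⟫_ℝ)) ⁻¹' B' i) ≠ ⊤ :=
    fun i => ne_top_of_le_ne_top hVt (measure_mono inter_subset_left)
  obtain ⟨c, hc⟩ : ∃ c : ι → ℝ, c = fun i =>
      (volume (K ∩ (fun x : E => (⟪v i, x⟫_ℝ, ⟪w i, x⟫_ℝ)) ⁻¹' B' i)).toReal
        / (volume K).toReal := ⟨_, rfl⟩
  have hc0 : ∀ i, 0 ≤ c i := fun i => by
    rw [hc]; exact div_nonneg ENNReal.toReal_nonneg ENNReal.toReal_nonneg
  have hreal : ∀ i, c i * (1 + 2 * s i ^ 3) ≤ 3 * s i ^ 2 := by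
    intro i
    have h1 := ENNReal.toReal_mono (ENNReal.mul_ne_top ENNReal.ofReal_ne_top hVt) (hchord i)
    have hp1 : 0 ≤ 1 + 2 * s i ^ 3 := by have := hs0 i; positivity
    have hp2 : 0 ≤ 3 * s i ^ 2 := by positivity
    rw [ENNReal.toReal_mul, ENNReal.toReal_mul, ENNReal.toReal_ofReal hp1,
      ENNReal.toReal_ofReal hp2] at h1
    rw [hc]
    simp only
    rw [div_mul_eq_mul_div, div_le_iff₀ hVpos]
    exact h1
  have hsum : 1 ≤ ∑ i, c i := by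
    have hcovK : K ⊆ ⋃ i, K ∩ (fun x : E => (⟪v i, x⟫_ℝ, ⟪w i, x⟫_ℝ)) ⁻¹' B' i := by
      intro x hx
      obtain ⟨i, hi⟩ := hcov x hx
      exact mem_iUnion.mpr ⟨i, hx, hB'sub i hi⟩
    have h1 : volume K ≤ ∑ i, volume (K ∩ (fun x : E => (⟪v i, x⟫_ℝ, ⟪w i, x⟫_ℝ)) ⁻¹' B' i) :=
      (measure_mono hcovK).trans (measure_iUnion_fintype_le volume _)
    have h2 := ENNReal.toReal_mono (ENNReal.sum_ne_top.mpr (fun i _ => hNt i)) h1
    rw [ENNReal.toReal_sum (fun i _ => hNt i)] at h2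
    rw [hc]
    simp only
    rw [← Finset.sum_div, le_div_iff₀ hVpos, one_mul]
    exact h2
  have core := real_core c s hc0 hs0 hreal hsum
  calc ENNReal.ofReal (1 / 3 + 1 / (8 * (Fintype.card ι : ℝ) * Real.sqrt (Fintype.card ι)))
      ≤ ENNReal.ofReal (∑ i, s i ^ 2) := ENNReal.ofReal_le_ofReal core
    _ = ∑ i, ENNReal.ofReal (s i ^ 2) :=
        ENNReal.ofReal_sum_of_nonneg (fun i _ => sq_nonneg (s i))
    _ ≤ ∑ i, volume (B i) / volume ((fun x : E => (⟪v i, x⟫_ℝ, ⟪w i, x⟫_ℝ)) '' K) := by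
        apply Finset.sum_le_sum
        intro i _
        rw [hofs, ← hB'vol i]
        apply ENNReal.div_le_div_right
        rw [hb]
        exact measure_mono inter_subset_left

end frames

end Vale.Agent.Helper11
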