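import Vale.Agent.Helper11.TwoCylGeneral

/-!
# Finite coverings of a convex body by cylinders whose axes have at most two directions
-/

namespace Vale.Agent.Helper11

open Set MeasureTheory
open scoped InnerProductSpace

/-- A linear map of the coordinate plane. -/
def lin2 (p q r s : ℝ) (t : ℝ × ℝ) : ℝ × ℝ := (p * t.1 + q * t.2, r * t.1 + s * t.2)

theorem lin2_eq (p q r s : ℝ) : lin2 p q r s =
    ⇑(Matrix.toLin (Module.Basis.finTwoProd ℝ) (Module.Basis.finTwoProd ℝ) !![p, q; r, s]) := by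
  funext t
  rw [Matrix.toLin_finTwoProd_apply]
  rfl

theorem det_lin2 (p q r s : ℝ) : LinearMap.det
    (Matrix.toLin (Module.Basis.finTwoProd ℝ) (Module.Basis.finTwoProd ℝ) !![p, q; r, s])
    = p * s - q * r := by
  rw [LinearMap.det_toLin, Matrix.det_fin_two_of]

theorem abs_eq_one_of_sq {d : ℝ} (h : d ^ 2 = 1) : |d| = 1 := by
  have h2 : |d| ^ 2 = 1 := by rw [sq_abs]; exact h
  nlinarith [abs_nonneg d]

theorem volume_preimage_lin2 {p q r s : ℝ} (h : (p * s - q * r) ^ 2 = 1) (S : Set (ℝ × ℝ)) :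
    volume (lin2 p q r s ⁻¹' S) = volume S := by
  have hd : p * s - q * r ≠ 0 := by
    intro h0
    rw [h0] at h
    norm_num at h
  rw [lin2_eq, Measure.addHaar_preimage_linearMap volume (by rw [det_lin2]; exact hd), det_lin2,
    abs_inv, abs_eq_one_of_sq h]
  simp

theorem volume_image_lin2 {p q r s : ℝ} (h : (p * s - q * r) ^ 2 = 1) (S : Set (ℝ × ℝ)) :
    volume (lin2 p q r s '' S) = volume S := by
  rw [lin2_eq, Measure.addHaar_image_linearMap, det_lin2, abs_eq_one_of_sq h]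
  simp

section frames

variable {E : Type*} [NormedAddCommGroup E] [InnerProductSpace ℝ E]

/-- In a three-dimensional space, a vector orthogonal to `a ≠ 0` is a combination of an
orthonormal pair orthogonal to `a`. -/
theorem eq_comb_of_orth [FiniteDimensional ℝ E] (hdim : Module.finrank ℝ E = 3) {a V W : E}
    (ha : a ≠ 0) (hV : ‖V‖ = 1) (hW : ‖W‖ = 1) (hVW : ⟪V, W⟫_ℝ = 0) (hVa : ⟪V, a⟫_ℝ = 0)
    (hWa : ⟪W, a⟫_ℝ = 0) {u : E} (hu : ⟪u, a⟫_ℝ = 0) :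
    u = ⟪V, u⟫_ℝ • V + ⟪W, u⟫_ℝ • W := by
  by_contra hne
  obtain ⟨r, hr⟩ : ∃ r : E, r = u - (⟪V, u⟫_ℝ • V + ⟪W, u⟫_ℝ • W) := ⟨_, rfl⟩
  have hr0 : r ≠ 0 := by
    rw [hr]
    exact sub_ne_zero.mpr hne
  have hV0 : V ≠ 0 := by
    intro h; rw [h, norm_zero] at hV; norm_num at hV
  have hW0 : W ≠ 0 := by
    intro h; rw [h, norm_zero] at hW; norm_num at hW
  have hWV : ⟪W, V⟫_ℝ = 0 := by rw [real_inner_comm]; exact hVW
  have haV : ⟪a, V⟫_ℝ = 0 := by rw [real_inner_comm]; exact hVa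
  have haW : ⟪a, W⟫_ℝ = 0 := by rw [real_inner_comm]; exact hWa
  have hau : ⟪a, u⟫_ℝ = 0 := by rw [real_inner_comm]; exact hu
  have hVr : ⟪V, r⟫_ℝ = 0 := by
    rw [hr, inner_sub_right, inner_add_right, inner_smul_right, inner_smul_right,
      real_inner_self_eq_norm_sq, hV, hVW]
    ring
  have hWr : ⟪W, r⟫_ℝ = 0 := by
    rw [hr, inner_sub_right, inner_add_right, inner_smul_right, inner_smul_right,
      real_inner_self_eq_norm_sq, hW, hWV]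
    ring
  have har : ⟪a, r⟫_ℝ = 0 := by
    rw [hr, inner_sub_right, inner_add_right, inner_smul_right, inner_smul_right, haV, haW, hau]
    ring
  have hrV : ⟪r, V⟫_ℝ = 0 := by rw [real_inner_comm]; exact hVr
  have hrW : ⟪r, W⟫_ℝ = 0 := by rw [real_inner_comm]; exact hWr
  have hra : ⟪r, a⟫_ℝ = 0 := by rw [real_inner_comm]; exact har
  have hli : LinearIndependent ℝ ![V, W, a, r] := by
    apply linearIndependent_of_ne_zero_of_inner_eq_zero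
    · intro i
      fin_cases i
      · exact hV0
      · exact hW0
      · exact ha
      · exact hr0
    · intro i j hij
      fin_cases i <;> fin_cases j <;> first | exact absurd rfl hij | assumption
  have := hli.fintype_card_le_finrank
  rw [hdim] at this
  simp at this

/-- Change of orthonormal frame in the plane orthogonal to `a`. -/
theorem frame_change [FiniteDimensional ℝ E] (hdim : Module.finrank ℝ E = 3) {a V W v w : E}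
    (ha : a ≠ 0) (hV : ‖V‖ = 1) (hW : ‖W‖ = 1) (hVW : ⟪V, W⟫_ℝ = 0) (hVa : ⟪V, a⟫_ℝ = 0)
    (hWa : ⟪W, a⟫_ℝ = 0) (hv : ‖v‖ = 1) (hw : ‖w‖ = 1) (hvw : ⟪v, w⟫_ℝ = 0)
    (hva : ⟪v, a⟫_ℝ = 0) (hwa : ⟪w, a⟫_ℝ = 0) :
    ∃ p q r s : ℝ, (p * s - q * r) ^ 2 = 1 ∧
      ∀ x : E, (⟪v, x⟫_ℝ, ⟪w, x⟫_ℝ) = lin2 p q r s (⟪V, x⟫_ℝ, ⟪W, x⟫_ℝ) := by
  have ev := eq_comb_of_orth hdim ha hV hW hVW hVa hWa hva
  have ew := eq_comb_of_orth hdim ha hV hW hVW hVa hWa hwa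
  obtain ⟨p, hp⟩ : ∃ p : ℝ, p = ⟪V, v⟫_ℝ := ⟨_, rfl⟩
  obtain ⟨q, hq⟩ : ∃ q : ℝ, q = ⟪W, v⟫_ℝ := ⟨_, rfl⟩
  obtain ⟨r, hr⟩ : ∃ r : ℝ, r = ⟪V, w⟫_ℝ := ⟨_, rfl⟩
  obtain ⟨s, hs⟩ : ∃ s : ℝ, s = ⟪W, w⟫_ℝ := ⟨_, rfl⟩
  rw [← hp, ← hq] at ev
  rw [← hr, ← hs] at ew
  have h1 : p ^ 2 + q ^ 2 = 1 := by
    have := norm_sq_comb hV hW hVW p q
    rw [← ev, hv] at this
    linarith
  have h2 : r ^ 2 + s ^ 2 = 1 := by
    have := norm_sq_comb hV hW hVW r s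
    rw [← ew, hw] at this
    linarith
  have h3 : p * r + q * s = 0 := by
    have hWV : ⟪W, V⟫_ℝ = 0 := by rw [real_inner_comm]; exact hVW
    have : ⟪p • V + q • W, r • V + s • W⟫_ℝ = p * r + q * s := by
      simp only [inner_add_left, inner_add_right, inner_smul_left, inner_smul_right,
        real_inner_self_eq_norm_sq, hV, hW, hVW, hWV]
      simp
      ring
    rw [← this, ← ev, ← ew]
    exact hvw
  refine ⟨p, q, r, s, ?_, ?_⟩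
  · linear_combination (r ^ 2 + s ^ 2) * h1 + h2 - (p * r + q * s) * h3
  · intro x
    have e1 : ⟪v, x⟫_ℝ = p * ⟪V, x⟫_ℝ + q * ⟪W, x⟫_ℝ := by
      conv_lhs => rw [ev]
      simp [inner_add_left, inner_smul_left]
    have e2 : ⟪w, x⟫_ℝ = r * ⟪V, x⟫_ℝ + s * ⟪W, x⟫_ℝ := by
      conv_lhs => rw [ew]
      simp [inner_add_left, inner_smul_left]
    rw [e1, e2]
    rfl

/-- Merging finitely many cylinders with a common base plane into one cylinder. -/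
theorem merge_frames {ι : Type*} (K : Set E) (v w : ι → E) (B : ι → Set (ℝ × ℝ)) (V W : E)
    (s : Finset ι)
    (hs : ∀ i ∈ s, ∃ p q r t : ℝ, (p * t - q * r) ^ 2 = 1 ∧
      ∀ x : E, (⟪v i, x⟫_ℝ, ⟪w i, x⟫_ℝ) = lin2 p q r t (⟪V, x⟫_ℝ, ⟪W, x⟫_ℝ)) :
    ∃ B' : Set (ℝ × ℝ),
      (∀ x : E, ∀ i ∈ s, (⟪v i, x⟫_ℝ, ⟪w i, x⟫_ℝ) ∈ B i → (⟪V, x⟫_ℝ, ⟪W, x⟫_ℝ) ∈ B') ∧
      volume B' / volume ((fun x : E => (⟪V, x⟫_ℝ, ⟪W, x⟫_ℝ)) '' K) ≤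
        ∑ i ∈ s, volume (B i) / volume ((fun x : E => (⟪v i, x⟫_ℝ, ⟪w i, x⟫_ℝ)) '' K) := by
  refine ⟨⋃ i ∈ s, (fun x : E => (⟪V, x⟫_ℝ, ⟪W, x⟫_ℝ)) ''
    ((fun x : E => (⟪v i, x⟫_ℝ, ⟪w i, x⟫_ℝ)) ⁻¹' B i), ?_, ?_⟩
  · intro x i hi h
    exact mem_iUnion₂.mpr ⟨i, hi, ⟨x, h, rfl⟩⟩
  · have hterm : ∀ i ∈ s, volume ((fun x : E => (⟪V, x⟫_ℝ, ⟪W, x⟫_ℝ)) ''
        ((fun x : E => (⟪v i, x⟫_ℝ, ⟪w i, x⟫_ℝ)) ⁻¹' B i))
        / volume ((fun x : E => (⟪V, x⟫_ℝ, ⟪W, x⟫_ℝ)) '' K)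
        ≤ volume (B i) / volume ((fun x : E => (⟪v i, x⟫_ℝ, ⟪w i, x⟫_ℝ)) '' K) := by
      intro i hi
      obtain ⟨p, q, r, t, hdet, hx⟩ := hs i hi
      have e1 : (fun x : E => (⟪v i, x⟫_ℝ, ⟪w i, x⟫_ℝ)) '' K
          = lin2 p q r t '' ((fun x : E => (⟪V, x⟫_ℝ, ⟪W, x⟫_ℝ)) '' K) := by
        rw [image_image]
        exact image_congr (fun x _ => hx x)
      rw [e1, volume_image_lin2 hdet]
      apply ENNReal.div_le_div_right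
      calc volume ((fun x : E => (⟪V, x⟫_ℝ, ⟪W, x⟫_ℝ)) ''
            ((fun x : E => (⟪v i, x⟫_ℝ, ⟪w i, x⟫_ℝ)) ⁻¹' B i))
          ≤ volume (lin2 p q r t ⁻¹' B i) := by
            apply measure_mono
            rintro _ ⟨x, hx', rfl⟩
            show lin2 p q r t (⟪V, x⟫_ℝ, ⟪W, x⟫_ℝ) ∈ B i
            rw [← hx x]
            exact hx'
        _ = volume (B i) := volume_preimage_lin2 hdet _
    calc volume (⋃ i ∈ s, (fun x : E => (⟪V, x⟫_ℝ, ⟪W, x⟫_ℝ)) ''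
          ((fun x : E => (⟪v i, x⟫_ℝ, ⟪w i, x⟫_ℝ)) ⁻¹' B i))
          / volume ((fun x : E => (⟪V, x⟫_ℝ, ⟪W, x⟫_ℝ)) '' K)
        ≤ (∑ i ∈ s, volume ((fun x : E => (⟪V, x⟫_ℝ, ⟪W, x⟫_ℝ)) ''
          ((fun x : E => (⟪v i, x⟫_ℝ, ⟪w i, x⟫_ℝ)) ⁻¹' B i)))
          / volume ((fun x : E => (⟪V, x⟫_ℝ, ⟪W, x⟫_ℝ)) '' K) :=
          ENNReal.div_le_div_right (measure_biUnion_finset_le s _) _
      _ = ∑ i ∈ s, volume ((fun x : E => (⟪V, x⟫_ℝ, ⟪W, x⟫_ℝ)) ''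
          ((fun x : E => (⟪v i, x⟫_ℝ, ⟪w i, x⟫_ℝ)) ⁻¹' B i))
          / volume ((fun x : E => (⟪V, x⟫_ℝ, ⟪W, x⟫_ℝ)) '' K) := by
          simp_rw [div_eq_mul_inv]
          rw [Finset.sum_mul]
      _ ≤ ∑ i ∈ s, volume (B i) / volume ((fun x : E => (⟪v i, x⟫_ℝ, ⟪w i, x⟫_ℝ)) '' K) :=
          Finset.sum_le_sum hterm

/-- Finite coverings of a convex body in a three-dimensional Euclidean space by cylinders each of
whose axes is parallel to one of two given nonzero vectors `a`, `b`. -/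
theorem two_directions [FiniteDimensional ℝ E] (hdim : Module.finrank ℝ E = 3)
    (K : Set E) (hK : Convex ℝ K) (hKc : IsCompact K) (hKi : (interior K).Nonempty)
    {ι : Type*} [Fintype ι] (v w : ι → E) (B : ι → Set (ℝ × ℝ))
    (hv : ∀ i, ‖v i‖ = 1) (hw : ∀ i, ‖w i‖ = 1) (hvw : ∀ i, ⟪v i, w i⟫_ℝ = 0)
    (a b : E) (ha : a ≠ 0) (hb : b ≠ 0)
    (hax : ∀ i, (⟪v i, a⟫_ℝ = 0 ∧ ⟪w i, a⟫_ℝ = 0) ∨ (⟪v i, b⟫_ℝ = 0 ∧ ⟪w i, b⟫_ℝ = 0))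
    (hcov : ∀ x ∈ K, ∃ i, (⟪v i, x⟫_ℝ, ⟪w i, x⟫_ℝ) ∈ B i) :
    (1 : ENNReal) / 2 ≤
      ∑ i, volume (B i) / volume ((fun x : E => (⟪v i, x⟫_ℝ, ⟪w i, x⟫_ℝ)) '' K) := by
  classical
  obtain ⟨x₀, hx₀⟩ := hKi
  obtain ⟨i₀, -⟩ := hcov x₀ (interior_subset hx₀)
  obtain ⟨P, hP⟩ : ∃ P : ι → Prop, P = fun i => ⟪v i, a⟫_ℝ = 0 ∧ ⟪w i, a⟫_ℝ = 0 := ⟨_, rfl⟩
  have hPi : ∀ i, P i → ⟪v i, a⟫_ℝ = 0 ∧ ⟪w i, a⟫_ℝ = 0 := by
    intro i h
    rw [hP] at h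
    exact h
  have hPn : ∀ i, ¬ P i → ⟪v i, b⟫_ℝ = 0 ∧ ⟪w i, b⟫_ℝ = 0 := by
    intro i h
    rw [hP] at h
    exact (hax i).resolve_left h
  obtain ⟨j₁, hj₁⟩ : ∃ j₁ : ι, ∀ i, P i → P j₁ := by
    by_cases h : ∃ i, P i
    · obtain ⟨j, hj⟩ := h
      exact ⟨j, fun _ _ => hj⟩
    · exact ⟨i₀, fun i hi => absurd ⟨i, hi⟩ h⟩
  obtain ⟨j₂, hj₂⟩ : ∃ j₂ : ι, ∀ i, ¬ P i → ¬ P j₂ := by
    by_cases h : ∃ i, ¬ P i
    · obtain ⟨j, hj⟩ := h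
      exact ⟨j, fun _ _ => hj⟩
    · exact ⟨i₀, fun i hi => absurd ⟨i, hi⟩ h⟩
  obtain ⟨B₁', hc₁, hvol₁⟩ := merge_frames K v w B (v j₁) (w j₁) (Finset.univ.filter P) (by
    intro i hi
    have h1 : P i := (Finset.mem_filter.mp hi).2
    have h2 := hPi j₁ (hj₁ i h1)
    have h3 := hPi i h1
    exact frame_change hdim ha (hv j₁) (hw j₁) (hvw j₁) h2.1 h2.2 (hv i) (hw i) (hvw i) h3.1 h3.2)
  obtain ⟨B₂', hc₂, hvol₂⟩ := merge_frames K v w B (v j₂) (w j₂)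
    (Finset.univ.filter (fun i => ¬ P i)) (by
    intro i hi
    have h1 : ¬ P i := (Finset.mem_filter.mp hi).2
    have h2 := hPn j₂ (hj₂ i h1)
    have h3 := hPn i h1
    exact frame_change hdim hb (hv j₂) (hw j₂) (hvw j₂) h2.1 h2.2 (hv i) (hw i) (hvw i) h3.1 h3.2)
  have main := two_cyl_general' hdim K hK hKc ⟨x₀, hx₀⟩ (v j₁) (w j₁) (v j₂) (w j₂) (hv j₁) (hw j₁)
    (hvw j₁) (hv j₂) (hw j₂) (hvw j₂) B₁' B₂' (fun x hx => by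
      obtain ⟨i, hi⟩ := hcov x hx
      by_cases h1 : P i
      · left
        exact hc₁ x i (Finset.mem_filter.mpr ⟨Finset.mem_univ _, h1⟩) hi
      · right
        exact hc₂ x i (Finset.mem_filter.mpr ⟨Finset.mem_univ _, h1⟩) hi)
  calc (1 : ENNReal) / 2 ≤ _ := main
    _ ≤ (∑ i ∈ Finset.univ.filter P,
          volume (B i) / volume ((fun x : E => (⟪v i, x⟫_ℝ, ⟪w i, x⟫_ℝ)) '' K))
        + ∑ i ∈ Finset.univ.filter (fun i => ¬ P i),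
          volume (B i) / volume ((fun x : E => (⟪v i, x⟫_ℝ, ⟪w i, x⟫_ℝ)) '' K) :=
        add_le_add hvol₁ hvol₂
    _ = ∑ i, volume (B i) / volume ((fun x : E => (⟪v i, x⟫_ℝ, ⟪w i, x⟫_ℝ)) '' K) :=
        Finset.sum_filter_add_sum_filter_not Finset.univ P _

/-- From the directionwise inequality to the absolute one: if `A` is at most every `D i`, then
`A / 2` is at most the sum of the `b i`. -/
theorem bang_form {ι : Type*} [Fintype ι] (b D : ι → ENNReal) (A : ENNReal)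
    (h : (1 : ENNReal) / 2 ≤ ∑ i, b i / D i) (hA : ∀ i, A ≤ D i) :
    A / 2 ≤ ∑ i, b i := by
  have h1 : (1 : ENNReal) / 2 ≤ (∑ i, b i) / A := by
    calc (1 : ENNReal) / 2 ≤ ∑ i, b i / D i := h
      _ ≤ ∑ i, b i / A := Finset.sum_le_sum (fun i _ => ENNReal.div_le_div_left (hA i) _)
      _ = (∑ i, b i) / A := by
          simp_rw [div_eq_mul_inv]
          rw [Finset.sum_mul]
  calc A / 2 = A * (1 / 2) := by rw [mul_one_div]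
    _ ≤ A * ((∑ i, b i) / A) := by gcongr
    _ ≤ ∑ i, b i := ENNReal.mul_div_le

end frames

end Vale.Agent.Helper11
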