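import Vale.Agent.Helper11.SharpChord
import Vale.Agent.Helper11.ManyCyl
import Vale.Agent.Helper11.TwoDirections

/-!
# Coverings of a convex body by cylinders with few axis directions: the sharp-chord bound

If the axes of the cylinders of a finite covering of a convex body in three-dimensional Euclidean
space take at most `d` directions, then the directionwise relative area `R` of the covering
satisfies `3 R - 2 R √(R / d) ≥ 1`.
-/

namespace Vale.Agent.Helper11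

open Set MeasureTheory
open scoped InnerProductSpace

theorem cubic_tangent {x a : ℝ} (hx : 0 ≤ x) (ha : 0 ≤ a) :
    a ^ 3 + 3 / 2 * a * (x ^ 2 - a ^ 2) ≤ x ^ 3 := by
  have h : x ^ 3 - (a ^ 3 + 3 / 2 * a * (x ^ 2 - a ^ 2)) = (x - a) ^ 2 * (x + a / 2) := by ring
  have h2 : 0 ≤ (x - a) ^ 2 * (x + a / 2) := by positivity
  linarith

theorem real_core_sharp {ι : Type*} [Fintype ι] (s : ι → ℝ) (hs0 : ∀ i, 0 ≤ s i)
    (hsum : 1 ≤ ∑ i, (3 * s i ^ 2 - 2 * s i ^ 3)) {d : ℝ} (hd : (Fintype.card ι : ℝ) ≤ d)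
    {x : ℝ} (hx0 : 0 ≤ x) (hx1 : x ≤ 1) (hx : 3 * x - 2 * x * Real.sqrt (x / d) ≤ 1) :
    x ≤ ∑ i, s i ^ 2 := by
  have hne : Nonempty ι := by
    by_contra hemp
    rw [not_nonempty_iff] at hemp
    simp at hsum
    linarith
  obtain ⟨m, hm⟩ : ∃ m : ℝ, m = (Fintype.card ι : ℝ) := ⟨_, rfl⟩
  have hm1 : 1 ≤ m := by
    rw [hm]
    exact_mod_cast Fintype.card_pos
  rw [← hm] at hd
  have hmpos : 0 < m := by linarith
  by_contra hcon
  push Not at hcon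
  obtain ⟨S, hS⟩ : ∃ S : ℝ, S = ∑ i, s i ^ 2 := ⟨_, rfl⟩
  rw [← hS] at hcon
  have hS0 : 0 ≤ S := by rw [hS]; exact Finset.sum_nonneg (fun i _ => sq_nonneg _)
  obtain ⟨t, ht⟩ : ∃ t : ℝ, t = Real.sqrt (x / m) := ⟨_, rfl⟩
  obtain ⟨u, hu⟩ : ∃ u : ℝ, u = Real.sqrt (S / m) := ⟨_, rfl⟩
  have ht0 : 0 ≤ t := by rw [ht]; exact Real.sqrt_nonneg _
  have hu0 : 0 ≤ u := by rw [hu]; exact Real.sqrt_nonneg _
  have htsq : t ^ 2 = x / m := by rw [ht]; exact Real.sq_sqrt (by positivity)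
  have husq : u ^ 2 = S / m := by rw [hu]; exact Real.sq_sqrt (by positivity)
  have hut : u < t := by
    rw [hu, ht]
    exact Real.sqrt_lt_sqrt (by positivity) (div_lt_div_of_pos_right hcon hmpos)
  have ht1 : t ≤ 1 := by
    have h1 : t ^ 2 ≤ 1 := by
      rw [htsq, div_le_one hmpos]; linarith
    nlinarith
  have hx' : 3 * x - 2 * x * t ≤ 1 := by
    have h1 : Real.sqrt (x / d) ≤ t := by
      rw [ht]
      apply Real.sqrt_le_sqrt
      exact div_le_div_of_nonneg_left hx0 hmpos hd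
    nlinarith [mul_le_mul_of_nonneg_left h1 (by positivity : (0:ℝ) ≤ 2 * x)]
  have hxm : x = m * t ^ 2 := by rw [htsq]; field_simp
  have hSm : S = m * u ^ 2 := by rw [husq]; field_simp
  have hq : ∀ i, u ^ 3 + 3 / 2 * u * (s i ^ 2 - u ^ 2) ≤ s i ^ 3 :=
    fun i => cubic_tangent (hs0 i) hu0
  have hsum3 : m * u ^ 3 ≤ ∑ i, s i ^ 3 := by
    have h1 : ∑ i : ι, (u ^ 3 + 3 / 2 * u * (s i ^ 2 - u ^ 2)) ≤ ∑ i, s i ^ 3 :=
      Finset.sum_le_sum (fun i _ => hq i)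
    have h2 : ∑ i : ι, (u ^ 3 + 3 / 2 * u * (s i ^ 2 - u ^ 2))
        = m * u ^ 3 + 3 / 2 * u * (∑ i, s i ^ 2 - m * u ^ 2) := by
      rw [Finset.sum_add_distrib, ← Finset.mul_sum, Finset.sum_sub_distrib]
      simp only [Finset.sum_const, Finset.card_univ, nsmul_eq_mul]
      rw [hm]
    rw [h2, ← hS, ← hSm] at h1
    linarith
  have h3 : 1 ≤ 3 * S - 2 * ∑ i, s i ^ 3 := by
    have h31 : ∑ i, (3 * s i ^ 2 - 2 * s i ^ 3) = 3 * S - 2 * ∑ i, s i ^ 3 := by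
      rw [Finset.sum_sub_distrib, ← Finset.mul_sum, ← Finset.mul_sum, hS]
    linarith
  have h4 : 1 ≤ m * (3 * u ^ 2 - 2 * u ^ 3) := by
    rw [hSm] at h3; linarith
  have h5 : m * (3 * t ^ 2 - 2 * t ^ 3) ≤ 1 := by
    rw [hxm] at hx'; linarith
  have h6 : 3 * t ^ 2 - 2 * t ^ 3 ≤ 3 * u ^ 2 - 2 * u ^ 3 := by
    by_contra h
    push Not at h
    have h61 := mul_lt_mul_of_pos_left h hmpos
    linarith
  have h7 : (3 * t ^ 2 - 2 * t ^ 3) - (3 * u ^ 2 - 2 * u ^ 3)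
      = (t - u) ^ 2 + 2 * (t - u) * (t * (1 - t) + u * (1 - t) + u * (1 - u)) := by ring
  have h8 : 0 < (t - u) ^ 2 := by
    have h81 : 0 < t - u := by linarith
    positivity
  have h9 : 0 ≤ 2 * (t - u) * (t * (1 - t) + u * (1 - t) + u * (1 - u)) := by
    have h91 : 0 ≤ t - u := by linarith
    have h92 : 0 ≤ 1 - t := by linarith
    have h93 : 0 ≤ 1 - u := by linarith
    positivity
  linarith

/-- The explicit value `1 / 3 + 2 / (9 √(3 d))` satisfies the hypothesis of `real_core_sharp`. -/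
theorem explicit_value {d : ℝ} (hd : 1 ≤ d) :
    0 ≤ 1 / 3 + 2 / (9 * Real.sqrt (3 * d)) ∧ 1 / 3 + 2 / (9 * Real.sqrt (3 * d)) ≤ 1 ∧
    3 * (1 / 3 + 2 / (9 * Real.sqrt (3 * d)))
      - 2 * (1 / 3 + 2 / (9 * Real.sqrt (3 * d)))
        * Real.sqrt ((1 / 3 + 2 / (9 * Real.sqrt (3 * d))) / d) ≤ 1 := by
  obtain ⟨r, hr⟩ : ∃ r : ℝ, r = Real.sqrt (3 * d) := ⟨_, rfl⟩
  have hrsq : r ^ 2 = 3 * d := by rw [hr]; exact Real.sq_sqrt (by linarith)
  have hr1 : 1 ≤ r := by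
    rw [hr]
    rw [show (1 : ℝ) = Real.sqrt 1 by simp]
    exact Real.sqrt_le_sqrt (by linarith)
  have hrpos : 0 < r := by linarith
  rw [← hr]
  obtain ⟨x, hx⟩ : ∃ x : ℝ, x = 1 / 3 + 2 / (9 * r) := ⟨_, rfl⟩
  rw [← hx]
  have hx3 : 1 / 3 ≤ x := by
    rw [hx]
    have : 0 ≤ 2 / (9 * r) := by positivity
    linarith
  have hxr : 3 * x - 1 = 2 / (3 * r) := by
    rw [hx]; field_simp; ring
  refine ⟨by linarith, ?_, ?_⟩
  · rw [hx]
    have h1 : 2 / (9 * r) ≤ 2 / 9 := by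
      rw [div_le_div_iff₀ (by positivity) (by norm_num)]
      nlinarith
    linarith
  · have h1 : 1 / r ≤ Real.sqrt (x / d) := by
      apply Real.le_sqrt_of_sq_le
      rw [div_pow, one_pow, hrsq]
      rw [div_le_div_iff₀ (by linarith) (by linarith)]
      nlinarith
    have h2 : 2 * x * (1 / r) ≤ 2 * x * Real.sqrt (x / d) :=
      mul_le_mul_of_nonneg_left h1 (by linarith)
    have h3 : 2 / (3 * r) ≤ 2 * x * (1 / r) := by
      rw [mul_one_div, div_le_div_iff₀ (by positivity) hrpos]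
      nlinarith
    linarith

section frames

variable {E : Type*} [NormedAddCommGroup E] [InnerProductSpace ℝ E] [FiniteDimensional ℝ E]
  [MeasurableSpace E] [BorelSpace E]

omit [MeasurableSpace E] [BorelSpace E] in
theorem exists_axis (hdim : Module.finrank ℝ E = 3) (v w : E) :
    ∃ a : E, a ≠ 0 ∧ ⟪v, a⟫_ℝ = 0 ∧ ⟪w, a⟫_ℝ = 0 := by
  obtain ⟨f, hf⟩ : ∃ f : E →ₗ[ℝ] ℝ × ℝ, f = (innerₛₗ ℝ v).prod (innerₛₗ ℝ w) := ⟨_, rfl⟩
  have hlt : Module.finrank ℝ (ℝ × ℝ) < Module.finrank ℝ E := by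
    rw [hdim]; simp
  have hker : LinearMap.ker f ≠ ⊥ := LinearMap.ker_ne_bot_of_finrank_lt hlt
  obtain ⟨a, hamem, ha0⟩ := (Submodule.ne_bot_iff _).mp hker
  refine ⟨a, ha0, ?_, ?_⟩
  · have h := LinearMap.mem_ker.mp hamem
    rw [hf] at h
    have h1 := congrArg Prod.fst h
    simpa using h1
  · have h := LinearMap.mem_ker.mp hamem
    rw [hf] at h
    have h1 := congrArg Prod.snd h
    simpa using h1

/-- The sharp chord bound for a cylinder given by an orthonormal frame of its base plane. -/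
theorem sharp_chord_frame (hdim : Module.finrank ℝ E = 3) {K : Set E} (hK : Convex ℝ K)
    (hKc : IsCompact K) {v w : E} (hv : ‖v‖ = 1) (hw : ‖w‖ = 1) (hvw : ⟪v, w⟫_ℝ = 0)
    {B : Set (ℝ × ℝ)} (hB : MeasurableSet B) {s : ℝ} (hs0 : 0 ≤ s) (hs1 : s ≤ 1)
    (hBs : volume (B ∩ (fun x : E => (⟪v, x⟫_ℝ, ⟪w, x⟫_ℝ)) '' K)
      = ENNReal.ofReal (s ^ 2) * volume ((fun x : E => (⟪v, x⟫_ℝ, ⟪w, x⟫_ℝ)) '' K)) :
    volume (K ∩ (fun x : E => (⟪v, x⟫_ℝ, ⟪w, x⟫_ℝ)) ⁻¹' B)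
      ≤ ENNReal.ofReal (3 * s ^ 2 - 2 * s ^ 3) * volume K := by
  obtain ⟨u, e, hmp, hex⟩ := exists_frame_equiv hdim hv hw hvw
  have hlin : IsLinearMap ℝ e := by
    constructor
    · intro x y
      rw [hex, hex, hex]
      simp [inner_add_right]
    · intro c x
      rw [hex, hex]
      simp [inner_smul_right]
  have hcont : Continuous e := by
    have he : (e : E → (ℝ × ℝ) × ℝ) = fun x => ((⟪v, x⟫_ℝ, ⟪w, x⟫_ℝ), ⟪u, x⟫_ℝ) := funext hex
    rw [he]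
    fun_prop
  have hG : Convex ℝ (e '' K) := hK.is_linear_image hlin
  have hGc : IsCompact (e '' K) := hKc.image hcont
  have hfst : Prod.fst '' (e '' K) = (fun x : E => (⟪v, x⟫_ℝ, ⟪w, x⟫_ℝ)) '' K := by
    rw [image_image]
    exact image_congr (fun x _ => by rw [hex])
  have hvolK : volume (e '' K) = volume K := by
    rw [← hmp.measure_preimage_equiv, e.injective.preimage_image]
  have hvolKC : volume (e '' K ∩ Prod.fst ⁻¹' B)
      = volume (K ∩ (fun x : E => (⟪v, x⟫_ℝ, ⟪w, x⟫_ℝ)) ⁻¹' B) := by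
    rw [← hmp.measure_preimage_equiv, preimage_inter, e.injective.preimage_image]
    congr 2
    ext x
    simp [hex]
  have main := sharp_chord_bound hG hGc hB hs0 hs1 (by rw [hfst]; exact hBs)
  rwa [hvolK, hvolKC] at main

/-- Every covering of a convex body in a three-dimensional Euclidean space by finitely many
cylinders, at most `d` in number, has directionwise relative area at least every `x ∈ [0, 1]`
with `3 x - 2 x √(x / d) ≤ 1`. -/
theorem many_cylinders_sharp (hdim : Module.finrank ℝ E = 3) (K : Set E) (hK : Convex ℝ K)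
    (hKc : IsCompact K) (hKi : (interior K).Nonempty)
    {ι : Type*} [Fintype ι] (v w : ι → E) (B : ι → Set (ℝ × ℝ))
    (hv : ∀ i, ‖v i‖ = 1) (hw : ∀ i, ‖w i‖ = 1) (hvw : ∀ i, ⟪v i, w i⟫_ℝ = 0)
    (hcov : ∀ x ∈ K, ∃ i, (⟪v i, x⟫_ℝ, ⟪w i, x⟫_ℝ) ∈ B i)
    {d : ℝ} (hd : (Fintype.card ι : ℝ) ≤ d)
    {x : ℝ} (hx0 : 0 ≤ x) (hx1 : x ≤ 1) (hx : 3 * x - 2 * x * Real.sqrt (x / d) ≤ 1) :
    ENNReal.ofReal x ≤
      ∑ i, volume (B i) / volume ((fun x : E => (⟪v i, x⟫_ℝ, ⟪w i, x⟫_ℝ)) '' K) := by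
  have hV0 : volume K ≠ 0 :=
    ((isOpen_interior.measure_pos volume hKi).trans_le (measure_mono interior_subset)).ne'
  have hVt : volume K ≠ ⊤ := hKc.measure_lt_top.ne
  have hVpos : 0 < (volume K).toReal := ENNReal.toReal_pos hV0 hVt
  have hD0 : ∀ i, volume ((fun x : E => (⟪v i, x⟫_ℝ, ⟪w i, x⟫_ℝ)) '' K) ≠ 0 :=
    fun i => frame_volume_ne_zero hKi (hv i) (hw i) (hvw i)
  have hDt : ∀ i, volume ((fun x : E => (⟪v i, x⟫_ℝ, ⟪w i, x⟫_ℝ)) '' K) ≠ ⊤ :=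
    fun i => (hKc.image (by fun_prop)).measure_lt_top.ne
  have hDpos : ∀ i, 0 < (volume ((fun x : E => (⟪v i, x⟫_ℝ, ⟪w i, x⟫_ℝ)) '' K)).toReal :=
    fun i => ENNReal.toReal_pos (hD0 i) (hDt i)
  -- measurable hulls of the bases
  obtain ⟨B', hB'⟩ : ∃ B' : ι → Set (ℝ × ℝ), B' = fun i => toMeasurable volume (B i) := ⟨_, rfl⟩
  have hB'm : ∀ i, MeasurableSet (B' i) := fun i => by
    rw [hB']; exact measurableSet_toMeasurable _ _
  have hB'sub : ∀ i, B i ⊆ B' i := fun i => by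
    rw [hB']; exact subset_toMeasurable _ _
  have hB'vol : ∀ i, volume (B' i) = volume (B i) := fun i => by
    rw [hB']; exact measure_toMeasurable _
  -- relative areas
  obtain ⟨b, hb⟩ : ∃ b : ι → ENNReal, b = fun i =>
      volume (B' i ∩ (fun x : E => (⟪v i, x⟫_ℝ, ⟪w i, x⟫_ℝ)) '' K) := ⟨_, rfl⟩
  have hble : ∀ i, b i ≤ volume ((fun x : E => (⟪v i, x⟫_ℝ, ⟪w i, x⟫_ℝ)) '' K) := fun i => by
    rw [hb]; exact measure_mono inter_subset_right
  have hbt : ∀ i, b i ≠ ⊤ := fun i => ne_top_of_le_ne_top (hDt i) (hble i)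
  obtain ⟨s, hs⟩ : ∃ s : ι → ℝ, s = fun i => Real.sqrt ((b i).toReal /
      (volume ((fun x : E => (⟪v i, x⟫_ℝ, ⟪w i, x⟫_ℝ)) '' K)).toReal) := ⟨_, rfl⟩
  have hs0 : ∀ i, 0 ≤ s i := fun i => by rw [hs]; exact Real.sqrt_nonneg _
  have hssq : ∀ i, s i ^ 2 = (b i).toReal /
      (volume ((fun x : E => (⟪v i, x⟫_ℝ, ⟪w i, x⟫_ℝ)) '' K)).toReal := fun i => by
    rw [hs]
    exact Real.sq_sqrt (div_nonneg ENNReal.toReal_nonneg ENNReal.toReal_nonneg)
  have hs1 : ∀ i, s i ≤ 1 := fun i => by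
    have h1 : s i ^ 2 ≤ 1 := by
      rw [hssq, div_le_one (hDpos i)]
      exact ENNReal.toReal_mono (hDt i) (hble i)
    nlinarith [hs0 i]
  have hofs : ∀ i, ENNReal.ofReal (s i ^ 2)
      = b i / volume ((fun x : E => (⟪v i, x⟫_ℝ, ⟪w i, x⟫_ℝ)) '' K) := fun i => by
    rw [hssq, ENNReal.ofReal_div_of_pos (hDpos i), ENNReal.ofReal_toReal (hbt i),
      ENNReal.ofReal_toReal (hDt i)]
  have hbs : ∀ i, volume (B' i ∩ (fun x : E => (⟪v i, x⟫_ℝ, ⟪w i, x⟫_ℝ)) '' K)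
      = ENNReal.ofReal (s i ^ 2) * volume ((fun x : E => (⟪v i, x⟫_ℝ, ⟪w i, x⟫_ℝ)) '' K) :=
    fun i => by
      rw [hofs, ENNReal.div_mul_cancel (hD0 i) (hDt i), hb]
  -- the sharp chord bound for every cylinder
  have hchord : ∀ i, volume (K ∩ (fun x : E => (⟪v i, x⟫_ℝ, ⟪w i, x⟫_ℝ)) ⁻¹' B' i)
      ≤ ENNReal.ofReal (3 * s i ^ 2 - 2 * s i ^ 3) * volume K :=
    fun i => sharp_chord_frame hdim hK hKc (hv i) (hw i) (hvw i) (hB'm i) (hs0 i) (hs1 i) (hbs i)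
  have hNt : ∀ i, volume (K ∩ (fun x : E => (⟪v i, x⟫_ℝ, ⟪w i, x⟫_ℝ)) ⁻¹' B' i) ≠ ⊤ :=
    fun i => ne_top_of_le_ne_top hVt (measure_mono inter_subset_left)
  obtain ⟨c, hc⟩ : ∃ c : ι → ℝ, c = fun i =>
      (volume (K ∩ (fun x : E => (⟪v i, x⟫_ℝ, ⟪w i, x⟫_ℝ)) ⁻¹' B' i)).toReal
        / (volume K).toReal := ⟨_, rfl⟩
  have hreal : ∀ i, c i ≤ 3 * s i ^ 2 - 2 * s i ^ 3 := by
    intro i
    have h1 := ENNReal.toReal_mono (ENNReal.mul_ne_top ENNReal.ofReal_ne_top hVt) (hchord i)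
    have hp2 : 0 ≤ 3 * s i ^ 2 - 2 * s i ^ 3 := by
      have e : 3 * s i ^ 2 - 2 * s i ^ 3 = s i ^ 2 * (3 - 2 * s i) := by ring
      rw [e]
      exact mul_nonneg (sq_nonneg _) (by linarith [hs1 i])
    rw [ENNReal.toReal_mul, ENNReal.toReal_ofReal hp2] at h1
    rw [hc]
    simp only
    rw [div_le_iff₀ hVpos]
    exact h1
  have hsum : 1 ≤ ∑ i, c i := by
    have hcovK : K ⊆ ⋃ i, K ∩ (fun x : E => (⟪v i, x⟫_ℝ, ⟪w i, x⟫_ℝ)) ⁻¹' B' i := by
      intro x hx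
      obtain ⟨i, hi⟩ := hcov x hx
      exact mem_iUnion.mpr ⟨i, hx, hB'sub i hi⟩
    have h1 : volume K ≤ ∑ i, volume (K ∩ (fun x : E => (⟪v i, x⟫_ℝ, ⟪w i, x⟫_ℝ)) ⁻¹' B' i) :=
      (measure_mono hcovK).trans (measure_iUnion_fintype_le volume _)
    have h2 := ENNReal.toReal_mono (ENNReal.sum_ne_top.mpr (fun i _ => hNt i)) h1
    rw [ENNReal.toReal_sum (fun i _ => hNt i)] at h2
    rw [hc]
    simp only
    rw [← Finset.sum_div, le_div_iff₀ hVpos, one_mul]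
    exact h2
  have hsum' : 1 ≤ ∑ i, (3 * s i ^ 2 - 2 * s i ^ 3) :=
    hsum.trans (Finset.sum_le_sum (fun i _ => hreal i))
  have core := real_core_sharp s hs0 hsum' hd hx0 hx1 hx
  calc ENNReal.ofReal x
      ≤ ENNReal.ofReal (∑ i, s i ^ 2) := ENNReal.ofReal_le_ofReal core
    _ = ∑ i, ENNReal.ofReal (s i ^ 2) :=
        ENNReal.ofReal_sum_of_nonneg (fun i _ => sq_nonneg (s i))
    _ ≤ ∑ i, volume (B i) / volume ((fun x : E => (⟪v i, x⟫_ℝ, ⟪w i, x⟫_ℝ)) '' K) := by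
        apply Finset.sum_le_sum
        intro i _
        rw [hofs, ← hB'vol i]
        apply ENNReal.div_le_div_right
        rw [hb]
        exact measure_mono inter_subset_left

/-- Every finite covering of a convex body in a three-dimensional Euclidean space by cylinders
whose axes take at most `d` directions has directionwise relative area at least every
`x ∈ [0, 1]` with `3 x - 2 x √(x / d) ≤ 1`. -/
theorem direction_bound (hdim : Module.finrank ℝ E = 3) (K : Set E) (hK : Convex ℝ K)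
    (hKc : IsCompact K) (hKi : (interior K).Nonempty)
    {ι : Type*} [Fintype ι] (v w : ι → E) (B : ι → Set (ℝ × ℝ))
    (hv : ∀ i, ‖v i‖ = 1) (hw : ∀ i, ‖w i‖ = 1) (hvw : ∀ i, ⟪v i, w i⟫_ℝ = 0)
    {κ : Type*} [Fintype κ] (a : κ → E) (ha : ∀ j, a j ≠ 0)
    (hax : ∀ i, ∃ j, ⟪v i, a j⟫_ℝ = 0 ∧ ⟪w i, a j⟫_ℝ = 0)
    (hcov : ∀ x ∈ K, ∃ i, (⟪v i, x⟫_ℝ, ⟪w i, x⟫_ℝ) ∈ B i)
    {d : ℝ} (hd : (Fintype.card κ : ℝ) ≤ d)
    {x : ℝ} (hx0 : 0 ≤ x) (hx1 : x ≤ 1) (hx : 3 * x - 2 * x * Real.sqrt (x / d) ≤ 1) :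
    ENNReal.ofReal x ≤
      ∑ i, volume (B i) / volume ((fun x : E => (⟪v i, x⟫_ℝ, ⟪w i, x⟫_ℝ)) '' K) := by
  classical
  choose f hf using hax
  have hrep : ∀ j : Set.range f, ∃ i, f i = j.1 := fun j => j.2
  choose r hr using hrep
  have hmerge : ∀ j : Set.range f, ∃ B' : Set (ℝ × ℝ),
      (∀ x : E, ∀ i ∈ Finset.univ.filter (fun i => Set.rangeFactorization f i = j),
        (⟪v i, x⟫_ℝ, ⟪w i, x⟫_ℝ) ∈ B i → (⟪v (r j), x⟫_ℝ, ⟪w (r j), x⟫_ℝ) ∈ B') ∧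
      volume B' / volume ((fun x : E => (⟪v (r j), x⟫_ℝ, ⟪w (r j), x⟫_ℝ)) '' K) ≤
        ∑ i ∈ Finset.univ.filter (fun i => Set.rangeFactorization f i = j),
          volume (B i) / volume ((fun x : E => (⟪v i, x⟫_ℝ, ⟪w i, x⟫_ℝ)) '' K) := by
    intro j
    apply merge_frames
    intro i hi
    have h1 : Set.rangeFactorization f i = j := (Finset.mem_filter.mp hi).2
    have h2 : f i = j.1 := by rw [← h1]; rfl
    have h3 := hf (r j)
    rw [hr j] at h3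
    have h4 := hf i
    rw [h2] at h4
    exact frame_change hdim (ha j.1) (hv (r j)) (hw (r j)) (hvw (r j)) h3.1 h3.2 (hv i) (hw i)
      (hvw i) h4.1 h4.2
  choose B' hB'c hB'v using hmerge
  have hcard : (Fintype.card (Set.range f) : ℝ) ≤ d := by
    have h1 : Fintype.card (Set.range f) ≤ Fintype.card κ := Fintype.card_subtype_le _
    have h2 : (Fintype.card (Set.range f) : ℝ) ≤ (Fintype.card κ : ℝ) := by exact_mod_cast h1
    exact h2.trans hd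
  have main := many_cylinders_sharp hdim K hK hKc hKi (fun j : Set.range f => v (r j))
    (fun j => w (r j)) B' (fun j => hv _) (fun j => hw _) (fun j => hvw _) (fun x hx => by
      obtain ⟨i, hi⟩ := hcov x hx
      exact ⟨Set.rangeFactorization f i,
        hB'c _ x i (Finset.mem_filter.mpr ⟨Finset.mem_univ _, rfl⟩) hi⟩) hcard hx0 hx1 hx
  calc ENNReal.ofReal x ≤ _ := main
    _ ≤ ∑ j : Set.range f, ∑ i ∈ Finset.univ.filter (fun i => Set.rangeFactorization f i = j),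
          volume (B i) / volume ((fun x : E => (⟪v i, x⟫_ℝ, ⟪w i, x⟫_ℝ)) '' K) :=
        Finset.sum_le_sum (fun j _ => hB'v j)
    _ = ∑ i, volume (B i) / volume ((fun x : E => (⟪v i, x⟫_ℝ, ⟪w i, x⟫_ℝ)) '' K) :=
        Finset.sum_fiberwise Finset.univ (Set.rangeFactorization f) _

end frames

end Vale.Agent.Helper11
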