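import Vale.Agent.Helper11.ManyCyl
import Vale.Agent.Helper11.TwoCylGeneral

/-!
# Coverings of a tetrahedron by cylinders whose axes are parallel to edges

Every finite covering of a tetrahedron by cylinders whose axes are parallel to edges of the
tetrahedron has directionwise relative area at least `1 / 2`.  The proof weighs the tetrahedron by
the sum of its volume measure and the volume measure of its central octahedron (the set of points
all of whose barycentric coordinates are at most `1 / 2`).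
-/

namespace Vale.Agent.Helper11

open Set MeasureTheory
open scoped InnerProductSpace

/-- A weighted cylinder bound in the model space: if the fibres of `G` and of a subset `H` have
total length at most `L` over every point, and some fibre of `G` has length at least `L`, then
the parts of `G` and `H` inside the cylinder over `B` have total volume at most
`3 |G| |B ∩ D| / |D|`, where `D` is the projection of `G`. -/
theorem weighted_cyl_bound {G H : Set ((ℝ × ℝ) × ℝ)} (hG : Convex ℝ G) (hGc : IsCompact G)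
    (hHm : MeasurableSet H) (hHG : H ⊆ G) (hD0 : volume (Prod.fst '' G) ≠ 0) {L : ENNReal}
    (hL : ∀ p, volume (fib G p) + volume (fib H p) ≤ L)
    {p₀ : ℝ × ℝ} (hp₀ : p₀ ∈ Prod.fst '' G) (hL0 : L ≤ volume (fib G p₀))
    {B : Set (ℝ × ℝ)} (hB : MeasurableSet B) :
    volume (G ∩ Prod.fst ⁻¹' B) + volume (H ∩ Prod.fst ⁻¹' B)
      ≤ 3 * volume G * (volume (B ∩ Prod.fst '' G) / volume (Prod.fst '' G)) := by
  have hGm : MeasurableSet G := hGc.isClosed.measurableSet
  have hDc : IsCompact (Prod.fst '' G) := hGc.image continuous_fst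
  have hDm : MeasurableSet (Prod.fst '' G) := hDc.isClosed.measurableSet
  have hDt : volume (Prod.fst '' G) ≠ ⊤ := hDc.measure_lt_top.ne
  -- the chord bound for the fibre over `p₀`
  have hchord : L * volume (Prod.fst '' G) ≤ 3 * volume G := by
    have h := lintegral_diff_ge hG hGc (B := ∅) MeasurableSet.empty (s := 0) le_rfl zero_le_one
      (by simp) hp₀
    have e1 : Prod.fst '' G \ (∅ : Set (ℝ × ℝ)) = Prod.fst '' G := by simp
    have hsubD : G ⊆ Prod.fst ⁻¹' (Prod.fst '' G) := fun x hx => ⟨x, hx, rfl⟩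
    rw [e1, ← volume_inter_cyl hGm hDm, inter_eq_self_of_subset_left hsubD] at h
    have e2 : ENNReal.ofReal ((1 - 3 * (0 : ℝ) ^ 2 + 2 * (0 : ℝ) ^ 3) / 3) = 3⁻¹ := by
      have : (1 - 3 * (0 : ℝ) ^ 2 + 2 * (0 : ℝ) ^ 3) / 3 = 3⁻¹ := by norm_num
      rw [this, ENNReal.ofReal_inv_of_pos (by norm_num)]
      simp
    rw [e2] at h
    calc L * volume (Prod.fst '' G) ≤ volume (fib G p₀) * volume (Prod.fst '' G) := by gcongr
      _ = 3 * (volume (fib G p₀) * (3⁻¹ * volume (Prod.fst '' G))) := by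
          rw [← mul_assoc, ← mul_assoc, mul_comm 3, mul_assoc _ 3, ENNReal.mul_inv_cancel
            (by norm_num) (by norm_num), mul_one]
      _ ≤ 3 * volume G := by gcongr
  have hLle : L ≤ 3 * volume G / volume (Prod.fst '' G) := by
    rw [ENNReal.le_div_iff_mul_le (Or.inl hD0) (Or.inl hDt)]
    exact hchord
  have hpt : ∀ p, volume (fib G p) + volume (fib H p)
      ≤ (Prod.fst '' G).indicator (fun _ => 3 * volume G / volume (Prod.fst '' G)) p := by
    intro p
    by_cases hp : p ∈ Prod.fst '' G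
    · rw [indicator_of_mem hp]
      exact (hL p).trans hLle
    · have hp' : p ∉ Prod.fst '' H := fun h => hp (image_mono hHG h)
      rw [indicator_of_notMem hp, fib_empty_of_notMem hp, fib_empty_of_notMem hp']
      simp
  rw [volume_inter_cyl hGm hB, volume_inter_cyl hHm hB,
    ← lintegral_add_left (measurable_volume_fib hGm)]
  calc ∫⁻ p in B, (volume (fib G p) + volume (fib H p))
      ≤ ∫⁻ p in B, (Prod.fst '' G).indicator
          (fun _ => 3 * volume G / volume (Prod.fst '' G)) p := lintegral_mono hpt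
    _ = 3 * volume G / volume (Prod.fst '' G) * volume (Prod.fst '' G ∩ B) := by
        rw [lintegral_indicator_const hDm, Measure.restrict_apply hDm]
    _ = 3 * volume G * (volume (B ∩ Prod.fst '' G) / volume (Prod.fst '' G)) := by
        rw [inter_comm, div_eq_mul_inv, div_eq_mul_inv]
        ring

section frames

variable {E : Type*} [NormedAddCommGroup E] [InnerProductSpace ℝ E] [FiniteDimensional ℝ E]
  [MeasurableSpace E] [BorelSpace E]

/-- The weighted cylinder bound for a cylinder, given by an orthonormal frame `(v, w)` of its base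
plane, whose axis is parallel to the nonzero vector `d`: if every line parallel to `d` meets `K`
and `H ⊆ K` in sets of total length at most `1` (in the parameter of `d`), and `K` contains a
segment `x₁ + [0, 1] • d`, then the parts of `K` and `H` inside the cylinder have total volume at
most `3 |K| |B ∩ P K| / |P K|`. -/
theorem weighted_cyl_frame (hdim : Module.finrank ℝ E = 3) {K H : Set E} (hK : Convex ℝ K)
    (hKc : IsCompact K) (hKi : (interior K).Nonempty) (hHm : MeasurableSet H) (hHK : H ⊆ K)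
    {v w : E} (hv : ‖v‖ = 1) (hw : ‖w‖ = 1) (hvw : ⟪v, w⟫_ℝ = 0)
    {d : E} (hd : d ≠ 0) (hvd : ⟪v, d⟫_ℝ = 0) (hwd : ⟪w, d⟫_ℝ = 0)
    (hline : ∀ x₀ : E, volume {s : ℝ | x₀ + s • d ∈ K} + volume {s : ℝ | x₀ + s • d ∈ H} ≤ 1)
    {x₁ : E} (hx₁ : ∀ s ∈ Icc (0 : ℝ) 1, x₁ + s • d ∈ K)
    {B : Set (ℝ × ℝ)} (hB : MeasurableSet B) :
    volume (K ∩ (fun x : E => (⟪v, x⟫_ℝ, ⟪w, x⟫_ℝ)) ⁻¹' B)
      + volume (H ∩ (fun x : E => (⟪v, x⟫_ℝ, ⟪w, x⟫_ℝ)) ⁻¹' B)
      ≤ 3 * volume K * (volume (B ∩ (fun x : E => (⟪v, x⟫_ℝ, ⟪w, x⟫_ℝ)) '' K)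
          / volume ((fun x : E => (⟪v, x⟫_ℝ, ⟪w, x⟫_ℝ)) '' K)) := by
  obtain ⟨u, e, hmp, hex⟩ := exists_frame_equiv hdim hv hw hvw
  have hlin : IsLinearMap ℝ e := by
    constructor
    · intro x y
      rw [hex, hex, hex]
      simp [inner_add_right]
    · intro c x
      rw [hex, hex]
      simp [inner_smul_right]
  have hcont : Continuous e := by
    have he : (e : E → (ℝ × ℝ) × ℝ) = fun x => ((⟪v, x⟫_ℝ, ⟪w, x⟫_ℝ), ⟪u, x⟫_ℝ) := funext hex
    rw [he]
    fun_prop
  have hG : Convex ℝ (e '' K) := hK.is_linear_image hlin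
  have hGc : IsCompact (e '' K) := hKc.image hcont
  have hfst : Prod.fst '' (e '' K) = (fun x : E => (⟪v, x⟫_ℝ, ⟪w, x⟫_ℝ)) '' K := by
    rw [image_image]
    exact image_congr (fun x _ => by rw [hex])
  have hvolK : volume (e '' K) = volume K := by
    rw [← hmp.measure_preimage_equiv, e.injective.preimage_image]
  have hpre : e ⁻¹' (Prod.fst ⁻¹' B) = (fun x : E => (⟪v, x⟫_ℝ, ⟪w, x⟫_ℝ)) ⁻¹' B := by
    ext x
    simp [hex]
  have hvolC : ∀ S : Set E, volume (e '' S ∩ Prod.fst ⁻¹' B)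
      = volume (S ∩ (fun x : E => (⟪v, x⟫_ℝ, ⟪w, x⟫_ℝ)) ⁻¹' B) := by
    intro S
    rw [← hmp.measure_preimage_equiv, preimage_inter, e.injective.preimage_image, hpre]
  have hD0 : volume (Prod.fst '' (e '' K)) ≠ 0 := by
    rw [hfst]
    exact frame_volume_ne_zero hKi hv hw hvw
  have hHm' : MeasurableSet (e '' H) := (e.measurableSet_image).mpr hHm
  -- the speed of the parametrisation along `d`
  obtain ⟨κ, hκ⟩ : ∃ κ : ℝ, κ = ⟪u, d⟫_ℝ := ⟨_, rfl⟩
  have hed : ∀ (x : E) (s : ℝ), e (x + s • d) = ((e x).1, (e x).2 + s * κ) := by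
    intro x s
    rw [hex, hex, hκ]
    simp [inner_add_right, inner_smul_right, hvd, hwd]
  have hκ0 : κ ≠ 0 := by
    intro h0
    have h1 := hed 0 1
    rw [h0] at h1
    have h2 : e (0 + (1 : ℝ) • d) = e 0 := by
      rw [h1]
      simp
    have h3 := e.injective h2
    simp at h3
    exact hd h3
  -- fibres of the images are rescaled line sections
  have hfib : ∀ (S : Set E) (x : E),
      fib (e '' S) (e x).1 = (fun t : ℝ => κ⁻¹ * t) ⁻¹' {s : ℝ | x + (s - κ⁻¹ * (e x).2) • d ∈ S} := by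
    intro S x
    ext t
    simp only [fib, mem_preimage, mem_ofPred_eq]
    have hpt : e (x + (κ⁻¹ * t - κ⁻¹ * (e x).2) • d) = ((e x).1, t) := by
      rw [hed]
      congr 1
      field_simp
      ring
    constructor
    · rintro ⟨y, hy, hye⟩
      have : y = x + (κ⁻¹ * t - κ⁻¹ * (e x).2) • d := e.injective (by rw [hye, hpt])
      rw [← this]
      exact hy
    · intro h
      exact ⟨_, h, hpt⟩
  have hshift : ∀ (S : Set E) (x : E), volume {s : ℝ | x + (s - κ⁻¹ * (e x).2) • d ∈ S}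
      = volume {s : ℝ | (x + (-(κ⁻¹ * (e x).2)) • d) + s • d ∈ S} := by
    intro S x
    congr 1
    ext s
    simp only [mem_ofPred_eq]
    have : x + (s - κ⁻¹ * (e x).2) • d = (x + (-(κ⁻¹ * (e x).2)) • d) + s • d := by
      rw [sub_eq_add_neg, add_smul]
      abel
    rw [this]
  have hfibvol : ∀ (S : Set E) (x : E), volume (fib (e '' S) (e x).1)
      = ENNReal.ofReal |κ| * volume {s : ℝ | (x + (-(κ⁻¹ * (e x).2)) • d) + s • d ∈ S} := by
    intro S x
    rw [hfib, Real.volume_preimage_mul_left (inv_ne_zero hκ0), inv_inv, hshift]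
  have hL : ∀ p, volume (fib (e '' K) p) + volume (fib (e '' H) p) ≤ ENNReal.ofReal |κ| := by
    intro p
    obtain ⟨x, rfl⟩ : ∃ x, (e x).1 = p := ⟨e.symm (p, 0), by simp⟩
    rw [hfibvol, hfibvol, ← mul_add]
    calc ENNReal.ofReal |κ| * _ ≤ ENNReal.ofReal |κ| * 1 := by
          gcongr
          exact hline _
      _ = ENNReal.ofReal |κ| := mul_one _
  have hp₀ : (e x₁).1 ∈ Prod.fst '' (e '' K) := by
    refine ⟨e x₁, ⟨x₁, ?_, rfl⟩, rfl⟩
    have := hx₁ 0 (by simp)
    simpa using this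
  have hL0 : ENNReal.ofReal |κ| ≤ volume (fib (e '' K) (e x₁).1) := by
    rw [hfibvol]
    have hsub : Icc (κ⁻¹ * (e x₁).2) (κ⁻¹ * (e x₁).2 + 1)
        ⊆ {s : ℝ | (x₁ + (-(κ⁻¹ * (e x₁).2)) • d) + s • d ∈ K} := by
      intro s hs
      simp only [mem_ofPred_eq]
      have : (x₁ + (-(κ⁻¹ * (e x₁).2)) • d) + s • d = x₁ + (s - κ⁻¹ * (e x₁).2) • d := by
        rw [sub_eq_add_neg, add_smul]
        abel
      rw [this]
      exact hx₁ _ ⟨by linarith [hs.1], by linarith [hs.2]⟩
    calc ENNReal.ofReal |κ| = ENNReal.ofReal |κ| * 1 := (mul_one _).symm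
      _ ≤ ENNReal.ofReal |κ| * volume {s : ℝ | (x₁ + (-(κ⁻¹ * (e x₁).2)) • d) + s • d ∈ K} := by
          gcongr
          refine le_trans ?_ (measure_mono hsub)
          rw [Real.volume_Icc]
          simp
  have main := weighted_cyl_bound hG hGc hHm' (image_mono hHK) hD0 hL hp₀ hL0 hB
  rwa [hvolK, hvolC K, hvolC H, hfst] at main

omit [FiniteDimensional ℝ E] [MeasurableSpace E] [BorelSpace E] in
/-- Barycentric coordinates along a line parallel to an edge of the simplex. -/
theorem coord_add_smul (b : AffineBasis (Fin 4) ℝ E) (j a c : Fin 4) (x : E) (s : ℝ) :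
    b.coord j (x + s • (b a - b c))
      = b.coord j x + s * ((if j = a then 1 else 0) - (if j = c then 1 else 0)) := by
  have h1 : x + s • (b a - b c) = (s • (b a -ᵥ b c)) +ᵥ x := by
    rw [vsub_eq_sub, vadd_eq_add, add_comm]
  rw [h1, AffineMap.map_vadd, map_smul, AffineMap.linearMap_vsub, b.coord_apply, b.coord_apply]
  simp [add_comm]

omit [FiniteDimensional ℝ E] [MeasurableSpace E] [BorelSpace E] in
/-- Every line parallel to an edge of a tetrahedron meets the tetrahedron and its central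
octahedron in sets of total length at most that of the edge. -/
theorem tetra_line (b : AffineBasis (Fin 4) ℝ E) {a c : Fin 4} (hac : a ≠ c) (x₀ : E) :
    volume {s : ℝ | x₀ + s • (b a - b c) ∈ convexHull ℝ (range b)}
      + volume {s : ℝ | x₀ + s • (b a - b c)
          ∈ convexHull ℝ (range b) ∩ {x | ∀ j, b.coord j x ≤ 1 / 2}} ≤ 1 := by
  rw [b.convexHull_eq_nonneg_coord]
  obtain ⟨α, hα⟩ : ∃ α, α = b.coord a x₀ := ⟨_, rfl⟩
  obtain ⟨γ, hγ⟩ : ∃ γ, γ = b.coord c x₀ := ⟨_, rfl⟩
  have hca : ∀ s : ℝ, b.coord a (x₀ + s • (b a - b c)) = α + s := by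
    intro s
    rw [coord_add_smul]
    simp [hac, hα]
  have hcc : ∀ s : ℝ, b.coord c (x₀ + s • (b a - b c)) = γ - s := by
    intro s
    rw [coord_add_smul]
    simp [hac.symm, hγ]
    ring
  have hS : {s : ℝ | x₀ + s • (b a - b c) ∈ {x | ∀ j, 0 ≤ b.coord j x}} ⊆ Icc (-α) γ := by
    intro s hs
    have h1 := hs a
    have h2 := hs c
    rw [hca] at h1
    rw [hcc] at h2
    exact ⟨by linarith, by linarith⟩
  have hS' : {s : ℝ | x₀ + s • (b a - b c)
      ∈ {x | ∀ j, 0 ≤ b.coord j x} ∩ {x | ∀ j, b.coord j x ≤ 1 / 2}}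
      ⊆ Icc (γ - 1 / 2) (1 / 2 - α) := by
    intro s hs
    have h1 := hs.2 a
    have h2 := hs.2 c
    rw [hca] at h1
    rw [hcc] at h2
    exact ⟨by linarith, by linarith⟩
  by_cases hne : {s : ℝ | x₀ + s • (b a - b c) ∈ {x | ∀ j, 0 ≤ b.coord j x}}.Nonempty
  · obtain ⟨s₀, hs₀⟩ := hne
    have hsum := b.sum_coord_apply_eq_one (x₀ + s₀ • (b a - b c))
    have hle : α + γ ≤ 1 := by
      have h2 : ∑ j ∈ ({a, c} : Finset (Fin 4)), b.coord j (x₀ + s₀ • (b a - b c))
          ≤ ∑ j, b.coord j (x₀ + s₀ • (b a - b c)) :=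
        Finset.sum_le_sum_of_subset_of_nonneg (Finset.subset_univ _) (fun j _ _ => hs₀ j)
      rw [hsum, Finset.sum_pair hac, hca, hcc] at h2
      linarith
    have hge : 0 ≤ α + γ := by
      have := hS hs₀
      linarith [this.1, this.2]
    calc volume {s : ℝ | x₀ + s • (b a - b c) ∈ {x | ∀ j, 0 ≤ b.coord j x}}
          + volume {s : ℝ | x₀ + s • (b a - b c)
              ∈ {x | ∀ j, 0 ≤ b.coord j x} ∩ {x | ∀ j, b.coord j x ≤ 1 / 2}}
        ≤ volume (Icc (-α) γ) + volume (Icc (γ - 1 / 2) (1 / 2 - α)) :=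
          add_le_add (measure_mono hS) (measure_mono hS')
      _ = ENNReal.ofReal (γ + α) + ENNReal.ofReal (1 - α - γ) := by
          rw [Real.volume_Icc, Real.volume_Icc]
          congr 2 <;> ring
      _ = ENNReal.ofReal 1 := by
          rw [← ENNReal.ofReal_add (by linarith) (by linarith)]
          congr 1
          ring
      _ = 1 := ENNReal.ofReal_one
  · rw [not_nonempty_iff_eq_empty] at hne
    have hne' : {s : ℝ | x₀ + s • (b a - b c)
        ∈ {x | ∀ j, 0 ≤ b.coord j x} ∩ {x | ∀ j, b.coord j x ≤ 1 / 2}} = ∅ := by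
      apply subset_eq_empty _ hne
      intro s hs
      exact hs.1
    rw [hne, hne']
    simp

/-- The central octahedron of a tetrahedron has at least half of its volume. -/
theorem tetra_octa (hdim : Module.finrank ℝ E = 3) (b : AffineBasis (Fin 4) ℝ E) :
    volume (convexHull ℝ (range b))
      ≤ volume (convexHull ℝ (range b) ∩ {x | ∀ j, b.coord j x ≤ 1 / 2})
        + ENNReal.ofReal (1 / 2) * volume (convexHull ℝ (range b)) := by
  have hsub : convexHull ℝ (range b)
      ⊆ (convexHull ℝ (range b) ∩ {x | ∀ j, b.coord j x ≤ 1 / 2})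
        ∪ ⋃ j, AffineMap.homothety (b j) (1 / 2 : ℝ) '' convexHull ℝ (range b) := by
    intro x hx
    by_cases hO : ∀ j, b.coord j x ≤ 1 / 2
    · exact Or.inl ⟨hx, hO⟩
    · push Not at hO
      obtain ⟨j, hj⟩ := hO
      refine Or.inr (mem_iUnion.mpr ⟨j, AffineMap.homothety (b j) (2 : ℝ) x, ?_, ?_⟩)
      · rw [b.convexHull_eq_nonneg_coord] at hx ⊢
        intro i
        have hxi := hx i
        show 0 ≤ b.coord i (AffineMap.homothety (b j) (2 : ℝ) x)
        rw [AffineMap.homothety_apply, AffineMap.map_vadd, map_smul, AffineMap.linearMap_vsub,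
          b.coord_apply]
        by_cases hij : i = j
        · subst hij
          simp
          linarith
        · simp [hij]
          linarith
      · rw [AffineMap.homothety_apply, AffineMap.homothety_apply]
        simp [smul_smul]
  calc volume (convexHull ℝ (range b))
      ≤ volume ((convexHull ℝ (range b) ∩ {x | ∀ j, b.coord j x ≤ 1 / 2})
          ∪ ⋃ j, AffineMap.homothety (b j) (1 / 2 : ℝ) '' convexHull ℝ (range b)) :=
        measure_mono hsub
    _ ≤ volume (convexHull ℝ (range b) ∩ {x | ∀ j, b.coord j x ≤ 1 / 2})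
          + ∑ j, volume (AffineMap.homothety (b j) (1 / 2 : ℝ) '' convexHull ℝ (range b)) :=
        (measure_union_le _ _).trans (add_le_add le_rfl (measure_iUnion_fintype_le _ _))
    _ = volume (convexHull ℝ (range b) ∩ {x | ∀ j, b.coord j x ≤ 1 / 2})
          + ENNReal.ofReal (1 / 2) * volume (convexHull ℝ (range b)) := by
        congr 1
        simp_rw [Measure.addHaar_image_homothety, hdim]
        rw [Finset.sum_const, Finset.card_univ, Fintype.card_fin, nsmul_eq_mul, ← mul_assoc]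
        congr 1
        have h4 : ((4 : ℕ) : ENNReal) = ENNReal.ofReal 4 := by simp
        rw [h4, ← ENNReal.ofReal_mul (by norm_num)]
        congr 1
        rw [abs_of_nonneg (by norm_num)]
        norm_num

/-- Every finite covering of a tetrahedron in a three-dimensional Euclidean space by cylinders
whose axes are parallel to edges of the tetrahedron has directionwise relative area at least
`1 / 2`. -/
theorem tetra_edges (hdim : Module.finrank ℝ E = 3) (b : AffineBasis (Fin 4) ℝ E)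
    {ι : Type*} [Fintype ι] (v w : ι → E) (B : ι → Set (ℝ × ℝ))
    (hv : ∀ i, ‖v i‖ = 1) (hw : ∀ i, ‖w i‖ = 1) (hvw : ∀ i, ⟪v i, w i⟫_ℝ = 0)
    (hedge : ∀ i, ∃ a c, a ≠ c ∧ ⟪v i, b a - b c⟫_ℝ = 0 ∧ ⟪w i, b a - b c⟫_ℝ = 0)
    (hcov : ∀ x ∈ convexHull ℝ (range b), ∃ i, (⟪v i, x⟫_ℝ, ⟪w i, x⟫_ℝ) ∈ B i) :
    ENNReal.ofReal (1 / 2) ≤
      ∑ i, volume (B i)
        / volume ((fun x : E => (⟪v i, x⟫_ℝ, ⟪w i, x⟫_ℝ)) '' convexHull ℝ (range b)) := by
  have hocta := tetra_octa hdim b
  have hlineb := fun (a c : Fin 4) (hac : a ≠ c) (x₀ : E) => tetra_line b hac x₀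
  obtain ⟨K, hKdef⟩ : ∃ K : Set E, K = convexHull ℝ (range b) := ⟨_, rfl⟩
  obtain ⟨H, hHdef⟩ : ∃ H : Set E, H = K ∩ {x | ∀ j, b.coord j x ≤ 1 / 2} := ⟨_, rfl⟩
  rw [← hKdef] at hcov hocta ⊢
  simp_rw [← hKdef] at hlineb
  rw [← hHdef] at hocta
  simp_rw [← hHdef] at hlineb
  have hK : Convex ℝ K := by
    rw [hKdef]
    exact convex_convexHull ℝ _
  have hKc : IsCompact K := by
    rw [hKdef]
    exact (finite_range b).isCompact_convexHull ℝ
  have hKi : (interior K).Nonempty := by
    rw [hKdef]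
    exact interior_convexHull_nonempty_iff_affineSpan_eq_top.mpr b.tot
  have hKm : MeasurableSet K := hKc.isClosed.measurableSet
  have hOm : MeasurableSet {x : E | ∀ j, b.coord j x ≤ 1 / 2} := by
    have e : {x : E | ∀ j, b.coord j x ≤ 1 / 2} = ⋂ j, {x | b.coord j x ≤ 1 / 2} := by
      ext x
      simp
    rw [e]
    exact MeasurableSet.iInter (fun j =>
      (isClosed_le (AffineMap.continuous_of_finiteDimensional _) continuous_const).measurableSet)
  have hHm : MeasurableSet H := by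
    rw [hHdef]
    exact hKm.inter hOm
  have hHK : H ⊆ K := by
    rw [hHdef]
    exact inter_subset_left
  have hV0 : volume K ≠ 0 :=
    ((isOpen_interior.measure_pos volume hKi).trans_le (measure_mono interior_subset)).ne'
  have hVt : volume K ≠ ⊤ := hKc.measure_lt_top.ne
  -- measurable hulls of the bases
  obtain ⟨B', hB'⟩ : ∃ B' : ι → Set (ℝ × ℝ), B' = fun i => toMeasurable volume (B i) := ⟨_, rfl⟩
  have hB'm : ∀ i, MeasurableSet (B' i) := fun i => by
    rw [hB']; exact measurableSet_toMeasurable _ _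
  have hB'sub : ∀ i, B i ⊆ B' i := fun i => by
    rw [hB']; exact subset_toMeasurable _ _
  have hB'vol : ∀ i, volume (B' i) = volume (B i) := fun i => by
    rw [hB']; exact measure_toMeasurable _
  have hcovK : K ⊆ ⋃ i, K ∩ (fun x : E => (⟪v i, x⟫_ℝ, ⟪w i, x⟫_ℝ)) ⁻¹' B' i := by
    intro x hx
    obtain ⟨i, hi⟩ := hcov x hx
    exact mem_iUnion.mpr ⟨i, hx, hB'sub i hi⟩
  have hcovH : H ⊆ ⋃ i, H ∩ (fun x : E => (⟪v i, x⟫_ℝ, ⟪w i, x⟫_ℝ)) ⁻¹' B' i := by
    intro x hx
    obtain ⟨i, hi⟩ := hcov x (hHK hx)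
    exact mem_iUnion.mpr ⟨i, hx, hB'sub i hi⟩
  have hpiece : ∀ i, volume (K ∩ (fun x : E => (⟪v i, x⟫_ℝ, ⟪w i, x⟫_ℝ)) ⁻¹' B' i)
      + volume (H ∩ (fun x : E => (⟪v i, x⟫_ℝ, ⟪w i, x⟫_ℝ)) ⁻¹' B' i)
      ≤ 3 * volume K * (volume (B i)
          / volume ((fun x : E => (⟪v i, x⟫_ℝ, ⟪w i, x⟫_ℝ)) '' K)) := by
    intro i
    obtain ⟨a, c, hac, h1, h2⟩ := hedge i
    have hd : b a - b c ≠ 0 := sub_ne_zero.mpr (fun h => hac (b.ind.injective h))
    have hx₁ : ∀ s ∈ Icc (0 : ℝ) 1, b c + s • (b a - b c) ∈ K := by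
      intro s hs
      rw [hKdef, b.convexHull_eq_nonneg_coord]
      intro j
      show 0 ≤ b.coord j (b c + s • (b a - b c))
      rw [coord_add_smul, b.coord_apply]
      by_cases hjc : j = c
      · have hja : j ≠ a := fun h => hac (h.symm.trans hjc)
        simp [hjc]
        have := hs.2
        split_ifs <;> linarith
      · by_cases hja : j = a
        · simp [hja]
          have := hs.1
          split_ifs <;> linarith
        · simp [hjc, hja]
    refine (weighted_cyl_frame hdim hK hKc hKi hHm hHK (hv i) (hw i) (hvw i) hd h1 h2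
      (hlineb a c hac) hx₁ (hB'm i)).trans ?_
    refine mul_le_mul_right (ENNReal.div_le_div_right ?_ _) _
    rw [← hB'vol i]
    exact measure_mono inter_subset_left
  have hsum : volume K + volume H ≤ 3 * volume K * ∑ i, volume (B i)
      / volume ((fun x : E => (⟪v i, x⟫_ℝ, ⟪w i, x⟫_ℝ)) '' K) := by
    calc volume K + volume H
        ≤ ∑ i, volume (K ∩ (fun x : E => (⟪v i, x⟫_ℝ, ⟪w i, x⟫_ℝ)) ⁻¹' B' i)
          + ∑ i, volume (H ∩ (fun x : E => (⟪v i, x⟫_ℝ, ⟪w i, x⟫_ℝ)) ⁻¹' B' i) :=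
          add_le_add ((measure_mono hcovK).trans (measure_iUnion_fintype_le volume _))
            ((measure_mono hcovH).trans (measure_iUnion_fintype_le volume _))
      _ = ∑ i, (volume (K ∩ (fun x : E => (⟪v i, x⟫_ℝ, ⟪w i, x⟫_ℝ)) ⁻¹' B' i)
          + volume (H ∩ (fun x : E => (⟪v i, x⟫_ℝ, ⟪w i, x⟫_ℝ)) ⁻¹' B' i)) :=
          Finset.sum_add_distrib.symm
      _ ≤ ∑ i, 3 * volume K * (volume (B i)
          / volume ((fun x : E => (⟪v i, x⟫_ℝ, ⟪w i, x⟫_ℝ)) '' K)) :=
          Finset.sum_le_sum (fun i _ => hpiece i)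
      _ = 3 * volume K * ∑ i, volume (B i)
          / volume ((fun x : E => (⟪v i, x⟫_ℝ, ⟪w i, x⟫_ℝ)) '' K) := (Finset.mul_sum _ _ _).symm
  by_contra hlt
  push Not at hlt
  have h3V0 : 3 * volume K ≠ 0 := mul_ne_zero (by norm_num) hV0
  have h3Vt : 3 * volume K ≠ ⊤ := ENNReal.mul_ne_top (by norm_num) hVt
  have h1 : 3 * volume K * ∑ i, volume (B i)
      / volume ((fun x : E => (⟪v i, x⟫_ℝ, ⟪w i, x⟫_ℝ)) '' K)
      < 3 * volume K * ENNReal.ofReal (1 / 2) :=
    (ENNReal.mul_lt_mul_iff_right h3V0 h3Vt).mpr hlt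
  have e : 3 * volume K * ENNReal.ofReal (1 / 2) + ENNReal.ofReal (1 / 2) * volume K
      = volume K + volume K := by
    have h2 : ENNReal.ofReal (1 / 2) = 2⁻¹ := by
      rw [one_div, ENNReal.ofReal_inv_of_pos two_pos]
      simp
    rw [h2]
    have e1 : 3 * volume K * 2⁻¹ + 2⁻¹ * volume K = (4 * 2⁻¹) * volume K := by ring
    have e2 : (4 : ENNReal) * 2⁻¹ = 2 := by
      rw [show (4 : ENNReal) = 2 * 2 by norm_num, mul_assoc,
        ENNReal.mul_inv_cancel (by norm_num) (by norm_num), mul_one]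
    rw [e1, e2, two_mul]
  have hfin : ENNReal.ofReal (1 / 2) * volume K ≠ ⊤ := ENNReal.mul_ne_top ENNReal.ofReal_ne_top hVt
  have hcontra : volume K + volume K < volume K + volume K :=
    calc volume K + volume K ≤ volume K + (volume H + ENNReal.ofReal (1 / 2) * volume K) := by
          gcongr
      _ = (volume K + volume H) + ENNReal.ofReal (1 / 2) * volume K := (add_assoc _ _ _).symm
      _ ≤ 3 * volume K * ∑ i, volume (B i)
            / volume ((fun x : E => (⟪v i, x⟫_ℝ, ⟪w i, x⟫_ℝ)) '' K)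
          + ENNReal.ofReal (1 / 2) * volume K := by gcongr
      _ < 3 * volume K * ENNReal.ofReal (1 / 2) + ENNReal.ofReal (1 / 2) * volume K :=
          ENNReal.add_lt_add_right hfin h1
      _ = volume K + volume K := e
  exact lt_irrefl _ hcontra

end frames

end Vale.Agent.Helper11
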