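import Vale.Agent.Helper11.RectCore
import Vale.Agent.Helper11.TwoDirections
import Vale.Agent.Helper11.ManyCylSharp
import Vale.Agent.Helper11.TetraEdges

/-!
# Convex bodies with parallelogram sections, covered by cylinders parallel to the sections

`K` is a convex body in a three-dimensional Euclidean space and `e`, `f` are linearly independent
vectors such that every section of `K` by a plane parallel to `e` and `f` is a parallelogram with
sides parallel to `e` and `f`.  If `K` is covered by finitely many cylinders whose axes are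
parallel to the plane spanned by `e` and `f`, then the directionwise relative area of the
covering is at least `1 / 2`.  Every tetrahedron is such a body, `e` and `f` being a pair of
opposite edges.
-/

namespace Vale.Agent.Helper11

open Set MeasureTheory
open scoped InnerProductSpace

section

variable {E : Type*} [NormedAddCommGroup E] [InnerProductSpace ℝ E]

theorem exists_unit_orth [FiniteDimensional ℝ E] (hdim : Module.finrank ℝ E = 3) (x y : E) :
    ∃ n : E, ‖n‖ = 1 ∧ ⟪n, x⟫_ℝ = 0 ∧ ⟪n, y⟫_ℝ = 0 := by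
  obtain ⟨a, ha, hxa, hya⟩ := exists_axis hdim x y
  refine ⟨‖a‖⁻¹ • a, ?_, ?_, ?_⟩
  · rw [norm_smul, norm_inv, norm_norm, inv_mul_cancel₀ (norm_ne_zero_iff.mpr ha)]
  · rw [real_inner_smul_left, real_inner_comm, hxa, mul_zero]
  · rw [real_inner_smul_left, real_inner_comm, hya, mul_zero]

theorem continuous_lin2 (p q r s : ℝ) : Continuous (lin2 p q r s) := by
  unfold lin2
  fun_prop

/-- Convex bodies with parallelogram sections, covered by cylinders parallel to the sections. -/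
theorem para_sections [FiniteDimensional ℝ E] (hdim : Module.finrank ℝ E = 3)
    (K : Set E) (hK : Convex ℝ K) (hKc : IsCompact K) (hKi : (interior K).Nonempty)
    (e f : E) (hef : LinearIndependent ℝ ![e, f])
    (hpar : ∀ x ∈ K, ∀ s t : ℝ, x + s • e + t • f ∈ K → x + s • e ∈ K)
    {ι : Type*} [Fintype ι] (v w : ι → E) (B : ι → Set (ℝ × ℝ))
    (hv : ∀ i, ‖v i‖ = 1) (hw : ∀ i, ‖w i‖ = 1) (hvw : ∀ i, ⟪v i, w i⟫_ℝ = 0)
    (hax : ∀ i, ∃ α β : ℝ, α • e + β • f ≠ 0 ∧ ⟪v i, α • e + β • f⟫_ℝ = 0 ∧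
      ⟪w i, α • e + β • f⟫_ℝ = 0)
    (hcov : ∀ x ∈ K, ∃ i, (⟪v i, x⟫_ℝ, ⟪w i, x⟫_ℝ) ∈ B i) :
    (1 : ENNReal) / 2 ≤
      ∑ i, volume (B i) / volume ((fun x : E => (⟪v i, x⟫_ℝ, ⟪w i, x⟫_ℝ)) '' K) := by
  obtain ⟨n, hn, hne, hnf⟩ := exists_unit_orth hdim e f
  have hnn : ⟪n, n⟫_ℝ = 1 := by rw [real_inner_self_eq_norm_sq, hn]; norm_num
  -- the linear coordinate map
  obtain ⟨Ψ, hΨ⟩ : ∃ Ψ : ℝ × ℝ × ℝ →ₗ[ℝ] E, ∀ y, Ψ y = y.1 • e + y.2.1 • f + y.2.2 • n :=
    ⟨{ toFun := fun y => y.1 • e + y.2.1 • f + y.2.2 • n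
       map_add' := by
         intro y y'
         simp only [Prod.fst_add, Prod.snd_add, add_smul]
         abel
       map_smul' := by
         intro c y
         simp only [Prod.smul_fst, Prod.smul_snd, smul_eq_mul, RingHom.id_apply, smul_add,
           mul_smul] },
     fun y => rfl⟩
  have hnΨ : ∀ y, ⟪n, Ψ y⟫_ℝ = y.2.2 := by
    intro y
    rw [hΨ, inner_add_right, inner_add_right, real_inner_smul_right, real_inner_smul_right,
      real_inner_smul_right, hne, hnf, hnn]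
    ring
  have hΨinj : Function.Injective Ψ := by
    rw [← LinearMap.ker_eq_bot, LinearMap.ker_eq_bot']
    intro y hy
    have h3 : y.2.2 = 0 := by
      rw [← hnΨ y, hy, inner_zero_right]
    rw [hΨ, h3, zero_smul, add_zero] at hy
    obtain ⟨h1, h2⟩ := LinearIndependent.pair_iff.mp hef y.1 y.2.1 hy
    exact Prod.ext h1 (Prod.ext h2 h3)
  have hfr : Module.finrank ℝ (ℝ × ℝ × ℝ) = Module.finrank ℝ E := by
    rw [hdim]; simp
  have hΨsurj : Function.Surjective Ψ :=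
    (LinearMap.injective_iff_surjective_of_finrank_eq_finrank hfr).mp hΨinj
  obtain ⟨Φ, hΦ⟩ : ∃ Φ : E → ℝ × ℝ × ℝ, ∀ x, Ψ (Φ x) = x :=
    ⟨fun x => (hΨsurj x).choose, fun x => (hΨsurj x).choose_spec⟩
  have hΦΨ : ∀ y, Φ (Ψ y) = y := fun y => hΨinj (hΦ (Ψ y))
  have hΨc : Continuous Ψ := LinearMap.continuous_of_finiteDimensional Ψ
  have hΦc : Continuous Φ := by
    have h1 : Φ = ⇑(LinearEquiv.ofBijective Ψ ⟨hΨinj, hΨsurj⟩).symm := by
      funext x
      apply hΨinj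
      rw [hΦ]
      exact ((LinearEquiv.ofBijective Ψ ⟨hΨinj, hΨsurj⟩).apply_symm_apply x).symm
    rw [h1]
    exact LinearMap.continuous_of_finiteDimensional
      ((LinearEquiv.ofBijective Ψ ⟨hΨinj, hΨsurj⟩).symm : E →ₗ[ℝ] ℝ × ℝ × ℝ)
  -- the body in coordinates
  obtain ⟨K', hK'⟩ : ∃ K' : Set (ℝ × ℝ × ℝ), K' = Ψ ⁻¹' K := ⟨_, rfl⟩
  have hmem : ∀ y, y ∈ K' ↔ Ψ y ∈ K := by
    intro y; rw [hK']; rfl
  have hK'conv : Convex ℝ K' := by
    rw [hK']; exact hK.linear_preimage Ψ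
  have hK'eq : K' = Φ '' K := by
    ext y
    rw [hmem]
    constructor
    · intro hy
      exact ⟨Ψ y, hy, hΦΨ y⟩
    · rintro ⟨x, hx, rfl⟩
      rw [hΦ]; exact hx
  have hK'c : IsCompact K' := by
    rw [hK'eq]; exact hKc.image hΦc
  have hK'i : (interior K').Nonempty := by
    obtain ⟨x0, hx0⟩ := hKi
    refine ⟨Φ x0, ?_⟩
    have hsub : Ψ ⁻¹' interior K ⊆ K' := by
      rw [hK']; exact preimage_mono interior_subset
    apply interior_maximal hsub (isOpen_interior.preimage hΨc)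
    show Ψ (Φ x0) ∈ interior K
    rw [hΦ]; exact hx0
  have hrect : ∀ p q p' q' z, (p, q, z) ∈ K' → (p', q', z) ∈ K' → (p, q', z) ∈ K' := by
    intro p q p' q' z h1 h2
    rw [hmem, hΨ] at h1 h2 ⊢
    simp only at h1 h2 ⊢
    have h3 := hpar _ h2 (p - p') (q - q') (by
      have e1 : p' • e + q' • f + z • n + (p - p') • e + (q - q') • f
          = p • e + q • f + z • n := by
        rw [sub_smul, sub_smul]; abel
      rw [e1]; exact h1)
    have e2 : p' • e + q' • f + z • n + (p - p') • e = p • e + q' • f + z • n := by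
      rw [sub_smul]; abel
    rw [e2] at h3
    exact h3
  -- the frames
  have hframe : ∀ i, ∃ a b p q r s : ℝ, (a ≠ 0 ∨ b ≠ 0) ∧ (p * s - q * r) ^ 2 = 1 ∧
      ∀ y : ℝ × ℝ × ℝ, (⟪v i, Ψ y⟫_ℝ, ⟪w i, Ψ y⟫_ℝ)
        = lin2 p q r s (a * y.1 + b * y.2.1, y.2.2) := by
    intro i
    obtain ⟨α, β, hu0, hvu, hwu⟩ := hax i
    obtain ⟨u, hu⟩ : ∃ u : E, u = α • e + β • f := ⟨_, rfl⟩
    rw [← hu] at hu0 hvu hwu
    have hnu : ⟪n, u⟫_ℝ = 0 := by
      rw [hu, inner_add_right, real_inner_smul_right, real_inner_smul_right, hne, hnf]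
      ring
    obtain ⟨V, hV, hVn, hVu⟩ := exists_unit_orth hdim n u
    obtain ⟨p, q, r, s, hdet, hx⟩ := frame_change hdim hu0 hV hn hVn hVu hnu (hv i) (hw i)
      (hvw i) hvu hwu
    have hVΨ : ∀ y, ⟪V, Ψ y⟫_ℝ = ⟪V, e⟫_ℝ * y.1 + ⟪V, f⟫_ℝ * y.2.1 := by
      intro y
      rw [hΨ, inner_add_right, inner_add_right, real_inner_smul_right, real_inner_smul_right,
        real_inner_smul_right, hVn]
      ring
    refine ⟨⟪V, e⟫_ℝ, ⟪V, f⟫_ℝ, p, q, r, s, ?_, hdet, ?_⟩
    · by_contra hcon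
      push Not at hcon
      have h1 : ⟪V, V⟫_ℝ = 0 := by
        have h2 := hVΨ (Φ V)
        rw [hΦ, hcon.1, hcon.2] at h2
        rw [h2]; ring
      rw [real_inner_self_eq_norm_sq, hV] at h1
      norm_num at h1
    · intro y
      rw [hx (Ψ y), hVΨ y, hnΨ y]
  choose a b p q r s hab hdet hfrm using hframe
  obtain ⟨S, hS⟩ : ∃ S : ι → Set (ℝ × ℝ),
      S = fun i => lin2 (p i) (q i) (r i) (s i) ⁻¹' toMeasurable volume (B i) := ⟨_, rfl⟩
  have hSm : ∀ i, MeasurableSet (S i) := by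
    intro i
    rw [hS]
    exact (measurableSet_toMeasurable volume (B i)).preimage (continuous_lin2 _ _ _ _).measurable
  have hSvol : ∀ i, volume (S i) = volume (B i) := by
    intro i
    rw [hS]
    show volume (lin2 (p i) (q i) (r i) (s i) ⁻¹' toMeasurable volume (B i)) = volume (B i)
    rw [volume_preimage_lin2 (hdet i), measure_toMeasurable]
  have hcov' : ∀ y ∈ K', ∃ i, (a i * y.1 + b i * y.2.1, y.2.2) ∈ S i := by
    intro y hy
    rw [hmem] at hy
    obtain ⟨i, hi⟩ := hcov (Ψ y) hy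
    refine ⟨i, ?_⟩
    rw [hS]
    show lin2 (p i) (q i) (r i) (s i) (a i * y.1 + b i * y.2.1, y.2.2) ∈ toMeasurable volume (B i)
    rw [← hfrm i y]
    exact subset_toMeasurable volume (B i) hi
  have hprojeq : ∀ i, (fun x : E => (⟪v i, x⟫_ℝ, ⟪w i, x⟫_ℝ)) '' K
      = lin2 (p i) (q i) (r i) (s i) ''
        ((fun y : ℝ × ℝ × ℝ => (a i * y.1 + b i * y.2.1, y.2.2)) '' K') := by
    intro i
    ext z
    constructor
    · rintro ⟨x, hx, rfl⟩
      refine ⟨_, ⟨Φ x, ?_, rfl⟩, ?_⟩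
      · rw [hmem, hΦ]; exact hx
      · have := hfrm i (Φ x)
        rw [hΦ] at this
        exact this.symm
    · rintro ⟨_, ⟨y, hy, rfl⟩, rfl⟩
      rw [hmem] at hy
      exact ⟨Ψ y, hy, hfrm i y⟩
  have main := rect_core K' hK'conv hK'c hrect (proj_volume_ne_zero hK'i).1
    (proj_volume_ne_zero hK'i).2 a b hab S hSm hcov'
  refine main.trans (le_of_eq ?_)
  apply Finset.sum_congr rfl
  intro i _
  rw [hSvol i, hprojeq i, volume_image_lin2 (hdet i)]

/-- The case of a tetrahedron: `e`, `f` are two opposite edges. -/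
theorem tetra_coplanar [FiniteDimensional ℝ E] (hdim : Module.finrank ℝ E = 3)
    (b : AffineBasis (Fin 4) ℝ E)
    {ι : Type*} [Fintype ι] (v w : ι → E) (B : ι → Set (ℝ × ℝ))
    (hv : ∀ i, ‖v i‖ = 1) (hw : ∀ i, ‖w i‖ = 1) (hvw : ∀ i, ⟪v i, w i⟫_ℝ = 0)
    (hax : ∀ i, ∃ α β : ℝ, α • (b 0 - b 1) + β • (b 2 - b 3) ≠ 0 ∧
      ⟪v i, α • (b 0 - b 1) + β • (b 2 - b 3)⟫_ℝ = 0 ∧
      ⟪w i, α • (b 0 - b 1) + β • (b 2 - b 3)⟫_ℝ = 0)
    (hcov : ∀ x ∈ convexHull ℝ (range b), ∃ i, (⟪v i, x⟫_ℝ, ⟪w i, x⟫_ℝ) ∈ B i) :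
    (1 : ENNReal) / 2 ≤
      ∑ i, volume (B i)
        / volume ((fun x : E => (⟪v i, x⟫_ℝ, ⟪w i, x⟫_ℝ)) '' convexHull ℝ (range b)) := by
  have hc0 : ∀ (x : E) (s t : ℝ) (j : Fin 4),
      b.coord j (x + s • (b 0 - b 1) + t • (b 2 - b 3))
        = b.coord j x + s * ((if j = 0 then 1 else 0) - (if j = 1 then 1 else 0))
          + t * ((if j = 2 then 1 else 0) - (if j = 3 then 1 else 0)) := by
    intro x s t j
    rw [coord_add_smul, coord_add_smul]
  apply para_sections hdim (convexHull ℝ (range b)) (convex_convexHull ℝ _)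
    ((finite_range b).isCompact_convexHull ℝ)
    (interior_convexHull_nonempty_iff_affineSpan_eq_top.mpr b.tot) (b 0 - b 1) (b 2 - b 3)
    ?_ ?_ v w B hv hw hvw hax hcov
  · rw [LinearIndependent.pair_iff]
    intro s t hst
    have h0 : b 0 + s • (b 0 - b 1) + t • (b 2 - b 3) = b 0 := by
      rw [add_assoc, hst, add_zero]
    have h1 := hc0 (b 0) s t 0
    have h2 := hc0 (b 0) s t 2
    rw [h0] at h1 h2
    constructor
    · simp at h1
      linarith
    · simp at h2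
      linarith
  · intro x hx s t hy
    rw [b.convexHull_eq_nonneg_coord] at hx hy ⊢
    intro j
    have h1 := hx j
    have h2 := hy j
    rw [hc0] at h2
    rw [coord_add_smul]
    fin_cases j <;> simp at h1 h2 ⊢ <;> linarith

end

end Vale.Agent.Helper11
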