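import Vale.Agent.Helper11.TetraAll

/-!
# The regular tetrahedron and arbitrary cylinders

Every finite covering of a regular tetrahedron `T` by cylinders (with arbitrary axes) has total
base area at least `79 / 200` times the area of the projection of `T` along an edge.

The proof removes from `T` its four corner tetrahedra of ratio `1 / 4`.  The rest `S` has `15 / 16`
of the volume of `T` and diameter `√(5 / 8)` times the edge, so that the part of `S` inside a
cylinder with base `B` has volume at most `0.7906 a |B|`, while `a |P T| ≤ 3 |T|` for the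
projection `P` along an edge of length `a`.
-/

namespace Vale.Agent.Helper11

open Set MeasureTheory
open scoped InnerProductSpace

/-- Two nonnegative reals, each at most `3 / 4`, with sum at most `1`. -/
theorem two_sq_le {x y : ℝ} (hx : 0 ≤ x) (hy : 0 ≤ y) (hx1 : x ≤ 3 / 4) (hy1 : y ≤ 3 / 4)
    (hxy : x + y ≤ 1) : x ^ 2 + y ^ 2 ≤ 5 / 8 := by
  rcases le_total (1 / 2) (x + y) with h | h
  · nlinarith [mul_nonneg (sub_nonneg.mpr hx1) (sub_nonneg.mpr hy1),
      mul_nonneg (sub_nonneg.mpr hxy) (sub_nonneg.mpr h)]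
  · nlinarith [mul_nonneg hx hy, mul_nonneg (sub_nonneg.mpr h) (add_nonneg hx hy)]

/-- Sign pattern two plus two. -/
theorem pat22 {p q r s : ℝ} (hp : 0 ≤ p) (hq : 0 ≤ q) (hr : r ≤ 0) (hs : s ≤ 0)
    (hsum : p + q + r + s = 0) (hp1 : p ≤ 3 / 4) (hq1 : q ≤ 3 / 4) (hr1 : -(3 / 4) ≤ r)
    (hs1 : -(3 / 4) ≤ s) (hpq : p + q ≤ 1) : p ^ 2 + q ^ 2 + r ^ 2 + s ^ 2 ≤ 5 / 4 := by
  have h1 := two_sq_le hp hq hp1 hq1 hpq
  have h2 := two_sq_le (x := -r) (y := -s) (by linarith) (by linarith) (by linarith)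
    (by linarith) (by linarith)
  rw [neg_sq, neg_sq] at h2
  linarith

/-- Sign pattern one plus three. -/
theorem pat13 {p q r s : ℝ} (hp : 0 ≤ p) (hq : q ≤ 0) (hr : r ≤ 0) (hs : s ≤ 0)
    (hsum : p + q + r + s = 0) (hp1 : p ≤ 3 / 4) : p ^ 2 + q ^ 2 + r ^ 2 + s ^ 2 ≤ 5 / 4 := by
  have e : p ^ 2 = (q + r + s) ^ 2 := by
    have : p = -(q + r + s) := by linarith
    rw [this]
    ring
  have hp2 : p ^ 2 ≤ 9 / 16 := by nlinarith
  nlinarith [mul_nonneg (neg_nonneg.mpr hq) (neg_nonneg.mpr hr),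
    mul_nonneg (neg_nonneg.mpr hq) (neg_nonneg.mpr hs),
    mul_nonneg (neg_nonneg.mpr hr) (neg_nonneg.mpr hs)]

/-- Four reals with zero sum, absolute values at most `3 / 4` and pair sums of absolute value at
most `1` have sum of squares at most `5 / 4`. -/
theorem sq_sum_le {d0 d1 d2 d3 : ℝ} (hsum : d0 + d1 + d2 + d3 = 0)
    (h0 : |d0| ≤ 3 / 4) (h1 : |d1| ≤ 3 / 4) (h2 : |d2| ≤ 3 / 4) (h3 : |d3| ≤ 3 / 4)
    (h01 : |d0 + d1| ≤ 1) (h02 : |d0 + d2| ≤ 1) (h03 : |d0 + d3| ≤ 1) :
    d0 ^ 2 + d1 ^ 2 + d2 ^ 2 + d3 ^ 2 ≤ 5 / 4 := by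
  rw [abs_le] at h0 h1 h2 h3 h01 h02 h03
  rcases le_total 0 d0 with s0 | s0 <;> rcases le_total 0 d1 with s1 | s1 <;>
    rcases le_total 0 d2 with s2 | s2 <;> rcases le_total 0 d3 with s3 | s3
  · linarith [pat13 (p := d0) (q := d1) (r := d2) (s := d3) s0 (by linarith) (by linarith) (by linarith) (by linarith) (by linarith)]
  · have h := pat13 (p := -d3) (q := -d0) (r := -d1) (s := -d2) (by linarith) (by linarith) (by linarith) (by linarith) (by linarith) (by linarith)
    simp only [neg_sq] at h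
    linarith
  · have h := pat13 (p := -d2) (q := -d0) (r := -d1) (s := -d3) (by linarith) (by linarith) (by linarith) (by linarith) (by linarith) (by linarith)
    simp only [neg_sq] at h
    linarith
  · linarith [pat22 (p := d0) (q := d1) (r := d2) (s := d3) (by linarith) (by linarith) (by linarith) (by linarith) (by linarith) (by linarith) (by linarith) (by linarith) (by linarith) (by linarith)]
  · have h := pat13 (p := -d1) (q := -d0) (r := -d2) (s := -d3) (by linarith) (by linarith) (by linarith) (by linarith) (by linarith) (by linarith)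
    simp only [neg_sq] at h
    linarith
  · linarith [pat22 (p := d0) (q := d2) (r := d1) (s := d3) (by linarith) (by linarith) (by linarith) (by linarith) (by linarith) (by linarith) (by linarith) (by linarith) (by linarith) (by linarith)]
  · linarith [pat22 (p := d0) (q := d3) (r := d1) (s := d2) (by linarith) (by linarith) (by linarith) (by linarith) (by linarith) (by linarith) (by linarith) (by linarith) (by linarith) (by linarith)]
  · linarith [pat13 (p := d0) (q := d1) (r := d2) (s := d3) (by linarith) (by linarith) (by linarith) (by linarith) (by linarith) (by linarith)]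
  · have h := pat13 (p := -d0) (q := -d1) (r := -d2) (s := -d3) (by linarith) (by linarith) (by linarith) (by linarith) (by linarith) (by linarith)
    simp only [neg_sq] at h
    linarith
  · linarith [pat22 (p := d1) (q := d2) (r := d0) (s := d3) (by linarith) (by linarith) (by linarith) (by linarith) (by linarith) (by linarith) (by linarith) (by linarith) (by linarith) (by linarith)]
  · linarith [pat22 (p := d1) (q := d3) (r := d0) (s := d2) (by linarith) (by linarith) (by linarith) (by linarith) (by linarith) (by linarith) (by linarith) (by linarith) (by linarith) (by linarith)]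
  · linarith [pat13 (p := d1) (q := d0) (r := d2) (s := d3) (by linarith) (by linarith) (by linarith) (by linarith) (by linarith) (by linarith)]
  · linarith [pat22 (p := d2) (q := d3) (r := d0) (s := d1) (by linarith) (by linarith) (by linarith) (by linarith) (by linarith) (by linarith) (by linarith) (by linarith) (by linarith) (by linarith)]
  · linarith [pat13 (p := d2) (q := d0) (r := d1) (s := d3) (by linarith) (by linarith) (by linarith) (by linarith) (by linarith) (by linarith)]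
  · linarith [pat13 (p := d3) (q := d0) (r := d1) (s := d2) (by linarith) (by linarith) (by linarith) (by linarith) (by linarith) (by linarith)]
  · have h := pat13 (p := -d0) (q := -d1) (r := -d2) (s := -d3) (by linarith) (by linarith) (by linarith) (by linarith) (by linarith) (by linarith)
    simp only [neg_sq] at h
    linarith

section regular

variable {E : Type*} [NormedAddCommGroup E] [InnerProductSpace ℝ E] [FiniteDimensional ℝ E]
  [MeasurableSpace E] [BorelSpace E]

omit [FiniteDimensional ℝ E] [MeasurableSpace E] [BorelSpace E] in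
/-- The distance between two points in terms of barycentric coordinates with respect to a regular
tetrahedron of edge `a`. -/
theorem regular_dist_sq (b : AffineBasis (Fin 4) ℝ E) {a : ℝ}
    (hreg : ∀ i j, i ≠ j → dist (b i) (b j) = a) (x y : E) :
    dist x y ^ 2 = a ^ 2 / 2 * ((b.coord 0 x - b.coord 0 y) ^ 2 + (b.coord 1 x - b.coord 1 y) ^ 2
      + (b.coord 2 x - b.coord 2 y) ^ 2 + (b.coord 3 x - b.coord 3 y) ^ 2) := by
  have hx := b.linear_combination_coord_eq_self x
  have hy := b.linear_combination_coord_eq_self y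
  have hsx := b.sum_coord_apply_eq_one x
  have hsy := b.sum_coord_apply_eq_one y
  rw [Fin.sum_univ_four] at hx hy hsx hsy
  have h0x : b.coord 0 x = 1 - b.coord 1 x - b.coord 2 x - b.coord 3 x := by linarith
  have h0y : b.coord 0 y = 1 - b.coord 1 y - b.coord 2 y - b.coord 3 y := by linarith
  have hxy : x - y = (b.coord 1 x - b.coord 1 y) • (b 1 - b 0)
      + (b.coord 2 x - b.coord 2 y) • (b 2 - b 0) + (b.coord 3 x - b.coord 3 y) • (b 3 - b 0) := by
    conv_lhs => rw [← hx, ← hy, h0x, h0y]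
    module
  have n1 : ‖b 1 - b 0‖ = a := by rw [← dist_eq_norm]; exact hreg 1 0 (by decide)
  have n2 : ‖b 2 - b 0‖ = a := by rw [← dist_eq_norm]; exact hreg 2 0 (by decide)
  have n3 : ‖b 3 - b 0‖ = a := by rw [← dist_eq_norm]; exact hreg 3 0 (by decide)
  have h11 : ⟪b 1 - b 0, b 1 - b 0⟫_ℝ = a ^ 2 := by rw [real_inner_self_eq_norm_sq, n1]
  have h22 : ⟪b 2 - b 0, b 2 - b 0⟫_ℝ = a ^ 2 := by rw [real_inner_self_eq_norm_sq, n2]
  have h33 : ⟪b 3 - b 0, b 3 - b 0⟫_ℝ = a ^ 2 := by rw [real_inner_self_eq_norm_sq, n3]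
  have h12 : ⟪b 1 - b 0, b 2 - b 0⟫_ℝ = a ^ 2 / 2 := by
    rw [real_inner_eq_norm_mul_self_add_norm_mul_self_sub_norm_sub_mul_self_div_two, n1, n2,
      sub_sub_sub_cancel_right, ← dist_eq_norm, hreg 1 2 (by decide)]
    ring
  have h13 : ⟪b 1 - b 0, b 3 - b 0⟫_ℝ = a ^ 2 / 2 := by
    rw [real_inner_eq_norm_mul_self_add_norm_mul_self_sub_norm_sub_mul_self_div_two, n1, n3,
      sub_sub_sub_cancel_right, ← dist_eq_norm, hreg 1 3 (by decide)]
    ring
  have h23 : ⟪b 2 - b 0, b 3 - b 0⟫_ℝ = a ^ 2 / 2 := by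
    rw [real_inner_eq_norm_mul_self_add_norm_mul_self_sub_norm_sub_mul_self_div_two, n2, n3,
      sub_sub_sub_cancel_right, ← dist_eq_norm, hreg 2 3 (by decide)]
    ring
  have h21 : ⟪b 2 - b 0, b 1 - b 0⟫_ℝ = a ^ 2 / 2 := by rw [real_inner_comm]; exact h12
  have h31 : ⟪b 3 - b 0, b 1 - b 0⟫_ℝ = a ^ 2 / 2 := by rw [real_inner_comm]; exact h13
  have h32 : ⟪b 3 - b 0, b 2 - b 0⟫_ℝ = a ^ 2 / 2 := by rw [real_inner_comm]; exact h23
  rw [dist_eq_norm, ← real_inner_self_eq_norm_sq, hxy]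
  simp only [inner_add_left, inner_add_right, real_inner_smul_left, real_inner_smul_right,
    h11, h22, h33, h12, h13, h23, h21, h31, h32]
  rw [h0x, h0y]
  ring

omit [MeasurableSpace E] [BorelSpace E] in
/-- An orthonormal frame orthogonal to a nonzero vector of a three-dimensional space. -/
theorem exists_frame_orth (hdim : Module.finrank ℝ E = 3) {d : E} (hd : d ≠ 0) :
    ∃ v w : E, ‖v‖ = 1 ∧ ‖w‖ = 1 ∧ ⟪v, w⟫_ℝ = 0 ∧ ⟪v, d⟫_ℝ = 0 ∧ ⟪w, d⟫_ℝ = 0 := by
  have hfact : Fact (Module.finrank ℝ E = 2 + 1) := ⟨hdim⟩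
  have hF : Module.finrank ℝ (ℝ ∙ d)ᗮ = 2 := Submodule.finrank_orthogonal_span_singleton hd
  obtain ⟨ob⟩ : Nonempty (OrthonormalBasis (Fin 2) ℝ (ℝ ∙ d)ᗮ) :=
    ⟨(stdOrthonormalBasis ℝ (ℝ ∙ d)ᗮ).reindex (finCongr hF)⟩
  refine ⟨(ob 0 : E), (ob 1 : E), ?_, ?_, ?_, ?_, ?_⟩
  · exact (Submodule.coe_norm (ob 0)).symm.trans (ob.orthonormal.1 0)
  · exact (Submodule.coe_norm (ob 1)).symm.trans (ob.orthonormal.1 1)
  · exact (Submodule.coe_inner _ (ob 0) (ob 1)).symm.trans
      (ob.orthonormal.2 (show (0 : Fin 2) ≠ 1 by decide))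
  · exact Submodule.mem_orthogonal_singleton_iff_inner_left.mp (ob 0).2
  · exact Submodule.mem_orthogonal_singleton_iff_inner_left.mp (ob 1).2

omit [FiniteDimensional ℝ E] [MeasurableSpace E] [BorelSpace E] in
/-- Two points of a regular tetrahedron of edge `a` all of whose barycentric coordinates are at
most `3 / 4` have distance at most `0.7906 a`. -/
theorem regular_trunc_dist (b : AffineBasis (Fin 4) ℝ E) {a : ℝ}
    (hreg : ∀ i j, i ≠ j → dist (b i) (b j) = a) {x y : E}
    (hx : ∀ k, 0 ≤ b.coord k x) (hx' : ∀ k, b.coord k x ≤ 3 / 4)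
    (hy : ∀ k, 0 ≤ b.coord k y) (hy' : ∀ k, b.coord k y ≤ 3 / 4) :
    dist x y ≤ a * (7906 / 10000) := by
  have ha : 0 ≤ a := by
    rw [← hreg 0 1 (by decide)]
    exact dist_nonneg
  have hsq := regular_dist_sq b hreg x y
  have hsx := b.sum_coord_apply_eq_one x
  have hsy := b.sum_coord_apply_eq_one y
  rw [Fin.sum_univ_four] at hsx hsy
  have hS := sq_sum_le (d0 := b.coord 0 x - b.coord 0 y) (d1 := b.coord 1 x - b.coord 1 y)
    (d2 := b.coord 2 x - b.coord 2 y) (d3 := b.coord 3 x - b.coord 3 y) (by linarith)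
    (by rw [abs_le]; constructor <;> linarith [hx 0, hy 0, hx' 0, hy' 0])
    (by rw [abs_le]; constructor <;> linarith [hx 1, hy 1, hx' 1, hy' 1])
    (by rw [abs_le]; constructor <;> linarith [hx 2, hy 2, hx' 2, hy' 2])
    (by rw [abs_le]; constructor <;> linarith [hx 3, hy 3, hx' 3, hy' 3])
    (by rw [abs_le]; constructor <;>
      linarith [hx 0, hy 0, hx 1, hy 1, hx 2, hy 2, hx 3, hy 3])
    (by rw [abs_le]; constructor <;>
      linarith [hx 0, hy 0, hx 1, hy 1, hx 2, hy 2, hx 3, hy 3])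
    (by rw [abs_le]; constructor <;>
      linarith [hx 0, hy 0, hx 1, hy 1, hx 2, hy 2, hx 3, hy 3])
  have h2 : dist x y ^ 2 ≤ (a * (7906 / 10000)) ^ 2 := by
    rw [hsq]
    nlinarith [sq_nonneg a, mul_nonneg (sq_nonneg a) (sub_nonneg.mpr hS)]
  exact (sq_le_sq₀ dist_nonneg (mul_nonneg ha (by norm_num))).mp h2

/-- Every finite covering of a regular tetrahedron in a three-dimensional Euclidean space by
cylinders has total base area at least `79 / 200` times the area of the projection of the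
tetrahedron along any of its edges. -/
theorem tetra_regular (hdim : Module.finrank ℝ E = 3) (b : AffineBasis (Fin 4) ℝ E) {a : ℝ}
    (hreg : ∀ i j, i ≠ j → dist (b i) (b j) = a)
    {ι : Type*} [Fintype ι] (v w : ι → E) (B : ι → Set (ℝ × ℝ))
    (hv : ∀ i, ‖v i‖ = 1) (hw : ∀ i, ‖w i‖ = 1) (hvw : ∀ i, ⟪v i, w i⟫_ℝ = 0)
    (hcov : ∀ x ∈ convexHull ℝ (range b), ∃ i, (⟪v i, x⟫_ℝ, ⟪w i, x⟫_ℝ) ∈ B i)
    {v₀ w₀ : E} (hv₀ : ‖v₀‖ = 1) (hw₀ : ‖w₀‖ = 1) (hvw₀ : ⟪v₀, w₀⟫_ℝ = 0)
    {i₀ j₀ : Fin 4} (hij : i₀ ≠ j₀) (hv₀e : ⟪v₀, b i₀ - b j₀⟫_ℝ = 0)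
    (hw₀e : ⟪w₀, b i₀ - b j₀⟫_ℝ = 0) :
    ENNReal.ofReal (79 / 200)
        * volume ((fun x : E => (⟪v₀, x⟫_ℝ, ⟪w₀, x⟫_ℝ)) '' convexHull ℝ (range b))
      ≤ ∑ i, volume (B i) := by
  have hcap := fun j => cap_volume_le hdim b j (s := 1 / 4) (by norm_num) (by norm_num)
  obtain ⟨K, hKdef⟩ : ∃ K : Set E, K = convexHull ℝ (range b) := ⟨_, rfl⟩
  obtain ⟨S, hSdef⟩ : ∃ S : Set E, S = K ∩ {x | ∀ j, b.coord j x ≤ 3 / 4} := ⟨_, rfl⟩
  rw [← hKdef] at hcov ⊢
  simp_rw [← hKdef] at hcap
  have hK : Convex ℝ K := by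
    rw [hKdef]
    exact convex_convexHull ℝ _
  have hKc : IsCompact K := by
    rw [hKdef]
    exact (finite_range b).isCompact_convexHull ℝ
  have hKi : (interior K).Nonempty := by
    rw [hKdef]
    exact interior_convexHull_nonempty_iff_affineSpan_eq_top.mpr b.tot
  have hKm : MeasurableSet K := hKc.isClosed.measurableSet
  have hKmem : ∀ x, x ∈ K ↔ ∀ k, 0 ≤ b.coord k x := by
    intro x
    rw [hKdef, b.convexHull_eq_nonneg_coord]
    rfl
  have hO1 : MeasurableSet {x : E | ∀ j, b.coord j x ≤ 3 / 4} := by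
    have e : {x : E | ∀ j, b.coord j x ≤ 3 / 4} = ⋂ j, {x | b.coord j x ≤ 3 / 4} := by
      ext x
      simp
    rw [e]
    exact MeasurableSet.iInter (fun j =>
      (isClosed_le (AffineMap.continuous_of_finiteDimensional _) continuous_const).measurableSet)
  have hSm : MeasurableSet S := by
    rw [hSdef]
    exact hKm.inter hO1
  have hSK : S ⊆ K := by
    rw [hSdef]
    exact inter_subset_left
  have hV0 : volume K ≠ 0 :=
    ((isOpen_interior.measure_pos volume hKi).trans_le (measure_mono interior_subset)).ne'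
  have hVt : volume K ≠ ⊤ := hKc.measure_lt_top.ne
  have hapos : 0 < a := by
    rw [← hreg i₀ j₀ hij]
    exact dist_pos.mpr (fun h => hij (b.ind.injective h))
  -- the diameter of `S`
  have hdiam : ∀ x ∈ S, ∀ y ∈ S, dist x y ≤ a * (7906 / 10000) := by
    intro x hx y hy
    rw [hSdef] at hx hy
    exact regular_trunc_dist b hreg ((hKmem x).mp hx.1) hx.2 ((hKmem y).mp hy.1) hy.2
  -- the volume of `S`
  have hsub : K ⊆ S ∪ ⋃ j, K ∩ {x | 1 - 1 / 4 < b.coord j x} := by
    intro x hx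
    by_cases h1 : ∀ j, b.coord j x ≤ 3 / 4
    · left
      rw [hSdef]
      exact ⟨hx, h1⟩
    · push Not at h1
      obtain ⟨j, hj⟩ := h1
      right
      refine mem_iUnion.mpr ⟨j, hx, ?_⟩
      show 1 - 1 / 4 < b.coord j x
      linarith
  have hvol : volume K ≤ volume S + ENNReal.ofReal (1 / 16) * volume K := by
    calc volume K
        ≤ volume (S ∪ ⋃ j, K ∩ {x | 1 - 1 / 4 < b.coord j x}) := measure_mono hsub
      _ ≤ volume S + ∑ j : Fin 4, volume (K ∩ {x | 1 - 1 / 4 < b.coord j x}) :=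
          (measure_union_le _ _).trans (add_le_add le_rfl (measure_iUnion_fintype_le _ _))
      _ ≤ volume S + ∑ _j : Fin 4, ENNReal.ofReal ((1 / 4) ^ 3) * volume K :=
          add_le_add le_rfl (Finset.sum_le_sum (fun j _ => hcap j))
      _ = volume S + ENNReal.ofReal (1 / 16) * volume K := by
          congr 1
          rw [Finset.sum_const, Finset.card_univ, Fintype.card_fin, nsmul_eq_mul, ← mul_assoc]
          congr 1
          have h4 : ((4 : ℕ) : ENNReal) = ENNReal.ofReal 4 := by simp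
          rw [h4, ← ENNReal.ofReal_mul (by norm_num)]
          congr 1
          norm_num
  -- measurable hulls of the bases
  obtain ⟨B', hB'⟩ : ∃ B' : ι → Set (ℝ × ℝ), B' = fun i => toMeasurable volume (B i) := ⟨_, rfl⟩
  have hB'm : ∀ i, MeasurableSet (B' i) := fun i => by
    rw [hB']; exact measurableSet_toMeasurable _ _
  have hB'sub : ∀ i, B i ⊆ B' i := fun i => by
    rw [hB']; exact subset_toMeasurable _ _
  have hB'vol : ∀ i, volume (B' i) = volume (B i) := fun i => by
    rw [hB']; exact measure_toMeasurable _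
  have hcovS : S ⊆ ⋃ i, S ∩ (fun x : E => (⟪v i, x⟫_ℝ, ⟪w i, x⟫_ℝ)) ⁻¹' B' i := by
    intro x hx
    obtain ⟨i, hi⟩ := hcov x (hSK hx)
    exact mem_iUnion.mpr ⟨i, hx, hB'sub i hi⟩
  have hsum : volume S ≤ ENNReal.ofReal (a * (7906 / 10000)) * ∑ i, volume (B i) := by
    calc volume S
        ≤ ∑ i, volume (S ∩ (fun x : E => (⟪v i, x⟫_ℝ, ⟪w i, x⟫_ℝ)) ⁻¹' B' i) :=
          (measure_mono hcovS).trans (measure_iUnion_fintype_le volume _)
      _ ≤ ∑ i, ENNReal.ofReal (a * (7906 / 10000)) * volume (B i) :=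
          Finset.sum_le_sum (fun i _ => by
            rw [← hB'vol i]
            exact diam_cyl_frame hdim hSm hdiam (hv i) (hw i) (hvw i) (hB'm i))
      _ = ENNReal.ofReal (a * (7906 / 10000)) * ∑ i, volume (B i) := by
          rw [← Finset.mul_sum]
  -- the chord inequality along the edge
  have hchord : ENNReal.ofReal a * volume ((fun x : E => (⟪v₀, x⟫_ℝ, ⟪w₀, x⟫_ℝ)) '' K)
      ≤ 3 * volume K := by
    have hj : b j₀ ∈ K := by
      rw [hKdef]
      exact subset_convexHull ℝ _ (mem_range_self j₀)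
    have hi : b j₀ + (b i₀ - b j₀) ∈ K := by
      rw [add_sub_cancel, hKdef]
      exact subset_convexHull ℝ _ (mem_range_self i₀)
    have h := chord_frame hdim hK hKc hv₀ hw₀ hvw₀ hv₀e hw₀e hj hi
    rwa [← dist_eq_norm, hreg i₀ j₀ hij] at h
  -- conclusion, in real numbers
  by_cases hR : (∑ i, volume (B i)) = ⊤
  · rw [hR]
    exact le_top
  obtain ⟨R, hRdef⟩ : ∃ R : ENNReal, R = ∑ i, volume (B i) := ⟨_, rfl⟩
  obtain ⟨A, hAdef⟩ : ∃ A : ENNReal,
      A = volume ((fun x : E => (⟪v₀, x⟫_ℝ, ⟪w₀, x⟫_ℝ)) '' K) := ⟨_, rfl⟩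
  rw [← hRdef] at hR hsum ⊢
  rw [← hAdef] at hchord ⊢
  have hAt : A ≠ ⊤ := by
    intro hA
    rw [hA, ENNReal.mul_top (by simpa using hapos)] at hchord
    exact (ENNReal.mul_ne_top (by norm_num) hVt) (top_le_iff.mp hchord)
  have hSt : volume S ≠ ⊤ := ne_top_of_le_ne_top hVt (measure_mono hSK)
  have hVpos : 0 < (volume K).toReal := ENNReal.toReal_pos hV0 hVt
  have h1r := ENNReal.toReal_mono
    (ENNReal.add_ne_top.mpr ⟨hSt, ENNReal.mul_ne_top ENNReal.ofReal_ne_top hVt⟩) hvol
  rw [ENNReal.toReal_add hSt (ENNReal.mul_ne_top ENNReal.ofReal_ne_top hVt), ENNReal.toReal_mul,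
    ENNReal.toReal_ofReal (by norm_num)] at h1r
  have h2r := ENNReal.toReal_mono (ENNReal.mul_ne_top ENNReal.ofReal_ne_top hR) hsum
  rw [ENNReal.toReal_mul, ENNReal.toReal_ofReal (mul_nonneg hapos.le (by norm_num))] at h2r
  have h3r := ENNReal.toReal_mono (ENNReal.mul_ne_top (by norm_num) hVt) hchord
  rw [ENNReal.toReal_mul, ENNReal.toReal_mul, ENNReal.toReal_ofReal hapos.le] at h3r
  have h3 : (3 : ENNReal).toReal = 3 := by simp
  rw [h3] at h3r
  have hR0 : 0 ≤ R.toReal := ENNReal.toReal_nonneg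
  have hfin : 79 / 200 * A.toReal ≤ R.toReal := by
    by_contra hlt
    push Not at hlt
    nlinarith [mul_pos hapos (sub_pos.mpr hlt), mul_nonneg hapos.le hR0]
  calc ENNReal.ofReal (79 / 200) * A
      = ENNReal.ofReal (79 / 200 * A.toReal) := by
        rw [ENNReal.ofReal_mul (by norm_num), ENNReal.ofReal_toReal hAt]
    _ ≤ ENNReal.ofReal R.toReal := ENNReal.ofReal_le_ofReal hfin
    _ = R := ENNReal.ofReal_toReal hR

end regular

end Vale.Agent.Helper11
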