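import Vale.Agent.Helper11.Bang
import Vale.Agent.Helper11.TetraRegular
import Vale.Agent.Helper11.ParaSections

/-!
# Bang's half-area inequality for cylinders with coplanar axes

If a convex body in three-dimensional Euclidean space is covered by finitely many cylinders whose
axes are all parallel to one plane, then the total base area is at least half of the smallest
area of an orthogonal projection of the body.  The proof slices the body by the planes parallel
to the axes; on each slice the cylinders induce strips, Bang's plank theorem bounds their total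
width from below by the minimal width of the slice, and the minimal width of the slice is
bounded from below by a tent function through the concavity of the section lengths of the
projections of the body.
-/

namespace Vale.Agent.Helper11

open Set MeasureTheory
open scoped InnerProductSpace

section onedim

theorem setLIntegral_reflect (F : ℝ → ℝ) (a b : ℝ) :
    ∫⁻ z in Icc a b, ENNReal.ofReal (F (a + b - z)) = ∫⁻ z in Icc a b, ENNReal.ofReal (F z) := by
  rw [← lintegral_indicator measurableSet_Icc, ← lintegral_indicator measurableSet_Icc]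
  rw [← lintegral_sub_left_eq_self
    (fun z => (Icc a b).indicator (fun z => ENNReal.ofReal (F z)) z) (a + b)]
  apply lintegral_congr
  intro z
  by_cases hz : z ∈ Icc a b
  · have hz' : a + b - z ∈ Icc a b := ⟨by linarith [hz.2], by linarith [hz.1]⟩
    rw [indicator_of_mem hz, indicator_of_mem hz']
  · have hz' : a + b - z ∉ Icc a b := fun h => hz ⟨by linarith [h.2], by linarith [h.1]⟩
    rw [indicator_of_notMem hz, indicator_of_notMem hz']

/-- The integral of a nonnegative concave function over an interval is at most the length of the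
interval times the value at the midpoint. -/
theorem lintegral_le_mid {F : ℝ → ℝ} {a b : ℝ} (hab : a ≤ b) (hFm : Measurable F)
    (hF0 : ∀ z ∈ Icc a b, 0 ≤ F z) (hFc : ConcaveOn ℝ (Icc a b) F) :
    ∫⁻ z in Icc a b, ENNReal.ofReal (F z) ≤ ENNReal.ofReal (F ((a + b) / 2) * (b - a)) := by
  obtain ⟨I, hI⟩ : ∃ I : ENNReal, I = ∫⁻ z in Icc a b, ENNReal.ofReal (F z) := ⟨_, rfl⟩
  rw [← hI]
  have hrefl : ∫⁻ z in Icc a b, ENNReal.ofReal (F (a + b - z)) = I := by
    rw [hI]; exact setLIntegral_reflect F a b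
  have hsum : I + I
      = ∫⁻ z in Icc a b, (ENNReal.ofReal (F z) + ENNReal.ofReal (F (a + b - z))) := by
    rw [lintegral_add_left hFm.ennreal_ofReal, ← hI, hrefl]
  have hpt : ∀ z ∈ Icc a b, ENNReal.ofReal (F z) + ENNReal.ofReal (F (a + b - z))
      ≤ ENNReal.ofReal (2 * F ((a + b) / 2)) := by
    intro z hz
    have hz' : a + b - z ∈ Icc a b := ⟨by linarith [hz.2], by linarith [hz.1]⟩
    have h := hFc.2 hz hz' (by norm_num : (0 : ℝ) ≤ 1 / 2) (by norm_num : (0 : ℝ) ≤ 1 / 2)
      (by norm_num)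
    simp only [smul_eq_mul] at h
    have e : (1 / 2 : ℝ) * z + 1 / 2 * (a + b - z) = (a + b) / 2 := by ring
    rw [e] at h
    rw [← ENNReal.ofReal_add (hF0 _ hz) (hF0 _ hz')]
    apply ENNReal.ofReal_le_ofReal
    linarith
  have hX : 0 ≤ F ((a + b) / 2) := hF0 _ ⟨by linarith, by linarith⟩
  have hle : I + I ≤ ENNReal.ofReal (F ((a + b) / 2) * (b - a))
      + ENNReal.ofReal (F ((a + b) / 2) * (b - a)) := by
    rw [hsum]
    calc ∫⁻ z in Icc a b, (ENNReal.ofReal (F z) + ENNReal.ofReal (F (a + b - z)))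
        ≤ ∫⁻ _ in Icc a b, ENNReal.ofReal (2 * F ((a + b) / 2)) :=
          setLIntegral_mono' measurableSet_Icc hpt
      _ = ENNReal.ofReal (2 * F ((a + b) / 2)) * ENNReal.ofReal (b - a) := by
          rw [setLIntegral_const, Real.volume_Icc]
      _ = ENNReal.ofReal (F ((a + b) / 2) * (b - a))
          + ENNReal.ofReal (F ((a + b) / 2) * (b - a)) := by
          rw [← ENNReal.ofReal_mul (by linarith),
            ← ENNReal.ofReal_add (mul_nonneg hX (by linarith)) (mul_nonneg hX (by linarith))]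
          congr 1
          ring
  by_contra hcon
  push Not at hcon
  exact absurd hle (not_le.mpr (ENNReal.add_lt_add hcon hcon))

/-- A nonnegative concave function on `[z0, z1]` is controlled by its value at a point `z` of
the left half of the interval. -/
theorem concave_left_bound {F : ℝ → ℝ} {z0 z1 z : ℝ} (hFm : Measurable F)
    (hF0 : ∀ t ∈ Icc z0 z1, 0 ≤ F t) (hFc : ConcaveOn ℝ (Icc z0 z1) F) (hz0 : z0 < z)
    (hz : z ≤ (z0 + z1) / 2) :
    ∫⁻ t in Icc z0 z1, ENNReal.ofReal (F t)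
      ≤ ENNReal.ofReal (F z * ((z1 - z0) ^ 2 / (2 * (z - z0)))) := by
  obtain ⟨c, hc⟩ : ∃ c : ℝ, c = 2 * z - z0 := ⟨_, rfl⟩
  have hc0 : z0 ≤ c := by rw [hc]; linarith
  have hc1 : c ≤ z1 := by rw [hc]; linarith
  have hm : 0 < z - z0 := by linarith
  have hzI : z ∈ Icc z0 z1 := ⟨hz0.le, by linarith⟩
  have hFz : 0 ≤ F z := hF0 z hzI
  obtain ⟨k, hk⟩ : ∃ k : ℝ, k = F z / (z - z0) := ⟨_, rfl⟩
  have hk0 : 0 ≤ k := by rw [hk]; exact div_nonneg hFz hm.le
  have hsplit : ∫⁻ t in Icc z0 z1, ENNReal.ofReal (F t)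
      ≤ (∫⁻ t in Icc z0 c, ENNReal.ofReal (F t)) + ∫⁻ t in Icc c z1, ENNReal.ofReal (F t) := by
    have hsub : Icc z0 z1 ⊆ Icc z0 c ∪ Icc c z1 := by
      intro t ht
      rcases le_total t c with h | h
      · exact Or.inl ⟨ht.1, h⟩
      · exact Or.inr ⟨h, ht.2⟩
    exact (lintegral_mono_set hsub).trans (lintegral_union_le _ _ _)
  have h1 : ∫⁻ t in Icc z0 c, ENNReal.ofReal (F t) ≤ ENNReal.ofReal (F z * (c - z0)) := by
    have h := lintegral_le_mid hc0 hFm
      (fun t ht => hF0 t ⟨ht.1, ht.2.trans hc1⟩)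
      (hFc.subset (Icc_subset_Icc le_rfl hc1) (convex_Icc _ _))
    have e : (z0 + c) / 2 = z := by rw [hc]; ring
    rw [e] at h
    exact h
  have h2 : ∫⁻ t in Icc c z1, ENNReal.ofReal (F t)
      ≤ ENNReal.ofReal (k * ((c + z1) / 2 - z0) * (z1 - c)) := by
    have hpt : ∀ t ∈ Icc c z1, ENNReal.ofReal (F t) ≤ ENNReal.ofReal (k * (t - z0)) := by
      intro t ht
      apply ENNReal.ofReal_le_ofReal
      have ht0 : 0 < t - z0 := by
        have := ht.1
        rw [hc] at this
        linarith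
      obtain ⟨θ, hθ⟩ : ∃ θ : ℝ, θ = (z - z0) / (t - z0) := ⟨_, rfl⟩
      have hθ0 : 0 ≤ θ := by rw [hθ]; exact div_nonneg hm.le ht0.le
      have hθ1 : θ ≤ 1 := by
        rw [hθ, div_le_one ht0]
        have := ht.1
        rw [hc] at this
        linarith
      have hθt : θ * (t - z0) = z - z0 := by rw [hθ]; field_simp
      have hz0I : z0 ∈ Icc z0 z1 := ⟨le_rfl, by linarith [hzI.2]⟩
      have htI : t ∈ Icc z0 z1 := ⟨by linarith, ht.2⟩
      have c1 := hFc.2 hz0I htI (by linarith : (0 : ℝ) ≤ 1 - θ) hθ0 (by ring)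
      simp only [smul_eq_mul] at c1
      have e1 : (1 - θ) * z0 + θ * t = z := by linarith
      rw [e1] at c1
      have n0 : 0 ≤ (1 - θ) * F z0 := mul_nonneg (by linarith) (hF0 z0 hz0I)
      have h3 : θ * F t ≤ F z := by linarith
      rw [hk, div_mul_eq_mul_div, le_div_iff₀ hm]
      calc F t * (z - z0) = (θ * F t) * (t - z0) := by rw [← hθt]; ring
        _ ≤ F z * (t - z0) := mul_le_mul_of_nonneg_right h3 ht0.le
    have hgc : ConcaveOn ℝ (Icc c z1) (fun t => k * (t - z0)) := by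
      refine ⟨convex_Icc _ _, ?_⟩
      intro x _ y _ a b _ _ hab
      simp only [smul_eq_mul]
      apply le_of_eq
      linear_combination (-(k * z0)) * hab
    have h := lintegral_le_mid (F := fun t => k * (t - z0)) hc1 (by fun_prop)
      (fun t ht => mul_nonneg hk0 (by linarith [ht.1])) hgc
    exact (setLIntegral_mono' measurableSet_Icc hpt).trans h
  refine hsplit.trans ((add_le_add h1 h2).trans ?_)
  rw [← ENNReal.ofReal_add (mul_nonneg hFz (by linarith))
    (mul_nonneg (mul_nonneg hk0 (by linarith)) (by linarith))]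
  apply ENNReal.ofReal_le_ofReal
  apply le_of_eq
  rw [hk, hc]
  field_simp
  ring

end onedim

section planar

/-- The horizontal section at height `z` of a compact convex planar set of height range
`[z0, z1]` has length at least `2 min (z - z0) (z1 - z) / (z1 - z0)²` times the area. -/
theorem sec_ge_of_area {P : Set (ℝ × ℝ)} (hPc : IsCompact P) (hP : Convex ℝ P) {z0 z1 : ℝ}
    (h01 : z0 < z1) (hZ : Prod.snd '' P = Icc z0 z1) {z : ℝ} (hz : z ∈ Icc z0 z1) :
    2 * min (z - z0) (z1 - z) / (z1 - z0) ^ 2 * (volume P).toReal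
      ≤ (volume (sec P z)).toReal := by
  obtain ⟨f, hf⟩ : ∃ f : ℝ → ℝ, f = fun t => (volume (sec P t)).toReal := ⟨_, rfl⟩
  have hfz : (volume (sec P z)).toReal = f z := by rw [hf]
  rw [hfz]
  have hfm : Measurable f := by
    rw [hf]; exact (measurable_volume_sec hPc.measurableSet).ennreal_toReal
  have hf0 : ∀ t, 0 ≤ f t := by intro t; rw [hf]; exact ENNReal.toReal_nonneg
  have hfc : ConcaveOn ℝ (Icc z0 z1) f := by rw [hf]; exact concaveOn_volume_sec hPc hP hZ
  have hvol : volume P = ∫⁻ t in Icc z0 z1, ENNReal.ofReal (f t) := by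
    rw [volume_eq_lintegral_sec hPc.measurableSet, ← lintegral_indicator measurableSet_Icc]
    apply lintegral_congr
    intro t
    by_cases ht : t ∈ Icc z0 z1
    · rw [indicator_of_mem ht, hf]
      exact (ENNReal.ofReal_toReal (volume_sec_ne_top hPc t)).symm
    · rw [indicator_of_notMem ht, sec_empty_of_notMem (by rw [hZ]; exact ht), measure_empty]
  have hΔ : 0 < z1 - z0 := by linarith
  have hmain : ∀ (G : ℝ → ℝ) (y : ℝ), Measurable G → (∀ t ∈ Icc z0 z1, 0 ≤ G t) →
      ConcaveOn ℝ (Icc z0 z1) G →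
      (∫⁻ t in Icc z0 z1, ENNReal.ofReal (G t)) = volume P → z0 < y → y ≤ (z0 + z1) / 2 →
      2 * (y - z0) / (z1 - z0) ^ 2 * (volume P).toReal ≤ G y := by
    intro G y hGm hG0 hGc hGi hy0 hy
    have hb := concave_left_bound hGm hG0 hGc hy0 hy
    rw [hGi] at hb
    have hGy : 0 ≤ G y := hG0 y ⟨hy0.le, by linarith⟩
    have hm : 0 < y - z0 := by linarith
    have h1 : (volume P).toReal ≤ G y * ((z1 - z0) ^ 2 / (2 * (y - z0))) :=
      ENNReal.toReal_le_of_le_ofReal (mul_nonneg hGy (by positivity)) hb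
    have h2 : 2 * (y - z0) / (z1 - z0) ^ 2 * (volume P).toReal
        ≤ 2 * (y - z0) / (z1 - z0) ^ 2 * (G y * ((z1 - z0) ^ 2 / (2 * (y - z0)))) :=
      mul_le_mul_of_nonneg_left h1 (by positivity)
    have e : 2 * (y - z0) / (z1 - z0) ^ 2 * (G y * ((z1 - z0) ^ 2 / (2 * (y - z0)))) = G y := by
      field_simp
    linarith
  rcases le_total z ((z0 + z1) / 2) with hzm | hzm
  · have hmin : min (z - z0) (z1 - z) = z - z0 := min_eq_left (by linarith)
    rw [hmin]
    rcases hz.1.eq_or_lt with h | h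
    · rw [← h, sub_self, mul_zero, zero_div, zero_mul]
      exact hf0 _
    · exact hmain f z hfm (fun t _ => hf0 t) hfc hvol.symm h hzm
  · have hmin : min (z - z0) (z1 - z) = z1 - z := min_eq_right (by linarith)
    rw [hmin]
    rcases hz.2.eq_or_lt with h | h
    · rw [h, sub_self, mul_zero, zero_div, zero_mul]
      exact hf0 _
    · have hGc : ConcaveOn ℝ (Icc z0 z1) (fun t => f (z0 + z1 - t)) := by
        refine ⟨convex_Icc _ _, ?_⟩
        intro x hx y hy a b ha hb hab
        have hx' : z0 + z1 - x ∈ Icc z0 z1 := ⟨by linarith [hx.2], by linarith [hx.1]⟩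
        have hy' : z0 + z1 - y ∈ Icc z0 z1 := ⟨by linarith [hy.2], by linarith [hy.1]⟩
        have := hfc.2 hx' hy' ha hb hab
        simp only [smul_eq_mul] at this ⊢
        have e : z0 + z1 - (a * x + b * y) = a * (z0 + z1 - x) + b * (z0 + z1 - y) := by
          linear_combination (-(z0 + z1)) * hab
        rw [e]
        exact this
      have h' := hmain (fun t => f (z0 + z1 - t)) (z0 + z1 - z) (hfm.comp (by fun_prop))
        (fun t _ => hf0 _) hGc ((setLIntegral_reflect f z0 z1).trans hvol.symm) (by linarith)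
        (by linarith)
      have e1 : z0 + z1 - z - z0 = z1 - z := by ring
      have e2 : z0 + z1 - (z0 + z1 - z) = z := by ring
      rw [e1, e2] at h'
      exact h'

/-- The coordinate form of the half-area inequality for coplanar axes: the axes are parallel to
the plane of the first two coordinates. -/
theorem coplanar_core {ι : Type*} [Fintype ι] (K : Set (ℝ × ℝ × ℝ)) (hK : Convex ℝ K)
    (hKc : IsCompact K) (a b : ι → ℝ) (hab : ∀ i, a i ^ 2 + b i ^ 2 = 1)
    (S : ι → Set (ℝ × ℝ)) (hS : ∀ i, MeasurableSet (S i))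
    (hcov : ∀ x ∈ K, ∃ i, (a i * x.1 + b i * x.2.1, x.2.2) ∈ S i)
    (A : ENNReal)
    (hA : ∀ α β : ℝ, α ^ 2 + β ^ 2 = 1 →
      A ≤ volume ((fun x : ℝ × ℝ × ℝ => (α * x.1 + β * x.2.1, x.2.2)) '' K)) :
    A / 2 ≤ ∑ i, volume (S i) := by
  rcases K.eq_empty_or_nonempty with hKe | hKne
  · have h := hA 1 0 (by norm_num)
    rw [hKe, image_empty, measure_empty] at h
    have hA0 : A = 0 := le_antisymm h zero_le
    rw [hA0]
    simp
  have hproj : ∀ α β : ℝ,
      IsCompact ((fun x : ℝ × ℝ × ℝ => (α * x.1 + β * x.2.1, x.2.2)) '' K) ∧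
      Convex ℝ ((fun x : ℝ × ℝ × ℝ => (α * x.1 + β * x.2.1, x.2.2)) '' K) ∧
      Prod.snd '' ((fun x : ℝ × ℝ × ℝ => (α * x.1 + β * x.2.1, x.2.2)) '' K)
        = (fun x : ℝ × ℝ × ℝ => x.2.2) '' K := by
    intro α β
    refine ⟨hKc.image (by fun_prop), ?_, ?_⟩
    · apply hK.is_linear_image
      constructor
      · intro x y
        ext
        · simp only [Prod.fst_add, Prod.snd_add]; ring
        · simp only [Prod.snd_add]
      · intro c x
        ext
        · simp only [Prod.smul_fst, Prod.smul_snd, smul_eq_mul]; ring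
        · simp only [Prod.smul_snd, smul_eq_mul]
    · rw [image_image]
  have hZc : IsCompact ((fun x : ℝ × ℝ × ℝ => x.2.2) '' K) := hKc.image (by fun_prop)
  have hZconv : Convex ℝ ((fun x : ℝ × ℝ × ℝ => x.2.2) '' K) := by
    apply hK.is_linear_image
    constructor
    · intro x y; simp
    · intro c x; simp
  obtain ⟨z0, z1, h01, hZ⟩ := exists_Icc_aux hZc hZconv (hKne.image _)
  have hAfin : A ≠ ⊤ :=
    ne_top_of_le_ne_top (hproj 1 0).1.measure_lt_top.ne (hA 1 0 (by norm_num))
  rcases h01.eq_or_lt with h01 | h01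
  · have h := hA 1 0 (by norm_num)
    have hsub : (fun x : ℝ × ℝ × ℝ => ((1 : ℝ) * x.1 + (0 : ℝ) * x.2.1, x.2.2)) '' K
        ⊆ (univ : Set ℝ) ×ˢ ({z0} : Set ℝ) := by
      rintro _ ⟨x, hx, rfl⟩
      refine ⟨mem_univ _, ?_⟩
      have hmem : x.2.2 ∈ (fun x : ℝ × ℝ × ℝ => x.2.2) '' K := ⟨x, hx, rfl⟩
      rw [hZ, ← h01] at hmem
      simpa using hmem
    have hzero : volume ((univ : Set ℝ) ×ˢ ({z0} : Set ℝ)) = 0 := by
      rw [Measure.volume_eq_prod, Measure.prod_prod]
      simp
    have hA0 : A = 0 := le_antisymm (h.trans ((measure_mono hsub).trans hzero.le)) zero_le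
    rw [hA0]
    simp
  · obtain ⟨A', hA'⟩ : ∃ A' : ℝ, A' = A.toReal := ⟨_, rfl⟩
    have hA'0 : 0 ≤ A' := by rw [hA']; exact ENNReal.toReal_nonneg
    have hΔ : 0 < z1 - z0 := by linarith
    obtain ⟨k, hk⟩ : ∃ k : ℝ, k = 2 * A' / (z1 - z0) ^ 2 := ⟨_, rfl⟩
    have hk0 : 0 ≤ k := by rw [hk]; positivity
    obtain ⟨M, hM⟩ : ∃ M : ℝ → ℝ, M = fun z => k * max (min (z - z0) (z1 - z)) 0 := ⟨_, rfl⟩
    have hMm : Measurable M := by
      rw [hM]
      exact (continuous_const.mul (((continuous_id.sub continuous_const).min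
        (continuous_const.sub continuous_id)).max continuous_const)).measurable
    have hM0 : ∀ z, 0 ≤ M z := by
      intro z; rw [hM]; exact mul_nonneg hk0 (le_max_right _ _)
    have hMin : ∀ z ∈ Icc z0 z1, M z = k * min (z - z0) (z1 - z) := by
      intro z hz
      rw [hM]
      simp only
      rw [max_eq_left (le_min (by linarith [hz.1]) (by linarith [hz.2]))]
    have hMc : ConcaveOn ℝ (Icc z0 z1) M := by
      refine ⟨convex_Icc _ _, ?_⟩
      intro x hx y hy a' b' ha hb hab'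
      have hxy : a' • x + b' • y ∈ Icc z0 z1 := (convex_Icc z0 z1) hx hy ha hb hab'
      rw [hMin x hx, hMin y hy, hMin _ hxy]
      simp only [smul_eq_mul]
      have h1 : a' * min (x - z0) (z1 - x) + b' * min (y - z0) (z1 - y)
          ≤ min (a' * x + b' * y - z0) (z1 - (a' * x + b' * y)) := by
        apply le_min
        · have e : a' * x + b' * y - z0 = a' * (x - z0) + b' * (y - z0) := by
            linear_combination z0 * hab'
          rw [e]
          exact add_le_add (mul_le_mul_of_nonneg_left (min_le_left _ _) ha)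
            (mul_le_mul_of_nonneg_left (min_le_left _ _) hb)
        · have e : z1 - (a' * x + b' * y) = a' * (z1 - x) + b' * (z1 - y) := by
            linear_combination (-z1) * hab'
          rw [e]
          exact add_le_add (mul_le_mul_of_nonneg_left (min_le_right _ _) ha)
            (mul_le_mul_of_nonneg_left (min_le_right _ _) hb)
      calc a' * (k * min (x - z0) (z1 - x)) + b' * (k * min (y - z0) (z1 - y))
          = k * (a' * min (x - z0) (z1 - x) + b' * min (y - z0) (z1 - y)) := by ring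
        _ ≤ k * min (a' * x + b' * y - z0) (z1 - (a' * x + b' * y)) :=
          mul_le_mul_of_nonneg_left h1 hk0
    have hslice : ∀ z, ENNReal.ofReal (M z) ≤ ∑ i, volume (sec (S i) z) := by
      intro z
      by_cases hz : z ∈ Icc z0 z1
      · have hW : WidthGE (slice K z) (M z) := by
          intro α β hαβ
          obtain ⟨hPc, hPconv, hPZ⟩ := hproj α β
          rw [hZ] at hPZ
          have h1 := sec_ge_of_area hPc hPconv h01 hPZ hz
          have h2 : A' ≤
              (volume ((fun x : ℝ × ℝ × ℝ => (α * x.1 + β * x.2.1, x.2.2)) '' K)).toReal := by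
            rw [hA']
            exact ENNReal.toReal_mono hPc.measure_lt_top.ne (hA α β hαβ)
          have hmin0 : 0 ≤ min (z - z0) (z1 - z) :=
            le_min (by linarith [hz.1]) (by linarith [hz.2])
          have h3 : M z ≤ (volume (sec
              ((fun x : ℝ × ℝ × ℝ => (α * x.1 + β * x.2.1, x.2.2)) '' K) z)).toReal := by
            rw [hMin z hz, hk]
            refine le_trans ?_ h1
            have e : 2 * A' / (z1 - z0) ^ 2 * min (z - z0) (z1 - z)
                = 2 * min (z - z0) (z1 - z) / (z1 - z0) ^ 2 * A' := by ring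
            rw [e]
            exact mul_le_mul_of_nonneg_left h2 (by positivity)
          have hne : (sec
              ((fun x : ℝ × ℝ × ℝ => (α * x.1 + β * x.2.1, x.2.2)) '' K) z).Nonempty :=
            sec_nonempty_of_mem (by rw [hPZ]; exact hz)
          obtain ⟨u, v, huv, hsec⟩ := exists_Icc_aux (isCompact_sec hPc z)
            (ordConnected_sec hPconv z).convex hne
          have hu : u ∈ sec
              ((fun x : ℝ × ℝ × ℝ => (α * x.1 + β * x.2.1, x.2.2)) '' K) z := by
            rw [hsec]; exact left_mem_Icc.mpr huv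
          have hv : v ∈ sec
              ((fun x : ℝ × ℝ × ℝ => (α * x.1 + β * x.2.1, x.2.2)) '' K) z := by
            rw [hsec]; exact right_mem_Icc.mpr huv
          rw [hsec, Real.volume_Icc, ENNReal.toReal_ofReal (by linarith)] at h3
          obtain ⟨x, hx, hxu⟩ := hu
          obtain ⟨y, hy, hyv⟩ := hv
          have hx1 : α * x.1 + β * x.2.1 = u := congrArg Prod.fst hxu
          have hx2 : x.2.2 = z := congrArg Prod.snd hxu
          have hy1 : α * y.1 + β * y.2.1 = v := congrArg Prod.fst hyv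
          have hy2 : y.2.2 = z := congrArg Prod.snd hyv
          refine ⟨(y.1, y.2.1), ?_, (x.1, x.2.1), ?_, ?_⟩
          · show (y.1, y.2.1, z) ∈ K
            rw [← hy2]; exact hy
          · show (x.1, x.2.1, z) ∈ K
            rw [← hx2]; exact hx
          · simp only
            linarith
        have hcovz : ∀ q ∈ slice K z, ∃ i, a i * q.1 + b i * q.2 ∈ sec (S i) z := by
          intro q hq
          exact hcov (q.1, q.2, z) hq
        exact planar_plank_measure (isCompact_slice hKc z) (convex_slice hK z) hW a b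
          (fun i => sec (S i) z) hab hcovz
      · have hMz : M z = 0 := by
          rw [hM]
          simp only
          have hneg : min (z - z0) (z1 - z) ≤ 0 := by
            by_contra hcon
            push Not at hcon
            exact hz ⟨by linarith [(lt_min_iff.mp hcon).1], by linarith [(lt_min_iff.mp hcon).2]⟩
          rw [max_eq_right hneg, mul_zero]
        rw [hMz, ENNReal.ofReal_zero]
        exact zero_le
    have hint : ∑ i, volume (S i) = ∫⁻ z, ∑ i, volume (sec (S i) z) := by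
      rw [lintegral_finsetSum _ (fun i _ => measurable_volume_sec (hS i))]
      apply Finset.sum_congr rfl
      intro i _
      exact volume_eq_lintegral_sec (hS i)
    rw [hint]
    refine le_trans ?_ (lintegral_mono hslice)
    refine le_trans (le_of_eq ?_) (lintegral_ge_mid h01.le hMm hM0 hMc)
    have hmid : (z0 + z1) / 2 ∈ Icc z0 z1 := ⟨by linarith, by linarith⟩
    rw [hMin _ hmid]
    have e1 : min ((z0 + z1) / 2 - z0) (z1 - (z0 + z1) / 2) = (z1 - z0) / 2 := by
      rw [min_eq_left (by linarith)]; ring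
    rw [e1, hk]
    have e2 : 2 * A' / (z1 - z0) ^ 2 * ((z1 - z0) / 2) * ((z1 - z0) / 2) = A' / 2 := by
      field_simp
    rw [e2, hA', ENNReal.ofReal_div_of_pos (by norm_num), ENNReal.ofReal_toReal hAfin]
    simp

end planar

section space

variable {E : Type*} [NormedAddCommGroup E] [InnerProductSpace ℝ E]

/-- **Bang's half-area inequality for coplanar axes.**  A compact convex set `K` in a
three-dimensional Euclidean space is covered by finitely many cylinders, the `i`-th being the set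
of all `x` with `(⟪v i, x⟫, ⟪w i, x⟫) ∈ B i` for an orthonormal pair `(v i, w i)`; every axis is
orthogonal to the fixed nonzero vector `n`.  Then the total base area is at least half of any
number `A` that is at most the area of the orthogonal projection of `K` along every direction
orthogonal to `n`. -/
theorem coplanar_abs [FiniteDimensional ℝ E] (hdim : Module.finrank ℝ E = 3)
    (K : Set E) (hK : Convex ℝ K) (hKc : IsCompact K)
    {ι : Type*} [Fintype ι] (v w : ι → E) (B : ι → Set (ℝ × ℝ))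
    (hv : ∀ i, ‖v i‖ = 1) (hw : ∀ i, ‖w i‖ = 1) (hvw : ∀ i, ⟪v i, w i⟫_ℝ = 0)
    (n : E) (hn : n ≠ 0)
    (hax : ∀ i, ∃ d : E, d ≠ 0 ∧ ⟪n, d⟫_ℝ = 0 ∧ ⟪v i, d⟫_ℝ = 0 ∧ ⟪w i, d⟫_ℝ = 0)
    (hcov : ∀ x ∈ K, ∃ i, (⟪v i, x⟫_ℝ, ⟪w i, x⟫_ℝ) ∈ B i)
    (A : ENNReal)
    (hA : ∀ p q d : E, ‖p‖ = 1 → ‖q‖ = 1 → ⟪p, q⟫_ℝ = 0 → d ≠ 0 → ⟪n, d⟫_ℝ = 0 →
      ⟪p, d⟫_ℝ = 0 → ⟪q, d⟫_ℝ = 0 →
      A ≤ volume ((fun x : E => (⟪p, x⟫_ℝ, ⟪q, x⟫_ℝ)) '' K)) :
    A / 2 ≤ ∑ i, volume (B i) := by
  obtain ⟨e₁, e₂, he₁, he₂, he₁₂, he₁n, he₂n⟩ := exists_frame_orth hdim hn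
  obtain ⟨m, hm⟩ : ∃ m : E, m = ‖n‖⁻¹ • n := ⟨_, rfl⟩
  have hnorm : ‖n‖ ≠ 0 := norm_ne_zero_iff.mpr hn
  have hmn : ‖m‖ = 1 := by
    rw [hm, norm_smul, norm_inv, norm_norm, inv_mul_cancel₀ hnorm]
  have hmm : ⟪m, m⟫_ℝ = 1 := by rw [real_inner_self_eq_norm_sq, hmn]; norm_num
  have h11 : ⟪e₁, e₁⟫_ℝ = 1 := by rw [real_inner_self_eq_norm_sq, he₁]; norm_num
  have h22 : ⟪e₂, e₂⟫_ℝ = 1 := by rw [real_inner_self_eq_norm_sq, he₂]; norm_num
  have h21 : ⟪e₂, e₁⟫_ℝ = 0 := by rw [real_inner_comm]; exact he₁₂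
  have h1m : ⟪e₁, m⟫_ℝ = 0 := by rw [hm, real_inner_smul_right, he₁n, mul_zero]
  have h2m : ⟪e₂, m⟫_ℝ = 0 := by rw [hm, real_inner_smul_right, he₂n, mul_zero]
  have hm1 : ⟪m, e₁⟫_ℝ = 0 := by rw [real_inner_comm]; exact h1m
  have hm2 : ⟪m, e₂⟫_ℝ = 0 := by rw [real_inner_comm]; exact h2m
  -- the linear coordinate map
  obtain ⟨Ψ, hΨ⟩ : ∃ Ψ : ℝ × ℝ × ℝ →ₗ[ℝ] E, ∀ y, Ψ y = y.1 • e₁ + y.2.1 • e₂ + y.2.2 • m :=
    ⟨{ toFun := fun y => y.1 • e₁ + y.2.1 • e₂ + y.2.2 • m
       map_add' := by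
         intro y y'
         simp only [Prod.fst_add, Prod.snd_add, add_smul]
         abel
       map_smul' := by
         intro c y
         simp only [Prod.smul_fst, Prod.smul_snd, smul_eq_mul, RingHom.id_apply, smul_add,
           mul_smul] },
     fun y => rfl⟩
  have hmΨ : ∀ y, ⟪m, Ψ y⟫_ℝ = y.2.2 := by
    intro y
    rw [hΨ, inner_add_right, inner_add_right, real_inner_smul_right, real_inner_smul_right,
      real_inner_smul_right, hm1, hm2, hmm]
    ring
  have h1Ψ : ∀ y, ⟪e₁, Ψ y⟫_ℝ = y.1 := by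
    intro y
    rw [hΨ, inner_add_right, inner_add_right, real_inner_smul_right, real_inner_smul_right,
      real_inner_smul_right, h11, he₁₂, h1m]
    ring
  have h2Ψ : ∀ y, ⟪e₂, Ψ y⟫_ℝ = y.2.1 := by
    intro y
    rw [hΨ, inner_add_right, inner_add_right, real_inner_smul_right, real_inner_smul_right,
      real_inner_smul_right, h21, h22, h2m]
    ring
  have hΨinj : Function.Injective Ψ := by
    rw [← LinearMap.ker_eq_bot, LinearMap.ker_eq_bot']
    intro y hy
    have h1 : y.1 = 0 := by rw [← h1Ψ y, hy, inner_zero_right]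
    have h2 : y.2.1 = 0 := by rw [← h2Ψ y, hy, inner_zero_right]
    have h3 : y.2.2 = 0 := by rw [← hmΨ y, hy, inner_zero_right]
    exact Prod.ext h1 (Prod.ext h2 h3)
  have hfr : Module.finrank ℝ (ℝ × ℝ × ℝ) = Module.finrank ℝ E := by
    rw [hdim]; simp
  have hΨsurj : Function.Surjective Ψ :=
    (LinearMap.injective_iff_surjective_of_finrank_eq_finrank hfr).mp hΨinj
  obtain ⟨Φ, hΦ⟩ : ∃ Φ : E → ℝ × ℝ × ℝ, ∀ x, Ψ (Φ x) = x :=
    ⟨fun x => (hΨsurj x).choose, fun x => (hΨsurj x).choose_spec⟩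
  have hΦΨ : ∀ y, Φ (Ψ y) = y := fun y => hΨinj (hΦ (Ψ y))
  have hΦc : Continuous Φ := by
    have h1 : Φ = ⇑(LinearEquiv.ofBijective Ψ ⟨hΨinj, hΨsurj⟩).symm := by
      funext x
      apply hΨinj
      rw [hΦ]
      exact ((LinearEquiv.ofBijective Ψ ⟨hΨinj, hΨsurj⟩).apply_symm_apply x).symm
    rw [h1]
    exact LinearMap.continuous_of_finiteDimensional
      ((LinearEquiv.ofBijective Ψ ⟨hΨinj, hΨsurj⟩).symm : E →ₗ[ℝ] ℝ × ℝ × ℝ)
  -- the body in coordinates
  obtain ⟨K', hK'⟩ : ∃ K' : Set (ℝ × ℝ × ℝ), K' = Ψ ⁻¹' K := ⟨_, rfl⟩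
  have hmem : ∀ y, y ∈ K' ↔ Ψ y ∈ K := by
    intro y; rw [hK']; rfl
  have hK'conv : Convex ℝ K' := by
    rw [hK']; exact hK.linear_preimage Ψ
  have hK'eq : K' = Φ '' K := by
    ext y
    rw [hmem]
    constructor
    · intro hy
      exact ⟨Ψ y, hy, hΦΨ y⟩
    · rintro ⟨x, hx, rfl⟩
      rw [hΦ]; exact hx
  have hK'c : IsCompact K' := by
    rw [hK'eq]; exact hKc.image hΦc
  -- the frames
  have hframe : ∀ i, ∃ a b p q r s : ℝ, a ^ 2 + b ^ 2 = 1 ∧ (p * s - q * r) ^ 2 = 1 ∧
      ∀ y : ℝ × ℝ × ℝ, (⟪v i, Ψ y⟫_ℝ, ⟪w i, Ψ y⟫_ℝ)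
        = lin2 p q r s (a * y.1 + b * y.2.1, y.2.2) := by
    intro i
    obtain ⟨d, hd0, hnd, hvd, hwd⟩ := hax i
    have hmd : ⟪m, d⟫_ℝ = 0 := by rw [hm, real_inner_smul_left, hnd, mul_zero]
    obtain ⟨V, hV, hVm, hVd⟩ := exists_unit_orth hdim m d
    obtain ⟨p, q, r, s, hdet, hx⟩ := frame_change hdim hd0 hV hmn hVm hVd hmd (hv i) (hw i)
      (hvw i) hvd hwd
    have hVΨ : ∀ y, ⟪V, Ψ y⟫_ℝ = ⟪V, e₁⟫_ℝ * y.1 + ⟪V, e₂⟫_ℝ * y.2.1 := by
      intro y
      rw [hΨ, inner_add_right, inner_add_right, real_inner_smul_right, real_inner_smul_right,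
        real_inner_smul_right, hVm]
      ring
    refine ⟨⟪V, e₁⟫_ℝ, ⟪V, e₂⟫_ℝ, p, q, r, s, ?_, hdet, ?_⟩
    · have h2 := hVΨ (Φ V)
      rw [hΦ] at h2
      have h3 : (Φ V).1 = ⟪V, e₁⟫_ℝ := by rw [← h1Ψ (Φ V), hΦ, real_inner_comm]
      have h4 : (Φ V).2.1 = ⟪V, e₂⟫_ℝ := by rw [← h2Ψ (Φ V), hΦ, real_inner_comm]
      rw [h3, h4, real_inner_self_eq_norm_sq, hV] at h2
      nlinarith
    · intro y
      rw [hx (Ψ y), hVΨ y, hmΨ y]
  choose a b p q r s hab hdet hfrm using hframe
  obtain ⟨S, hS⟩ : ∃ S : ι → Set (ℝ × ℝ),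
      S = fun i => lin2 (p i) (q i) (r i) (s i) ⁻¹' toMeasurable volume (B i) := ⟨_, rfl⟩
  have hSm : ∀ i, MeasurableSet (S i) := by
    intro i
    rw [hS]
    exact (measurableSet_toMeasurable volume (B i)).preimage (continuous_lin2 _ _ _ _).measurable
  have hSvol : ∀ i, volume (S i) = volume (B i) := by
    intro i
    rw [hS]
    show volume (lin2 (p i) (q i) (r i) (s i) ⁻¹' toMeasurable volume (B i)) = volume (B i)
    rw [volume_preimage_lin2 (hdet i), measure_toMeasurable]
  have hcov' : ∀ y ∈ K', ∃ i, (a i * y.1 + b i * y.2.1, y.2.2) ∈ S i := by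
    intro y hy
    rw [hmem] at hy
    obtain ⟨i, hi⟩ := hcov (Ψ y) hy
    refine ⟨i, ?_⟩
    rw [hS]
    show lin2 (p i) (q i) (r i) (s i) (a i * y.1 + b i * y.2.1, y.2.2) ∈ toMeasurable volume (B i)
    rw [← hfrm i y]
    exact subset_toMeasurable volume (B i) hi
  have hA' : ∀ α β : ℝ, α ^ 2 + β ^ 2 = 1 →
      A ≤ volume ((fun y : ℝ × ℝ × ℝ => (α * y.1 + β * y.2.1, y.2.2)) '' K') := by
    intro α β hαβ
    obtain ⟨P, hP⟩ : ∃ P : E, P = α • e₁ + β • e₂ := ⟨_, rfl⟩
    have hPn : ‖P‖ = 1 := by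
      have h1 : ⟪P, P⟫_ℝ = 1 := by
        rw [hP]
        simp only [inner_add_left, inner_add_right, real_inner_smul_left, real_inner_smul_right,
          h11, h22, he₁₂, h21]
        linear_combination hαβ
      rw [real_inner_self_eq_norm_sq] at h1
      have h2 := abs_eq_one_of_sq h1
      rwa [abs_of_nonneg (norm_nonneg P)] at h2
    have hPm : ⟪P, m⟫_ℝ = 0 := by
      rw [hP, inner_add_left, real_inner_smul_left, real_inner_smul_left, h1m, h2m]
      ring
    obtain ⟨d, hd⟩ : ∃ d : E, d = α • e₂ - β • e₁ := ⟨_, rfl⟩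
    have hn1 : ⟪n, e₁⟫_ℝ = 0 := by rw [real_inner_comm]; exact he₁n
    have hn2 : ⟪n, e₂⟫_ℝ = 0 := by rw [real_inner_comm]; exact he₂n
    have hdd : ⟪d, d⟫_ℝ = 1 := by
      rw [hd]
      simp only [inner_sub_left, inner_sub_right, real_inner_smul_left, real_inner_smul_right,
        h11, h22, he₁₂, h21]
      linear_combination hαβ
    have hd0 : d ≠ 0 := by
      intro h0
      rw [h0, inner_zero_left] at hdd
      norm_num at hdd
    have hnd : ⟪n, d⟫_ℝ = 0 := by
      rw [hd, inner_sub_right, real_inner_smul_right, real_inner_smul_right, hn1, hn2]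
      ring
    have hPd : ⟪P, d⟫_ℝ = 0 := by
      rw [hP, hd]
      simp only [inner_add_left, inner_sub_right, real_inner_smul_left, real_inner_smul_right,
        h11, h22, he₁₂, h21]
      ring
    have hmd : ⟪m, d⟫_ℝ = 0 := by
      rw [hd, inner_sub_right, real_inner_smul_right, real_inner_smul_right, hm1, hm2]
      ring
    have h := hA P m d hPn hmn hPm hd0 hnd hPd hmd
    have hPΨ : ∀ y, ⟪P, Ψ y⟫_ℝ = α * y.1 + β * y.2.1 := by
      intro y
      rw [hP, inner_add_left, real_inner_smul_left, real_inner_smul_left, h1Ψ, h2Ψ]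
    have himg : (fun x : E => (⟪P, x⟫_ℝ, ⟪m, x⟫_ℝ)) '' K
        = (fun y : ℝ × ℝ × ℝ => (α * y.1 + β * y.2.1, y.2.2)) '' K' := by
      ext z
      constructor
      · rintro ⟨x, hx, rfl⟩
        refine ⟨Φ x, ?_, ?_⟩
        · rw [hmem, hΦ]; exact hx
        · simp only
          rw [← hPΨ, ← hmΨ, hΦ]
      · rintro ⟨y, hy, rfl⟩
        rw [hmem] at hy
        refine ⟨Ψ y, hy, ?_⟩
        simp only
        rw [hPΨ, hmΨ]
    rw [himg] at h
    exact h
  have main := coplanar_core K' hK'conv hK'c a b hab S hSm hcov' A hA'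
  refine main.trans (le_of_eq ?_)
  apply Finset.sum_congr rfl
  intro i _
  exact hSvol i

end space

end Vale.Agent.Helper11
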