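import Vale.Agent.Helper11.CoplanarRel

/-!
# Cylinders with coplanar axes: centrally symmetric bodies and relative base areas

The statements in a three-dimensional Euclidean space, obtained from the coordinate forms by
choosing an orthonormal frame adapted to the plane of the axes.
-/

namespace Vale.Agent.Helper11

open Set MeasureTheory
open scoped InnerProductSpace

section space

variable {E : Type*} [NormedAddCommGroup E] [InnerProductSpace ℝ E]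

/-- Passage to coordinates adapted to the plane of the axes. -/
theorem coplanar_coords [FiniteDimensional ℝ E] (hdim : Module.finrank ℝ E = 3)
    (K : Set E) (hK : Convex ℝ K) (hKc : IsCompact K)
    {ι : Type*} [Fintype ι] (v w : ι → E) (B : ι → Set (ℝ × ℝ))
    (hv : ∀ i, ‖v i‖ = 1) (hw : ∀ i, ‖w i‖ = 1) (hvw : ∀ i, ⟪v i, w i⟫_ℝ = 0)
    (n : E) (hn : n ≠ 0)
    (hax : ∀ i, ∃ d : E, d ≠ 0 ∧ ⟪n, d⟫_ℝ = 0 ∧ ⟪v i, d⟫_ℝ = 0 ∧ ⟪w i, d⟫_ℝ = 0)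
    (hcov : ∀ x ∈ K, ∃ i, (⟪v i, x⟫_ℝ, ⟪w i, x⟫_ℝ) ∈ B i) :
    ∃ (K' : Set (ℝ × ℝ × ℝ)) (a b : ι → ℝ) (S : ι → Set (ℝ × ℝ)),
      Convex ℝ K' ∧ IsCompact K' ∧ (∀ i, a i ^ 2 + b i ^ 2 = 1) ∧ (∀ i, MeasurableSet (S i)) ∧
      (∀ i, volume (S i) = volume (B i)) ∧
      (∀ y ∈ K', ∃ i, prj (a i) (b i) y ∈ S i) ∧
      (∀ i, volume (prj (a i) (b i) '' K')
        = volume ((fun x : E => (⟪v i, x⟫_ℝ, ⟪w i, x⟫_ℝ)) '' K)) ∧
      ((interior K).Nonempty → (interior K').Nonempty) ∧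
      (∀ c : E, (∀ x ∈ K, (2 : ℝ) • c - x ∈ K) → ∃ c' : ℝ × ℝ × ℝ, ∀ y ∈ K',
        (2 * c'.1 - y.1, 2 * c'.2.1 - y.2.1, 2 * c'.2.2 - y.2.2) ∈ K') ∧
      (∀ A : ENNReal, (∀ p q d : E, ‖p‖ = 1 → ‖q‖ = 1 → ⟪p, q⟫_ℝ = 0 → d ≠ 0 →
          ⟪n, d⟫_ℝ = 0 → ⟪p, d⟫_ℝ = 0 → ⟪q, d⟫_ℝ = 0 →
          A ≤ volume ((fun x : E => (⟪p, x⟫_ℝ, ⟪q, x⟫_ℝ)) '' K)) →
        ∀ α β : ℝ, α ^ 2 + β ^ 2 = 1 → A ≤ volume (prj α β '' K')) ∧
      (∀ z : ℝ, (∃ c : E, ⟪n, c⟫_ℝ = ‖n‖ * z ∧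
          ∀ x ∈ K, ⟪n, x⟫_ℝ = ‖n‖ * z → (2 : ℝ) • c - x ∈ K) →
        ∃ c' : ℝ × ℝ, ∀ y ∈ K', y.2.2 = z → (2 * c'.1 - y.1, 2 * c'.2 - y.2.1, z) ∈ K') := by
  obtain ⟨e₁, e₂, he₁, he₂, he₁₂, he₁n, he₂n⟩ := exists_frame_orth hdim hn
  obtain ⟨m, hm⟩ : ∃ m : E, m = ‖n‖⁻¹ • n := ⟨_, rfl⟩
  have hnorm : ‖n‖ ≠ 0 := norm_ne_zero_iff.mpr hn
  have hmn : ‖m‖ = 1 := by
    rw [hm, norm_smul, norm_inv, norm_norm, inv_mul_cancel₀ hnorm]
  have hmm : ⟪m, m⟫_ℝ = 1 := by rw [real_inner_self_eq_norm_sq, hmn]; norm_num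
  have h11 : ⟪e₁, e₁⟫_ℝ = 1 := by rw [real_inner_self_eq_norm_sq, he₁]; norm_num
  have h22 : ⟪e₂, e₂⟫_ℝ = 1 := by rw [real_inner_self_eq_norm_sq, he₂]; norm_num
  have h21 : ⟪e₂, e₁⟫_ℝ = 0 := by rw [real_inner_comm]; exact he₁₂
  have h1m : ⟪e₁, m⟫_ℝ = 0 := by rw [hm, real_inner_smul_right, he₁n, mul_zero]
  have h2m : ⟪e₂, m⟫_ℝ = 0 := by rw [hm, real_inner_smul_right, he₂n, mul_zero]
  have hm1 : ⟪m, e₁⟫_ℝ = 0 := by rw [real_inner_comm]; exact h1m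
  have hm2 : ⟪m, e₂⟫_ℝ = 0 := by rw [real_inner_comm]; exact h2m
  -- the linear coordinate map
  obtain ⟨Ψ, hΨ⟩ : ∃ Ψ : ℝ × ℝ × ℝ →ₗ[ℝ] E, ∀ y, Ψ y = y.1 • e₁ + y.2.1 • e₂ + y.2.2 • m :=
    ⟨{ toFun := fun y => y.1 • e₁ + y.2.1 • e₂ + y.2.2 • m
       map_add' := by
         intro y y'
         simp only [Prod.fst_add, Prod.snd_add, add_smul]
         abel
       map_smul' := by
         intro c y
         simp only [Prod.smul_fst, Prod.smul_snd, smul_eq_mul, RingHom.id_apply, smul_add,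
           mul_smul] },
     fun y => rfl⟩
  have hmΨ : ∀ y, ⟪m, Ψ y⟫_ℝ = y.2.2 := by
    intro y
    rw [hΨ, inner_add_right, inner_add_right, real_inner_smul_right, real_inner_smul_right,
      real_inner_smul_right, hm1, hm2, hmm]
    ring
  have h1Ψ : ∀ y, ⟪e₁, Ψ y⟫_ℝ = y.1 := by
    intro y
    rw [hΨ, inner_add_right, inner_add_right, real_inner_smul_right, real_inner_smul_right,
      real_inner_smul_right, h11, he₁₂, h1m]
    ring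
  have h2Ψ : ∀ y, ⟪e₂, Ψ y⟫_ℝ = y.2.1 := by
    intro y
    rw [hΨ, inner_add_right, inner_add_right, real_inner_smul_right, real_inner_smul_right,
      real_inner_smul_right, h21, h22, h2m]
    ring
  have hΨinj : Function.Injective Ψ := by
    rw [← LinearMap.ker_eq_bot, LinearMap.ker_eq_bot']
    intro y hy
    have h1 : y.1 = 0 := by rw [← h1Ψ y, hy, inner_zero_right]
    have h2 : y.2.1 = 0 := by rw [← h2Ψ y, hy, inner_zero_right]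
    have h3 : y.2.2 = 0 := by rw [← hmΨ y, hy, inner_zero_right]
    exact Prod.ext h1 (Prod.ext h2 h3)
  have hfr : Module.finrank ℝ (ℝ × ℝ × ℝ) = Module.finrank ℝ E := by
    rw [hdim]; simp
  have hΨsurj : Function.Surjective Ψ :=
    (LinearMap.injective_iff_surjective_of_finrank_eq_finrank hfr).mp hΨinj
  obtain ⟨Φ, hΦ⟩ : ∃ Φ : E → ℝ × ℝ × ℝ, ∀ x, Ψ (Φ x) = x :=
    ⟨fun x => (hΨsurj x).choose, fun x => (hΨsurj x).choose_spec⟩
  have hΦΨ : ∀ y, Φ (Ψ y) = y := fun y => hΨinj (hΦ (Ψ y))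
  have hΦc : Continuous Φ := by
    have h1 : Φ = ⇑(LinearEquiv.ofBijective Ψ ⟨hΨinj, hΨsurj⟩).symm := by
      funext x
      apply hΨinj
      rw [hΦ]
      exact ((LinearEquiv.ofBijective Ψ ⟨hΨinj, hΨsurj⟩).apply_symm_apply x).symm
    rw [h1]
    exact LinearMap.continuous_of_finiteDimensional
      ((LinearEquiv.ofBijective Ψ ⟨hΨinj, hΨsurj⟩).symm : E →ₗ[ℝ] ℝ × ℝ × ℝ)
  -- the body in coordinates
  obtain ⟨K', hK'⟩ : ∃ K' : Set (ℝ × ℝ × ℝ), K' = Ψ ⁻¹' K := ⟨_, rfl⟩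
  have hmem : ∀ y, y ∈ K' ↔ Ψ y ∈ K := by
    intro y; rw [hK']; rfl
  have hK'conv : Convex ℝ K' := by
    rw [hK']; exact hK.linear_preimage Ψ
  have hK'eq : K' = Φ '' K := by
    ext y
    rw [hmem]
    constructor
    · intro hy
      exact ⟨Ψ y, hy, hΦΨ y⟩
    · rintro ⟨x, hx, rfl⟩
      rw [hΦ]; exact hx
  have hK'c : IsCompact K' := by
    rw [hK'eq]; exact hKc.image hΦc
  -- the frames
  have hframe : ∀ i, ∃ a b p q r s : ℝ, a ^ 2 + b ^ 2 = 1 ∧ (p * s - q * r) ^ 2 = 1 ∧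
      ∀ y : ℝ × ℝ × ℝ, (⟪v i, Ψ y⟫_ℝ, ⟪w i, Ψ y⟫_ℝ)
        = lin2 p q r s (a * y.1 + b * y.2.1, y.2.2) := by
    intro i
    obtain ⟨d, hd0, hnd, hvd, hwd⟩ := hax i
    have hmd : ⟪m, d⟫_ℝ = 0 := by rw [hm, real_inner_smul_left, hnd, mul_zero]
    obtain ⟨V, hV, hVm, hVd⟩ := exists_unit_orth hdim m d
    obtain ⟨p, q, r, s, hdet, hx⟩ := frame_change hdim hd0 hV hmn hVm hVd hmd (hv i) (hw i)
      (hvw i) hvd hwd
    have hVΨ : ∀ y, ⟪V, Ψ y⟫_ℝ = ⟪V, e₁⟫_ℝ * y.1 + ⟪V, e₂⟫_ℝ * y.2.1 := by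
      intro y
      rw [hΨ, inner_add_right, inner_add_right, real_inner_smul_right, real_inner_smul_right,
        real_inner_smul_right, hVm]
      ring
    refine ⟨⟪V, e₁⟫_ℝ, ⟪V, e₂⟫_ℝ, p, q, r, s, ?_, hdet, ?_⟩
    · have h2 := hVΨ (Φ V)
      rw [hΦ] at h2
      have h3 : (Φ V).1 = ⟪V, e₁⟫_ℝ := by rw [← h1Ψ (Φ V), hΦ, real_inner_comm]
      have h4 : (Φ V).2.1 = ⟪V, e₂⟫_ℝ := by rw [← h2Ψ (Φ V), hΦ, real_inner_comm]
      rw [h3, h4, real_inner_self_eq_norm_sq, hV] at h2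
      nlinarith
    · intro y
      rw [hx (Ψ y), hVΨ y, hmΨ y]
  choose a b p q r s hab hdet hfrm using hframe
  obtain ⟨S, hS⟩ : ∃ S : ι → Set (ℝ × ℝ),
      S = fun i => lin2 (p i) (q i) (r i) (s i) ⁻¹' toMeasurable volume (B i) := ⟨_, rfl⟩
  have hSm : ∀ i, MeasurableSet (S i) := by
    intro i
    rw [hS]
    exact (measurableSet_toMeasurable volume (B i)).preimage (continuous_lin2 _ _ _ _).measurable
  have hSvol : ∀ i, volume (S i) = volume (B i) := by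
    intro i
    rw [hS]
    show volume (lin2 (p i) (q i) (r i) (s i) ⁻¹' toMeasurable volume (B i)) = volume (B i)
    rw [volume_preimage_lin2 (hdet i), measure_toMeasurable]
  have hcov' : ∀ y ∈ K', ∃ i, (a i * y.1 + b i * y.2.1, y.2.2) ∈ S i := by
    intro y hy
    rw [hmem] at hy
    obtain ⟨i, hi⟩ := hcov (Ψ y) hy
    refine ⟨i, ?_⟩
    rw [hS]
    show lin2 (p i) (q i) (r i) (s i) (a i * y.1 + b i * y.2.1, y.2.2) ∈ toMeasurable volume (B i)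
    rw [← hfrm i y]
    exact subset_toMeasurable volume (B i) hi
  have hA' : ∀ A : ENNReal, (∀ p q d : E, ‖p‖ = 1 → ‖q‖ = 1 → ⟪p, q⟫_ℝ = 0 → d ≠ 0 →
      ⟪n, d⟫_ℝ = 0 → ⟪p, d⟫_ℝ = 0 → ⟪q, d⟫_ℝ = 0 →
      A ≤ volume ((fun x : E => (⟪p, x⟫_ℝ, ⟪q, x⟫_ℝ)) '' K)) →
      ∀ α β : ℝ, α ^ 2 + β ^ 2 = 1 →
      A ≤ volume ((fun y : ℝ × ℝ × ℝ => (α * y.1 + β * y.2.1, y.2.2)) '' K') := by
    intro A hA α β hαβ
    obtain ⟨P, hP⟩ : ∃ P : E, P = α • e₁ + β • e₂ := ⟨_, rfl⟩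
    have hPn : ‖P‖ = 1 := by
      have h1 : ⟪P, P⟫_ℝ = 1 := by
        rw [hP]
        simp only [inner_add_left, inner_add_right, real_inner_smul_left, real_inner_smul_right,
          h11, h22, he₁₂, h21]
        linear_combination hαβ
      rw [real_inner_self_eq_norm_sq] at h1
      have h2 := abs_eq_one_of_sq h1
      rwa [abs_of_nonneg (norm_nonneg P)] at h2
    have hPm : ⟪P, m⟫_ℝ = 0 := by
      rw [hP, inner_add_left, real_inner_smul_left, real_inner_smul_left, h1m, h2m]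
      ring
    obtain ⟨d, hd⟩ : ∃ d : E, d = α • e₂ - β • e₁ := ⟨_, rfl⟩
    have hn1 : ⟪n, e₁⟫_ℝ = 0 := by rw [real_inner_comm]; exact he₁n
    have hn2 : ⟪n, e₂⟫_ℝ = 0 := by rw [real_inner_comm]; exact he₂n
    have hdd : ⟪d, d⟫_ℝ = 1 := by
      rw [hd]
      simp only [inner_sub_left, inner_sub_right, real_inner_smul_left, real_inner_smul_right,
        h11, h22, he₁₂, h21]
      linear_combination hαβ
    have hd0 : d ≠ 0 := by
      intro h0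
      rw [h0, inner_zero_left] at hdd
      norm_num at hdd
    have hnd : ⟪n, d⟫_ℝ = 0 := by
      rw [hd, inner_sub_right, real_inner_smul_right, real_inner_smul_right, hn1, hn2]
      ring
    have hPd : ⟪P, d⟫_ℝ = 0 := by
      rw [hP, hd]
      simp only [inner_add_left, inner_sub_right, real_inner_smul_left, real_inner_smul_right,
        h11, h22, he₁₂, h21]
      ring
    have hmd : ⟪m, d⟫_ℝ = 0 := by
      rw [hd, inner_sub_right, real_inner_smul_right, real_inner_smul_right, hm1, hm2]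
      ring
    have h := hA P m d hPn hmn hPm hd0 hnd hPd hmd
    have hPΨ : ∀ y, ⟪P, Ψ y⟫_ℝ = α * y.1 + β * y.2.1 := by
      intro y
      rw [hP, inner_add_left, real_inner_smul_left, real_inner_smul_left, h1Ψ, h2Ψ]
    have himg : (fun x : E => (⟪P, x⟫_ℝ, ⟪m, x⟫_ℝ)) '' K
        = (fun y : ℝ × ℝ × ℝ => (α * y.1 + β * y.2.1, y.2.2)) '' K' := by
      ext z
      constructor
      · rintro ⟨x, hx, rfl⟩
        refine ⟨Φ x, ?_, ?_⟩
        · rw [hmem, hΦ]; exact hx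
        · simp only
          rw [← hPΨ, ← hmΨ, hΦ]
      · rintro ⟨y, hy, rfl⟩
        rw [hmem] at hy
        refine ⟨Ψ y, hy, ?_⟩
        simp only
        rw [hPΨ, hmΨ]
    rw [himg] at h
    exact h
  have hΨc : Continuous Ψ := LinearMap.continuous_of_finiteDimensional Ψ
  refine ⟨K', a, b, S, hK'conv, hK'c, hab, hSm, hSvol, hcov', ?_, ?_, ?_, hA', ?_⟩
  · intro i
    have himg : (fun x : E => (⟪v i, x⟫_ℝ, ⟪w i, x⟫_ℝ)) '' K
        = lin2 (p i) (q i) (r i) (s i) '' (prj (a i) (b i) '' K') := by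
      ext z
      constructor
      · rintro ⟨x, hx, rfl⟩
        refine ⟨prj (a i) (b i) (Φ x), ⟨Φ x, ?_, rfl⟩, ?_⟩
        · rw [hmem, hΦ]; exact hx
        · have h := hfrm i (Φ x)
          rw [hΦ] at h
          exact h.symm
      · rintro ⟨_, ⟨y, hy, rfl⟩, rfl⟩
        rw [hmem] at hy
        exact ⟨Ψ y, hy, hfrm i y⟩
    rw [himg, volume_image_lin2 (hdet i)]
  · rintro ⟨x, hx⟩
    refine ⟨Φ x, ?_⟩
    have h1 : Φ x ∈ Ψ ⁻¹' interior K := by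
      show Ψ (Φ x) ∈ interior K
      rw [hΦ]; exact hx
    have h2 := preimage_interior_subset_interior_preimage hΨc h1
    rw [hK']
    exact h2
  · intro c hc
    refine ⟨Φ c, ?_⟩
    intro y hy
    rw [hmem] at hy ⊢
    have e : Ψ (2 * (Φ c).1 - y.1, 2 * (Φ c).2.1 - y.2.1, 2 * (Φ c).2.2 - y.2.2)
        = (2 : ℝ) • Ψ (Φ c) - Ψ y := by
      simp only [hΨ]
      module
    rw [e, hΦ]
    exact hc (Ψ y) hy
  · intro z hz
    obtain ⟨c, hcn, hc⟩ := hz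
    have hnm : ‖n‖ • m = n := by rw [hm, smul_smul, mul_inv_cancel₀ hnorm, one_smul]
    have hnΨ : ∀ y, ⟪n, Ψ y⟫_ℝ = ‖n‖ * y.2.2 := by
      intro y
      have h1 : ⟪‖n‖ • m, Ψ y⟫_ℝ = ‖n‖ * y.2.2 := by rw [real_inner_smul_left, hmΨ]
      rw [hnm] at h1
      exact h1
    have hcz : (Φ c).2.2 = z := by
      have h1 := hnΨ (Φ c)
      rw [hΦ, hcn] at h1
      exact (mul_left_cancel₀ hnorm h1).symm
    refine ⟨((Φ c).1, (Φ c).2.1), ?_⟩
    intro y hy hyz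
    rw [hmem] at hy ⊢
    have e : Ψ (2 * (Φ c).1 - y.1, 2 * (Φ c).2.1 - y.2.1, z)
        = (2 : ℝ) • Ψ (Φ c) - Ψ y := by
      simp only [hΨ]
      rw [hcz, hyz]
      module
    rw [e, hΦ]
    exact hc (Ψ y) hy (by rw [hnΨ, hyz])

/-- **Centrally symmetric bodies, coplanar axes.**  A compact convex set `K` in a
three-dimensional Euclidean space which is symmetric about the point `c` is covered by finitely
many cylinders, the `i`-th being the set of all `x` with `(⟪v i, x⟫, ⟪w i, x⟫) ∈ B i` for an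
orthonormal pair `(v i, w i)`; every axis is orthogonal to the fixed nonzero vector `n`.  Then
the total base area is at least three quarters of any number `A` that is at most the area of
the orthogonal projection of `K` along every direction orthogonal to `n`. -/
theorem coplanar_sym_abs [FiniteDimensional ℝ E] (hdim : Module.finrank ℝ E = 3)
    (K : Set E) (hK : Convex ℝ K) (hKc : IsCompact K)
    (c : E) (hsym : ∀ x ∈ K, (2 : ℝ) • c - x ∈ K)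
    {ι : Type*} [Fintype ι] (v w : ι → E) (B : ι → Set (ℝ × ℝ))
    (hv : ∀ i, ‖v i‖ = 1) (hw : ∀ i, ‖w i‖ = 1) (hvw : ∀ i, ⟪v i, w i⟫_ℝ = 0)
    (n : E) (hn : n ≠ 0)
    (hax : ∀ i, ∃ d : E, d ≠ 0 ∧ ⟪n, d⟫_ℝ = 0 ∧ ⟪v i, d⟫_ℝ = 0 ∧ ⟪w i, d⟫_ℝ = 0)
    (hcov : ∀ x ∈ K, ∃ i, (⟪v i, x⟫_ℝ, ⟪w i, x⟫_ℝ) ∈ B i)
    (A : ENNReal)
    (hA : ∀ p q d : E, ‖p‖ = 1 → ‖q‖ = 1 → ⟪p, q⟫_ℝ = 0 → d ≠ 0 → ⟪n, d⟫_ℝ = 0 →
      ⟪p, d⟫_ℝ = 0 → ⟪q, d⟫_ℝ = 0 →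
      A ≤ volume ((fun x : E => (⟪p, x⟫_ℝ, ⟪q, x⟫_ℝ)) '' K)) :
    3 * A ≤ 4 * ∑ i, volume (B i) := by
  obtain ⟨K', a, b, S, hK'conv, hK'c, hab, hSm, hSvol, hcov', -, -, hsym', hA', -⟩ :=
    coplanar_coords hdim K hK hKc v w B hv hw hvw n hn hax hcov
  obtain ⟨c', hc'⟩ := hsym' c hsym
  have main := coplanar_core_sym K' hK'conv hK'c c' hc' a b hab S hSm hcov' A (hA' A hA)
  rw [Finset.sum_congr rfl (fun i _ => hSvol i)] at main
  exact main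

/-- **Relative base areas, coplanar axes.**  A convex body `K` in a three-dimensional Euclidean
space is covered by finitely many cylinders, the `i`-th being the set of all `x` with
`(⟪v i, x⟫, ⟪w i, x⟫) ∈ B i` for an orthonormal pair `(v i, w i)`; every axis is orthogonal to
the fixed nonzero vector `n`.  Then the sum of the base areas, each divided by the area of the
orthogonal projection of `K` along the axis of its cylinder, is at least `√2 / 4`, and at least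
`3 √2 / 8` if `K` is centrally symmetric. -/
theorem coplanar_rel [FiniteDimensional ℝ E] (hdim : Module.finrank ℝ E = 3)
    (K : Set E) (hK : Convex ℝ K) (hKc : IsCompact K) (hKi : (interior K).Nonempty)
    {ι : Type*} [Fintype ι] (v w : ι → E) (B : ι → Set (ℝ × ℝ))
    (hv : ∀ i, ‖v i‖ = 1) (hw : ∀ i, ‖w i‖ = 1) (hvw : ∀ i, ⟪v i, w i⟫_ℝ = 0)
    (n : E) (hn : n ≠ 0)
    (hax : ∀ i, ∃ d : E, d ≠ 0 ∧ ⟪n, d⟫_ℝ = 0 ∧ ⟪v i, d⟫_ℝ = 0 ∧ ⟪w i, d⟫_ℝ = 0)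
    (hcov : ∀ x ∈ K, ∃ i, (⟪v i, x⟫_ℝ, ⟪w i, x⟫_ℝ) ∈ B i) :
    ENNReal.ofReal (Real.sqrt 2 / 4)
        ≤ ∑ i, volume (B i) / volume ((fun x : E => (⟪v i, x⟫_ℝ, ⟪w i, x⟫_ℝ)) '' K) ∧
    ((∃ c : E, ∀ x ∈ K, (2 : ℝ) • c - x ∈ K) →
      ENNReal.ofReal (3 * Real.sqrt 2 / 8)
        ≤ ∑ i, volume (B i) / volume ((fun x : E => (⟪v i, x⟫_ℝ, ⟪w i, x⟫_ℝ)) '' K)) := by
  obtain ⟨K', a, b, S, hK'conv, hK'c, hab, hSm, hSvol, hcov', hPvol, hint, hsym', -, -⟩ :=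
    coplanar_coords hdim K hK hKc v w B hv hw hvw n hn hax hcov
  have hab' : ∀ i, a i ≠ 0 ∨ b i ≠ 0 := by
    intro i
    by_contra h
    push Not at h
    have h1 := hab i
    rw [h.1, h.2] at h1
    norm_num at h1
  have main := coplanar_rel_core K' hK'conv hK'c (hint hKi) a b hab' S hSm hcov'
  have hsum : ∑ i, volume (S i) / volume (prj (a i) (b i) '' K')
      = ∑ i, volume (B i) / volume ((fun x : E => (⟪v i, x⟫_ℝ, ⟪w i, x⟫_ℝ)) '' K) :=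
    Finset.sum_congr rfl (fun i _ => by rw [hSvol i, hPvol i])
  rw [hsum] at main
  refine ⟨main.1, ?_⟩
  rintro ⟨c, hc⟩
  exact main.2 (hsym' c hc)

end space

end Vale.Agent.Helper11
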