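import Mathlib

/-!
# John's theorem in the plane

A function `a` of two real variables that is positively homogeneous of degree one, even,
subadditive and positive away from the origin (a norm on the plane) lies between the square root
of a positive definite quadratic form and `√2` times it.  The form is a maximiser of the
determinant among the forms below `a ^ 2`.
-/

namespace Vale.Agent.Helper11

open Set

section john

variable {a : ℝ → ℝ → ℝ}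

theorem john_zero (hhom : ∀ c α β : ℝ, a (c * α) (c * β) = |c| * a α β) : a 0 0 = 0 := by
  have h := hhom 0 0 0
  simpa using h

theorem john_even (hhom : ∀ c α β : ℝ, a (c * α) (c * β) = |c| * a α β) (α β : ℝ) :
    a (-α) (-β) = a α β := by
  have h := hhom (-1) α β
  simpa using h

theorem john_nonneg (hhom : ∀ c α β : ℝ, a (c * α) (c * β) = |c| * a α β)
    (hpos : ∀ α β : ℝ, (α ≠ 0 ∨ β ≠ 0) → 0 < a α β) (α β : ℝ) : 0 ≤ a α β := by
  by_cases h : α ≠ 0 ∨ β ≠ 0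
  · exact (hpos α β h).le
  · push Not at h
    rw [h.1, h.2, john_zero hhom]

theorem john_le_axes (hhom : ∀ c α β : ℝ, a (c * α) (c * β) = |c| * a α β)
    (hsub : ∀ α β α' β' : ℝ, a (α + α') (β + β') ≤ a α β + a α' β') (α β : ℝ) :
    a α β ≤ |α| * a 1 0 + |β| * a 0 1 := by
  have h1 := hsub α 0 0 β
  have h2 := hhom α 1 0
  have h3 := hhom β 0 1
  simp only [mul_one, mul_zero, add_zero, zero_add] at h1 h2 h3
  rw [h2, h3] at h1
  exact h1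

theorem john_continuous (hhom : ∀ c α β : ℝ, a (c * α) (c * β) = |c| * a α β)
    (hsub : ∀ α β α' β' : ℝ, a (α + α') (β + β') ≤ a α β + a α' β')
    (hpos : ∀ α β : ℝ, (α ≠ 0 ∨ β ≠ 0) → 0 < a α β) :
    Continuous (fun p : ℝ × ℝ => a p.1 p.2) := by
  have h10 : 0 ≤ a 1 0 := john_nonneg hhom hpos 1 0
  have h01 : 0 ≤ a 0 1 := john_nonneg hhom hpos 0 1
  have hdiff : ∀ p p' : ℝ × ℝ, a p.1 p.2 - a p'.1 p'.2
      ≤ (a 1 0 + a 0 1) * dist p p' := by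
    intro p p'
    have h1 := hsub p'.1 p'.2 (p.1 - p'.1) (p.2 - p'.2)
    have e1 : p'.1 + (p.1 - p'.1) = p.1 := by ring
    have e2 : p'.2 + (p.2 - p'.2) = p.2 := by ring
    rw [e1, e2] at h1
    have h2 := john_le_axes hhom hsub (p.1 - p'.1) (p.2 - p'.2)
    have h3 : |p.1 - p'.1| ≤ dist p p' := by
      rw [Prod.dist_eq, Real.dist_eq]; exact le_max_left _ _
    have h4 : |p.2 - p'.2| ≤ dist p p' := by
      rw [Prod.dist_eq, Real.dist_eq (p.2)]; exact le_max_right _ _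
    have h5 : |p.1 - p'.1| * a 1 0 ≤ dist p p' * a 1 0 := mul_le_mul_of_nonneg_right h3 h10
    have h6 : |p.2 - p'.2| * a 0 1 ≤ dist p p' * a 0 1 := mul_le_mul_of_nonneg_right h4 h01
    nlinarith
  have hLip : LipschitzWith ⟨a 1 0 + a 0 1, by linarith⟩ (fun p : ℝ × ℝ => a p.1 p.2) := by
    apply LipschitzWith.of_dist_le_mul
    intro p p'
    rw [Real.dist_eq, abs_le]
    have h1 := hdiff p p'
    have h2 := hdiff p' p
    rw [dist_comm p' p] at h2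
    constructor
    · show -((a 1 0 + a 0 1) * dist p p') ≤ a p.1 p.2 - a p'.1 p'.2
      linarith
    · exact h1
  exact hLip.continuous

theorem john_min (hhom : ∀ c α β : ℝ, a (c * α) (c * β) = |c| * a α β)
    (hsub : ∀ α β α' β' : ℝ, a (α + α') (β + β') ≤ a α β + a α' β')
    (hpos : ∀ α β : ℝ, (α ≠ 0 ∨ β ≠ 0) → 0 < a α β) :
    ∃ m : ℝ, 0 < m ∧ ∀ α β : ℝ, m ^ 2 * (α ^ 2 + β ^ 2) ≤ a α β ^ 2 := by
  have hcont := john_continuous hhom hsub hpos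
  obtain ⟨U, hU⟩ : ∃ U : Set (ℝ × ℝ), U = {p | p.1 ^ 2 + p.2 ^ 2 = 1} := ⟨_, rfl⟩
  have hUc : IsCompact U := by
    apply (isCompact_closedBall (0 : ℝ × ℝ) 1).of_isClosed_subset
    · rw [hU]
      exact isClosed_eq (by fun_prop) continuous_const
    · intro p hp
      rw [hU] at hp
      have hp' : p.1 ^ 2 + p.2 ^ 2 = 1 := hp
      rw [mem_closedBall_zero_iff, Prod.norm_def, Real.norm_eq_abs, Real.norm_eq_abs]
      apply max_le
      · apply abs_le_of_sq_le_sq _ zero_le_one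
        nlinarith [sq_nonneg p.2]
      · apply abs_le_of_sq_le_sq _ zero_le_one
        nlinarith [sq_nonneg p.1]
  have hUne : U.Nonempty := ⟨((1 : ℝ), (0 : ℝ)), by rw [hU]; simp⟩
  obtain ⟨p₀, hp₀U, hp₀⟩ := hUc.exists_isMinOn hUne hcont.continuousOn
  obtain ⟨m, hm⟩ : ∃ m : ℝ, m = a p₀.1 p₀.2 := ⟨_, rfl⟩
  have hm0 : 0 < m := by
    rw [hm]
    apply hpos
    rw [hU] at hp₀U
    have hp' : p₀.1 ^ 2 + p₀.2 ^ 2 = 1 := hp₀U
    by_contra hcon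
    push Not at hcon
    rw [hcon.1, hcon.2] at hp'
    norm_num at hp'
  refine ⟨m, hm0, ?_⟩
  intro α β
  by_cases h0 : α ^ 2 + β ^ 2 = 0
  · rw [h0, mul_zero]
    exact sq_nonneg _
  · have hr2 : 0 < α ^ 2 + β ^ 2 := lt_of_le_of_ne (by positivity) (Ne.symm h0)
    obtain ⟨r, hr⟩ : ∃ r : ℝ, r = Real.sqrt (α ^ 2 + β ^ 2) := ⟨_, rfl⟩
    have hr0 : 0 < r := by rw [hr]; exact Real.sqrt_pos.mpr hr2
    have hrsq : r ^ 2 = α ^ 2 + β ^ 2 := by rw [hr]; exact Real.sq_sqrt hr2.le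
    have hmem : ((α / r, β / r) : ℝ × ℝ) ∈ U := by
      rw [hU]
      show (α / r) ^ 2 + (β / r) ^ 2 = 1
      rw [div_pow, div_pow, ← add_div, hrsq]
      exact div_self hr2.ne'
    have h1 : m ≤ a (α / r) (β / r) := by
      rw [hm]
      exact hp₀ hmem
    have h2 := hhom r (α / r) (β / r)
    have e1 : r * (α / r) = α := by field_simp
    have e2 : r * (β / r) = β := by field_simp
    rw [e1, e2, abs_of_pos hr0] at h2
    rw [h2, mul_pow, hrsq]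
    have h3 : m ^ 2 ≤ a (α / r) (β / r) ^ 2 := pow_le_pow_left₀ hm0.le h1 2
    nlinarith

theorem john_max (hhom : ∀ c α β : ℝ, a (c * α) (c * β) = |c| * a α β)
    (hpos : ∀ α β : ℝ, (α ≠ 0 ∨ β ≠ 0) → 0 < a α β) :
    ∃ A C D : ℝ, 0 ≤ A ∧ 0 ≤ D ∧
      (∀ α β : ℝ, A * α ^ 2 + 2 * C * α * β + D * β ^ 2 ≤ a α β ^ 2) ∧
      ∀ A' C' D' : ℝ, 0 ≤ A' → 0 ≤ D' → 0 ≤ A' * D' - C' ^ 2 →
        (∀ α β : ℝ, A' * α ^ 2 + 2 * C' * α * β + D' * β ^ 2 ≤ a α β ^ 2) →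
        A' * D' - C' ^ 2 ≤ A * D - C ^ 2 := by
  have hnn := john_nonneg hhom hpos
  obtain ⟨𝔽, h𝔽⟩ : ∃ 𝔽 : Set (ℝ × ℝ × ℝ), 𝔽 = {t | 0 ≤ t.1 ∧ 0 ≤ t.2.2 ∧
      0 ≤ t.1 * t.2.2 - t.2.1 ^ 2 ∧
      ∀ α β : ℝ, t.1 * α ^ 2 + 2 * t.2.1 * α * β + t.2.2 * β ^ 2 ≤ a α β ^ 2} := ⟨_, rfl⟩
  have h𝔽closed : IsClosed 𝔽 := by
    have e : 𝔽 = {t : ℝ × ℝ × ℝ | 0 ≤ t.1} ∩ {t : ℝ × ℝ × ℝ | 0 ≤ t.2.2}
        ∩ {t : ℝ × ℝ × ℝ | 0 ≤ t.1 * t.2.2 - t.2.1 ^ 2}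
        ∩ ⋂ α : ℝ, ⋂ β : ℝ, {t : ℝ × ℝ × ℝ |
            t.1 * α ^ 2 + 2 * t.2.1 * α * β + t.2.2 * β ^ 2 ≤ a α β ^ 2} := by
      rw [h𝔽]
      ext t
      simp only [mem_ofPred_eq, mem_inter_iff, mem_iInter]
      tauto
    rw [e]
    refine ((((isClosed_le continuous_const (by fun_prop)).inter
      (isClosed_le continuous_const (by fun_prop))).inter
      (isClosed_le continuous_const (by fun_prop))).inter ?_)
    exact isClosed_iInter fun α => isClosed_iInter fun β =>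
      isClosed_le (by fun_prop) continuous_const
  have h10 : 0 ≤ a 1 0 := hnn 1 0
  have h01 : 0 ≤ a 0 1 := hnn 0 1
  have h𝔽c : IsCompact 𝔽 := by
    apply (isCompact_closedBall (0 : ℝ × ℝ × ℝ)
      (a 1 0 ^ 2 + a 0 1 ^ 2 + a 1 0 * a 0 1)).of_isClosed_subset h𝔽closed
    intro t ht
    rw [h𝔽] at ht
    obtain ⟨ht1, ht3, htd, htq⟩ := ht
    have hA : t.1 ≤ a 1 0 ^ 2 := by
      have := htq 1 0
      linarith
    have hD : t.2.2 ≤ a 0 1 ^ 2 := by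
      have := htq 0 1
      linarith
    have hprod : 0 ≤ a 1 0 * a 0 1 := mul_nonneg h10 h01
    have hC : |t.2.1| ≤ a 1 0 * a 0 1 := by
      apply abs_le_of_sq_le_sq _ hprod
      have h1 : t.1 * t.2.2 ≤ a 1 0 ^ 2 * a 0 1 ^ 2 :=
        mul_le_mul hA hD ht3 (sq_nonneg _)
      nlinarith
    rw [mem_closedBall_zero_iff, Prod.norm_def, Prod.norm_def, Real.norm_eq_abs,
      Real.norm_eq_abs, Real.norm_eq_abs, abs_of_nonneg ht1, abs_of_nonneg ht3]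
    apply max_le
    · nlinarith [sq_nonneg (a 0 1)]
    · apply max_le
      · nlinarith [sq_nonneg (a 0 1), sq_nonneg (a 1 0)]
      · nlinarith [sq_nonneg (a 1 0)]
  have h𝔽ne : 𝔽.Nonempty := by
    refine ⟨((0 : ℝ), (0 : ℝ), (0 : ℝ)), ?_⟩
    rw [h𝔽]
    refine ⟨le_refl _, le_refl _, by norm_num, ?_⟩
    intro α β
    have := sq_nonneg (a α β)
    simp only [zero_mul, mul_zero, add_zero]
    exact this
  obtain ⟨t, ht𝔽, htmax⟩ := h𝔽c.exists_isMaxOn h𝔽ne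
    (f := fun t : ℝ × ℝ × ℝ => t.1 * t.2.2 - t.2.1 ^ 2) (by fun_prop : Continuous _).continuousOn
  have ht𝔽' := ht𝔽
  rw [h𝔽] at ht𝔽'
  obtain ⟨hA0, hD0, -, hq⟩ := ht𝔽'
  refine ⟨t.1, t.2.1, t.2.2, hA0, hD0, hq, ?_⟩
  intro A' C' D' h1 h2 h3 h4
  have hmem : ((A', C', D') : ℝ × ℝ × ℝ) ∈ 𝔽 := by
    rw [h𝔽]
    exact ⟨h1, h2, h3, h4⟩
  exact htmax hmem

theorem john_support (hhom : ∀ c α β : ℝ, a (c * α) (c * β) = |c| * a α β)
    (hsub : ∀ α β α' β' : ℝ, a (α + α') (β + β') ≤ a α β + a α' β')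
    (hpos : ∀ α β : ℝ, (α ≠ 0 ∨ β ≠ 0) → 0 < a α β) (α₀ β₀ : ℝ) (hne : α₀ ≠ 0 ∨ β₀ ≠ 0) :
    ∃ g k : ℝ, (∀ α β : ℝ, (g * α + k * β) ^ 2 ≤ a α β ^ 2) ∧ g * α₀ + k * β₀ = a α₀ β₀ := by
  have hnn := john_nonneg hhom hpos
  have hp0 : ((α₀, β₀) : ℝ × ℝ) ≠ 0 := by
    intro h
    have h1 : α₀ = 0 := congrArg Prod.fst h
    have h2 : β₀ = 0 := congrArg Prod.snd h
    rcases hne with h' | h'
    · exact h' h1
    · exact h' h2
  obtain ⟨φ, hφ1, hφ2⟩ := exists_extension_of_le_sublinear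
    (LinearPMap.mkSpanSingleton (K := ℝ) ((α₀, β₀) : ℝ × ℝ) (a α₀ β₀) hp0)
    (fun p : ℝ × ℝ => a p.1 p.2)
    (by
      intro c hc p
      have := hhom c p.1 p.2
      rw [abs_of_pos hc] at this
      simpa using this)
    (by
      intro p p'
      exact hsub p.1 p.2 p'.1 p'.2)
    (by
      intro x
      obtain ⟨c, hc⟩ := Submodule.mem_span_singleton.mp x.2
      have hx : x = ⟨c • ((α₀, β₀) : ℝ × ℝ), by rw [hc]; exact x.2⟩ := Subtype.ext hc.symm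
      rw [hx, LinearPMap.mkSpanSingleton'_apply]
      have h1 := hhom c α₀ β₀
      simp only [Prod.smul_mk, smul_eq_mul, RingHom.id_apply]
      rw [h1]
      exact mul_le_mul_of_nonneg_right (le_abs_self c) (hnn α₀ β₀))
  obtain ⟨g, hg⟩ : ∃ g : ℝ, g = φ ((1 : ℝ), (0 : ℝ)) := ⟨_, rfl⟩
  obtain ⟨k, hk⟩ : ∃ k : ℝ, k = φ ((0 : ℝ), (1 : ℝ)) := ⟨_, rfl⟩
  have hφ : ∀ α β : ℝ, φ (α, β) = g * α + k * β := by
    intro α β
    have e : ((α, β) : ℝ × ℝ) = α • ((1 : ℝ), (0 : ℝ)) + β • ((0 : ℝ), (1 : ℝ)) := by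
      ext <;> simp
    rw [e, map_add, map_smul, map_smul, ← hg, ← hk]
    simp only [smul_eq_mul]
    ring
  have hφle : ∀ α β : ℝ, g * α + k * β ≤ a α β := by
    intro α β
    rw [← hφ]
    exact hφ2 (α, β)
  refine ⟨g, k, ?_, ?_⟩
  · intro α β
    have h1 := hφle α β
    have h2 := hφle (-α) (-β)
    rw [john_even hhom] at h2
    apply sq_le_sq'
    · linarith
    · exact h1
  · rw [← hφ]
    have h1 := hφ1 ⟨((α₀, β₀) : ℝ × ℝ), Submodule.mem_span_singleton_self _⟩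
    rw [LinearPMap.mkSpanSingleton_apply] at h1
    exact h1

theorem john_improve (A C D g k s Δ : ℝ) (hA : 0 ≤ A) (hD : 0 ≤ D) (hΔdef : A * D - C ^ 2 = Δ)
    (hΔ : 0 < Δ) (hs : 0 < s) (hN : D * g ^ 2 - 2 * C * g * k + A * k ^ 2 = 2 * Δ + s) :
    ∃ A' C' D' : ℝ, 0 ≤ A' ∧ 0 ≤ D' ∧ Δ < A' * D' - C' ^ 2 ∧
      ∀ α β M : ℝ, A * α ^ 2 + 2 * C * α * β + D * β ^ 2 ≤ M → (g * α + k * β) ^ 2 ≤ M →
        A' * α ^ 2 + 2 * C' * α * β + D' * β ^ 2 ≤ M := by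
  have hΔs : 0 < 2 * (Δ + s) := by linarith
  have h2Δs : 0 < 2 * Δ + s := by linarith
  obtain ⟨w, hwdef⟩ : ∃ w : ℝ, w = 1 / (2 * (Δ + s)) := ⟨_, rfl⟩
  have hw0 : 0 < w := by rw [hwdef]; exact one_div_pos.mpr hΔs
  have hw : w * (2 * (Δ + s)) = 1 := by rw [hwdef]; exact one_div_mul_cancel hΔs.ne'
  refine ⟨w * ((2 * Δ + s) * A + s * g ^ 2), w * ((2 * Δ + s) * C + s * (g * k)),
    w * ((2 * Δ + s) * D + s * k ^ 2), ?_, ?_, ?_, ?_⟩
  · apply mul_nonneg hw0.le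
    exact add_nonneg (mul_nonneg h2Δs.le hA) (mul_nonneg hs.le (sq_nonneg g))
  · apply mul_nonneg hw0.le
    exact add_nonneg (mul_nonneg h2Δs.le hD) (mul_nonneg hs.le (sq_nonneg k))
  · have key : w * ((2 * Δ + s) * A + s * g ^ 2) * (w * ((2 * Δ + s) * D + s * k ^ 2))
        - (w * ((2 * Δ + s) * C + s * (g * k))) ^ 2 - Δ = (w / 2) * s ^ 2 := by
      linear_combination (w ^ 2 * (2 * Δ + s) ^ 2) * hΔdef + (w ^ 2 * (2 * Δ + s) * s) * hN
        + ((w / 2) * (2 * Δ + s) ^ 2 + Δ) * hw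
    have hpos : 0 < (w / 2) * s ^ 2 := mul_pos (half_pos hw0) (pow_pos hs 2)
    linarith
  · intro α β M h1 h2
    have e : w * ((2 * Δ + s) * A + s * g ^ 2) * α ^ 2
        + 2 * (w * ((2 * Δ + s) * C + s * (g * k))) * α * β
        + w * ((2 * Δ + s) * D + s * k ^ 2) * β ^ 2
        = w * ((2 * Δ + s) * (A * α ^ 2 + 2 * C * α * β + D * β ^ 2)
            + s * (g * α + k * β) ^ 2) := by ring
    rw [e]
    have h3 : (2 * Δ + s) * (A * α ^ 2 + 2 * C * α * β + D * β ^ 2) + s * (g * α + k * β) ^ 2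
        ≤ (2 * Δ + s) * M + s * M :=
      add_le_add (mul_le_mul_of_nonneg_left h1 h2Δs.le) (mul_le_mul_of_nonneg_left h2 hs.le)
    calc w * ((2 * Δ + s) * (A * α ^ 2 + 2 * C * α * β + D * β ^ 2)
            + s * (g * α + k * β) ^ 2)
        ≤ w * ((2 * Δ + s) * M + s * M) := mul_le_mul_of_nonneg_left h3 hw0.le
      _ = (w * (2 * (Δ + s))) * M := by ring
      _ = M := by rw [hw, one_mul]

/-- **John's theorem in the plane.** -/
theorem john_two (hhom : ∀ c α β : ℝ, a (c * α) (c * β) = |c| * a α β)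
    (hsub : ∀ α β α' β' : ℝ, a (α + α') (β + β') ≤ a α β + a α' β')
    (hpos : ∀ α β : ℝ, (α ≠ 0 ∨ β ≠ 0) → 0 < a α β) :
    ∃ A C D : ℝ, 0 < A ∧ 0 < A * D - C ^ 2 ∧
      (∀ α β : ℝ, A * α ^ 2 + 2 * C * α * β + D * β ^ 2 ≤ a α β ^ 2) ∧
      (∀ α β : ℝ, a α β ^ 2 ≤ 2 * (A * α ^ 2 + 2 * C * α * β + D * β ^ 2)) := by
  obtain ⟨m, hm0, hmle⟩ := john_min hhom hsub hpos
  obtain ⟨A, C, D, hA0, hD0, hq, hmaxle⟩ := john_max hhom hpos
  have hΔ : 0 < A * D - C ^ 2 := by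
    have h1 := hmaxle (m ^ 2) 0 (m ^ 2) (sq_nonneg m) (sq_nonneg m)
      (by
        have : 0 ≤ m ^ 2 * m ^ 2 := mul_nonneg (sq_nonneg m) (sq_nonneg m)
        linarith)
      (by
        intro α β
        have := hmle α β
        nlinarith)
    have h2 : 0 < m ^ 2 * m ^ 2 := mul_pos (pow_pos hm0 2) (pow_pos hm0 2)
    linarith
  have hApos : 0 < A := by
    rcases hA0.eq_or_lt with h | h
    · rw [← h] at hΔ
      nlinarith [sq_nonneg C]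
    · exact h
  refine ⟨A, C, D, hApos, hΔ, hq, ?_⟩
  -- the upper bound
  by_contra hcon
  push Not at hcon
  obtain ⟨α₀, β₀, hlt⟩ := hcon
  have hne : α₀ ≠ 0 ∨ β₀ ≠ 0 := by
    by_contra h
    push Not at h
    rw [h.1, h.2, john_zero hhom] at hlt
    norm_num at hlt
  have hq0 : 0 < A * α₀ ^ 2 + 2 * C * α₀ * β₀ + D * β₀ ^ 2 := by
    have e : A * (A * α₀ ^ 2 + 2 * C * α₀ * β₀ + D * β₀ ^ 2)
        = (A * α₀ + C * β₀) ^ 2 + (A * D - C ^ 2) * β₀ ^ 2 := by ring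
    have hpos' : 0 < (A * α₀ + C * β₀) ^ 2 + (A * D - C ^ 2) * β₀ ^ 2 := by
      by_cases hb : β₀ = 0
      · have ha : α₀ ≠ 0 := by
          rcases hne with h | h
          · exact h
          · exact absurd hb h
        rw [hb]
        have h0 : A * α₀ ≠ 0 := mul_ne_zero hApos.ne' ha
        have : 0 < (A * α₀) ^ 2 := by positivity
        simpa using this
      · have h1 : 0 < (A * D - C ^ 2) * β₀ ^ 2 := mul_pos hΔ (by positivity)
        have h2 : 0 ≤ (A * α₀ + C * β₀) ^ 2 := sq_nonneg _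
        linarith
    rw [← e] at hpos'
    by_contra hneg
    push Not at hneg
    have := mul_nonpos_of_nonneg_of_nonpos hApos.le hneg
    linarith
  obtain ⟨g, k, hφsq, hφ0⟩ := john_support hhom hsub hpos α₀ β₀ hne
  obtain ⟨Δ, hΔdef⟩ : ∃ Δ : ℝ, Δ = A * D - C ^ 2 := ⟨_, rfl⟩
  rw [← hΔdef] at hΔ
  obtain ⟨s, hs⟩ : ∃ s : ℝ, s = D * g ^ 2 - 2 * C * g * k + A * k ^ 2 - 2 * Δ := ⟨_, rfl⟩
  have hs0 : 0 < s := by
    have e : (D * g ^ 2 - 2 * C * g * k + A * k ^ 2)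
          * (A * α₀ ^ 2 + 2 * C * α₀ * β₀ + D * β₀ ^ 2) - Δ * (g * α₀ + k * β₀) ^ 2
        = ((C * g - A * k) * α₀ + (D * g - C * k) * β₀) ^ 2 := by
      rw [hΔdef]; ring
    have hsq := sq_nonneg ((C * g - A * k) * α₀ + (D * g - C * k) * β₀)
    rw [← e, hφ0] at hsq
    have h1 : Δ * (2 * (A * α₀ ^ 2 + 2 * C * α₀ * β₀ + D * β₀ ^ 2)) < Δ * a α₀ β₀ ^ 2 :=
      mul_lt_mul_of_pos_left hlt hΔ
    have h2 : 0 < s * (A * α₀ ^ 2 + 2 * C * α₀ * β₀ + D * β₀ ^ 2) := by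
      rw [hs]
      linarith
    by_contra hneg
    push Not at hneg
    have := mul_nonpos_of_nonpos_of_nonneg hneg hq0.le
    linarith
  obtain ⟨A', C', D', hA', hD', hdet, hform⟩ := john_improve A C D g k s Δ hA0 hD0 hΔdef.symm
    hΔ hs0 (by rw [hs]; ring)
  have hnew := hmaxle A' C' D' hA' hD' (by linarith)
    (fun α β => hform α β (a α β ^ 2) (hq α β) (hφsq α β))
  rw [← hΔdef] at hnew
  linarith

end john

end Vale.Agent.Helper11
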