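import Vale.Agent.Helper11.CoplanarSym
import Vale.Agent.Helper11.John2

/-!
# Relative base areas for cylinders with coplanar axes

For cylinders whose axes are parallel to one plane, the areas of the projections of a convex
body along the directions of that plane form a norm on the plane.  John's theorem in the plane
compares this norm with a Euclidean one, and a linear change of coordinates transfers the
inequalities for absolute base areas to inequalities for the base areas divided by the areas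
of the corresponding projections of the body.
-/

namespace Vale.Agent.Helper11

open Set MeasureTheory

section prj

/-- The projection along a direction of the plane of the first two coordinates, in coordinates:
the direction is orthogonal to `(α, β, 0)` and to the third coordinate vector. -/
def prj (α β : ℝ) (x : ℝ × ℝ × ℝ) : ℝ × ℝ := (α * x.1 + β * x.2.1, x.2.2)

theorem continuous_prj (α β : ℝ) : Continuous (prj α β) := by
  unfold prj
  fun_prop

theorem isLinearMap_prj (α β : ℝ) : IsLinearMap ℝ (prj α β) := by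
  unfold prj
  constructor
  · intro x y
    ext
    · simp only [Prod.fst_add, Prod.snd_add]; ring
    · simp only [Prod.snd_add]
  · intro c x
    ext
    · simp only [Prod.smul_fst, Prod.smul_snd, smul_eq_mul]; ring
    · simp only [Prod.smul_snd, smul_eq_mul]

variable {K : Set (ℝ × ℝ × ℝ)}

theorem volume_preimage_scale {ρ : ℝ} (hρ : 0 < ρ) (S : Set (ℝ × ℝ)) :
    volume ((fun t : ℝ × ℝ => (ρ * t.1, t.2)) ⁻¹' S) = volume S / ENNReal.ofReal ρ := by
  have e : (fun t : ℝ × ℝ => (ρ * t.1, t.2)) = lin2 ρ 0 0 1 := by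
    funext t
    unfold lin2
    simp
  have e2 : ρ * 1 - 0 * 0 = ρ := by ring
  rw [e, lin2_eq, Measure.addHaar_preimage_linearMap volume
    (by rw [det_lin2, e2]; exact hρ.ne'), det_lin2, e2, abs_inv, abs_of_pos hρ,
    ENNReal.ofReal_inv_of_pos hρ, div_eq_mul_inv, mul_comm]

theorem volume_image_scale (c : ℝ) (S : Set (ℝ × ℝ)) :
    volume ((fun t : ℝ × ℝ => (c * t.1, t.2)) '' S) = ENNReal.ofReal |c| * volume S := by
  have e : (fun t : ℝ × ℝ => (c * t.1, t.2)) = lin2 c 0 0 1 := by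
    funext t
    unfold lin2
    simp
  have e2 : c * 1 - 0 * 0 = c := by ring
  rw [e, lin2_eq, Measure.addHaar_image_linearMap, det_lin2, e2]

theorem volume_prj_smul (c α β : ℝ) (K : Set (ℝ × ℝ × ℝ)) :
    volume (prj (c * α) (c * β) '' K) = ENNReal.ofReal |c| * volume (prj α β '' K) := by
  have e : prj (c * α) (c * β) '' K = (fun t : ℝ × ℝ => (c * t.1, t.2)) '' (prj α β '' K) := by
    rw [image_image]
    apply image_congr
    intro x _
    unfold prj
    ext
    · simp only; ring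
    · rfl
  rw [e, volume_image_scale]

theorem volume_prj_add_le (hK : Convex ℝ K) (hKc : IsCompact K) (α β α' β' : ℝ) :
    volume (prj (α + α') (β + β') '' K) ≤ volume (prj α β '' K) + volume (prj α' β' '' K) := by
  have hc : ∀ α β : ℝ, IsCompact (prj α β '' K) := fun α β => hKc.image (continuous_prj α β)
  have hconv : ∀ α β : ℝ, Convex ℝ (prj α β '' K) :=
    fun α β => hK.is_linear_image (isLinearMap_prj α β)
  rw [volume_eq_lintegral_sec (hc _ _).measurableSet,
    volume_eq_lintegral_sec (hc α β).measurableSet,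
    volume_eq_lintegral_sec (hc α' β').measurableSet,
    ← lintegral_add_left (measurable_volume_sec (hc α β).measurableSet)]
  apply lintegral_mono
  intro z
  show volume (sec (prj (α + α') (β + β') '' K) z)
    ≤ volume (sec (prj α β '' K) z) + volume (sec (prj α' β' '' K) z)
  by_cases hne : (sec (prj (α + α') (β + β') '' K) z).Nonempty
  · obtain ⟨s, x, hx, hxs⟩ := hne
    have hxz : x.2.2 = z := congrArg Prod.snd hxs
    have hne1 : (sec (prj α β '' K) z).Nonempty :=
      ⟨α * x.1 + β * x.2.1, x, hx, by unfold prj; rw [hxz]⟩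
    have hne2 : (sec (prj α' β' '' K) z).Nonempty :=
      ⟨α' * x.1 + β' * x.2.1, x, hx, by unfold prj; rw [hxz]⟩
    obtain ⟨u, v, huv, hsec⟩ := exists_Icc_aux (isCompact_sec (hc α β) z)
      (ordConnected_sec (hconv α β) z).convex hne1
    obtain ⟨u', v', huv', hsec'⟩ := exists_Icc_aux (isCompact_sec (hc α' β') z)
      (ordConnected_sec (hconv α' β') z).convex hne2
    have hsub : sec (prj (α + α') (β + β') '' K) z ⊆ Icc (u + u') (v + v') := by
      rintro t ⟨y, hy, hyt⟩
      have hyz : y.2.2 = z := congrArg Prod.snd hyt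
      have hyt1 : (α + α') * y.1 + (β + β') * y.2.1 = t := congrArg Prod.fst hyt
      have h1 : α * y.1 + β * y.2.1 ∈ sec (prj α β '' K) z :=
        ⟨y, hy, by unfold prj; rw [hyz]⟩
      have h2 : α' * y.1 + β' * y.2.1 ∈ sec (prj α' β' '' K) z :=
        ⟨y, hy, by unfold prj; rw [hyz]⟩
      rw [hsec] at h1
      rw [hsec'] at h2
      constructor
      · linarith [h1.1, h2.1]
      · linarith [h1.2, h2.2]
    calc volume (sec (prj (α + α') (β + β') '' K) z)
        ≤ volume (Icc (u + u') (v + v')) := measure_mono hsub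
      _ = ENNReal.ofReal ((v - u) + (v' - u')) := by
          rw [Real.volume_Icc]; congr 1; ring
      _ = ENNReal.ofReal (v - u) + ENNReal.ofReal (v' - u') :=
          ENNReal.ofReal_add (by linarith) (by linarith)
      _ = volume (sec (prj α β '' K) z) + volume (sec (prj α' β' '' K) z) := by
          rw [hsec, hsec', Real.volume_Icc, Real.volume_Icc]
  · rw [not_nonempty_iff_eq_empty.mp hne, measure_empty]
    exact zero_le

theorem volume_prj_pos (hKi : (interior K).Nonempty) {α β : ℝ} (h : α ≠ 0 ∨ β ≠ 0) :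
    0 < volume (prj α β '' K) := by
  obtain ⟨L, hL⟩ : ∃ L : ℝ × ℝ × ℝ →ₗ[ℝ] ℝ × ℝ, ∀ x, L x = prj α β x :=
    ⟨(isLinearMap_prj α β).mk' _, fun x => rfl⟩
  have hsurj : Function.Surjective L := by
    intro y
    rcases h with h | h
    · refine ⟨(y.1 / α, 0, y.2), ?_⟩
      rw [hL]
      unfold prj
      ext
      · simp only
        field_simp
        ring
      · rfl
    · refine ⟨(0, y.1 / β, y.2), ?_⟩
      rw [hL]
      unfold prj
      ext
      · simp only
        field_simp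
        ring
      · rfl
  have hopen : IsOpen (L '' interior K) :=
    L.isOpenMap_of_finiteDimensional hsurj _ isOpen_interior
  have hne : (L '' interior K).Nonempty := hKi.image _
  have hsub : L '' interior K ⊆ prj α β '' K := by
    rintro _ ⟨x, hx, rfl⟩
    exact ⟨x, interior_subset hx, (hL x).symm⟩
  exact (hopen.measure_pos volume hne).trans_le (measure_mono hsub)

end prj

section transfer

/-- Transfer of the inequalities for absolute base areas through a linear change of the first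
two coordinates. -/
theorem coplanar_q_transfer {ι : Type*} [Fintype ι] (K : Set (ℝ × ℝ × ℝ)) (hK : Convex ℝ K)
    (hKc : IsCompact K) (m11 m12 m22 : ℝ) (h11 : m11 ≠ 0) (h22 : m22 ≠ 0)
    (a b ρ : ι → ℝ) (hρ : ∀ i, 0 < ρ i)
    (habρ : ∀ i, (m11 * a i + m12 * b i) ^ 2 + (m22 * b i) ^ 2 = ρ i ^ 2)
    (S : ι → Set (ℝ × ℝ)) (hS : ∀ i, MeasurableSet (S i))
    (hcov : ∀ x ∈ K, ∃ i, prj (a i) (b i) x ∈ S i)
    (A : ENNReal)
    (hA : ∀ α β : ℝ, (m11 * α + m12 * β) ^ 2 + (m22 * β) ^ 2 = 1 →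
      A ≤ volume (prj α β '' K)) :
    A / 2 ≤ ∑ i, volume (S i) / ENNReal.ofReal (ρ i) ∧
    ((∃ c : ℝ × ℝ × ℝ, ∀ x ∈ K, (2 * c.1 - x.1, 2 * c.2.1 - x.2.1, 2 * c.2.2 - x.2.2) ∈ K) →
      3 * A ≤ 4 * ∑ i, volume (S i) / ENNReal.ofReal (ρ i)) := by
  obtain ⟨T, hT⟩ : ∃ T : ℝ × ℝ × ℝ → ℝ × ℝ × ℝ,
      T = fun x => (x.1 / m11, (x.2.1 - m12 * x.1 / m11) / m22, x.2.2) := ⟨_, rfl⟩
  have hTc : Continuous T := by
    rw [hT]
    fun_prop
  have hTlin : IsLinearMap ℝ T := by
    rw [hT]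
    constructor
    · intro x y
      ext
      · simp only [Prod.fst_add]; ring
      · simp only [Prod.fst_add, Prod.snd_add]; ring
      · simp only [Prod.snd_add]
    · intro c x
      ext
      · simp only [Prod.smul_fst, smul_eq_mul]; ring
      · simp only [Prod.smul_fst, Prod.smul_snd, smul_eq_mul]; ring
      · simp only [Prod.smul_snd, smul_eq_mul]
  obtain ⟨K', hK'⟩ : ∃ K' : Set (ℝ × ℝ × ℝ), K' = T '' K := ⟨_, rfl⟩
  have hK'conv : Convex ℝ K' := by rw [hK']; exact hK.is_linear_image hTlin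
  have hK'c : IsCompact K' := by rw [hK']; exact hKc.image hTc
  have hkey : ∀ α β : ℝ, ∀ x : ℝ × ℝ × ℝ,
      prj (m11 * α + m12 * β) (m22 * β) (T x) = prj α β x := by
    intro α β x
    rw [hT]
    unfold prj
    ext
    · simp only
      field_simp
      ring
    · rfl
  have himg : ∀ α β : ℝ, prj (m11 * α + m12 * β) (m22 * β) '' K' = prj α β '' K := by
    intro α β
    rw [hK', image_image]
    exact image_congr (fun x _ => hkey α β x)
  obtain ⟨a', ha'⟩ : ∃ a' : ι → ℝ, a' = fun i => (m11 * a i + m12 * b i) / ρ i := ⟨_, rfl⟩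
  obtain ⟨b', hb'⟩ : ∃ b' : ι → ℝ, b' = fun i => m22 * b i / ρ i := ⟨_, rfl⟩
  have hab' : ∀ i, a' i ^ 2 + b' i ^ 2 = 1 := by
    intro i
    rw [ha', hb']
    simp only
    rw [div_pow, div_pow, ← add_div, habρ i]
    exact div_self (pow_ne_zero 2 (hρ i).ne')
  obtain ⟨S', hS'⟩ : ∃ S' : ι → Set (ℝ × ℝ),
      S' = fun i => (fun t : ℝ × ℝ => (ρ i * t.1, t.2)) ⁻¹' S i := ⟨_, rfl⟩
  have hS'm : ∀ i, MeasurableSet (S' i) := by
    intro i
    rw [hS']
    exact (hS i).preimage (by fun_prop)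
  have hS'vol : ∀ i, volume (S' i) = volume (S i) / ENNReal.ofReal (ρ i) := by
    intro i
    rw [hS']
    exact volume_preimage_scale (hρ i) (S i)
  have hcov' : ∀ y ∈ K', ∃ i, (a' i * y.1 + b' i * y.2.1, y.2.2) ∈ S' i := by
    intro y hy
    rw [hK'] at hy
    obtain ⟨x, hx, rfl⟩ := hy
    obtain ⟨i, hi⟩ := hcov x hx
    refine ⟨i, ?_⟩
    rw [hS']
    show (ρ i * (a' i * (T x).1 + b' i * (T x).2.1), (T x).2.2) ∈ S i
    have e : (ρ i * (a' i * (T x).1 + b' i * (T x).2.1), (T x).2.2) = prj (a i) (b i) x := by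
      rw [← hkey (a i) (b i) x, ha', hb']
      unfold prj
      have hne := (hρ i).ne'
      ext
      · simp only
        field_simp
      · rfl
    rw [e]
    exact hi
  have hA' : ∀ α β : ℝ, α ^ 2 + β ^ 2 = 1 →
      A ≤ volume ((fun y : ℝ × ℝ × ℝ => (α * y.1 + β * y.2.1, y.2.2)) '' K') := by
    intro α β hαβ
    have e1 : m11 * ((α - m12 * (β / m22)) / m11) + m12 * (β / m22) = α := by
      field_simp
      ring
    have e2 : m22 * (β / m22) = β := by field_simp
    have h := hA ((α - m12 * (β / m22)) / m11) (β / m22) (by rw [e1, e2]; exact hαβ)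
    rw [← himg, e1, e2] at h
    exact h
  have hsum : ∑ i, volume (S' i) = ∑ i, volume (S i) / ENNReal.ofReal (ρ i) :=
    Finset.sum_congr rfl (fun i _ => hS'vol i)
  constructor
  · rw [← hsum]
    exact coplanar_core K' hK'conv hK'c a' b' hab' S' hS'm hcov' A hA'
  · rintro ⟨c, hc⟩
    rw [← hsum]
    refine coplanar_core_sym K' hK'conv hK'c (T c) ?_ a' b' hab' S' hS'm hcov' A hA'
    intro y hy
    rw [hK'] at hy ⊢
    obtain ⟨x, hx, rfl⟩ := hy
    refine ⟨_, hc x hx, ?_⟩
    rw [hT]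
    ext
    · simp only; ring
    · simp only; ring
    · simp only

end transfer

section rel

/-- The coordinate form of the inequalities for relative base areas. -/
theorem coplanar_rel_core {ι : Type*} [Fintype ι] (K : Set (ℝ × ℝ × ℝ)) (hK : Convex ℝ K)
    (hKc : IsCompact K) (hKi : (interior K).Nonempty)
    (a b : ι → ℝ) (hab : ∀ i, a i ≠ 0 ∨ b i ≠ 0)
    (S : ι → Set (ℝ × ℝ)) (hS : ∀ i, MeasurableSet (S i))
    (hcov : ∀ x ∈ K, ∃ i, prj (a i) (b i) x ∈ S i) :
    ENNReal.ofReal (Real.sqrt 2 / 4) ≤ ∑ i, volume (S i) / volume (prj (a i) (b i) '' K) ∧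
    ((∃ c : ℝ × ℝ × ℝ, ∀ x ∈ K, (2 * c.1 - x.1, 2 * c.2.1 - x.2.1, 2 * c.2.2 - x.2.2) ∈ K) →
      ENNReal.ofReal (3 * Real.sqrt 2 / 8)
        ≤ ∑ i, volume (S i) / volume (prj (a i) (b i) '' K)) := by
  obtain ⟨ar, har⟩ : ∃ ar : ℝ → ℝ → ℝ, ar = fun α β => (volume (prj α β '' K)).toReal :=
    ⟨_, rfl⟩
  have hfin : ∀ α β : ℝ, volume (prj α β '' K) ≠ ⊤ :=
    fun α β => (hKc.image (continuous_prj α β)).measure_lt_top.ne
  have hvol : ∀ α β : ℝ, volume (prj α β '' K) = ENNReal.ofReal (ar α β) := by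
    intro α β
    rw [har]
    exact (ENNReal.ofReal_toReal (hfin α β)).symm
  have hhom : ∀ c α β : ℝ, ar (c * α) (c * β) = |c| * ar α β := by
    intro c α β
    rw [har]
    simp only
    rw [volume_prj_smul, ENNReal.toReal_mul, ENNReal.toReal_ofReal (abs_nonneg c)]
  have hsub : ∀ α β α' β' : ℝ, ar (α + α') (β + β') ≤ ar α β + ar α' β' := by
    intro α β α' β'
    rw [har]
    simp only
    rw [← ENNReal.toReal_add (hfin α β) (hfin α' β')]
    exact ENNReal.toReal_mono (ENNReal.add_ne_top.mpr ⟨hfin α β, hfin α' β'⟩)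
      (volume_prj_add_le hK hKc α β α' β')
  have hpos : ∀ α β : ℝ, (α ≠ 0 ∨ β ≠ 0) → 0 < ar α β := by
    intro α β h
    rw [har]
    exact ENNReal.toReal_pos (volume_prj_pos hKi h).ne' (hfin α β)
  obtain ⟨Aq, Cq, Dq, hAq, hΔq, hlow, hup⟩ := john_two hhom hsub hpos
  obtain ⟨m11, hm11⟩ : ∃ m11 : ℝ, m11 = Real.sqrt Aq := ⟨_, rfl⟩
  have hm11pos : 0 < m11 := by rw [hm11]; exact Real.sqrt_pos.mpr hAq
  have hm11sq : m11 ^ 2 = Aq := by rw [hm11]; exact Real.sq_sqrt hAq.le
  obtain ⟨m12, hm12⟩ : ∃ m12 : ℝ, m12 = Cq / m11 := ⟨_, rfl⟩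
  obtain ⟨m22, hm22⟩ : ∃ m22 : ℝ, m22 = Real.sqrt ((Aq * Dq - Cq ^ 2) / Aq) := ⟨_, rfl⟩
  have hm22pos : 0 < m22 := by rw [hm22]; exact Real.sqrt_pos.mpr (div_pos hΔq hAq)
  have hm22sq : m22 ^ 2 = (Aq * Dq - Cq ^ 2) / Aq := by
    rw [hm22]; exact Real.sq_sqrt (div_pos hΔq hAq).le
  have h2 : m11 * m12 = Cq := by
    rw [hm12]
    field_simp
  have h3 : m12 ^ 2 + m22 ^ 2 = Dq := by
    rw [hm12, hm22sq, div_pow, hm11sq]
    field_simp
    ring
  have hq : ∀ α β : ℝ, (m11 * α + m12 * β) ^ 2 + (m22 * β) ^ 2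
      = Aq * α ^ 2 + 2 * Cq * α * β + Dq * β ^ 2 := by
    intro α β
    linear_combination (α ^ 2) * hm11sq + (2 * α * β) * h2 + (β ^ 2) * h3
  obtain ⟨ρ, hρdef⟩ : ∃ ρ : ι → ℝ,
      ρ = fun i => Real.sqrt (Aq * a i ^ 2 + 2 * Cq * a i * b i + Dq * b i ^ 2) := ⟨_, rfl⟩
  have hqpos : ∀ i, 0 < Aq * a i ^ 2 + 2 * Cq * a i * b i + Dq * b i ^ 2 := by
    intro i
    have h1 := hup (a i) (b i)
    have h2 : 0 < ar (a i) (b i) ^ 2 := pow_pos (hpos (a i) (b i) (hab i)) 2
    linarith
  have hρpos : ∀ i, 0 < ρ i := by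
    intro i
    rw [hρdef]
    exact Real.sqrt_pos.mpr (hqpos i)
  have hρsq : ∀ i, ρ i ^ 2 = Aq * a i ^ 2 + 2 * Cq * a i * b i + Dq * b i ^ 2 := by
    intro i
    rw [hρdef]
    exact Real.sq_sqrt (hqpos i).le
  have htr := coplanar_q_transfer K hK hKc m11 m12 m22 hm11pos.ne' hm22pos.ne' a b ρ hρpos
    (fun i => by rw [hq, hρsq]) S hS hcov 1
    (by
      intro α β hαβ
      rw [hq] at hαβ
      have h1 := hlow α β
      rw [hαβ] at h1
      have h0 : 0 ≤ ar α β := by rw [har]; exact ENNReal.toReal_nonneg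
      have h1' : 1 ≤ ar α β := by nlinarith
      rw [hvol, ← ENNReal.ofReal_one]
      exact ENNReal.ofReal_le_ofReal h1')
  obtain ⟨s2, hs2⟩ : ∃ s2 : ENNReal, s2 = ENNReal.ofReal (Real.sqrt 2) := ⟨_, rfl⟩
  have hs2pos : 0 < Real.sqrt 2 := Real.sqrt_pos.mpr (by norm_num)
  have hsq2 : Real.sqrt 2 * Real.sqrt 2 = 2 := Real.mul_self_sqrt (by norm_num)
  have hs20 : s2 ≠ 0 := by rw [hs2]; exact (ENNReal.ofReal_pos.mpr hs2pos).ne'
  have hs2t : s2 ≠ ⊤ := by rw [hs2]; exact ENNReal.ofReal_ne_top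
  have hterm : ∀ i, volume (S i) / ENNReal.ofReal (ρ i)
      ≤ s2 * (volume (S i) / volume (prj (a i) (b i) '' K)) := by
    intro i
    have h1 : ar (a i) (b i) ≤ Real.sqrt 2 * ρ i := by
      have hu := hup (a i) (b i)
      rw [← hρsq] at hu
      by_contra hcon
      push Not at hcon
      have h4 : (Real.sqrt 2 * ρ i) ^ 2 < ar (a i) (b i) ^ 2 :=
        pow_lt_pow_left₀ hcon (mul_nonneg hs2pos.le (hρpos i).le) (by norm_num)
      rw [mul_pow, Real.sq_sqrt (by norm_num)] at h4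
      linarith
    have h2 : volume (prj (a i) (b i) '' K) ≤ s2 * ENNReal.ofReal (ρ i) := by
      rw [hvol, hs2, ← ENNReal.ofReal_mul hs2pos.le]
      exact ENNReal.ofReal_le_ofReal h1
    calc volume (S i) / ENNReal.ofReal (ρ i)
        = s2 * volume (S i) / (s2 * ENNReal.ofReal (ρ i)) :=
          (ENNReal.mul_div_mul_left _ _ hs20 hs2t).symm
      _ ≤ s2 * volume (S i) / volume (prj (a i) (b i) '' K) := ENNReal.div_le_div_left h2 _
      _ = s2 * (volume (S i) / volume (prj (a i) (b i) '' K)) := mul_div_assoc _ _ _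
  have hsum : ∑ i, volume (S i) / ENNReal.ofReal (ρ i)
      ≤ s2 * ∑ i, volume (S i) / volume (prj (a i) (b i) '' K) := by
    rw [Finset.mul_sum]
    exact Finset.sum_le_sum (fun i _ => hterm i)
  constructor
  · have h1 := htr.1.trans hsum
    rw [← ENNReal.mul_le_mul_iff_right hs20 hs2t]
    refine le_trans (le_of_eq ?_) h1
    rw [hs2, ← ENNReal.ofReal_mul hs2pos.le]
    have e : Real.sqrt 2 * (Real.sqrt 2 / 4) = 1 / 2 := by
      have e' : Real.sqrt 2 * (Real.sqrt 2 / 4) = (Real.sqrt 2 * Real.sqrt 2) / 4 := by ring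
      rw [e', hsq2]
      norm_num
    rw [e, ENNReal.ofReal_div_of_pos (by norm_num), ENNReal.ofReal_one, ENNReal.ofReal_ofNat]
  · intro hc
    have h1 : (3 : ENNReal) * 1
        ≤ 4 * (s2 * ∑ i, volume (S i) / volume (prj (a i) (b i) '' K)) := by
      refine (htr.2 hc).trans ?_
      gcongr
    rw [← mul_assoc] at h1
    have h40 : (4 : ENNReal) * s2 ≠ 0 := mul_ne_zero (by norm_num) hs20
    have h4t : (4 : ENNReal) * s2 ≠ ⊤ := ENNReal.mul_ne_top (by norm_num) hs2t
    rw [← ENNReal.mul_le_mul_iff_right h40 h4t]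
    refine le_trans (le_of_eq ?_) h1
    have e4 : (4 : ENNReal) = ENNReal.ofReal 4 := by simp
    rw [hs2, e4, ← ENNReal.ofReal_mul (by norm_num),
      ← ENNReal.ofReal_mul (mul_nonneg (by norm_num) hs2pos.le)]
    have e : (4 : ℝ) * Real.sqrt 2 * (3 * Real.sqrt 2 / 8) = 3 := by
      have e' : (4 : ℝ) * Real.sqrt 2 * (3 * Real.sqrt 2 / 8)
          = 3 * (Real.sqrt 2 * Real.sqrt 2) / 2 := by ring
      rw [e', hsq2]
      norm_num
    rw [e]
    simp

end rel

end Vale.Agent.Helper11
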