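import Vale.Agent.Helper11.CoplanarAbs

/-!
# Centrally symmetric bodies covered by cylinders with coplanar axes

If a centrally symmetric convex body in three-dimensional Euclidean space is covered by finitely
many cylinders whose axes are all parallel to one plane, then the total base area is at least
three quarters of the smallest area of an orthogonal projection of the body along a direction of
that plane.  The section lengths of the projections are concave and symmetric, which gives a
trapezoidal lower bound for the minimal width of the slices of the body.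
-/

namespace Vale.Agent.Helper11

open Set MeasureTheory

section slices

/-- The slicing argument: if `M z` is a lower bound for all the widths of the slice of `K` at
height `z`, then the integral of `M` is a lower bound for the total base area. -/
theorem coplanar_slices {ι : Type*} [Fintype ι] (K : Set (ℝ × ℝ × ℝ)) (hK : Convex ℝ K)
    (hKc : IsCompact K) (a b : ι → ℝ) (hab : ∀ i, a i ^ 2 + b i ^ 2 = 1)
    (S : ι → Set (ℝ × ℝ)) (hS : ∀ i, MeasurableSet (S i))
    (hcov : ∀ x ∈ K, ∃ i, (a i * x.1 + b i * x.2.1, x.2.2) ∈ S i)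
    (M : ℝ → ℝ)
    (hM : ∀ z, (∃ x ∈ K, x.2.2 = z) → ∀ α β : ℝ, α ^ 2 + β ^ 2 = 1 →
      M z ≤ (volume (sec ((fun x : ℝ × ℝ × ℝ => (α * x.1 + β * x.2.1, x.2.2)) '' K) z)).toReal)
    (hM0 : ∀ z, (¬ ∃ x ∈ K, x.2.2 = z) → M z ≤ 0) :
    ∫⁻ z, ENNReal.ofReal (M z) ≤ ∑ i, volume (S i) := by
  have hslice : ∀ z, ENNReal.ofReal (M z) ≤ ∑ i, volume (sec (S i) z) := by
    intro z
    by_cases hz : ∃ x ∈ K, x.2.2 = z
    · have hW : WidthGE (slice K z) (M z) := by
        intro α β hαβ
        have hPc : IsCompact ((fun x : ℝ × ℝ × ℝ => (α * x.1 + β * x.2.1, x.2.2)) '' K) :=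
          hKc.image (by fun_prop)
        have hPconv : Convex ℝ ((fun x : ℝ × ℝ × ℝ => (α * x.1 + β * x.2.1, x.2.2)) '' K) := by
          apply hK.is_linear_image
          constructor
          · intro x y
            ext
            · simp only [Prod.fst_add, Prod.snd_add]; ring
            · simp only [Prod.snd_add]
          · intro c x
            ext
            · simp only [Prod.smul_fst, Prod.smul_snd, smul_eq_mul]; ring
            · simp only [Prod.smul_snd, smul_eq_mul]
        have h3 := hM z hz α β hαβ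
        have hne : (sec
            ((fun x : ℝ × ℝ × ℝ => (α * x.1 + β * x.2.1, x.2.2)) '' K) z).Nonempty := by
          obtain ⟨x, hx, hxz⟩ := hz
          refine ⟨α * x.1 + β * x.2.1, x, hx, ?_⟩
          rw [← hxz]
        obtain ⟨u, v, huv, hsec⟩ := exists_Icc_aux (isCompact_sec hPc z)
          (ordConnected_sec hPconv z).convex hne
        have hu : u ∈ sec
            ((fun x : ℝ × ℝ × ℝ => (α * x.1 + β * x.2.1, x.2.2)) '' K) z := by
          rw [hsec]; exact left_mem_Icc.mpr huv
        have hv : v ∈ sec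
            ((fun x : ℝ × ℝ × ℝ => (α * x.1 + β * x.2.1, x.2.2)) '' K) z := by
          rw [hsec]; exact right_mem_Icc.mpr huv
        rw [hsec, Real.volume_Icc, ENNReal.toReal_ofReal (by linarith)] at h3
        obtain ⟨x, hx, hxu⟩ := hu
        obtain ⟨y, hy, hyv⟩ := hv
        have hx1 : α * x.1 + β * x.2.1 = u := congrArg Prod.fst hxu
        have hx2 : x.2.2 = z := congrArg Prod.snd hxu
        have hy1 : α * y.1 + β * y.2.1 = v := congrArg Prod.fst hyv
        have hy2 : y.2.2 = z := congrArg Prod.snd hyv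
        refine ⟨(y.1, y.2.1), ?_, (x.1, x.2.1), ?_, ?_⟩
        · show (y.1, y.2.1, z) ∈ K
          rw [← hy2]; exact hy
        · show (x.1, x.2.1, z) ∈ K
          rw [← hx2]; exact hx
        · simp only
          linarith
      have hcovz : ∀ q ∈ slice K z, ∃ i, a i * q.1 + b i * q.2 ∈ sec (S i) z := by
        intro q hq
        exact hcov (q.1, q.2, z) hq
      exact planar_plank_measure (isCompact_slice hKc z) (convex_slice hK z) hW a b
        (fun i => sec (S i) z) hab hcovz
    · rw [ENNReal.ofReal_of_nonpos (hM0 z hz)]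
      exact zero_le
  have hint : ∑ i, volume (S i) = ∫⁻ z, ∑ i, volume (sec (S i) z) := by
    rw [lintegral_finsetSum _ (fun i _ => measurable_volume_sec (hS i))]
    apply Finset.sum_congr rfl
    intro i _
    exact volume_eq_lintegral_sec (hS i)
  rw [hint]
  exact lintegral_mono hslice

end slices

section onedim

theorem setLIntegral_reflect_half (F : ℝ → ℝ) (z0 z1 : ℝ) (hsym : ∀ t, F (z0 + z1 - t) = F t) :
    ∫⁻ t in Icc z0 ((z0 + z1) / 2), ENNReal.ofReal (F t)
      = ∫⁻ t in Icc ((z0 + z1) / 2) z1, ENNReal.ofReal (F t) := by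
  rw [← lintegral_indicator measurableSet_Icc, ← lintegral_indicator measurableSet_Icc]
  rw [← lintegral_sub_left_eq_self
    (fun t => (Icc z0 ((z0 + z1) / 2)).indicator (fun t => ENNReal.ofReal (F t)) t) (z0 + z1)]
  apply lintegral_congr
  intro t
  by_cases ht : t ∈ Icc ((z0 + z1) / 2) z1
  · have ht' : z0 + z1 - t ∈ Icc z0 ((z0 + z1) / 2) :=
      ⟨by linarith [ht.2], by linarith [ht.1]⟩
    rw [indicator_of_mem ht, indicator_of_mem ht', hsym]
  · have ht' : z0 + z1 - t ∉ Icc z0 ((z0 + z1) / 2) :=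
      fun h => ht ⟨by linarith [h.2], by linarith [h.1]⟩
    rw [indicator_of_notMem ht, indicator_of_notMem ht']

/-- A concave function symmetric about the midpoint decreases away from the midpoint. -/
theorem sym_concave_anti {F : ℝ → ℝ} {z0 z1 : ℝ} (hFc : ConcaveOn ℝ (Icc z0 z1) F)
    (hsym : ∀ t, F (z0 + z1 - t) = F t) {s t : ℝ} (hs : (z0 + z1) / 2 ≤ s) (hst : s ≤ t)
    (ht : t ≤ z1) : F t ≤ F s := by
  rcases hst.eq_or_lt with h | h
  · rw [h]
  · have htI : t ∈ Icc z0 z1 := ⟨by linarith, ht⟩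
    have ht'I : z0 + z1 - t ∈ Icc z0 z1 := ⟨by linarith, by linarith⟩
    have hd : 0 < t - (z0 + z1 - t) := by linarith
    obtain ⟨θ, hθ⟩ : ∃ θ : ℝ, θ = (t - s) / (t - (z0 + z1 - t)) := ⟨_, rfl⟩
    have hθ0 : 0 ≤ θ := by rw [hθ]; exact div_nonneg (by linarith) hd.le
    have hθ1 : θ ≤ 1 := by rw [hθ, div_le_one hd]; linarith
    have hθe : θ * (t - (z0 + z1 - t)) = t - s := by rw [hθ]; field_simp
    have c1 := hFc.2 ht'I htI hθ0 (by linarith : (0 : ℝ) ≤ 1 - θ) (by ring)
    simp only [smul_eq_mul] at c1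
    have e1 : θ * (z0 + z1 - t) + (1 - θ) * t = s := by linarith
    rw [e1, hsym] at c1
    have e2 : θ * F t + (1 - θ) * F t = F t := by ring
    linarith

/-- Symmetric concave functions: the integral is at most the length of the interval times the
value at any point of the middle half. -/
theorem sym_concave_mid_bound {F : ℝ → ℝ} {z0 z1 z : ℝ} (h01 : z0 ≤ z1) (hFm : Measurable F)
    (hF0 : ∀ t ∈ Icc z0 z1, 0 ≤ F t) (hFc : ConcaveOn ℝ (Icc z0 z1) F)
    (hsym : ∀ t, F (z0 + z1 - t) = F t) (hz : (z0 + z1) / 2 ≤ z)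
    (hz' : z ≤ (z0 + 3 * z1) / 4) :
    ∫⁻ t in Icc z0 z1, ENNReal.ofReal (F t) ≤ ENNReal.ofReal (F z * (z1 - z0)) := by
  obtain ⟨c, hc⟩ : ∃ c : ℝ, c = (z0 + z1) / 2 := ⟨_, rfl⟩
  obtain ⟨d, hd⟩ : ∃ d : ℝ, d = 2 * z - c := ⟨_, rfl⟩
  have hcz : c ≤ z := by rw [hc]; exact hz
  have hzd : z ≤ d := by rw [hd]; linarith
  have hd1 : d ≤ z1 := by rw [hd, hc]; linarith
  have hcd : c ≤ d := hcz.trans hzd
  have hc0 : z0 ≤ c := by rw [hc]; linarith
  have hc1 : c ≤ z1 := by rw [hc]; linarith
  have hzI : z ∈ Icc z0 z1 := ⟨by linarith, by linarith⟩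
  have hFz : 0 ≤ F z := hF0 z hzI
  have hhalf : ∫⁻ t in Icc c z1, ENNReal.ofReal (F t) ≤ ENNReal.ofReal (F z * (z1 - c)) := by
    have hsub : Icc c z1 ⊆ Icc c d ∪ Icc d z1 := by
      intro t ht
      rcases le_total t d with h | h
      · exact Or.inl ⟨ht.1, h⟩
      · exact Or.inr ⟨h, ht.2⟩
    have h1 : ∫⁻ t in Icc c d, ENNReal.ofReal (F t) ≤ ENNReal.ofReal (F z * (d - c)) := by
      have h := lintegral_le_mid hcd hFm
        (fun t ht => hF0 t ⟨by linarith [ht.1], by linarith [ht.2]⟩)
        (hFc.subset (Icc_subset_Icc hc0 hd1) (convex_Icc _ _))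
      have e : (c + d) / 2 = z := by rw [hd]; ring
      rw [e] at h
      exact h
    have h2 : ∫⁻ t in Icc d z1, ENNReal.ofReal (F t) ≤ ENNReal.ofReal (F z * (z1 - d)) := by
      have hpt : ∀ t ∈ Icc d z1, ENNReal.ofReal (F t) ≤ ENNReal.ofReal (F z) := by
        intro t ht
        apply ENNReal.ofReal_le_ofReal
        exact sym_concave_anti hFc hsym hz (hzd.trans ht.1) ht.2
      calc ∫⁻ t in Icc d z1, ENNReal.ofReal (F t)
          ≤ ∫⁻ _ in Icc d z1, ENNReal.ofReal (F z) := setLIntegral_mono' measurableSet_Icc hpt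
        _ = ENNReal.ofReal (F z) * ENNReal.ofReal (z1 - d) := by
            rw [setLIntegral_const, Real.volume_Icc]
        _ = ENNReal.ofReal (F z * (z1 - d)) := by rw [← ENNReal.ofReal_mul hFz]
    refine ((lintegral_mono_set hsub).trans (lintegral_union_le _ _ _)).trans
      ((add_le_add h1 h2).trans ?_)
    rw [← ENNReal.ofReal_add (mul_nonneg hFz (by linarith)) (mul_nonneg hFz (by linarith))]
    apply ENNReal.ofReal_le_ofReal
    apply le_of_eq
    ring
  have hsub : Icc z0 z1 ⊆ Icc z0 c ∪ Icc c z1 := by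
    intro t ht
    rcases le_total t c with h | h
    · exact Or.inl ⟨ht.1, h⟩
    · exact Or.inr ⟨h, ht.2⟩
  have hrefl := setLIntegral_reflect_half F z0 z1 hsym
  rw [← hc] at hrefl
  refine ((lintegral_mono_set hsub).trans (lintegral_union_le _ _ _)).trans ?_
  rw [hrefl]
  refine (add_le_add hhalf hhalf).trans ?_
  rw [← ENNReal.ofReal_add (mul_nonneg hFz (by linarith)) (mul_nonneg hFz (by linarith))]
  apply ENNReal.ofReal_le_ofReal
  apply le_of_eq
  rw [hc]
  ring

/-- Symmetric concave functions: the bound at a point of the outer quarter. -/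
theorem sym_concave_outer_bound {F : ℝ → ℝ} {z0 z1 z : ℝ} (hFm : Measurable F)
    (hF0 : ∀ t ∈ Icc z0 z1, 0 ≤ F t) (hFc : ConcaveOn ℝ (Icc z0 z1) F)
    (hsym : ∀ t, F (z0 + z1 - t) = F t) (hz : (z0 + 3 * z1) / 4 ≤ z) (hz1 : z < z1) :
    ∫⁻ t in Icc z0 z1, ENNReal.ofReal (F t)
      ≤ ENNReal.ofReal (F z * ((z1 - z0) ^ 2 / (4 * (z1 - z)))) := by
  obtain ⟨c, hc⟩ : ∃ c : ℝ, c = (z0 + z1) / 2 := ⟨_, rfl⟩
  have h01 : z0 < z1 := by linarith
  have hc0 : z0 ≤ c := by rw [hc]; linarith
  have hc1 : c ≤ z1 := by rw [hc]; linarith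
  have hzI : z ∈ Icc z0 z1 := ⟨by linarith, by linarith⟩
  have hFz : 0 ≤ F z := hF0 z hzI
  have hpos : 0 < z1 - z := by linarith
  have hGc : ConcaveOn ℝ (Icc c z1) (fun t => F (c + z1 - t)) := by
    refine ⟨convex_Icc _ _, ?_⟩
    intro x hx y hy a b ha hb hab
    have hx' : c + z1 - x ∈ Icc z0 z1 := ⟨by linarith [hx.2], by linarith [hx.1]⟩
    have hy' : c + z1 - y ∈ Icc z0 z1 := ⟨by linarith [hy.2], by linarith [hy.1]⟩
    have := hFc.2 hx' hy' ha hb hab
    simp only [smul_eq_mul] at this ⊢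
    have e : c + z1 - (a * x + b * y) = a * (c + z1 - x) + b * (c + z1 - y) := by
      linear_combination (-(c + z1)) * hab
    rw [e]
    exact this
  have hb := concave_left_bound (F := fun t => F (c + z1 - t)) (z0 := c) (z1 := z1)
    (z := c + z1 - z) (hFm.comp (by fun_prop))
    (fun t ht => hF0 _ ⟨by linarith [ht.2], by linarith [ht.1]⟩) hGc (by linarith)
    (by linarith)
  beta_reduce at hb
  rw [setLIntegral_reflect F c z1] at hb
  have e1 : c + z1 - (c + z1 - z) = z := by ring
  have e2 : c + z1 - z - c = z1 - z := by ring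
  rw [e1, e2] at hb
  have hsub : Icc z0 z1 ⊆ Icc z0 c ∪ Icc c z1 := by
    intro t ht
    rcases le_total t c with h | h
    · exact Or.inl ⟨ht.1, h⟩
    · exact Or.inr ⟨h, ht.2⟩
  have hrefl := setLIntegral_reflect_half F z0 z1 hsym
  rw [← hc] at hrefl
  refine ((lintegral_mono_set hsub).trans (lintegral_union_le _ _ _)).trans ?_
  rw [hrefl]
  refine (add_le_add hb hb).trans ?_
  have hn : 0 ≤ F z * ((z1 - c) ^ 2 / (2 * (z1 - z))) := mul_nonneg hFz (by positivity)
  rw [← ENNReal.ofReal_add hn hn]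
  apply ENNReal.ofReal_le_ofReal
  apply le_of_eq
  rw [hc]
  field_simp
  ring

end onedim

section planar

/-- For a planar compact convex set which is centrally symmetric, the horizontal section at
height `z` has length at least `4 m / (z1 - z0)²` times the area, where `m` is at most the
distance of `z` to the ends of the height range `[z0, z1]` and at most a quarter of its
length. -/
theorem sec_ge_of_area_sym {P : Set (ℝ × ℝ)} (hPc : IsCompact P) (hP : Convex ℝ P) {z0 z1 : ℝ}
    (h01 : z0 < z1) (hZ : Prod.snd '' P = Icc z0 z1) (p₀ : ℝ)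
    (hsym : ∀ x ∈ P, (2 * p₀ - x.1, z0 + z1 - x.2) ∈ P) {z m : ℝ} (hm0 : 0 ≤ m)
    (hm1 : m ≤ z - z0) (hm2 : m ≤ z1 - z) (hm3 : m ≤ (z1 - z0) / 4) :
    4 * m / (z1 - z0) ^ 2 * (volume P).toReal ≤ (volume (sec P z)).toReal := by
  obtain ⟨f, hf⟩ : ∃ f : ℝ → ℝ, f = fun t => (volume (sec P t)).toReal := ⟨_, rfl⟩
  have hfz : (volume (sec P z)).toReal = f z := by rw [hf]
  rw [hfz]
  have hfm : Measurable f := by
    rw [hf]; exact (measurable_volume_sec hPc.measurableSet).ennreal_toReal
  have hf0 : ∀ t, 0 ≤ f t := by intro t; rw [hf]; exact ENNReal.toReal_nonneg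
  have hfc : ConcaveOn ℝ (Icc z0 z1) f := by rw [hf]; exact concaveOn_volume_sec hPc hP hZ
  have hvol : volume P = ∫⁻ t in Icc z0 z1, ENNReal.ofReal (f t) := by
    rw [volume_eq_lintegral_sec hPc.measurableSet, ← lintegral_indicator measurableSet_Icc]
    apply lintegral_congr
    intro t
    by_cases ht : t ∈ Icc z0 z1
    · rw [indicator_of_mem ht, hf]
      exact (ENNReal.ofReal_toReal (volume_sec_ne_top hPc t)).symm
    · rw [indicator_of_notMem ht, sec_empty_of_notMem (by rw [hZ]; exact ht), measure_empty]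
  have hfsym : ∀ t, f (z0 + z1 - t) = f t := by
    intro t
    have e : sec P (z0 + z1 - t) = (fun s => 2 * p₀ - s) ⁻¹' (sec P t) := by
      ext s
      simp only [mem_sec, mem_preimage]
      constructor
      · intro h
        have h' := hsym _ h
        simp only at h'
        have e1 : z0 + z1 - (z0 + z1 - t) = t := by ring
        rw [e1] at h'
        exact h'
      · intro h
        have h' := hsym _ h
        simp only at h'
        have e1 : 2 * p₀ - (2 * p₀ - s) = s := by ring
        rw [e1] at h'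
        exact h'
    rw [hf]
    simp only
    rw [e, (volume.measurePreserving_sub_left (2 * p₀)).measure_preimage
      (isCompact_sec hPc t).measurableSet.nullMeasurableSet]
  have hΔ : 0 < z1 - z0 := by linarith
  have hzI : z ∈ Icc z0 z1 := ⟨by linarith, by linarith⟩
  have hmain : ∀ y, (z0 + z1) / 2 ≤ y → m ≤ z1 - y → y ≤ z1 →
      4 * m / (z1 - z0) ^ 2 * (volume P).toReal ≤ f y := by
    intro y hy hmy hy1
    have hfy : 0 ≤ f y := hf0 y
    have hcoef : (0 : ℝ) ≤ 4 * m / (z1 - z0) ^ 2 :=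
      div_nonneg (mul_nonneg (by norm_num) hm0) (sq_nonneg _)
    rcases le_total y ((z0 + 3 * z1) / 4) with hcase | hcase
    · have hb := sym_concave_mid_bound h01.le hfm (fun t _ => hf0 t) hfc hfsym hy hcase
      rw [← hvol] at hb
      have h1 : (volume P).toReal ≤ f y * (z1 - z0) :=
        ENNReal.toReal_le_of_le_ofReal (mul_nonneg hfy hΔ.le) hb
      have h2 : 4 * m / (z1 - z0) ^ 2 * (volume P).toReal
          ≤ 4 * m / (z1 - z0) ^ 2 * (f y * (z1 - z0)) := mul_le_mul_of_nonneg_left h1 hcoef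
      have e : 4 * m / (z1 - z0) ^ 2 * (f y * (z1 - z0)) = (4 * m / (z1 - z0)) * f y := by
        field_simp
      have h3 : 4 * m / (z1 - z0) ≤ 1 := by rw [div_le_one hΔ]; linarith
      have h4 : (4 * m / (z1 - z0)) * f y ≤ 1 * f y := mul_le_mul_of_nonneg_right h3 hfy
      linarith
    · rcases hy1.eq_or_lt with h | h
      · have hm : m = 0 := by linarith
        rw [hm, mul_zero, zero_div, zero_mul]
        exact hfy
      · have hb := sym_concave_outer_bound hfm (fun t _ => hf0 t) hfc hfsym hcase h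
        rw [← hvol] at hb
        have hpos : 0 < z1 - y := by linarith
        have h1 : (volume P).toReal ≤ f y * ((z1 - z0) ^ 2 / (4 * (z1 - y))) :=
          ENNReal.toReal_le_of_le_ofReal (mul_nonneg hfy (by positivity)) hb
        have h2 : 4 * m / (z1 - z0) ^ 2 * (volume P).toReal
            ≤ 4 * m / (z1 - z0) ^ 2 * (f y * ((z1 - z0) ^ 2 / (4 * (z1 - y)))) :=
          mul_le_mul_of_nonneg_left h1 hcoef
        have e : 4 * m / (z1 - z0) ^ 2 * (f y * ((z1 - z0) ^ 2 / (4 * (z1 - y))))
            = (m / (z1 - y)) * f y := by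
          field_simp
        have h3 : m / (z1 - y) ≤ 1 := by rw [div_le_one hpos]; exact hmy
        have h4 : (m / (z1 - y)) * f y ≤ 1 * f y := mul_le_mul_of_nonneg_right h3 hfy
        linarith
  rcases le_total ((z0 + z1) / 2) z with hzc | hzc
  · exact hmain z hzc hm2 hzI.2
  · have h := hmain (z0 + z1 - z) (by linarith) (by linarith) (by linarith)
    rw [hfsym] at h
    exact h

end planar

section tent

/-- The tent function on `[u, v]`. -/
def tent (u v z : ℝ) : ℝ := max (min (z - u) (v - z)) 0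

theorem tent_nonneg (u v z : ℝ) : 0 ≤ tent u v z := le_max_right _ _

theorem tent_eq_zero {u v z : ℝ} (hz : z ∉ Icc u v) : tent u v z = 0 := by
  unfold tent
  apply max_eq_right
  by_contra hcon
  push Not at hcon
  exact hz ⟨by linarith [(lt_min_iff.mp hcon).1], by linarith [(lt_min_iff.mp hcon).2]⟩

theorem tent_of_mem {u v z : ℝ} (hz : z ∈ Icc u v) : tent u v z = min (z - u) (v - z) := by
  unfold tent
  exact max_eq_left (le_min (by linarith [hz.1]) (by linarith [hz.2]))

theorem continuous_tent (u v : ℝ) : Continuous (tent u v) := by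
  unfold tent
  exact ((continuous_id.sub continuous_const).min
    (continuous_const.sub continuous_id)).max continuous_const

theorem tent_concave (k u v : ℝ) (hk : 0 ≤ k) :
    ConcaveOn ℝ (Icc u v) (fun z => k * tent u v z) := by
  refine ⟨convex_Icc _ _, ?_⟩
  intro x hx y hy a' b' ha hb hab'
  have hxy : a' • x + b' • y ∈ Icc u v := (convex_Icc u v) hx hy ha hb hab'
  simp only
  rw [tent_of_mem hx, tent_of_mem hy, tent_of_mem hxy]
  simp only [smul_eq_mul]
  have h1 : a' * min (x - u) (v - x) + b' * min (y - u) (v - y)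
      ≤ min (a' * x + b' * y - u) (v - (a' * x + b' * y)) := by
    apply le_min
    · have e : a' * x + b' * y - u = a' * (x - u) + b' * (y - u) := by
        linear_combination u * hab'
      rw [e]
      exact add_le_add (mul_le_mul_of_nonneg_left (min_le_left _ _) ha)
        (mul_le_mul_of_nonneg_left (min_le_left _ _) hb)
    · have e : v - (a' * x + b' * y) = a' * (v - x) + b' * (v - y) := by
        linear_combination (-v) * hab'
      rw [e]
      exact add_le_add (mul_le_mul_of_nonneg_left (min_le_right _ _) ha)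
        (mul_le_mul_of_nonneg_left (min_le_right _ _) hb)
  calc a' * (k * min (x - u) (v - x)) + b' * (k * min (y - u) (v - y))
      = k * (a' * min (x - u) (v - x) + b' * min (y - u) (v - y)) := by ring
    _ ≤ k * min (a' * x + b' * y - u) (v - (a' * x + b' * y)) :=
      mul_le_mul_of_nonneg_left h1 hk

theorem lintegral_tent_ge (k u v : ℝ) (hk : 0 ≤ k) (huv : u ≤ v) :
    ENNReal.ofReal (k * ((v - u) / 2) * ((v - u) / 2))
      ≤ ∫⁻ z, ENNReal.ofReal (k * tent u v z) := by
  have hMm : Measurable (fun z : ℝ => k * tent u v z) :=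
    (continuous_const.mul (continuous_tent u v)).measurable
  have hM0 : ∀ z : ℝ, 0 ≤ k * tent u v z := fun z => mul_nonneg hk (tent_nonneg u v z)
  have h := lintegral_ge_mid huv hMm hM0 (tent_concave k u v hk)
  refine le_trans (le_of_eq ?_) h
  have hmid : (u + v) / 2 ∈ Icc u v := ⟨by linarith, by linarith⟩
  rw [tent_of_mem hmid]
  have e1 : min ((u + v) / 2 - u) (v - (u + v) / 2) = (v - u) / 2 := by
    rw [min_eq_left (by linarith)]; ring
  rw [e1]

end tent

section core

/-- The coordinate form of the three-quarter inequality for centrally symmetric bodies and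
coplanar axes. -/
theorem coplanar_core_sym {ι : Type*} [Fintype ι] (K : Set (ℝ × ℝ × ℝ)) (hK : Convex ℝ K)
    (hKc : IsCompact K) (c : ℝ × ℝ × ℝ)
    (hsym : ∀ x ∈ K, (2 * c.1 - x.1, 2 * c.2.1 - x.2.1, 2 * c.2.2 - x.2.2) ∈ K)
    (a b : ι → ℝ) (hab : ∀ i, a i ^ 2 + b i ^ 2 = 1)
    (S : ι → Set (ℝ × ℝ)) (hS : ∀ i, MeasurableSet (S i))
    (hcov : ∀ x ∈ K, ∃ i, (a i * x.1 + b i * x.2.1, x.2.2) ∈ S i)
    (A : ENNReal)
    (hA : ∀ α β : ℝ, α ^ 2 + β ^ 2 = 1 →
      A ≤ volume ((fun x : ℝ × ℝ × ℝ => (α * x.1 + β * x.2.1, x.2.2)) '' K)) :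
    3 * A ≤ 4 * ∑ i, volume (S i) := by
  rcases K.eq_empty_or_nonempty with hKe | hKne
  · have h := hA 1 0 (by norm_num)
    rw [hKe, image_empty, measure_empty] at h
    have hA0 : A = 0 := le_antisymm h zero_le
    rw [hA0]
    simp
  have hproj : ∀ α β : ℝ,
      IsCompact ((fun x : ℝ × ℝ × ℝ => (α * x.1 + β * x.2.1, x.2.2)) '' K) ∧
      Convex ℝ ((fun x : ℝ × ℝ × ℝ => (α * x.1 + β * x.2.1, x.2.2)) '' K) ∧
      Prod.snd '' ((fun x : ℝ × ℝ × ℝ => (α * x.1 + β * x.2.1, x.2.2)) '' K)
        = (fun x : ℝ × ℝ × ℝ => x.2.2) '' K := by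
    intro α β
    refine ⟨hKc.image (by fun_prop), ?_, ?_⟩
    · apply hK.is_linear_image
      constructor
      · intro x y
        ext
        · simp only [Prod.fst_add, Prod.snd_add]; ring
        · simp only [Prod.snd_add]
      · intro c x
        ext
        · simp only [Prod.smul_fst, Prod.smul_snd, smul_eq_mul]; ring
        · simp only [Prod.smul_snd, smul_eq_mul]
    · rw [image_image]
  have hZc : IsCompact ((fun x : ℝ × ℝ × ℝ => x.2.2) '' K) := hKc.image (by fun_prop)
  have hZconv : Convex ℝ ((fun x : ℝ × ℝ × ℝ => x.2.2) '' K) := by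
    apply hK.is_linear_image
    constructor
    · intro x y; simp
    · intro c x; simp
  obtain ⟨z0, z1, h01, hZ⟩ := exists_Icc_aux hZc hZconv (hKne.image _)
  have hAfin : A ≠ ⊤ :=
    ne_top_of_le_ne_top (hproj 1 0).1.measure_lt_top.ne (hA 1 0 (by norm_num))
  rcases h01.eq_or_lt with h01 | h01
  · have h := hA 1 0 (by norm_num)
    have hsub : (fun x : ℝ × ℝ × ℝ => ((1 : ℝ) * x.1 + (0 : ℝ) * x.2.1, x.2.2)) '' K
        ⊆ (univ : Set ℝ) ×ˢ ({z0} : Set ℝ) := by
      rintro _ ⟨x, hx, rfl⟩
      refine ⟨mem_univ _, ?_⟩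
      have hmem : x.2.2 ∈ (fun x : ℝ × ℝ × ℝ => x.2.2) '' K := ⟨x, hx, rfl⟩
      rw [hZ, ← h01] at hmem
      simpa using hmem
    have hzero : volume ((univ : Set ℝ) ×ˢ ({z0} : Set ℝ)) = 0 := by
      rw [Measure.volume_eq_prod, Measure.prod_prod]
      simp
    have hA0 : A = 0 := le_antisymm (h.trans ((measure_mono hsub).trans hzero.le)) zero_le
    rw [hA0]
    simp
  · -- the height range is symmetric about the centre
    have hcz : z0 + z1 = 2 * c.2.2 := by
      have hz0 : z0 ∈ (fun x : ℝ × ℝ × ℝ => x.2.2) '' K := by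
        rw [hZ]; exact left_mem_Icc.mpr h01.le
      have hz1 : z1 ∈ (fun x : ℝ × ℝ × ℝ => x.2.2) '' K := by
        rw [hZ]; exact right_mem_Icc.mpr h01.le
      obtain ⟨x, hx, hxz⟩ := hz0
      obtain ⟨y, hy, hyz⟩ := hz1
      have h1 : 2 * c.2.2 - x.2.2 ∈ (fun x : ℝ × ℝ × ℝ => x.2.2) '' K := ⟨_, hsym x hx, rfl⟩
      have h2 : 2 * c.2.2 - y.2.2 ∈ (fun x : ℝ × ℝ × ℝ => x.2.2) '' K := ⟨_, hsym y hy, rfl⟩
      rw [hZ] at h1 h2
      simp only at hxz hyz
      rw [hxz] at h1
      rw [hyz] at h2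
      linarith [h1.2, h2.1]
    obtain ⟨A', hA'⟩ : ∃ A' : ℝ, A' = A.toReal := ⟨_, rfl⟩
    have hA'0 : 0 ≤ A' := by rw [hA']; exact ENNReal.toReal_nonneg
    have hΔ : 0 < z1 - z0 := by linarith
    obtain ⟨k, hk⟩ : ∃ k : ℝ, k = 2 * A' / (z1 - z0) ^ 2 := ⟨_, rfl⟩
    have hk0 : 0 ≤ k := by rw [hk]; positivity
    obtain ⟨cm, hcm⟩ : ∃ cm : ℝ, cm = (z0 + z1) / 2 := ⟨_, rfl⟩
    have hcm0 : z0 ≤ cm := by rw [hcm]; linarith
    have hcm1 : cm ≤ z1 := by rw [hcm]; linarith
    have hmain : ∫⁻ z, ENNReal.ofReal (k * tent z0 z1 z + k * tent z0 cm z + k * tent cm z1 z)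
        ≤ ∑ i, volume (S i) := by
      apply coplanar_slices K hK hKc a b hab S hS hcov
      · intro z hz α β hαβ
        have hzI : z ∈ Icc z0 z1 := by
          rw [← hZ]
          obtain ⟨x, hx, hxz⟩ := hz
          exact ⟨x, hx, hxz⟩
        obtain ⟨hPc, hPconv, hPZ⟩ := hproj α β
        rw [hZ] at hPZ
        have hPsym : ∀ y ∈ (fun x : ℝ × ℝ × ℝ => (α * x.1 + β * x.2.1, x.2.2)) '' K,
            (2 * (α * c.1 + β * c.2.1) - y.1, z0 + z1 - y.2)
              ∈ (fun x : ℝ × ℝ × ℝ => (α * x.1 + β * x.2.1, x.2.2)) '' K := by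
          rintro _ ⟨x, hx, rfl⟩
          refine ⟨_, hsym x hx, ?_⟩
          simp only
          rw [hcz]
          ext
          · simp only; ring
          · simp only
        obtain ⟨m, hm⟩ : ∃ m : ℝ,
            m = (tent z0 z1 z + tent z0 cm z + tent cm z1 z) / 2 := ⟨_, rfl⟩
        have hm0 : 0 ≤ m := by
          rw [hm]
          have := tent_nonneg z0 z1 z
          have := tent_nonneg z0 cm z
          have := tent_nonneg cm z1 z
          linarith
        have hz0' := hzI.1
        have hz1' := hzI.2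
        have hm1 : m ≤ z - z0 := by
          rw [hm]
          unfold tent
          simp only [min_def, max_def]
          split_ifs <;> linarith
        have hm2 : m ≤ z1 - z := by
          rw [hm]
          unfold tent
          simp only [min_def, max_def]
          split_ifs <;> linarith
        have hm3 : m ≤ (z1 - z0) / 4 := by
          rw [hm]
          unfold tent
          simp only [min_def, max_def]
          split_ifs <;> linarith
        have h1 := sec_ge_of_area_sym hPc hPconv h01 hPZ (α * c.1 + β * c.2.1) hPsym hm0 hm1 hm2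
          hm3
        have h2 : A' ≤
            (volume ((fun x : ℝ × ℝ × ℝ => (α * x.1 + β * x.2.1, x.2.2)) '' K)).toReal := by
          rw [hA']
          exact ENNReal.toReal_mono hPc.measure_lt_top.ne (hA α β hαβ)
        refine le_trans ?_ h1
        have e : k * tent z0 z1 z + k * tent z0 cm z + k * tent cm z1 z
            = 4 * m / (z1 - z0) ^ 2 * A' := by
          rw [hm, hk]
          field_simp
          ring
        rw [e]
        exact mul_le_mul_of_nonneg_left h2
          (div_nonneg (mul_nonneg (by norm_num) hm0) (sq_nonneg _))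
      · intro z hz
        have hzI : z ∉ Icc z0 z1 := by
          intro h
          rw [← hZ] at h
          obtain ⟨x, hx, hxz⟩ := h
          exact hz ⟨x, hx, hxz⟩
        have h1 : tent z0 z1 z = 0 := tent_eq_zero hzI
        have h2 : tent z0 cm z = 0 :=
          tent_eq_zero (fun h => hzI ⟨h.1, h.2.trans hcm1⟩)
        have h3 : tent cm z1 z = 0 :=
          tent_eq_zero (fun h => hzI ⟨hcm0.trans h.1, h.2⟩)
        rw [h1, h2, h3]
        simp
    have hint : ENNReal.ofReal (3 * A' / 4)
        ≤ ∫⁻ z, ENNReal.ofReal (k * tent z0 z1 z + k * tent z0 cm z + k * tent cm z1 z) := by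
      have hT : ∀ u v : ℝ, Measurable (fun z : ℝ => ENNReal.ofReal (k * tent u v z)) :=
        fun u v => (continuous_const.mul (continuous_tent u v)).measurable.ennreal_ofReal
      have hnn : ∀ u v z : ℝ, 0 ≤ k * tent u v z :=
        fun u v z => mul_nonneg hk0 (tent_nonneg u v z)
      have e : ∀ z : ℝ, ENNReal.ofReal (k * tent z0 z1 z + k * tent z0 cm z + k * tent cm z1 z)
          = ENNReal.ofReal (k * tent z0 z1 z) + ENNReal.ofReal (k * tent z0 cm z)
            + ENNReal.ofReal (k * tent cm z1 z) := by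
        intro z
        rw [ENNReal.ofReal_add (add_nonneg (hnn _ _ _) (hnn _ _ _)) (hnn _ _ _),
          ENNReal.ofReal_add (hnn _ _ _) (hnn _ _ _)]
      simp_rw [e]
      have hm12 : Measurable (fun z : ℝ => ENNReal.ofReal (k * tent z0 z1 z)
          + ENNReal.ofReal (k * tent z0 cm z)) := (hT z0 z1).add (hT z0 cm)
      rw [lintegral_add_left hm12, lintegral_add_left (hT z0 z1)]
      have h1 := lintegral_tent_ge k z0 z1 hk0 h01.le
      have h2 := lintegral_tent_ge k z0 cm hk0 hcm0
      have h3 := lintegral_tent_ge k cm z1 hk0 hcm1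
      refine le_trans (le_of_eq ?_) (add_le_add (add_le_add h1 h2) h3)
      have n1 : 0 ≤ k * ((z1 - z0) / 2) * ((z1 - z0) / 2) :=
        mul_nonneg (mul_nonneg hk0 (by linarith)) (by linarith)
      have n2 : 0 ≤ k * ((cm - z0) / 2) * ((cm - z0) / 2) :=
        mul_nonneg (mul_nonneg hk0 (by linarith)) (by linarith)
      have n3 : 0 ≤ k * ((z1 - cm) / 2) * ((z1 - cm) / 2) :=
        mul_nonneg (mul_nonneg hk0 (by linarith)) (by linarith)
      rw [← ENNReal.ofReal_add n1 n2, ← ENNReal.ofReal_add (add_nonneg n1 n2) n3]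
      congr 1
      rw [hk, hcm]
      field_simp
      ring
    have hfin := hint.trans hmain
    have hAeq : A = ENNReal.ofReal A' := by rw [hA', ENNReal.ofReal_toReal hAfin]
    have e3 : (3 : ENNReal) * A = 4 * ENNReal.ofReal (3 * A' / 4) := by
      rw [hAeq]
      have e31 : (3 : ENNReal) = ENNReal.ofReal 3 := by simp
      have e41 : (4 : ENNReal) = ENNReal.ofReal 4 := by simp
      rw [e31, e41, ← ENNReal.ofReal_mul (by norm_num), ← ENNReal.ofReal_mul (by norm_num)]
      congr 1
      ring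
    rw [e3]
    gcongr

end core

end Vale.Agent.Helper11
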