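import Mathlib

/-!
# Algebraic core of the planar two-plank lemma (normalized to the unit square)
-/

namespace Vale.Agent.Helper11

/-- Sum-of-four certificate. -/
theorem core_sum4 {a b e f p r s q : ℝ}
    (hLL : a * s + e * p ≤ p * s) (hLR : b * q + e * (1 - p) ≤ (1 - p) * q)
    (hUR : b * (1 - q) + f * (1 - r) ≤ (1 - r) * (1 - q))
    (hUL : a * (1 - s) + f * r ≤ r * (1 - s))
    (h : (p - r) * (s - q) ≤ 0) : a + b + e + f ≤ 1 := by
  nlinarith [hLL, hLR, hUR, hUL, h]

/-- Diagonal-like case `p < r`, `s < q`. -/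
theorem core_diag {a b e f p r s q : ℝ}
    (ha : 0 ≤ a) (hb : 0 ≤ b) (he : 0 ≤ e) (hf : 0 ≤ f)
    (hes : e ≤ s) (hsf : s ≤ 1 - f) (heq : e ≤ q) (hqf : q ≤ 1 - f)
    (hap : a ≤ p) (hpb : p ≤ 1 - b) (har : a ≤ r) (hrb : r ≤ 1 - b)
    (hLL : a * s + e * p ≤ p * s) (hLR : b * q + e * (1 - p) ≤ (1 - p) * q)
    (hUR : b * (1 - q) + f * (1 - r) ≤ (1 - r) * (1 - q))
    (hUL : a * (1 - s) + f * r ≤ r * (1 - s))
    (hpr : p < r) (hsq : s < q) : a + b + e + f ≤ 1 := by
  have hp0 : 0 ≤ p := ha.trans hap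
  have hr0 : 0 ≤ r := ha.trans har
  have hs0 : 0 ≤ s := he.trans hes
  have hq0 : 0 < q := lt_of_le_of_lt hs0 hsq
  have hW : 0 ≤ 1 - e - f := by linarith
  have h1p : 0 ≤ 1 - p := by linarith
  have h1r : 0 ≤ 1 - r := by linarith
  by_cases hA : f * q ≤ e * (1 - q)
  · -- sub-case A
    have hA' : f * s ≤ e * (1 - s) := by nlinarith
    rcases hs0.eq_or_lt with hs | hs
    · -- s = 0, hence e = 0 and f = 0
      have he0 : e = 0 := by linarith
      have hf0 : f = 0 := by
        have : f * q ≤ 0 := by rw [he0] at hA; simpa using hA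
        by_contra hne
        have hfpos : 0 < f := lt_of_le_of_ne hf (Ne.symm hne)
        nlinarith
      linarith
    · have h1 : a * s ≤ p * (1 - e - f) * s := by
        nlinarith [mul_nonneg hp0 (sub_nonneg.mpr hA')]
      have h2 : a ≤ p * (1 - e - f) := le_of_mul_le_mul_right h1 hs
      have h3 : b * q ≤ (1 - p) * (1 - e - f) * q := by
        nlinarith [mul_nonneg h1p (sub_nonneg.mpr hA)]
      have h4 : b ≤ (1 - p) * (1 - e - f) := le_of_mul_le_mul_right h3 hq0
      linarith
  · have hA : e * (1 - q) < f * q := not_le.mp hA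
    have hfpos : 0 < f := by
      by_contra hne
      have hf0 : f = 0 := le_antisymm (not_lt.mp hne) hf
      rw [hf0] at hA
      nlinarith
    have h1q : 0 < 1 - q := by linarith
    -- bound on b from UR
    have h3 : b * (1 - q) ≤ (1 - r) * (1 - e - f) * (1 - q) := by
      nlinarith [mul_nonneg h1r (sub_nonneg.mpr hA.le)]
    have h4 : b ≤ (1 - r) * (1 - e - f) := le_of_mul_le_mul_right h3 h1q
    have h1s : 0 < 1 - s := by linarith
    by_cases hB : e * (1 - s) < f * s
    · -- sub-case B
      have h1 : a * (1 - s) ≤ r * (1 - e - f) * (1 - s) := by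
        nlinarith [mul_nonneg hr0 (sub_nonneg.mpr hB.le)]
      have h2 : a ≤ r * (1 - e - f) := le_of_mul_le_mul_right h1 h1s
      linarith
    · -- sub-case C
      have hB : f * s ≤ e * (1 - s) := not_lt.mp hB
      rcases hs0.eq_or_lt with hs | hs
      · have he0 : e = 0 := by linarith
        have h2 : a ≤ r * (1 - e - f) := by
          rw [← hs] at hUL
          rw [he0]
          linarith
        linarith
      · have h1 : a * s ≤ p * (1 - e - f) * s := by
          nlinarith [mul_nonneg hp0 (sub_nonneg.mpr hB)]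
        have h2 : a ≤ p * (1 - e - f) := le_of_mul_le_mul_right h1 hs
        nlinarith [mul_nonneg (sub_nonneg.mpr hpr.le) hW]

/-- The normalized two-plank inequality: margins `a, b` (left, right) and `e, f` (bottom, top)
of a cross covering the quadrilateral with vertices `(0,s), (p,0), (1,q), (r,1)`. -/
theorem core {a b e f p r s q : ℝ}
    (ha : 0 ≤ a) (hb : 0 ≤ b) (he : 0 ≤ e) (hf : 0 ≤ f)
    (hes : e ≤ s) (hsf : s ≤ 1 - f) (heq : e ≤ q) (hqf : q ≤ 1 - f)
    (hap : a ≤ p) (hpb : p ≤ 1 - b) (har : a ≤ r) (hrb : r ≤ 1 - b)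
    (hLL : a * s + e * p ≤ p * s) (hLR : b * q + e * (1 - p) ≤ (1 - p) * q)
    (hUR : b * (1 - q) + f * (1 - r) ≤ (1 - r) * (1 - q))
    (hUL : a * (1 - s) + f * r ≤ r * (1 - s)) : a + b + e + f ≤ 1 := by
  by_cases h : (p - r) * (s - q) ≤ 0
  · exact core_sum4 hLL hLR hUR hUL h
  · have h : 0 < (p - r) * (s - q) := not_le.mp h
    rcases lt_trichotomy p r with hpr | hpr | hpr
    · have hsq : s < q := by
        by_contra hc
        have : 0 ≤ s - q := by linarith
        nlinarith
      exact core_diag ha hb he hf hes hsf heq hqf hap hpb har hrb hLL hLR hUR hUL hpr hsq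
    · rw [hpr] at h; simp at h
    · have hsq : q < s := by
        by_contra hc
        have : s - q ≤ 0 := by linarith
        nlinarith
      have := core_diag (a := b) (b := a) (e := e) (f := f) (p := 1 - p) (r := 1 - r)
        (s := q) (q := s) hb ha he hf heq hqf hes hsf (by linarith) (by linarith) (by linarith)
        (by linarith) (by nlinarith) (by nlinarith) (by nlinarith) (by nlinarith) (by linarith) hsq
      linarith

end Vale.Agent.Helper11
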