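import Mathlib

/-!
# Horizontal sections of compact convex planar sets
-/

namespace Vale.Agent.Helper11

open Set MeasureTheory

/-- Horizontal section of a planar set at height `z`. -/
def sec (S : Set (ℝ × ℝ)) (z : ℝ) : Set ℝ := (fun t : ℝ => (t, z)) ⁻¹' S

theorem mem_sec {S : Set (ℝ × ℝ)} {z t : ℝ} : t ∈ sec S z ↔ (t, z) ∈ S := Iff.rfl

theorem volume_eq_lintegral_sec {S : Set (ℝ × ℝ)} (hS : MeasurableSet S) :
    volume S = ∫⁻ z, volume (sec S z) := by
  rw [Measure.volume_eq_prod, Measure.prod_apply_symm hS]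
  rfl

theorem measurable_volume_sec {S : Set (ℝ × ℝ)} (hS : MeasurableSet S) :
    Measurable fun z => volume (sec S z) :=
  measurable_measure_prodMk_right hS

theorem sec_eq_image (S : Set (ℝ × ℝ)) (z : ℝ) :
    sec S z = Prod.fst '' (S ∩ {q : ℝ × ℝ | q.2 = z}) := by
  ext t
  constructor
  · intro ht
    exact ⟨(t, z), ⟨ht, rfl⟩, rfl⟩
  · rintro ⟨q, ⟨hq, hq2⟩, rfl⟩
    have : q = (q.1, z) := by rw [← hq2]
    rw [mem_sec, ← this]
    exact hq

theorem isCompact_sec {P : Set (ℝ × ℝ)} (hP : IsCompact P) (z : ℝ) : IsCompact (sec P z) := by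
  rw [sec_eq_image]
  exact (hP.inter_right (isClosed_eq continuous_snd continuous_const)).image continuous_fst

theorem ordConnected_sec {P : Set (ℝ × ℝ)} (hP : Convex ℝ P) (z : ℝ) : (sec P z).OrdConnected := by
  apply Convex.ordConnected
  intro t ht t' ht' a b ha hb hab
  have := hP ht ht' ha hb hab
  rw [mem_sec]
  convert this using 1
  ext
  · simp
  · simp only [Prod.snd_add, Prod.smul_snd, smul_eq_mul]
    rw [← add_mul, hab, one_mul]

theorem sec_empty_of_notMem {P : Set (ℝ × ℝ)} {z : ℝ} (hz : z ∉ Prod.snd '' P) : sec P z = ∅ := by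
  ext t
  simp only [mem_empty_iff_false, iff_false]
  intro ht
  exact hz ⟨(t, z), ht, rfl⟩

theorem sec_nonempty_of_mem {P : Set (ℝ × ℝ)} {z : ℝ} (hz : z ∈ Prod.snd '' P) :
    (sec P z).Nonempty := by
  obtain ⟨q, hq, hq2⟩ := hz
  refine ⟨q.1, ?_⟩
  rw [mem_sec, ← hq2]
  exact hq

theorem volume_sec_ne_top {P : Set (ℝ × ℝ)} (hP : IsCompact P) (z : ℝ) : volume (sec P z) ≠ ⊤ :=
  (isCompact_sec hP z).measure_lt_top.ne

theorem exists_Icc_aux {I : Set ℝ} (hc : IsCompact I) (hconv : Convex ℝ I)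
    (hne : I.Nonempty) : ∃ i0 i1 : ℝ, i0 ≤ i1 ∧ I = Icc i0 i1 := by
  obtain ⟨i0, hi0⟩ := hc.exists_isLeast hne
  obtain ⟨i1, hi1⟩ := hc.exists_isGreatest hne
  refine ⟨i0, i1, hi0.2 hi1.1, ?_⟩
  apply Subset.antisymm
  · intro x hx
    exact ⟨hi0.2 hx, hi1.2 hx⟩
  · exact hconv.ordConnected.out hi0.1 hi1.1

/-- Brunn–Minkowski in dimension one: the section length of a compact convex planar set is a
concave function on the projection of the set. -/
theorem concaveOn_volume_sec {P : Set (ℝ × ℝ)} (hPc : IsCompact P) (hP : Convex ℝ P)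
    {z0 z1 : ℝ} (hZ : Prod.snd '' P = Icc z0 z1) :
    ConcaveOn ℝ (Icc z0 z1) (fun z => (volume (sec P z)).toReal) := by
  refine ⟨convex_Icc z0 z1, ?_⟩
  intro z hz z' hz' a b ha hb hab
  rw [← hZ] at hz hz'
  have hconv : ∀ y : ℝ, Convex ℝ (sec P y) := fun y => (ordConnected_sec hP y).convex
  obtain ⟨u, v, huv, hsec⟩ := exists_Icc_aux (isCompact_sec hPc z) (hconv z)
    (sec_nonempty_of_mem hz)
  obtain ⟨u', v', huv', hsec'⟩ := exists_Icc_aux (isCompact_sec hPc z')
    (hconv z') (sec_nonempty_of_mem hz')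
  have hu : (u, z) ∈ P := by
    have : u ∈ sec P z := by rw [hsec]; exact left_mem_Icc.mpr huv
    exact this
  have hv : (v, z) ∈ P := by
    have : v ∈ sec P z := by rw [hsec]; exact right_mem_Icc.mpr huv
    exact this
  have hu' : (u', z') ∈ P := by
    have : u' ∈ sec P z' := by rw [hsec']; exact left_mem_Icc.mpr huv'
    exact this
  have hv' : (v', z') ∈ P := by
    have : v' ∈ sec P z' := by rw [hsec']; exact right_mem_Icc.mpr huv'
    exact this
  have h1 : a * u + b * u' ∈ sec P (a • z + b • z') := by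
    have := hP hu hu' ha hb hab
    rw [mem_sec]
    have e : (a * u + b * u', a • z + b • z') = a • (u, z) + b • (u', z') := by
      ext <;> simp
    rw [e]
    exact this
  have h2 : a * v + b * v' ∈ sec P (a • z + b • z') := by
    have := hP hv hv' ha hb hab
    rw [mem_sec]
    have e : (a * v + b * v', a • z + b • z') = a • (v, z) + b • (v', z') := by
      ext <;> simp
    rw [e]
    exact this
  have hsub : Icc (a * u + b * u') (a * v + b * v') ⊆ sec P (a • z + b • z') :=
    (ordConnected_sec hP _).out h1 h2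
  have hvol : ENNReal.ofReal ((a * v + b * v') - (a * u + b * u')) ≤
      volume (sec P (a • z + b • z')) := by
    rw [← Real.volume_Icc]
    exact measure_mono hsub
  have hle : (a * v + b * v') - (a * u + b * u') ≤ (volume (sec P (a • z + b • z'))).toReal := by
    have h3 : 0 ≤ (a * v + b * v') - (a * u + b * u') := by nlinarith
    have := ENNReal.toReal_mono (volume_sec_ne_top hPc _) hvol
    rwa [ENNReal.toReal_ofReal h3] at this
  have e1 : (volume (sec P z)).toReal = v - u := by
    rw [hsec, Real.volume_Icc, ENNReal.toReal_ofReal (by linarith)]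
  have e2 : (volume (sec P z')).toReal = v' - u' := by
    rw [hsec', Real.volume_Icc, ENNReal.toReal_ofReal (by linarith)]
  simp only [smul_eq_mul]
  rw [e1, e2]
  simp only [smul_eq_mul] at hle
  linarith

end Vale.Agent.Helper11
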