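import Vale.Agent.Helper11.TwoPlank
import Vale.Agent.Helper11.Concave1D
import Vale.Agent.Helper11.Slices

/-!
# Coverings of a convex body in `ℝ³` by two cylinders with axes along the first two coordinate
directions
-/

namespace Vale.Agent.Helper11

open Set MeasureTheory

theorem ennreal_aux {m w β W : ENNReal} (hw0 : w ≠ 0) (hwt : w ≠ ⊤) (hm : m ≤ w / W) :
    m * (β / w) ≤ β / W := by
  calc m * (β / w) ≤ (w / W) * (β / w) := mul_le_mul_left hm _
    _ = (w * w⁻¹) * (β * W⁻¹) := by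
        rw [div_eq_mul_inv, div_eq_mul_inv]; ring
    _ = β / W := by rw [ENNReal.mul_inv_cancel hw0 hwt, one_mul, div_eq_mul_inv]

section density

variable {P : Set (ℝ × ℝ)}

/-- The normalized section-length density of a planar set. -/
noncomputable def dens (P : Set (ℝ × ℝ)) (z : ℝ) : ℝ :=
  (volume (sec P z)).toReal / (volume P).toReal

theorem dens_nonneg (z : ℝ) : 0 ≤ dens P z :=
  div_nonneg ENNReal.toReal_nonneg ENNReal.toReal_nonneg

theorem measurable_dens (hPc : IsCompact P) : Measurable (dens P) := by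
  unfold dens
  exact ((measurable_volume_sec hPc.isClosed.measurableSet).ennreal_toReal).div_const _

theorem dens_out {z0 z1 : ℝ} (hZ : Prod.snd '' P = Icc z0 z1) (z : ℝ) (hz : z ∉ Icc z0 z1) :
    dens P z = 0 := by
  rw [← hZ] at hz
  unfold dens
  rw [sec_empty_of_notMem hz]
  simp

theorem concaveOn_dens (hPc : IsCompact P) (hP : Convex ℝ P) {z0 z1 : ℝ}
    (hZ : Prod.snd '' P = Icc z0 z1) : ConcaveOn ℝ (Icc z0 z1) (dens P) := by
  have h := (concaveOn_volume_sec hPc hP hZ).smul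
    (inv_nonneg.mpr (ENNReal.toReal_nonneg (a := volume P)))
  refine h.congr ?_
  intro z _
  simp only [dens, smul_eq_mul]
  rw [div_eq_inv_mul]

theorem ofReal_dens (hPc : IsCompact P) (hP0 : volume P ≠ 0) (z : ℝ) :
    ENNReal.ofReal (dens P z) = volume (sec P z) / volume P := by
  have hPt : volume P ≠ ⊤ := hPc.measure_lt_top.ne
  unfold dens
  rw [ENNReal.ofReal_div_of_pos (ENNReal.toReal_pos hP0 hPt), ENNReal.ofReal_toReal hPt,
    ENNReal.ofReal_toReal (volume_sec_ne_top hPc z)]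

theorem lintegral_dens (hPc : IsCompact P) (hP0 : volume P ≠ 0) :
    ∫⁻ z, ENNReal.ofReal (dens P z) = 1 := by
  have hPt : volume P ≠ ⊤ := hPc.measure_lt_top.ne
  simp_rw [ofReal_dens hPc hP0, div_eq_mul_inv]
  rw [lintegral_mul_const' _ _ (ENNReal.inv_ne_top.mpr hP0),
    ← volume_eq_lintegral_sec hPc.isClosed.measurableSet, ENNReal.mul_inv_cancel hP0 hPt]

end density

/-- The slice of `K ⊆ ℝ³` at height `z`, as a planar set in the coordinates `(x, y)`. -/
def slice (K : Set (ℝ × ℝ × ℝ)) (z : ℝ) : Set (ℝ × ℝ) := {q | (q.1, q.2, z) ∈ K}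

theorem convex_slice {K : Set (ℝ × ℝ × ℝ)} (hK : Convex ℝ K) (z : ℝ) : Convex ℝ (slice K z) := by
  intro q hq q' hq' a b ha hb hab
  have := hK hq hq' ha hb hab
  show ((a • q + b • q').1, (a • q + b • q').2, z) ∈ K
  have e : ((a • q + b • q').1, (a • q + b • q').2, z) = a • (q.1, q.2, z) + b • (q'.1, q'.2, z) := by
    ext
    · simp
    · simp
    · simp only [Prod.snd_add, Prod.smul_snd, smul_eq_mul]
      rw [← add_mul, hab, one_mul]
  rw [e]
  exact this

theorem isCompact_slice {K : Set (ℝ × ℝ × ℝ)} (hK : IsCompact K) (z : ℝ) :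
    IsCompact (slice K z) := by
  have e : slice K z = (fun p : ℝ × ℝ × ℝ => (p.1, p.2.1)) '' (K ∩ {p | p.2.2 = z}) := by
    ext q
    constructor
    · intro hq
      exact ⟨(q.1, q.2, z), ⟨hq, rfl⟩, rfl⟩
    · rintro ⟨p, ⟨hp, hpz⟩, rfl⟩
      show (p.1, p.2.1, z) ∈ K
      have : p = (p.1, p.2.1, z) := by
        rw [← hpz]
      rw [← this]
      exact hp
  rw [e]
  refine (hK.inter_right (isClosed_eq ?_ continuous_const)).image ?_
  · fun_prop
  · fun_prop

theorem fst_image_slice (K : Set (ℝ × ℝ × ℝ)) (z : ℝ) :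
    Prod.fst '' slice K z = sec ((fun p : ℝ × ℝ × ℝ => (p.1, p.2.2)) '' K) z := by
  ext x
  constructor
  · rintro ⟨q, hq, rfl⟩
    exact ⟨(q.1, q.2, z), hq, rfl⟩
  · rintro ⟨p, hp, hpx⟩
    have h1 : p.1 = x := congrArg Prod.fst hpx
    have h2 : p.2.2 = z := congrArg Prod.snd hpx
    refine ⟨(x, p.2.1), ?_, rfl⟩
    show (x, p.2.1, z) ∈ K
    rw [← h1, ← h2]
    exact hp

theorem snd_image_slice (K : Set (ℝ × ℝ × ℝ)) (z : ℝ) :
    Prod.snd '' slice K z = sec ((fun p : ℝ × ℝ × ℝ => (p.2.1, p.2.2)) '' K) z := by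
  ext y
  constructor
  · rintro ⟨q, hq, rfl⟩
    exact ⟨(q.1, q.2, z), hq, rfl⟩
  · rintro ⟨p, hp, hpx⟩
    have h1 : p.2.1 = y := congrArg Prod.fst hpx
    have h2 : p.2.2 = z := congrArg Prod.snd hpx
    refine ⟨(p.1, y), ?_, rfl⟩
    show (p.1, y, z) ∈ K
    rw [← h1, ← h2]
    exact hp

/-- The two coordinate-plane projections of a set with nonempty interior have positive area. -/
theorem proj_volume_ne_zero {K : Set (ℝ × ℝ × ℝ)} (hKi : (interior K).Nonempty) :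
    volume ((fun p : ℝ × ℝ × ℝ => (p.2.1, p.2.2)) '' K) ≠ 0 ∧
    volume ((fun p : ℝ × ℝ × ℝ => (p.1, p.2.2)) '' K) ≠ 0 := by
  constructor
  · have hopen : IsOpen ((fun p : ℝ × ℝ × ℝ => (p.2.1, p.2.2)) '' interior K) :=
      (isOpenMap_snd (X := ℝ) (Y := ℝ × ℝ)) _ isOpen_interior
    have hne : ((fun p : ℝ × ℝ × ℝ => (p.2.1, p.2.2)) '' interior K).Nonempty := hKi.image _
    have hsub : (fun p : ℝ × ℝ × ℝ => (p.2.1, p.2.2)) '' interior K ⊆
        (fun p : ℝ × ℝ × ℝ => (p.2.1, p.2.2)) '' K := image_mono interior_subset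
    exact ((hopen.measure_pos volume hne).trans_le (measure_mono hsub)).ne'
  · have hom : IsOpenMap (fun p : ℝ × ℝ × ℝ => (p.1, p.2.2)) :=
      IsOpenMap.prodMap IsOpenMap.id (isOpenMap_snd (X := ℝ) (Y := ℝ))
    have hopen : IsOpen ((fun p : ℝ × ℝ × ℝ => (p.1, p.2.2)) '' interior K) :=
      hom _ isOpen_interior
    have hne : ((fun p : ℝ × ℝ × ℝ => (p.1, p.2.2)) '' interior K).Nonempty := hKi.image _
    have hsub : (fun p : ℝ × ℝ × ℝ => (p.1, p.2.2)) '' interior K ⊆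
        (fun p : ℝ × ℝ × ℝ => (p.1, p.2.2)) '' K := image_mono interior_subset
    exact ((hopen.measure_pos volume hne).trans_le (measure_mono hsub)).ne'

/-- Main slicing argument, with the planar covering lemma as a hypothesis `H`. -/
theorem two_cyl_of_planar (K : Set (ℝ × ℝ × ℝ)) (hK : Convex ℝ K) (hKc : IsCompact K)
    (hV₁ : volume ((fun p : ℝ × ℝ × ℝ => (p.2.1, p.2.2)) '' K) ≠ 0)
    (hV₂ : volume ((fun p : ℝ × ℝ × ℝ => (p.1, p.2.2)) '' K) ≠ 0)
    (B₁ B₂ : Set (ℝ × ℝ)) (hB₁m : MeasurableSet B₁)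
    (hB₂m : MeasurableSet B₂)
    (hcov : ∀ p ∈ K, (p.2.1, p.2.2) ∈ B₁ ∨ (p.1, p.2.2) ∈ B₂)
    (H : ∀ z : ℝ, ∀ L : Set (ℝ × ℝ), Convex ℝ L → IsCompact L →
      (∀ q ∈ L, q.1 ∈ sec B₂ z ∨ q.2 ∈ sec B₁ z) →
      volume (Prod.fst '' L) ≠ 0 → volume (Prod.snd '' L) ≠ 0 →
      1 ≤ volume (sec B₂ z ∩ Prod.fst '' L) / volume (Prod.fst '' L)
        + volume (sec B₁ z ∩ Prod.snd '' L) / volume (Prod.snd '' L)) :
    (1 : ENNReal) / 2 ≤
      volume B₁ / volume ((fun p : ℝ × ℝ × ℝ => (p.2.1, p.2.2)) '' K)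
      + volume B₂ / volume ((fun p : ℝ × ℝ × ℝ => (p.1, p.2.2)) '' K) := by
  obtain ⟨P₁, hP₁⟩ : ∃ P₁ : Set (ℝ × ℝ), P₁ = (fun p : ℝ × ℝ × ℝ => (p.2.1, p.2.2)) '' K :=
    ⟨_, rfl⟩
  obtain ⟨P₂, hP₂⟩ : ∃ P₂ : Set (ℝ × ℝ), P₂ = (fun p : ℝ × ℝ × ℝ => (p.1, p.2.2)) '' K :=
    ⟨_, rfl⟩
  rw [← hP₁, ← hP₂]
  -- compactness, convexity
  have hP₁c : IsCompact P₁ := by
    rw [hP₁]; exact hKc.image (by fun_prop)
  have hP₂c : IsCompact P₂ := by
    rw [hP₂]; exact hKc.image (by fun_prop)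
  have hP₁conv : Convex ℝ P₁ := by
    rw [hP₁]
    exact hK.is_linear_image (IsLinearMap.mk (fun _ _ => rfl) (fun _ _ => rfl))
  have hP₂conv : Convex ℝ P₂ := by
    rw [hP₂]
    exact hK.is_linear_image (IsLinearMap.mk (fun _ _ => rfl) (fun _ _ => rfl))
  -- positive volume
  have hP₁0 : volume P₁ ≠ 0 := by rw [hP₁]; exact hV₁
  have hP₂0 : volume P₂ ≠ 0 := by rw [hP₂]; exact hV₂
  have hP₁t : volume P₁ ≠ ⊤ := hP₁c.measure_lt_top.ne
  have hP₂t : volume P₂ ≠ ⊤ := hP₂c.measure_lt_top.ne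
  -- common range of the third coordinate
  have hZ12 : Prod.snd '' P₁ = Prod.snd '' P₂ := by
    rw [hP₁, hP₂, image_image, image_image]
  have hZc : IsCompact (Prod.snd '' P₁) := hP₁c.image continuous_snd
  have hZconv : Convex ℝ (Prod.snd '' P₁) := by
    have := hP₁conv.linear_image (LinearMap.snd ℝ ℝ ℝ)
    simpa using this
  have hZne : (Prod.snd '' P₁).Nonempty := by
    have hne : P₁.Nonempty := by
      by_contra h
      rw [not_nonempty_iff_eq_empty] at h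
      rw [h] at hP₁0
      simp at hP₁0
    exact hne.image _
  obtain ⟨z0, z1, -, hZ⟩ := exists_Icc_of_compact_convex hZc hZconv hZne
  have hZ' : Prod.snd '' P₂ = Icc z0 z1 := by rw [← hZ12, hZ]
  -- the one-dimensional lemma
  have h1D := concave_min_lintegral (measurable_dens hP₁c) (measurable_dens hP₂c)
    (fun z => dens_nonneg z) (fun z => dens_nonneg z) (dens_out hZ) (dens_out hZ')
    (concaveOn_dens hP₁c hP₁conv hZ) (concaveOn_dens hP₂c hP₂conv hZ')
    (lintegral_dens hP₁c hP₁0) (lintegral_dens hP₂c hP₂0)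
  -- pointwise inequality
  have hpt : ∀ z : ℝ, ENNReal.ofReal (min (dens P₁ z) (dens P₂ z)) ≤
      volume (sec (B₁ ∩ P₁) z) / volume P₁ + volume (sec (B₂ ∩ P₂) z) / volume P₂ := by
    intro z
    rw [ENNReal.ofReal_mono.map_min, ofReal_dens hP₁c hP₁0, ofReal_dens hP₂c hP₂0]
    by_cases hw₁ : volume (sec P₁ z) = 0
    · rw [hw₁, ENNReal.zero_div]
      exact (min_le_left _ _).trans zero_le
    by_cases hw₂ : volume (sec P₂ z) = 0
    · rw [hw₂, ENNReal.zero_div]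
      exact (min_le_right _ _).trans zero_le
    have hfst : Prod.fst '' slice K z = sec P₂ z := by rw [hP₂]; exact fst_image_slice K z
    have hsnd : Prod.snd '' slice K z = sec P₁ z := by rw [hP₁]; exact snd_image_slice K z
    have h2D := H z (slice K z) (convex_slice hK z) (isCompact_slice hKc z)
      (fun q hq => by
        rcases hcov (q.1, q.2, z) hq with h | h
        · right; exact h
        · left; exact h)
      (by rw [hfst]; exact hw₂) (by rw [hsnd]; exact hw₁)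
    rw [hfst, hsnd] at h2D
    have e1 : sec (B₁ ∩ P₁) z = sec B₁ z ∩ sec P₁ z := rfl
    have e2 : sec (B₂ ∩ P₂) z = sec B₂ z ∩ sec P₂ z := rfl
    rw [e1, e2]
    obtain ⟨m, hm⟩ : ∃ m : ENNReal, m = min (volume (sec P₁ z) / volume P₁)
        (volume (sec P₂ z) / volume P₂) := ⟨_, rfl⟩
    rw [← hm]
    have hm1 : m ≤ volume (sec P₁ z) / volume P₁ := by rw [hm]; exact min_le_left _ _
    have hm2 : m ≤ volume (sec P₂ z) / volume P₂ := by rw [hm]; exact min_le_right _ _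
    calc m = m * 1 := (mul_one m).symm
      _ ≤ m * (volume (sec B₂ z ∩ sec P₂ z) / volume (sec P₂ z)
            + volume (sec B₁ z ∩ sec P₁ z) / volume (sec P₁ z)) := mul_le_mul_right h2D m
      _ = m * (volume (sec B₁ z ∩ sec P₁ z) / volume (sec P₁ z))
            + m * (volume (sec B₂ z ∩ sec P₂ z) / volume (sec P₂ z)) := by
          rw [mul_add, add_comm]
      _ ≤ volume (sec B₁ z ∩ sec P₁ z) / volume P₁ + volume (sec B₂ z ∩ sec P₂ z) / volume P₂ :=
          add_le_add (ennreal_aux hw₁ (volume_sec_ne_top hP₁c z) hm1)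
            (ennreal_aux hw₂ (volume_sec_ne_top hP₂c z) hm2)
  -- integrate
  have hBP₁ : MeasurableSet (B₁ ∩ P₁) := hB₁m.inter hP₁c.isClosed.measurableSet
  have hBP₂ : MeasurableSet (B₂ ∩ P₂) := hB₂m.inter hP₂c.isClosed.measurableSet
  have hint : ∫⁻ z, (volume (sec (B₁ ∩ P₁) z) / volume P₁ + volume (sec (B₂ ∩ P₂) z) / volume P₂)
      = volume (B₁ ∩ P₁) / volume P₁ + volume (B₂ ∩ P₂) / volume P₂ := by
    rw [lintegral_add_left ((measurable_volume_sec hBP₁).div_const _)]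
    simp_rw [div_eq_mul_inv]
    rw [lintegral_mul_const' _ _ (ENNReal.inv_ne_top.mpr hP₁0),
      lintegral_mul_const' _ _ (ENNReal.inv_ne_top.mpr hP₂0),
      ← volume_eq_lintegral_sec hBP₁, ← volume_eq_lintegral_sec hBP₂]
  calc (1 : ENNReal) / 2 ≤ ∫⁻ z, ENNReal.ofReal (min (dens P₁ z) (dens P₂ z)) := h1D
    _ ≤ ∫⁻ z, (volume (sec (B₁ ∩ P₁) z) / volume P₁ + volume (sec (B₂ ∩ P₂) z) / volume P₂) :=
        lintegral_mono hpt
    _ = volume (B₁ ∩ P₁) / volume P₁ + volume (B₂ ∩ P₂) / volume P₂ := hint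
    _ ≤ volume B₁ / volume P₁ + volume B₂ / volume P₂ :=
        add_le_add (ENNReal.div_le_div_right (measure_mono inter_subset_left) _)
          (ENNReal.div_le_div_right (measure_mono inter_subset_left) _)

/-- Two cylinders with convex bases and axes along the first two coordinate directions. -/
theorem two_cyl_convex (K : Set (ℝ × ℝ × ℝ)) (hK : Convex ℝ K) (hKc : IsCompact K)
    (hKi : (interior K).Nonempty) (B₁ B₂ : Set (ℝ × ℝ)) (hB₁m : MeasurableSet B₁)
    (hB₂m : MeasurableSet B₂) (hB₁ : Convex ℝ B₁) (hB₂ : Convex ℝ B₂)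
    (hcov : ∀ p ∈ K, (p.2.1, p.2.2) ∈ B₁ ∨ (p.1, p.2.2) ∈ B₂) :
    (1 : ENNReal) / 2 ≤
      volume B₁ / volume ((fun p : ℝ × ℝ × ℝ => (p.2.1, p.2.2)) '' K)
      + volume B₂ / volume ((fun p : ℝ × ℝ × ℝ => (p.1, p.2.2)) '' K) := by
  apply two_cyl_of_planar K hK hKc (proj_volume_ne_zero hKi).1 (proj_volume_ne_zero hKi).2
    B₁ B₂ hB₁m hB₂m hcov
  intro z L hL hLc hcovL hI hJ
  exact two_plank_measure hL hLc (ordConnected_sec hB₂ z) (ordConnected_sec hB₁ z) hcovL hI hJ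

end Vale.Agent.Helper11
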