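import Vale.Agent.Helper11.SqPlankMeas
import Vale.Agent.Helper11.TwoCyl

/-!
# Convex bodies in `ℝ³` with rectangular horizontal sections, covered by horizontal cylinders

`K ⊆ ℝ × ℝ × ℝ` is compact convex and every horizontal section of `K` is a rectangle (a product
set).  The `i`-th cylinder consists of the points `x` with `(a i * x.1 + b i * x.2.1, x.2.2)` in
a measurable set `S i`.  Then the relative base areas add up to at least `1 / 2`.
-/

namespace Vale.Agent.Helper11

open Set MeasureTheory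

theorem ennreal_scale {x : ENNReal} {m d D : ℝ} (hm : 0 ≤ m) (hd : 0 < d) (hD : 0 < D)
    (h : m * D ≤ d) :
    ENNReal.ofReal m * (x / ENNReal.ofReal d) ≤ x / ENNReal.ofReal D := by
  have h1 : ENNReal.ofReal m * (ENNReal.ofReal d)⁻¹ ≤ (ENNReal.ofReal D)⁻¹ := by
    rw [← ENNReal.ofReal_inv_of_pos hd, ← ENNReal.ofReal_inv_of_pos hD, ← ENNReal.ofReal_mul hm]
    apply ENNReal.ofReal_le_ofReal
    rw [← div_eq_mul_inv, div_le_iff₀ hd, inv_mul_eq_div, le_div_iff₀ hD]
    exact h
  calc ENNReal.ofReal m * (x / ENNReal.ofReal d)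
      = x * (ENNReal.ofReal m * (ENNReal.ofReal d)⁻¹) := by rw [div_eq_mul_inv]; ring
    _ ≤ x * (ENNReal.ofReal D)⁻¹ := mul_le_mul_right h1 x
    _ = x / ENNReal.ofReal D := by rw [div_eq_mul_inv]

theorem rect_core {ι : Type*} [Fintype ι] (K : Set (ℝ × ℝ × ℝ)) (hK : Convex ℝ K)
    (hKc : IsCompact K)
    (hrect : ∀ p q p' q' z, (p, q, z) ∈ K → (p', q', z) ∈ K → (p, q', z) ∈ K)
    (hV₁ : volume ((fun p : ℝ × ℝ × ℝ => (p.2.1, p.2.2)) '' K) ≠ 0)
    (hV₂ : volume ((fun p : ℝ × ℝ × ℝ => (p.1, p.2.2)) '' K) ≠ 0)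
    (a b : ι → ℝ) (hab : ∀ i, a i ≠ 0 ∨ b i ≠ 0)
    (S : ι → Set (ℝ × ℝ)) (hS : ∀ i, MeasurableSet (S i))
    (hcov : ∀ x ∈ K, ∃ i, (a i * x.1 + b i * x.2.1, x.2.2) ∈ S i) :
    (1 : ENNReal) / 2 ≤ ∑ i, volume (S i) /
      volume ((fun x : ℝ × ℝ × ℝ => (a i * x.1 + b i * x.2.1, x.2.2)) '' K) := by
  obtain ⟨P₁, hP₁⟩ : ∃ P₁ : Set (ℝ × ℝ), P₁ = (fun p : ℝ × ℝ × ℝ => (p.2.1, p.2.2)) '' K :=
    ⟨_, rfl⟩
  obtain ⟨P₂, hP₂⟩ : ∃ P₂ : Set (ℝ × ℝ), P₂ = (fun p : ℝ × ℝ × ℝ => (p.1, p.2.2)) '' K :=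
    ⟨_, rfl⟩
  have hP₁c : IsCompact P₁ := by
    rw [hP₁]; exact hKc.image (by fun_prop)
  have hP₂c : IsCompact P₂ := by
    rw [hP₂]; exact hKc.image (by fun_prop)
  have hP₁conv : Convex ℝ P₁ := by
    rw [hP₁]
    exact hK.is_linear_image (IsLinearMap.mk (fun _ _ => rfl) (fun _ _ => rfl))
  have hP₂conv : Convex ℝ P₂ := by
    rw [hP₂]
    exact hK.is_linear_image (IsLinearMap.mk (fun _ _ => rfl) (fun _ _ => rfl))
  have hP₁0 : volume P₁ ≠ 0 := by rw [hP₁]; exact hV₁
  have hP₂0 : volume P₂ ≠ 0 := by rw [hP₂]; exact hV₂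
  have hP₁t : volume P₁ ≠ ⊤ := hP₁c.measure_lt_top.ne
  have hP₂t : volume P₂ ≠ ⊤ := hP₂c.measure_lt_top.ne
  have hZ12 : Prod.snd '' P₁ = Prod.snd '' P₂ := by
    rw [hP₁, hP₂, image_image, image_image]
  have hZc : IsCompact (Prod.snd '' P₁) := hP₁c.image continuous_snd
  have hZconv : Convex ℝ (Prod.snd '' P₁) := by
    have := hP₁conv.linear_image (LinearMap.snd ℝ ℝ ℝ)
    simpa using this
  have hZne : (Prod.snd '' P₁).Nonempty := by
    have hne : P₁.Nonempty := by
      by_contra h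
      rw [not_nonempty_iff_eq_empty] at h
      rw [h] at hP₁0
      simp at hP₁0
    exact hne.image _
  obtain ⟨z0, z1, -, hZ⟩ := exists_Icc_of_compact_convex hZc hZconv hZne
  have hZ' : Prod.snd '' P₂ = Icc z0 z1 := by rw [← hZ12, hZ]
  have h1D := concave_min_lintegral (measurable_dens hP₁c) (measurable_dens hP₂c)
    (fun z => dens_nonneg z) (fun z => dens_nonneg z) (dens_out hZ) (dens_out hZ')
    (concaveOn_dens hP₁c hP₁conv hZ) (concaveOn_dens hP₂c hP₂conv hZ')
    (lintegral_dens hP₁c hP₁0) (lintegral_dens hP₂c hP₂0)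
  -- the two areas as real numbers
  obtain ⟨G, hG⟩ : ∃ G : ℝ, G = (volume P₂).toReal := ⟨_, rfl⟩
  obtain ⟨H, hH⟩ : ∃ H : ℝ, H = (volume P₁).toReal := ⟨_, rfl⟩
  have hGpos : 0 < G := by rw [hG]; exact ENNReal.toReal_pos hP₂0 hP₂t
  have hHpos : 0 < H := by rw [hH]; exact ENNReal.toReal_pos hP₁0 hP₁t
  have hGE : ENNReal.ofReal G = volume P₂ := by rw [hG]; exact ENNReal.ofReal_toReal hP₂t
  have hHE : ENNReal.ofReal H = volume P₁ := by rw [hH]; exact ENNReal.ofReal_toReal hP₁t
  have hDpos : ∀ i, 0 < |a i| * G + |b i| * H := by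
    intro i
    rcases hab i with h | h
    · have : 0 < |a i| * G := mul_pos (abs_pos.mpr h) hGpos
      have : 0 ≤ |b i| * H := mul_nonneg (abs_nonneg _) hHpos.le
      linarith
    · have : 0 < |b i| * H := mul_pos (abs_pos.mpr h) hHpos
      have : 0 ≤ |a i| * G := mul_nonneg (abs_nonneg _) hGpos.le
      linarith
  -- sections of the two projections are intervals
  have hsecI : ∀ z : ℝ, (sec P₂ z).Nonempty → ∃ u v : ℝ, u ≤ v ∧ sec P₂ z = Icc u v := by
    intro z hne
    exact exists_Icc_aux (isCompact_sec hP₂c z) (ordConnected_sec hP₂conv z).convex hne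
  have hsecJ : ∀ z : ℝ, (sec P₁ z).Nonempty → ∃ u v : ℝ, u ≤ v ∧ sec P₁ z = Icc u v := by
    intro z hne
    exact exists_Icc_aux (isCompact_sec hP₁c z) (ordConnected_sec hP₁conv z).convex hne
  -- the projection areas
  have hproj : ∀ i, volume ((fun x : ℝ × ℝ × ℝ => (a i * x.1 + b i * x.2.1, x.2.2)) '' K)
      ≤ ENNReal.ofReal (|a i| * G + |b i| * H) := by
    intro i
    obtain ⟨Q, hQ⟩ : ∃ Q : Set (ℝ × ℝ),
        Q = (fun x : ℝ × ℝ × ℝ => (a i * x.1 + b i * x.2.1, x.2.2)) '' K := ⟨_, rfl⟩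
    rw [← hQ]
    have hQc : IsCompact Q := by
      rw [hQ]; exact hKc.image (by fun_prop)
    have hsecQ : ∀ z : ℝ, volume (sec Q z) ≤
        ENNReal.ofReal |a i| * volume (sec P₂ z) + ENNReal.ofReal |b i| * volume (sec P₁ z) := by
      intro z
      rcases (sec Q z).eq_empty_or_nonempty with hemp | ⟨t0, ht0⟩
      · rw [hemp]; simp
      rw [mem_sec, hQ] at ht0
      obtain ⟨x0, hx0, hx0e⟩ := ht0
      have hz0 : x0.2.2 = z := congrArg Prod.snd hx0e
      have hneI : (sec P₂ z).Nonempty := by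
        refine ⟨x0.1, ?_⟩
        rw [mem_sec, hP₂]
        exact ⟨x0, hx0, by rw [← hz0]⟩
      have hneJ : (sec P₁ z).Nonempty := by
        refine ⟨x0.2.1, ?_⟩
        rw [mem_sec, hP₁]
        exact ⟨x0, hx0, by rw [← hz0]⟩
      obtain ⟨u, v, huv, hI⟩ := hsecI z hneI
      obtain ⟨u', v', huv', hJ⟩ := hsecJ z hneJ
      have hsub : sec Q z ⊆ Icc
          (a i * ((u + v) / 2) + b i * ((u' + v') / 2)
            - (|a i| * ((v - u) / 2) + |b i| * ((v' - u') / 2)))
          (a i * ((u + v) / 2) + b i * ((u' + v') / 2)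
            + (|a i| * ((v - u) / 2) + |b i| * ((v' - u') / 2))) := by
        intro t ht
        rw [mem_sec, hQ] at ht
        obtain ⟨x, hx, hxe⟩ := ht
        have hz : x.2.2 = z := congrArg Prod.snd hxe
        have ht' : a i * x.1 + b i * x.2.1 = t := congrArg Prod.fst hxe
        have hp : x.1 ∈ Icc u v := by
          rw [← hI, mem_sec, hP₂]
          exact ⟨x, hx, by rw [← hz]⟩
        have hq : x.2.1 ∈ Icc u' v' := by
          rw [← hJ, mem_sec, hP₁]
          exact ⟨x, hx, by rw [← hz]⟩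
        have h1 : |a i * (x.1 - (u + v) / 2)| ≤ |a i| * ((v - u) / 2) := by
          rw [abs_mul]
          apply mul_le_mul_of_nonneg_left _ (abs_nonneg _)
          rw [abs_le]
          constructor <;> linarith [hp.1, hp.2]
        have h2 : |b i * (x.2.1 - (u' + v') / 2)| ≤ |b i| * ((v' - u') / 2) := by
          rw [abs_mul]
          apply mul_le_mul_of_nonneg_left _ (abs_nonneg _)
          rw [abs_le]
          constructor <;> linarith [hq.1, hq.2]
        rw [abs_le] at h1 h2
        rw [← ht']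
        constructor <;> nlinarith [h1.1, h1.2, h2.1, h2.2]
      have e1 : volume (sec P₂ z) = ENNReal.ofReal (v - u) := by rw [hI, Real.volume_Icc]
      have e2 : volume (sec P₁ z) = ENNReal.ofReal (v' - u') := by rw [hJ, Real.volume_Icc]
      calc volume (sec Q z) ≤ volume (Icc
            (a i * ((u + v) / 2) + b i * ((u' + v') / 2)
              - (|a i| * ((v - u) / 2) + |b i| * ((v' - u') / 2)))
            (a i * ((u + v) / 2) + b i * ((u' + v') / 2)
              + (|a i| * ((v - u) / 2) + |b i| * ((v' - u') / 2)))) := measure_mono hsub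
        _ = ENNReal.ofReal (|a i| * (v - u) + |b i| * (v' - u')) := by
            rw [Real.volume_Icc]
            congr 1
            ring
        _ = ENNReal.ofReal |a i| * volume (sec P₂ z)
            + ENNReal.ofReal |b i| * volume (sec P₁ z) := by
            rw [e1, e2, ← ENNReal.ofReal_mul (abs_nonneg _), ← ENNReal.ofReal_mul (abs_nonneg _),
              ← ENNReal.ofReal_add (mul_nonneg (abs_nonneg _) (by linarith))
                (mul_nonneg (abs_nonneg _) (by linarith))]
    calc volume Q = ∫⁻ z, volume (sec Q z) := volume_eq_lintegral_sec hQc.isClosed.measurableSet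
      _ ≤ ∫⁻ z, (ENNReal.ofReal |a i| * volume (sec P₂ z)
            + ENNReal.ofReal |b i| * volume (sec P₁ z)) := lintegral_mono hsecQ
      _ = ENNReal.ofReal |a i| * volume P₂ + ENNReal.ofReal |b i| * volume P₁ := by
          rw [lintegral_add_left
            ((measurable_volume_sec hP₂c.isClosed.measurableSet).const_mul _),
            lintegral_const_mul _ (measurable_volume_sec hP₂c.isClosed.measurableSet),
            lintegral_const_mul _ (measurable_volume_sec hP₁c.isClosed.measurableSet),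
            ← volume_eq_lintegral_sec hP₂c.isClosed.measurableSet,
            ← volume_eq_lintegral_sec hP₁c.isClosed.measurableSet]
      _ = ENNReal.ofReal (|a i| * G + |b i| * H) := by
          rw [← hGE, ← hHE, ← ENNReal.ofReal_mul (abs_nonneg _), ← ENNReal.ofReal_mul (abs_nonneg _),
            ← ENNReal.ofReal_add (mul_nonneg (abs_nonneg _) hGpos.le)
              (mul_nonneg (abs_nonneg _) hHpos.le)]
  -- pointwise inequality
  have hpt : ∀ z : ℝ, ENNReal.ofReal (min (dens P₁ z) (dens P₂ z)) ≤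
      ∑ i, volume (sec (S i) z) / ENNReal.ofReal (|a i| * G + |b i| * H) := by
    intro z
    obtain ⟨g, hg⟩ : ∃ g : ℝ, g = (volume (sec P₂ z)).toReal := ⟨_, rfl⟩
    obtain ⟨h, hh⟩ : ∃ h : ℝ, h = (volume (sec P₁ z)).toReal := ⟨_, rfl⟩
    have hd1 : dens P₁ z = h / H := by rw [hh, hH]; rfl
    have hd2 : dens P₂ z = g / G := by rw [hg, hG]; rfl
    have hg0 : 0 ≤ g := by rw [hg]; exact ENNReal.toReal_nonneg
    have hh0 : 0 ≤ h := by rw [hh]; exact ENNReal.toReal_nonneg
    rcases hg0.eq_or_lt with hgz | hgpos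
    · have : min (dens P₁ z) (dens P₂ z) ≤ 0 := by
        rw [hd2, ← hgz, zero_div]; exact min_le_right _ _
      rw [ENNReal.ofReal_of_nonpos this]
      exact zero_le
    rcases hh0.eq_or_lt with hhz | hhpos
    · have : min (dens P₁ z) (dens P₂ z) ≤ 0 := by
        rw [hd1, ← hhz, zero_div]; exact min_le_left _ _
      rw [ENNReal.ofReal_of_nonpos this]
      exact zero_le
    have hneI : (sec P₂ z).Nonempty := by
      by_contra hcon
      rw [not_nonempty_iff_eq_empty] at hcon
      rw [hg, hcon] at hgpos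
      simp at hgpos
    have hneJ : (sec P₁ z).Nonempty := by
      by_contra hcon
      rw [not_nonempty_iff_eq_empty] at hcon
      rw [hh, hcon] at hhpos
      simp at hhpos
    obtain ⟨u, v, huv, hI⟩ := hsecI z hneI
    obtain ⟨u', v', huv', hJ⟩ := hsecJ z hneJ
    have hgv : g = v - u := by
      rw [hg, hI, Real.volume_Icc, ENNReal.toReal_ofReal (by linarith)]
    have hhv : h = v' - u' := by
      rw [hh, hJ, Real.volume_Icc, ENNReal.toReal_ofReal (by linarith)]
    have h2D := rect_plank_measure a b (fun i => sec (S i) z) (p1 := u) (p2 := v) (q1 := u')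
      (q2 := v') (by linarith) (by linarith) hab
      (by
        intro p hp q hq
        have hp' : p ∈ sec P₂ z := by rw [hI]; exact hp
        have hq' : q ∈ sec P₁ z := by rw [hJ]; exact hq
        rw [mem_sec, hP₂] at hp'
        rw [mem_sec, hP₁] at hq'
        obtain ⟨x, hx, hxe⟩ := hp'
        obtain ⟨y, hy, hye⟩ := hq'
        have hx1 : x.1 = p := congrArg Prod.fst hxe
        have hx2 : x.2.2 = z := congrArg Prod.snd hxe
        have hy1 : y.2.1 = q := congrArg Prod.fst hye
        have hy2 : y.2.2 = z := congrArg Prod.snd hye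
        have hxK : (p, x.2.1, z) ∈ K := by
          rw [← hx1, ← hx2]; exact hx
        have hyK : (y.1, q, z) ∈ K := by
          rw [← hy1, ← hy2]; exact hy
        have hpq : (p, q, z) ∈ K := hrect p x.2.1 y.1 q z hxK hyK
        obtain ⟨i, hi⟩ := hcov (p, q, z) hpq
        exact ⟨i, hi⟩)
    rw [← hgv, ← hhv] at h2D
    obtain ⟨m, hm⟩ : ∃ m : ℝ, m = min (dens P₁ z) (dens P₂ z) := ⟨_, rfl⟩
    rw [← hm]
    have hm0 : 0 ≤ m := by
      rw [hm]; exact le_min (dens_nonneg z) (dens_nonneg z)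
    have hm1 : m * H ≤ h := by
      have : m ≤ h / H := by rw [hm, ← hd1]; exact min_le_left _ _
      rwa [le_div_iff₀ hHpos] at this
    have hm2 : m * G ≤ g := by
      have : m ≤ g / G := by rw [hm, ← hd2]; exact min_le_right _ _
      rwa [le_div_iff₀ hGpos] at this
    have hdpos : ∀ i, 0 < |a i| * g + |b i| * h := by
      intro i
      rcases hab i with h' | h'
      · have : 0 < |a i| * g := mul_pos (abs_pos.mpr h') hgpos
        have : 0 ≤ |b i| * h := mul_nonneg (abs_nonneg _) hhpos.le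
        linarith
      · have : 0 < |b i| * h := mul_pos (abs_pos.mpr h') hhpos
        have : 0 ≤ |a i| * g := mul_nonneg (abs_nonneg _) hgpos.le
        linarith
    calc ENNReal.ofReal m = ENNReal.ofReal m * 1 := (mul_one _).symm
      _ ≤ ENNReal.ofReal m * ∑ i, volume (sec (S i) z) / ENNReal.ofReal (|a i| * g + |b i| * h) :=
          mul_le_mul_right h2D _
      _ = ∑ i, ENNReal.ofReal m *
            (volume (sec (S i) z) / ENNReal.ofReal (|a i| * g + |b i| * h)) := Finset.mul_sum _ _ _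
      _ ≤ ∑ i, volume (sec (S i) z) / ENNReal.ofReal (|a i| * G + |b i| * H) := by
          apply Finset.sum_le_sum
          intro i _
          apply ennreal_scale hm0 (hdpos i) (hDpos i)
          have h3 : 0 ≤ |a i| := abs_nonneg _
          have h4 : 0 ≤ |b i| := abs_nonneg _
          nlinarith
  -- integrate
  have hint : ∫⁻ z, ∑ i, volume (sec (S i) z) / ENNReal.ofReal (|a i| * G + |b i| * H)
      = ∑ i, volume (S i) / ENNReal.ofReal (|a i| * G + |b i| * H) := by
    rw [lintegral_finsetSum _ (fun i _ => (measurable_volume_sec (hS i)).div_const _)]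
    apply Finset.sum_congr rfl
    intro i _
    simp_rw [div_eq_mul_inv]
    rw [lintegral_mul_const' _ _ (ENNReal.inv_ne_top.mpr
      (ENNReal.ofReal_pos.mpr (hDpos i)).ne'), ← volume_eq_lintegral_sec (hS i)]
  calc (1 : ENNReal) / 2 ≤ ∫⁻ z, ENNReal.ofReal (min (dens P₁ z) (dens P₂ z)) := h1D
    _ ≤ ∫⁻ z, ∑ i, volume (sec (S i) z) / ENNReal.ofReal (|a i| * G + |b i| * H) :=
        lintegral_mono hpt
    _ = ∑ i, volume (S i) / ENNReal.ofReal (|a i| * G + |b i| * H) := hint
    _ ≤ ∑ i, volume (S i) /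
          volume ((fun x : ℝ × ℝ × ℝ => (a i * x.1 + b i * x.2.1, x.2.2)) '' K) := by
        apply Finset.sum_le_sum
        intro i _
        exact ENNReal.div_le_div_left (hproj i) _

end Vale.Agent.Helper11
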