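import Vale.Agent.Helper11.SymTwoCyl

/-!
# A centrally symmetric convex body covered by two cylinders with relative area `3 / 4`

The body is the prism `{x : |x 0| + |x 2| ≤ 1, |x 1| ≤ 1}` over a rhombus.  The cylinder with
axis along the coordinate `0` and base `[-1, 1] × [-1 / 2, 1 / 2]` covers the part where
`|x 2| ≤ 1 / 2`; the cylinder with axis along the coordinate `1` whose base consists of the two
triangles `1 / 2 ≤ |z|`, `|x| + |z| ≤ 1` covers the rest.  The projections of the body along the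
two axes are a square of area `4` and a rhombus of area `2`, and the bases have areas `2` and
`1 / 2`.
-/

namespace Vale.Agent.Helper11

open Set MeasureTheory
open scoped InnerProductSpace

/-- The rhombus `|x| + |z| ≤ r`. -/
def rhomb (r : ℝ) : Set (ℝ × ℝ) := {q | |q.1| + |q.2| ≤ r}

theorem rhomb_eq_image (r : ℝ) :
    rhomb r = lin2 1 1 1 (-1) '' (Icc (-(r / 2)) (r / 2) ×ˢ Icc (-(r / 2)) (r / 2)) := by
  ext q
  constructor
  · intro hq
    have hq' : |q.1| + |q.2| ≤ r := hq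
    refine ⟨((q.1 + q.2) / 2, (q.1 - q.2) / 2), ⟨⟨?_, ?_⟩, ⟨?_, ?_⟩⟩, ?_⟩
    · have := neg_abs_le q.1
      have := neg_abs_le q.2
      show -(r / 2) ≤ (q.1 + q.2) / 2
      linarith
    · have := le_abs_self q.1
      have := le_abs_self q.2
      show (q.1 + q.2) / 2 ≤ r / 2
      linarith
    · have := neg_abs_le q.1
      have := le_abs_self q.2
      show -(r / 2) ≤ (q.1 - q.2) / 2
      linarith
    · have := le_abs_self q.1
      have := neg_abs_le q.2
      show (q.1 - q.2) / 2 ≤ r / 2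
      linarith
    · unfold lin2
      ext
      · simp only; ring
      · simp only; ring
  · rintro ⟨t, ⟨⟨h1, h2⟩, ⟨h3, h4⟩⟩, rfl⟩
    show |1 * t.1 + 1 * t.2| + |1 * t.1 + -1 * t.2| ≤ r
    rcases abs_cases (1 * t.1 + 1 * t.2) with ⟨ha, _⟩ | ⟨ha, _⟩ <;>
      rcases abs_cases (1 * t.1 + -1 * t.2) with ⟨hb, _⟩ | ⟨hb, _⟩ <;>
      rw [ha, hb] <;> linarith

theorem volume_rhomb {r : ℝ} (hr : 0 ≤ r) : volume (rhomb r) = ENNReal.ofReal (2 * r ^ 2) := by
  rw [rhomb_eq_image, lin2_eq, Measure.addHaar_image_linearMap, det_lin2,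
    Measure.volume_eq_prod, Measure.prod_prod, Real.volume_Icc,
    ← ENNReal.ofReal_mul (by linarith), ← ENNReal.ofReal_mul (abs_nonneg _)]
  congr 1
  have : |(1 : ℝ) * -1 - 1 * 1| = 2 := by norm_num
  rw [this]
  ring

theorem isClosed_rhomb (r : ℝ) : IsClosed (rhomb r) := by
  unfold rhomb
  exact isClosed_le (by fun_prop) continuous_const

/-- The two triangles `1 / 2 ≤ |z|`, `|x| + |z| ≤ 1`. -/
def twoTri : Set (ℝ × ℝ) := {q | 1 / 2 ≤ |q.2| ∧ |q.1| + |q.2| ≤ 1}

theorem volume_twoTri_le : volume twoTri ≤ ENNReal.ofReal (1 / 2) := by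
  obtain ⟨U, hU⟩ : ∃ U : Set (ℝ × ℝ), U = rhomb (1 / 2) ∩ {q | 0 ≤ q.2} := ⟨_, rfl⟩
  obtain ⟨D, hD⟩ : ∃ D : Set (ℝ × ℝ), D = rhomb (1 / 2) ∩ {q | q.2 ≤ 0} := ⟨_, rfl⟩
  have hDm : MeasurableSet D := by
    rw [hD]
    exact ((isClosed_rhomb _).inter (isClosed_le continuous_snd continuous_const)).measurableSet
  have hsub : twoTri ⊆ ((fun q : ℝ × ℝ => q + (0, -(1 / 2))) ⁻¹' U)
      ∪ ((fun q : ℝ × ℝ => q + (0, 1 / 2)) ⁻¹' D) := by
    intro q hq
    obtain ⟨h1, h2⟩ := hq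
    rcases le_total 0 q.2 with h0 | h0
    · left
      rw [abs_of_nonneg h0] at h1 h2
      show q + (0, -(1 / 2)) ∈ U
      rw [hU]
      refine ⟨?_, ?_⟩
      · show |(q + (0, -(1 / 2))).1| + |(q + (0, -(1 / 2))).2| ≤ 1 / 2
        simp only [Prod.fst_add, Prod.snd_add, add_zero]
        rw [abs_of_nonneg (by linarith : (0 : ℝ) ≤ q.2 + -(1 / 2))]
        linarith
      · show 0 ≤ (q + (0, -(1 / 2))).2
        simp only [Prod.snd_add]
        linarith
    · right
      rw [abs_of_nonpos h0] at h1 h2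
      show q + (0, 1 / 2) ∈ D
      rw [hD]
      refine ⟨?_, ?_⟩
      · show |(q + (0, 1 / 2)).1| + |(q + (0, 1 / 2)).2| ≤ 1 / 2
        simp only [Prod.fst_add, Prod.snd_add, add_zero]
        rw [abs_of_nonpos (by linarith : q.2 + 1 / 2 ≤ (0 : ℝ))]
        linarith
      · show (q + (0, 1 / 2)).2 ≤ 0
        simp only [Prod.snd_add]
        linarith
  have hnull : volume (U ∩ D) = 0 := by
    have hs : U ∩ D ⊆ (univ : Set ℝ) ×ˢ ({0} : Set ℝ) := by
      intro q hq
      rw [hU, hD] at hq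
      refine ⟨mem_univ _, ?_⟩
      rw [mem_singleton_iff]
      exact le_antisymm hq.2.2 hq.1.2
    apply measure_mono_null hs
    rw [Measure.volume_eq_prod, Measure.prod_prod, Real.volume_singleton, mul_zero]
  have hUD : U ∪ D = rhomb (1 / 2) := by
    rw [hU, hD, ← inter_union_distrib_left]
    apply inter_eq_left.mpr
    intro q _
    exact le_total 0 q.2
  calc volume twoTri
      ≤ volume (((fun q : ℝ × ℝ => q + (0, -(1 / 2))) ⁻¹' U)
        ∪ ((fun q : ℝ × ℝ => q + (0, 1 / 2)) ⁻¹' D)) := measure_mono hsub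
    _ ≤ volume ((fun q : ℝ × ℝ => q + (0, -(1 / 2))) ⁻¹' U)
        + volume ((fun q : ℝ × ℝ => q + (0, 1 / 2)) ⁻¹' D) := measure_union_le _ _
    _ = volume U + volume D := by
        rw [measure_preimage_add_right, measure_preimage_add_right]
    _ = volume (U ∪ D) + volume (U ∩ D) := (measure_union_add_inter U hDm).symm
    _ = ENNReal.ofReal (1 / 2) := by
        rw [hnull, add_zero, hUD, volume_rhomb (by norm_num)]
        congr 1
        norm_num

/-- The prism over a rhombus in Euclidean 3-space. -/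
def rprism : Set (EuclideanSpace ℝ (Fin 3)) := {x | |x 0| + |x 2| ≤ 1 ∧ |x 1| ≤ 1}

theorem convex_rprism : Convex ℝ rprism := by
  intro x hx y hy a b ha hb hab
  obtain ⟨hx1, hx2⟩ := hx
  obtain ⟨hy1, hy2⟩ := hy
  have e : ∀ i, (a • x + b • y) i = a * x i + b * y i := by
    intro i
    simp
  have habs : ∀ i, |a * x i + b * y i| ≤ a * |x i| + b * |y i| := by
    intro i
    calc |a * x i + b * y i| ≤ |a * x i| + |b * y i| := abs_add_le _ _
      _ = a * |x i| + b * |y i| := by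
          rw [abs_mul, abs_mul, abs_of_nonneg ha, abs_of_nonneg hb]
  refine ⟨?_, ?_⟩
  · rw [e, e]
    have h0 := habs 0
    have h2 := habs 2
    have hxa := mul_le_mul_of_nonneg_left hx1 ha
    have hyb := mul_le_mul_of_nonneg_left hy1 hb
    linarith
  · rw [e]
    have h1 := habs 1
    have hxa := mul_le_mul_of_nonneg_left hx2 ha
    have hyb := mul_le_mul_of_nonneg_left hy2 hb
    linarith

theorem isCompact_rprism : IsCompact rprism := by
  apply Metric.isCompact_of_isClosed_isBounded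
  · have h1 : IsClosed {x : EuclideanSpace ℝ (Fin 3) | |x 0| + |x 2| ≤ 1} :=
      isClosed_le (by fun_prop) continuous_const
    have h2 : IsClosed {x : EuclideanSpace ℝ (Fin 3) | |x 1| ≤ 1} :=
      isClosed_le (by fun_prop) continuous_const
    exact h1.inter h2
  · rw [Metric.isBounded_iff_subset_closedBall (0 : EuclideanSpace ℝ (Fin 3))]
    refine ⟨2, ?_⟩
    intro x hx
    obtain ⟨hx1, hx2⟩ := hx
    rw [mem_closedBall_zero_iff, EuclideanSpace.norm_eq, Fin.sum_univ_three,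
      Real.sqrt_le_iff]
    refine ⟨by norm_num, ?_⟩
    simp only [Real.norm_eq_abs, sq_abs]
    have a0 := abs_nonneg (x 0)
    have a2 := abs_nonneg (x 2)
    have b0 : x 0 ^ 2 ≤ 1 := by
      rw [← sq_abs]; nlinarith
    have b1 : x 1 ^ 2 ≤ 1 := by
      rw [← sq_abs]; nlinarith [abs_nonneg (x 1)]
    have b2 : x 2 ^ 2 ≤ 1 := by
      rw [← sq_abs]; nlinarith
    linarith

theorem interior_rprism : (interior rprism).Nonempty := by
  refine ⟨0, ?_⟩
  rw [mem_interior_iff_mem_nhds, Metric.mem_nhds_iff]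
  refine ⟨1 / 2, by norm_num, ?_⟩
  intro x hx
  rw [mem_ball_zero_iff] at hx
  have h : ∀ i, |x i| ≤ ‖x‖ := by
    intro i
    have := PiLp.norm_apply_le x i
    rwa [Real.norm_eq_abs] at this
  exact ⟨by linarith [h 0, h 2], by linarith [h 1]⟩

/-- **A centrally symmetric convex body covered by two cylinders with relative area exactly
`3 / 4`.** -/
theorem rhombus_prism_example :
    ∃ (K : Set (EuclideanSpace ℝ (Fin 3))) (v₁ w₁ v₂ w₂ : EuclideanSpace ℝ (Fin 3))
      (B₁ B₂ : Set (ℝ × ℝ)),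
      Convex ℝ K ∧ IsCompact K ∧ (interior K).Nonempty ∧
      (∃ c : EuclideanSpace ℝ (Fin 3), ∀ x ∈ K, c + c - x ∈ K) ∧
      ‖v₁‖ = 1 ∧ ‖w₁‖ = 1 ∧ ⟪v₁, w₁⟫_ℝ = 0 ∧ ‖v₂‖ = 1 ∧ ‖w₂‖ = 1 ∧ ⟪v₂, w₂⟫_ℝ = 0 ∧
      (∀ x ∈ K, (⟪v₁, x⟫_ℝ, ⟪w₁, x⟫_ℝ) ∈ B₁ ∨ (⟪v₂, x⟫_ℝ, ⟪w₂, x⟫_ℝ) ∈ B₂) ∧
      volume B₁ / volume ((fun x : EuclideanSpace ℝ (Fin 3) => (⟪v₁, x⟫_ℝ, ⟪w₁, x⟫_ℝ)) '' K)
        + volume B₂ / volume ((fun x : EuclideanSpace ℝ (Fin 3) => (⟪v₂, x⟫_ℝ, ⟪w₂, x⟫_ℝ)) '' K)
        = 3 / 4 := by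
  have hin : ∀ (i : Fin 3) (x : EuclideanSpace ℝ (Fin 3)),
      ⟪EuclideanSpace.single i (1 : ℝ), x⟫_ℝ = x i := by
    intro i x
    simp [EuclideanSpace.inner_single_left]
  have hnorm : ∀ i : Fin 3, ‖EuclideanSpace.single i (1 : ℝ)‖ = 1 := by
    intro i
    simp
  have hsymK : ∃ c : EuclideanSpace ℝ (Fin 3), ∀ x ∈ rprism, c + c - x ∈ rprism := by
    refine ⟨0, ?_⟩
    intro x hx
    obtain ⟨h1, h2⟩ := hx
    refine ⟨?_, ?_⟩
    · simpa using h1
    · simpa using h2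
  have hcov : ∀ x ∈ rprism,
      (⟪EuclideanSpace.single (1 : Fin 3) (1 : ℝ), x⟫_ℝ,
        ⟪EuclideanSpace.single (2 : Fin 3) (1 : ℝ), x⟫_ℝ)
          ∈ Icc (-1 : ℝ) 1 ×ˢ Icc (-(1 / 2) : ℝ) (1 / 2) ∨
      (⟪EuclideanSpace.single (0 : Fin 3) (1 : ℝ), x⟫_ℝ,
        ⟪EuclideanSpace.single (2 : Fin 3) (1 : ℝ), x⟫_ℝ) ∈ twoTri := by
    intro x hx
    obtain ⟨h1, h2⟩ := hx
    rw [hin, hin, hin]
    rcases le_or_gt |x 2| (1 / 2) with h | h
    · left
      exact ⟨abs_le.mp h2, abs_le.mp h⟩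
    · right
      exact ⟨h.le, h1⟩
  refine ⟨rprism, EuclideanSpace.single 1 1, EuclideanSpace.single 2 1,
    EuclideanSpace.single 0 1, EuclideanSpace.single 2 1,
    Icc (-1 : ℝ) 1 ×ˢ Icc (-(1 / 2) : ℝ) (1 / 2), twoTri,
    convex_rprism, isCompact_rprism, interior_rprism, hsymK, hnorm 1, hnorm 2, ?_, hnorm 0,
    hnorm 2, ?_, hcov, ?_⟩
  · rw [hin]
    simp
  · rw [hin]
    simp
  · apply le_antisymm
    · have hB₁ : volume (Icc (-1 : ℝ) 1 ×ˢ Icc (-(1 / 2) : ℝ) (1 / 2)) = ENNReal.ofReal 2 := by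
        rw [Measure.volume_eq_prod, Measure.prod_prod, Real.volume_Icc, Real.volume_Icc,
          ← ENNReal.ofReal_mul (by norm_num)]
        congr 1
        norm_num
      have hP₁ : ENNReal.ofReal 4 ≤ volume ((fun x : EuclideanSpace ℝ (Fin 3) =>
          (⟪EuclideanSpace.single (1 : Fin 3) (1 : ℝ), x⟫_ℝ,
            ⟪EuclideanSpace.single (2 : Fin 3) (1 : ℝ), x⟫_ℝ)) '' rprism) := by
        have hsq : volume (Icc (-1 : ℝ) 1 ×ˢ Icc (-1 : ℝ) 1) = ENNReal.ofReal 4 := by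
          rw [Measure.volume_eq_prod, Measure.prod_prod, Real.volume_Icc,
            ← ENNReal.ofReal_mul (by norm_num)]
          congr 1
          norm_num
        rw [← hsq]
        apply measure_mono
        rintro q ⟨hq1, hq2⟩
        refine ⟨EuclideanSpace.single 1 q.1 + EuclideanSpace.single 2 q.2, ⟨?_, ?_⟩, ?_⟩
        · have : |q.2| ≤ 1 := abs_le.mpr hq2
          simpa using this
        · have : |q.1| ≤ 1 := abs_le.mpr hq1
          simpa using this
        · simp only [hin]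
          ext <;> simp
      have hP₂ : ENNReal.ofReal 2 ≤ volume ((fun x : EuclideanSpace ℝ (Fin 3) =>
          (⟪EuclideanSpace.single (0 : Fin 3) (1 : ℝ), x⟫_ℝ,
            ⟪EuclideanSpace.single (2 : Fin 3) (1 : ℝ), x⟫_ℝ)) '' rprism) := by
        have hr : volume (rhomb 1) = ENNReal.ofReal 2 := by
          rw [volume_rhomb (by norm_num)]
          congr 1
          norm_num
        rw [← hr]
        apply measure_mono
        intro q hq
        have hq' : |q.1| + |q.2| ≤ 1 := hq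
        refine ⟨EuclideanSpace.single 0 q.1 + EuclideanSpace.single 2 q.2, ⟨?_, ?_⟩, ?_⟩
        · simpa using hq'
        · simp
        · simp only [hin]
          ext <;> simp
      calc volume (Icc (-1 : ℝ) 1 ×ˢ Icc (-(1 / 2) : ℝ) (1 / 2)) / volume ((fun x :
              EuclideanSpace ℝ (Fin 3) => (⟪EuclideanSpace.single (1 : Fin 3) (1 : ℝ), x⟫_ℝ,
                ⟪EuclideanSpace.single (2 : Fin 3) (1 : ℝ), x⟫_ℝ)) '' rprism)
            + volume twoTri / volume ((fun x : EuclideanSpace ℝ (Fin 3) =>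
              (⟪EuclideanSpace.single (0 : Fin 3) (1 : ℝ), x⟫_ℝ,
                ⟪EuclideanSpace.single (2 : Fin 3) (1 : ℝ), x⟫_ℝ)) '' rprism)
          ≤ ENNReal.ofReal 2 / ENNReal.ofReal 4 + ENNReal.ofReal (1 / 2) / ENNReal.ofReal 2 :=
            add_le_add (ENNReal.div_le_div hB₁.le hP₁) (ENNReal.div_le_div volume_twoTri_le hP₂)
        _ = 3 / 4 := by
            rw [← ENNReal.ofReal_div_of_pos (by norm_num), ← ENNReal.ofReal_div_of_pos (by norm_num),
              ← ENNReal.ofReal_add (by norm_num) (by norm_num)]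
            have e : (2 : ℝ) / 4 + 1 / 2 / 2 = 3 / 4 := by norm_num
            rw [e, ENNReal.ofReal_div_of_pos (by norm_num), ENNReal.ofReal_ofNat,
              ENNReal.ofReal_ofNat]
    · exact two_cyl_sym_general' (by simp) rprism convex_rprism isCompact_rprism interior_rprism
        (by
          obtain ⟨c, hc⟩ := hsymK
          refine ⟨c, fun x hx => ?_⟩
          have := hc x hx
          rwa [← two_smul ℝ c] at this)
        _ _ _ _ (hnorm 1) (hnorm 2) (by rw [hin]; simp) (hnorm 0) (hnorm 2) (by rw [hin]; simp)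
        _ _ hcov

end Vale.Agent.Helper11
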