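import Vale.Agent.Helper11.BM
import Vale.Agent.Helper11.ChordBound

/-!
# The sharp chord bound: the part of a convex body inside a cylinder whose base has relative
area `β` has relative volume at most `3 β - 2 β ^ (3 / 2)`
-/

namespace Vale.Agent.Helper11

open Set MeasureTheory


theorem integral_two_mul (c : ℝ) : ∫ y in (0 : ℝ)..c, 2 * y = c ^ 2 := by
  rw [intervalIntegral.integral_const_mul, integral_id]
  ring

theorem lintegral_cubic {c d w : ℝ} (hc0 : 0 ≤ c) (hcd : c ≤ d) (hd1 : d ≤ 1) (hw : 0 < w) :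
    ∫⁻ y in Ioc c d, ENNReal.ofReal (2 * y * (1 - y) / w)
      = ENNReal.ofReal (((d ^ 2 - 2 * d ^ 3 / 3) - (c ^ 2 - 2 * c ^ 3 / 3)) / w) := by
  have hcont : Continuous fun y : ℝ => 2 * y * (1 - y) / w := by fun_prop
  have hint : IntegrableOn (fun y : ℝ => 2 * y * (1 - y) / w) (Ioc c d) :=
    (hcont.integrableOn_Icc (a := c) (b := d)).mono_set Ioc_subset_Icc_self
  have hnn : 0 ≤ᵐ[volume.restrict (Ioc c d)] fun y : ℝ => 2 * y * (1 - y) / w := by
    filter_upwards [ae_restrict_mem measurableSet_Ioc] with y hy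
    have h1 : 0 ≤ y := by linarith [hy.1]
    have h2 : 0 ≤ 1 - y := by linarith [hy.2]
    positivity
  rw [← ofReal_integral_eq_lintegral_ofReal hint hnn]
  congr 1
  rw [← intervalIntegral.integral_of_le hcd]
  have hderiv : ∀ y ∈ Set.uIcc c d,
      HasDerivAt (fun y : ℝ => (y ^ 2 - 2 * y ^ 3 / 3) / w) (2 * y * (1 - y) / w) y := by
    intro y _
    have h1 : HasDerivAt (fun y : ℝ => y ^ 2) (2 * y) y := by
      simpa using hasDerivAt_pow 2 y
    have h2 : HasDerivAt (fun y : ℝ => y ^ 3) (3 * y ^ 2) y := by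
      simpa using hasDerivAt_pow 3 y
    have h3 := (h1.sub ((h2.const_mul 2).div_const 3)).div_const w
    have e : (2 * y - 2 * (3 * y ^ 2) / 3) / w = 2 * y * (1 - y) / w := by ring
    rw [e] at h3
    exact h3
  rw [intervalIntegral.integral_eq_sub_of_hasDerivAt hderiv (hcont.intervalIntegrable _ _)]
  ring

theorem setLIntegral_Ioi_le_of_support {F H : ℝ → ENNReal} {c d : ℝ} (hc : 0 ≤ c)
    (h : ∀ y ∈ Ioc c d, F y ≤ H y) (h0 : ∀ y ∈ Ioi (0 : ℝ), y ∉ Ioc c d → F y = 0) :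
    ∫⁻ y in Ioi (0 : ℝ), F y ≤ ∫⁻ y in Ioc c d, H y := by
  rw [← lintegral_indicator measurableSet_Ioi, ← lintegral_indicator measurableSet_Ioc]
  apply lintegral_mono
  intro y
  by_cases h1 : y ∈ Ioc c d
  · rw [indicator_of_mem h1, indicator_of_mem (show y ∈ Ioi (0 : ℝ) from lt_of_le_of_lt hc h1.1)]
    exact h y h1
  · rw [indicator_of_notMem h1]
    by_cases h2 : y ∈ Ioi (0 : ℝ)
    · rw [indicator_of_mem h2, h0 y h2 h1]
    · rw [indicator_of_notMem h2]

theorem dist_lemma {g : ℝ → ℝ} (hgm : Measurable g) (hg0 : ∀ t, 0 ≤ g t) (hg1 : ∀ t, g t ≤ 1)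
    (hsp : ∀ t, 0 < t → ∀ θ, 0 < θ → θ < 1 → 0 < g t → (1 - θ) + θ * g t ≤ g (θ * t))
    {s : ℝ} (hs0 : 0 ≤ s) (hs1 : s ≤ 1) :
    ∫⁻ t in Ioi (0 : ℝ), ENNReal.ofReal (min (g t) s ^ 2)
      ≤ ENNReal.ofReal (3 * s ^ 2 - 2 * s ^ 3) * ∫⁻ t in Ioi (0 : ℝ), ENNReal.ofReal (g t ^ 2) := by
  rcases eq_or_lt_of_le hs0 with hs | hspos
  · subst hs
    have : ∀ t, min (g t) 0 = 0 := fun t => min_eq_right (hg0 t)
    simp [this]
  rcases eq_or_lt_of_le hs1 with hs | hslt
  · subst hs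
    have : ∀ t, min (g t) 1 = g t := fun t => min_eq_left (hg1 t)
    simp_rw [this]
    norm_num
  have h1s : 0 < 1 - s := by linarith
  obtain ⟨ν, hν⟩ : ∃ ν : Measure ℝ, ν = volume.restrict (Ioi 0) := ⟨_, rfl⟩
  rw [← hν]
  have hνapp : ∀ S : Set ℝ, ν S = volume (S ∩ Ioi 0) := fun S => by
    rw [hν, Measure.restrict_apply' measurableSet_Ioi]
  have hcont2 : Continuous fun y : ℝ => 2 * y := by fun_prop
  have hnn2 : ∀ᵐ y ∂volume.restrict (Ioi (0 : ℝ)), 0 ≤ 2 * y := by
    filter_upwards [ae_restrict_mem measurableSet_Ioi] with y hy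
    have : (0 : ℝ) < y := hy
    positivity
  have lc1 := lintegral_comp_eq_lintegral_meas_lt_mul ν (f := g) (g := fun y => 2 * y)
    (Filter.Eventually.of_forall hg0) hgm.aemeasurable
    (fun t _ => hcont2.intervalIntegrable _ _) hnn2
  have lc2 := lintegral_comp_eq_lintegral_meas_lt_mul ν (f := fun t => min (g t) s)
    (g := fun y => 2 * y) (Filter.Eventually.of_forall (fun t => le_min (hg0 t) hs0))
    (hgm.min measurable_const).aemeasurable
    (fun t _ => hcont2.intervalIntegrable _ _) hnn2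
  simp only [integral_two_mul] at lc1 lc2
  rw [lc1, lc2]
  -- scaling properties of the distribution function
  have hT2 : ∀ y ∈ Ioo (0 : ℝ) s, ν {t | y < g t} ≤ ENNReal.ofReal ((1 - y) / (1 - s)) * ν {t | s < g t} := by
    intro y hy
    have h1y : 0 < 1 - y := by linarith [hy.2]
    obtain ⟨θ, hθ⟩ : ∃ θ : ℝ, θ = (1 - s) / (1 - y) := ⟨_, rfl⟩
    have hθ0 : 0 < θ := by rw [hθ]; positivity
    have hθ1 : θ < 1 := by rw [hθ, div_lt_one h1y]; linarith [hy.2]
    have hsub : {t | y < g t} ∩ Ioi 0 ⊆ (θ * ·) ⁻¹' ({t | s < g t} ∩ Ioi 0) := by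
      rintro t ⟨hyt, ht0⟩
      have ht0' : (0 : ℝ) < t := ht0
      have hgt : 0 < g t := lt_trans hy.1 hyt
      have h := hsp t ht0' θ hθ0 hθ1 hgt
      refine ⟨?_, mul_pos hθ0 ht0'⟩
      show s < g (θ * t)
      have e : (1 - θ) + θ * y = s := by rw [hθ]; field_simp; ring
      have : (1 - θ) + θ * y < (1 - θ) + θ * g t := by
        have := mul_lt_mul_of_pos_left hyt hθ0
        linarith
      linarith
    rw [hνapp, hνapp]
    calc volume ({t | y < g t} ∩ Ioi 0) ≤ volume ((θ * ·) ⁻¹' ({t | s < g t} ∩ Ioi 0)) :=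
          measure_mono hsub
      _ = ENNReal.ofReal ((1 - y) / (1 - s)) * volume ({t | s < g t} ∩ Ioi 0) := by
          rw [Real.volume_preimage_mul_left hθ0.ne']
          congr 2
          rw [abs_of_pos (inv_pos.mpr hθ0), hθ, inv_div]
  have hT1 : ∀ y ∈ Ioo s (1 : ℝ), ENNReal.ofReal ((1 - y) / (1 - s)) * ν {t | s < g t} ≤ ν {t | y < g t} := by
    intro y hy
    have h1y : 0 < 1 - y := by linarith [hy.2]
    obtain ⟨θ, hθ⟩ : ∃ θ : ℝ, θ = (1 - y) / (1 - s) := ⟨_, rfl⟩
    have hθ0 : 0 < θ := by rw [hθ]; positivity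
    have hθ1 : θ < 1 := by rw [hθ, div_lt_one h1s]; linarith [hy.1]
    have hsub : {t | s < g t} ∩ Ioi 0 ⊆ (θ * ·) ⁻¹' ({t | y < g t} ∩ Ioi 0) := by
      rintro t ⟨hst, ht0⟩
      have ht0' : (0 : ℝ) < t := ht0
      have hgt : 0 < g t := lt_trans hspos hst
      have h := hsp t ht0' θ hθ0 hθ1 hgt
      refine ⟨?_, mul_pos hθ0 ht0'⟩
      show y < g (θ * t)
      have e : (1 - θ) + θ * s = y := by rw [hθ]; field_simp; ring
      have : (1 - θ) + θ * s < (1 - θ) + θ * g t := by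
        have := mul_lt_mul_of_pos_left hst hθ0
        linarith
      linarith
    rw [hνapp, hνapp, ← hθ]
    have h2 : volume ({t | s < g t} ∩ Ioi 0)
        ≤ ENNReal.ofReal θ⁻¹ * volume ({t | y < g t} ∩ Ioi 0) := by
      calc volume ({t | s < g t} ∩ Ioi 0) ≤ volume ((θ * ·) ⁻¹' ({t | y < g t} ∩ Ioi 0)) :=
            measure_mono hsub
        _ = ENNReal.ofReal θ⁻¹ * volume ({t | y < g t} ∩ Ioi 0) := by
            rw [Real.volume_preimage_mul_left hθ0.ne', abs_of_pos (inv_pos.mpr hθ0)]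
    calc ENNReal.ofReal θ * volume ({t | s < g t} ∩ Ioi 0)
        ≤ ENNReal.ofReal θ * (ENNReal.ofReal θ⁻¹ * volume ({t | y < g t} ∩ Ioi 0)) := by gcongr
      _ = volume ({t | y < g t} ∩ Ioi 0) := by
          rw [← mul_assoc, ← ENNReal.ofReal_mul hθ0.le, mul_inv_cancel₀ hθ0.ne']
          simp
  obtain ⟨κ, hκ⟩ : ∃ κ : ENNReal, κ = ν {t | s < g t} := ⟨_, rfl⟩
  rw [← hκ] at hT1 hT2
  obtain ⟨a, ha⟩ : ∃ a : ℝ, a = ((s ^ 2 - 2 * s ^ 3 / 3) - ((0 : ℝ) ^ 2 - 2 * (0 : ℝ) ^ 3 / 3)) / (1 - s) :=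
    ⟨_, rfl⟩
  obtain ⟨b, hb⟩ : ∃ b : ℝ, b = (((1 : ℝ) ^ 2 - 2 * (1 : ℝ) ^ 3 / 3) - (s ^ 2 - 2 * s ^ 3 / 3)) / (1 - s) :=
    ⟨_, rfl⟩
  obtain ⟨φ, hφ⟩ : ∃ φ : ℝ, φ = 3 * s ^ 2 - 2 * s ^ 3 := ⟨_, rfl⟩
  rw [← hφ]
  have hφ0 : 0 ≤ φ := by
    have : φ = s ^ 2 * (3 - 2 * s) := by rw [hφ]; ring
    rw [this]
    have : 0 ≤ 3 - 2 * s := by linarith
    positivity
  have hφ1 : 0 ≤ 1 - φ := by
    have : 1 - φ = (1 - s) ^ 2 * (1 + 2 * s) := by rw [hφ]; ring
    rw [this]
    positivity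
  have ha0 : 0 ≤ a := by
    have : a = s ^ 2 * (1 - 2 * s / 3) / (1 - s) := by rw [ha]; ring
    rw [this]
    have : 0 ≤ 1 - 2 * s / 3 := by linarith
    positivity
  have hb0 : 0 ≤ b := by
    have : b = (1 - s) * (1 + 2 * s) / 3 := by rw [hb]; field_simp; ring
    rw [this]
    positivity
  have hab : (1 - φ) * a = φ * b := by
    rw [ha, hb, hφ]
    field_simp
    ring
  -- Step A
  have hA : ∫⁻ y in Ioi (0 : ℝ), ν {t | y < min (g t) s} * ENNReal.ofReal (2 * y)
      ≤ ENNReal.ofReal a * κ := by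
    calc ∫⁻ y in Ioi (0 : ℝ), ν {t | y < min (g t) s} * ENNReal.ofReal (2 * y)
        ≤ ∫⁻ y in Ioc (0 : ℝ) s, ENNReal.ofReal (2 * y * (1 - y) / (1 - s)) * κ := by
          apply setLIntegral_Ioi_le_of_support le_rfl
          · intro y hy
            rcases eq_or_lt_of_le hy.2 with hys | hys
            · have : {t | y < min (g t) s} = ∅ := by
                ext t
                simp only [mem_ofPred_eq, mem_empty_iff_false, iff_false, not_lt]
                rw [hys]
                exact min_le_right _ _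
              rw [this, measure_empty, zero_mul]
              exact zero_le
            · have hsub : {t | y < min (g t) s} ⊆ {t | y < g t} :=
                fun t (ht : y < min (g t) s) => show y < g t from
                  lt_of_lt_of_le ht (min_le_left _ _)
              have h1y : 0 ≤ 1 - y := by linarith
              calc ν {t | y < min (g t) s} * ENNReal.ofReal (2 * y)
                  ≤ ENNReal.ofReal ((1 - y) / (1 - s)) * κ * ENNReal.ofReal (2 * y) := by
                    gcongr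
                    exact (measure_mono hsub).trans (hT2 y ⟨hy.1, hys⟩)
                _ = ENNReal.ofReal (2 * y * (1 - y) / (1 - s)) * κ := by
                    have e : 2 * y * (1 - y) / (1 - s) = (1 - y) / (1 - s) * (2 * y) := by ring
                    rw [e, ENNReal.ofReal_mul (p := (1 - y) / (1 - s)) (q := 2 * y) (by positivity)]
                    ring
          · intro y hy hyn
            have hys : s < y := by
              by_contra hcon
              push Not at hcon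
              exact hyn ⟨hy, hcon⟩
            have : {t | y < min (g t) s} = ∅ := by
              ext t
              simp only [mem_ofPred_eq, mem_empty_iff_false, iff_false, not_lt]
              exact (min_le_right _ _).trans hys.le
            rw [this, measure_empty, zero_mul]
      _ = ENNReal.ofReal a * κ := by
          rw [lintegral_mul_const _ (by fun_prop), lintegral_cubic le_rfl hspos.le hs1 h1s, ← ha]
  -- Step B
  have hB : ENNReal.ofReal b * κ ≤ ∫⁻ y in Ioc s (1 : ℝ), ν {t | y < g t} * ENNReal.ofReal (2 * y) := by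
    calc ENNReal.ofReal b * κ
        = ∫⁻ y in Ioc s (1 : ℝ), ENNReal.ofReal (2 * y * (1 - y) / (1 - s)) * κ := by
          rw [lintegral_mul_const _ (by fun_prop), lintegral_cubic hspos.le hs1 le_rfl h1s, ← hb]
      _ ≤ ∫⁻ y in Ioc s (1 : ℝ), ν {t | y < g t} * ENNReal.ofReal (2 * y) := by
          apply setLIntegral_mono' measurableSet_Ioc
          intro y hy
          rcases eq_or_lt_of_le hy.2 with hy1 | hy1
          · rw [hy1]
            simp
          · have h1y : 0 ≤ 1 - y := by linarith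
            have hy0 : 0 ≤ y := by linarith [hy.1]
            calc ENNReal.ofReal (2 * y * (1 - y) / (1 - s)) * κ
                = ENNReal.ofReal ((1 - y) / (1 - s)) * κ * ENNReal.ofReal (2 * y) := by
                  have e : 2 * y * (1 - y) / (1 - s) = (1 - y) / (1 - s) * (2 * y) := by ring
                  rw [e, ENNReal.ofReal_mul (p := (1 - y) / (1 - s)) (q := 2 * y) (by positivity)]
                  ring
              _ ≤ ν {t | y < g t} * ENNReal.ofReal (2 * y) := by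
                  gcongr
                  exact hT1 y ⟨hy.1, hy1⟩
  -- Step B'
  have hI : (∫⁻ y in Ioi (0 : ℝ), ν {t | y < min (g t) s} * ENNReal.ofReal (2 * y))
      + ∫⁻ y in Ioc s (1 : ℝ), ν {t | y < g t} * ENNReal.ofReal (2 * y)
      ≤ ∫⁻ y in Ioi (0 : ℝ), ν {t | y < g t} * ENNReal.ofReal (2 * y) := by
    have h1 : ∫⁻ y in Ioi (0 : ℝ), ν {t | y < min (g t) s} * ENNReal.ofReal (2 * y)
        ≤ ∫⁻ y in Ioc (0 : ℝ) s, ν {t | y < g t} * ENNReal.ofReal (2 * y) := by
      apply setLIntegral_Ioi_le_of_support le_rfl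
      · intro y _
        gcongr
        exact min_le_left _ _
      · intro y hy hyn
        have hys : s < y := by
          by_contra hcon
          push Not at hcon
          exact hyn ⟨hy, hcon⟩
        have : {t | y < min (g t) s} = ∅ := by
          ext t
          simp only [mem_ofPred_eq, mem_empty_iff_false, iff_false, not_lt]
          exact (min_le_right _ _).trans hys.le
        rw [this, measure_empty, zero_mul]
    have hdisj : Disjoint (Ioc (0 : ℝ) s) (Ioc s 1) := by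
      rw [Set.disjoint_left]
      intro y hy1 hy2
      exact absurd hy1.2 (not_le.mpr hy2.1)
    calc (∫⁻ y in Ioi (0 : ℝ), ν {t | y < min (g t) s} * ENNReal.ofReal (2 * y))
          + ∫⁻ y in Ioc s (1 : ℝ), ν {t | y < g t} * ENNReal.ofReal (2 * y)
        ≤ (∫⁻ y in Ioc (0 : ℝ) s, ν {t | y < g t} * ENNReal.ofReal (2 * y))
          + ∫⁻ y in Ioc s (1 : ℝ), ν {t | y < g t} * ENNReal.ofReal (2 * y) := by gcongr
      _ = ∫⁻ y in Ioc (0 : ℝ) s ∪ Ioc s 1, ν {t | y < g t} * ENNReal.ofReal (2 * y) :=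
          (lintegral_union measurableSet_Ioc hdisj).symm
      _ ≤ ∫⁻ y in Ioi (0 : ℝ), ν {t | y < g t} * ENNReal.ofReal (2 * y) := by
          apply lintegral_mono_set
          rintro y (hy | hy)
          · exact hy.1
          · exact lt_trans hspos hy.1
  -- Step C
  obtain ⟨I₁, hI₁⟩ : ∃ I₁ : ENNReal,
      I₁ = ∫⁻ y in Ioi (0 : ℝ), ν {t | y < min (g t) s} * ENNReal.ofReal (2 * y) := ⟨_, rfl⟩
  obtain ⟨J₂, hJ₂⟩ : ∃ J₂ : ENNReal,
      J₂ = ∫⁻ y in Ioc s (1 : ℝ), ν {t | y < g t} * ENNReal.ofReal (2 * y) := ⟨_, rfl⟩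
  rw [← hI₁] at hA hI ⊢
  rw [← hJ₂] at hB hI
  have h1 : ENNReal.ofReal (1 - φ) * I₁ ≤ ENNReal.ofReal φ * J₂ := by
    calc ENNReal.ofReal (1 - φ) * I₁ ≤ ENNReal.ofReal (1 - φ) * (ENNReal.ofReal a * κ) := by gcongr
      _ = ENNReal.ofReal φ * (ENNReal.ofReal b * κ) := by
          rw [← mul_assoc, ← mul_assoc, ← ENNReal.ofReal_mul hφ1, ← ENNReal.ofReal_mul hφ0, hab]
      _ ≤ ENNReal.ofReal φ * J₂ := by gcongr
  have h2 : ENNReal.ofReal (1 - φ) + ENNReal.ofReal φ = 1 := by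
    rw [← ENNReal.ofReal_add hφ1 hφ0]
    simp
  calc I₁ = ENNReal.ofReal (1 - φ) * I₁ + ENNReal.ofReal φ * I₁ := by
        rw [← add_mul, h2, one_mul]
    _ ≤ ENNReal.ofReal φ * J₂ + ENNReal.ofReal φ * I₁ := by gcongr
    _ = ENNReal.ofReal φ * (I₁ + J₂) := by ring
    _ ≤ ENNReal.ofReal φ * ∫⁻ y in Ioi (0 : ℝ), ν {t | y < g t} * ENNReal.ofReal (2 * y) := by
        gcongr

/-- The sharp bound for a concave function on a planar compact convex set `D`: a subset of
relative area `s ^ 2` carries at most the fraction `3 s ^ 2 - 2 s ^ 3` of the integral. -/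
theorem sharp_concave {D : Set (ℝ × ℝ)} (hDc : IsCompact D) {X : ℝ × ℝ → ℝ} (hXm : Measurable X)
    (hX0 : ∀ p, 0 ≤ X p)
    (hconc : ∀ p ∈ D, ∀ q ∈ D, ∀ θ : ℝ, 0 < θ → θ < 1 →
      (1 - θ) • p + θ • q ∈ D ∧ (1 - θ) * X p + θ * X q ≤ X ((1 - θ) • p + θ • q))
    {B : Set (ℝ × ℝ)} {s : ℝ} (hs0 : 0 ≤ s) (hs1 : s ≤ 1)
    (hBs : volume (B ∩ D) = ENNReal.ofReal (s ^ 2) * volume D) :
    ∫⁻ p in B ∩ D, ENNReal.ofReal (X p)
      ≤ ENNReal.ofReal (3 * s ^ 2 - 2 * s ^ 3) * ∫⁻ p in D, ENNReal.ofReal (X p) := by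
  have hDm : MeasurableSet D := hDc.isClosed.measurableSet
  have hPt : volume D ≠ ⊤ := hDc.measure_lt_top.ne
  by_cases hP0 : volume D = 0
  · have : volume (B ∩ D) = 0 := measure_mono_null inter_subset_right hP0
    rw [setLIntegral_measure_zero _ _ this]
    exact zero_le
  have hPpos : 0 < (volume D).toReal := ENNReal.toReal_pos hP0 hPt
  have hlevm : ∀ t : ℝ, MeasurableSet {p | t < X p} := fun t => measurableSet_lt measurable_const hXm
  obtain ⟨μ, hμ⟩ : ∃ μ : ℝ → ENNReal, μ = fun t => (volume.restrict D) {p | t < X p} := ⟨_, rfl⟩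
  have hμapp : ∀ t, μ t = volume ({p | t < X p} ∩ D) := fun t => by
    rw [hμ]
    exact Measure.restrict_apply (hlevm t)
  have hμle : ∀ t, μ t ≤ volume D := fun t => by
    rw [hμapp]; exact measure_mono inter_subset_right
  have hμt : ∀ t, μ t ≠ ⊤ := fun t => ne_top_of_le_ne_top hPt (hμle t)
  have hμanti : Antitone μ := by
    intro t t' htt'
    rw [hμapp, hμapp]
    apply measure_mono
    rintro p ⟨hp, hpD⟩
    exact ⟨lt_of_le_of_lt htt' hp, hpD⟩
  obtain ⟨g, hg⟩ : ∃ g : ℝ → ℝ, g = fun t => Real.sqrt ((μ t).toReal / (volume D).toReal) :=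
    ⟨_, rfl⟩
  have hgm : Measurable g := by
    rw [hg]
    exact ((hμanti.measurable.ennreal_toReal).div_const _).sqrt
  have hg0 : ∀ t, 0 ≤ g t := fun t => by rw [hg]; exact Real.sqrt_nonneg _
  have hgsq : ∀ t, g t ^ 2 = (μ t).toReal / (volume D).toReal := fun t => by
    rw [hg]
    exact Real.sq_sqrt (div_nonneg ENNReal.toReal_nonneg ENNReal.toReal_nonneg)
  have hg1 : ∀ t, g t ≤ 1 := fun t => by
    have h1 : g t ^ 2 ≤ 1 := by
      rw [hgsq, div_le_one hPpos]
      exact ENNReal.toReal_mono hPt (hμle t)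
    nlinarith [hg0 t]
  have hμg : ∀ t, μ t = ENNReal.ofReal (g t ^ 2) * volume D := fun t => by
    rw [hgsq, ENNReal.ofReal_div_of_pos hPpos, ENNReal.ofReal_toReal (hμt t),
      ENNReal.ofReal_toReal hPt, ENNReal.div_mul_cancel hP0 hPt]
  have hDne : D.Nonempty := nonempty_of_measure_ne_zero hP0
  -- the scaling property, from the planar Brunn-Minkowski inequality
  have hsp : ∀ t, 0 < t → ∀ θ, 0 < θ → θ < 1 → 0 < g t → (1 - θ) + θ * g t ≤ g (θ * t) := by
    intro t ht θ hθ0 hθ1 hgt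
    have hμ0 : μ t ≠ 0 := by
      intro h0
      have : g t = 0 := by
        rw [hg]
        simp [h0]
      linarith
    have hSne : ({p | t < X p} ∩ D).Nonempty := by
      apply nonempty_of_measure_ne_zero (μ := volume)
      rw [← hμapp]
      exact hμ0
    have hbm := planar_bm (A := D) (B := {p | t < X p} ∩ D) (C := {p | θ * t < X p} ∩ D) (Q := D)
      hDm ((hlevm t).inter hDm) ((hlevm _).inter hDm) hDc subset_rfl inter_subset_right
      inter_subset_right hDne hSne hθ0 hθ1 (by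
        rintro p hp q ⟨hq, hqD⟩
        obtain ⟨h1, h2⟩ := hconc p hp q hqD θ hθ0 hθ1
        refine ⟨?_, h1⟩
        show θ * t < X ((1 - θ) • p + θ • q)
        have h3 : θ * t < θ * X q := mul_lt_mul_of_pos_left hq hθ0
        have h4 : 0 ≤ (1 - θ) * X p := mul_nonneg (by linarith) (hX0 p)
        linarith)
    rw [← hμapp, ← hμapp] at hbm
    have hsP : 0 < Real.sqrt (volume D).toReal := Real.sqrt_pos.mpr hPpos
    have e1 : g t = Real.sqrt (μ t).toReal / Real.sqrt (volume D).toReal := by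
      rw [hg]
      exact Real.sqrt_div ENNReal.toReal_nonneg _
    have e2 : g (θ * t) = Real.sqrt (μ (θ * t)).toReal / Real.sqrt (volume D).toReal := by
      rw [hg]
      exact Real.sqrt_div ENNReal.toReal_nonneg _
    rw [e1, e2, le_div_iff₀ hsP]
    have e3 : (1 - θ + θ * (Real.sqrt (μ t).toReal / Real.sqrt (volume D).toReal))
        * Real.sqrt (volume D).toReal
        = (1 - θ) * Real.sqrt (volume D).toReal + θ * Real.sqrt (μ t).toReal := by
      field_simp
    rw [e3]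
    exact hbm
  have hdist := dist_lemma hgm hg0 hg1 hsp hs0 hs1
  -- layer cakes
  have lcD := lintegral_eq_lintegral_meas_lt (volume.restrict D) (f := X)
    (Filter.Eventually.of_forall hX0) hXm.aemeasurable
  have lcB := lintegral_eq_lintegral_meas_lt (volume.restrict (B ∩ D)) (f := X)
    (Filter.Eventually.of_forall hX0) hXm.aemeasurable
  have hptB : ∀ t, (volume.restrict (B ∩ D)) {p | t < X p}
      ≤ ENNReal.ofReal (min (g t) s ^ 2) * volume D := by
    intro t
    have h1 : (volume.restrict (B ∩ D)) {p | t < X p} ≤ μ t := by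
      rw [hμapp, Measure.restrict_apply (hlevm t)]
      apply measure_mono
      rintro p ⟨hp, -, hpD⟩
      exact ⟨hp, hpD⟩
    have h2 : (volume.restrict (B ∩ D)) {p | t < X p} ≤ volume (B ∩ D) := by
      rw [Measure.restrict_apply (hlevm t)]
      exact measure_mono inter_subset_right
    rcases le_total (g t) s with hle | hle
    · rw [min_eq_left hle, ← hμg]
      exact h1
    · rw [min_eq_right hle, ← hBs]
      exact h2
  calc ∫⁻ p in B ∩ D, ENNReal.ofReal (X p)
      = ∫⁻ t in Ioi (0 : ℝ), (volume.restrict (B ∩ D)) {p | t < X p} := lcB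
    _ ≤ ∫⁻ t in Ioi (0 : ℝ), ENNReal.ofReal (min (g t) s ^ 2) * volume D :=
        lintegral_mono (fun t => hptB t)
    _ = (∫⁻ t in Ioi (0 : ℝ), ENNReal.ofReal (min (g t) s ^ 2)) * volume D :=
        lintegral_mul_const' _ _ hPt
    _ ≤ (ENNReal.ofReal (3 * s ^ 2 - 2 * s ^ 3)
          * ∫⁻ t in Ioi (0 : ℝ), ENNReal.ofReal (g t ^ 2)) * volume D := by gcongr
    _ = ENNReal.ofReal (3 * s ^ 2 - 2 * s ^ 3)
          * ∫⁻ t in Ioi (0 : ℝ), ENNReal.ofReal (g t ^ 2) * volume D := by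
        rw [lintegral_mul_const' _ _ hPt, mul_assoc]
    _ = ENNReal.ofReal (3 * s ^ 2 - 2 * s ^ 3) * ∫⁻ t in Ioi (0 : ℝ), μ t := by
        simp_rw [← hμg]
    _ = ENNReal.ofReal (3 * s ^ 2 - 2 * s ^ 3) * ∫⁻ p in D, ENNReal.ofReal (X p) := by
        rw [lcD, hμ]

/-- The sharp chord bound: if the base `B` meets the projection `D` of the convex body `G` in a
set of relative area `s ^ 2`, then the part of `G` inside the cylinder over `B` has volume at most
`3 s ^ 2 - 2 s ^ 3` times the volume of `G`. -/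
theorem sharp_chord_bound {G : Set ((ℝ × ℝ) × ℝ)} (hG : Convex ℝ G) (hGc : IsCompact G)
    {B : Set (ℝ × ℝ)} (hB : MeasurableSet B) {s : ℝ} (hs0 : 0 ≤ s) (hs1 : s ≤ 1)
    (hBs : volume (B ∩ Prod.fst '' G) = ENNReal.ofReal (s ^ 2) * volume (Prod.fst '' G)) :
    volume (G ∩ Prod.fst ⁻¹' B) ≤ ENNReal.ofReal (3 * s ^ 2 - 2 * s ^ 3) * volume G := by
  have hGm : MeasurableSet G := hGc.isClosed.measurableSet
  have hDc : IsCompact (Prod.fst '' G) := hGc.image continuous_fst
  have hDm : MeasurableSet (Prod.fst '' G) := hDc.isClosed.measurableSet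
  have hDconv : Convex ℝ (Prod.fst '' G) := by
    have := hG.linear_image (LinearMap.fst ℝ (ℝ × ℝ) ℝ)
    simpa using this
  have hZc : IsCompact (Prod.snd '' G) := hGc.image continuous_snd
  have hZt : volume (Prod.snd '' G) ≠ ⊤ := hZc.measure_lt_top.ne
  have hXt : ∀ p, volume (fib G p) ≠ ⊤ := fun p => ne_top_of_le_ne_top hZt (volume_fib_le p)
  have hsubD : G ⊆ Prod.fst ⁻¹' (Prod.fst '' G) := fun x hx => ⟨x, hx, rfl⟩
  obtain ⟨X, hX⟩ : ∃ X : ℝ × ℝ → ℝ, X = fun p => (volume (fib G p)).toReal := ⟨_, rfl⟩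
  have hXm : Measurable X := by
    rw [hX]; exact (measurable_volume_fib hGm).ennreal_toReal
  have hX0 : ∀ p, 0 ≤ X p := fun p => by rw [hX]; exact ENNReal.toReal_nonneg
  have hofX : ∀ p, ENNReal.ofReal (X p) = volume (fib G p) := fun p => by
    rw [hX]; exact ENNReal.ofReal_toReal (hXt p)
  have hfibsub : ∀ p, fib G p ⊆ Prod.snd '' G := fun p y hy => ⟨(p, y), hy, rfl⟩
  have hconc : ∀ p ∈ Prod.fst '' G, ∀ q ∈ Prod.fst '' G, ∀ θ : ℝ, 0 < θ → θ < 1 →
      (1 - θ) • p + θ • q ∈ Prod.fst '' G ∧ (1 - θ) * X p + θ * X q ≤ X ((1 - θ) • p + θ • q) := by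
    intro p hp q hq θ hθ0 hθ1
    have h1θ : 0 < 1 - θ := by linarith
    refine ⟨hDconv hp hq h1θ.le hθ0.le (by ring), ?_⟩
    have hIne : (fib G p).Nonempty := by
      obtain ⟨x, hx, rfl⟩ := hp
      exact ⟨x.2, hx⟩
    have hJne : (fib G q).Nonempty := by
      obtain ⟨x, hx, rfl⟩ := hq
      exact ⟨x.2, hx⟩
    have hbm := one_dim_bm (I := fib G p) (J := fib G q) (W := fib G ((1 - θ) • p + θ • q))
      (measurable_prodMk_left hGm) hIne hJne (hZc.bddAbove.mono (hfibsub p))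
      (hZc.bddBelow.mono (hfibsub q)) h1θ hθ0 (fun η hη ζ hζ => by
        have h := hG hη hζ h1θ.le hθ0.le (by ring)
        exact h)
    have hr := ENNReal.toReal_mono (hXt _) hbm
    rw [ENNReal.toReal_add (ENNReal.mul_ne_top ENNReal.ofReal_ne_top (hXt p))
      (ENNReal.mul_ne_top ENNReal.ofReal_ne_top (hXt q)), ENNReal.toReal_mul, ENNReal.toReal_mul,
      ENNReal.toReal_ofReal h1θ.le, ENNReal.toReal_ofReal hθ0.le] at hr
    rw [hX]
    exact hr
  have hsharp := sharp_concave hDc hXm hX0 hconc hs0 hs1 hBs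
  have eN : volume (G ∩ Prod.fst ⁻¹' B) = ∫⁻ p in B ∩ Prod.fst '' G, ENNReal.ofReal (X p) := by
    simp_rw [hofX]
    rw [← volume_inter_cyl hGm (hB.inter hDm)]
    congr 1
    ext x
    constructor
    · rintro ⟨hx, hxB⟩
      exact ⟨hx, hxB, hsubD hx⟩
    · rintro ⟨hx, hxB, -⟩
      exact ⟨hx, hxB⟩
  have eV : volume G = ∫⁻ p in Prod.fst '' G, ENNReal.ofReal (X p) := by
    simp_rw [hofX]
    rw [← volume_inter_cyl hGm hDm, inter_eq_self_of_subset_left hsubD]
  rw [eN, eV]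
  exact hsharp

end Vale.Agent.Helper11
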