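import Mathlib

/-!
# The plank theorem for a rectangle

Finitely many closed strips `{(p, q) : |a j * p + b j * q - m j| ≤ w j}` whose relative widths
with respect to a rectangle add up to less than `1` do not cover the rectangle.  The proof is
Bang's sign argument applied to the points `∑ ε j * c j * (A j, t * B j)`, where the positive
number `t` is chosen (intermediate value theorem) so that all these points stay in the rectangle.
-/

namespace Vale.Agent.Helper11

open Finset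

section existence

variable {ι : Type*} [Fintype ι]

theorem sq_denom_pos {A B : ℝ} (hAB : A ≠ 0 ∨ B ≠ 0) {t : ℝ} (ht : 0 < t) :
    0 < A ^ 2 + t * B ^ 2 := by
  rcases hAB with h | h
  · have : 0 < A ^ 2 := by positivity
    have : 0 ≤ t * B ^ 2 := by positivity
    linarith
  · have : 0 < t * B ^ 2 := by positivity
    have : 0 ≤ A ^ 2 := by positivity
    linarith

theorem sq_norm_pos {A B : ℝ} (hAB : A ≠ 0 ∨ B ≠ 0) : 0 < |A| + |B| := by
  rcases hAB with h | h
  · have : 0 < |A| := abs_pos.mpr h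
    have : 0 ≤ |B| := abs_nonneg B
    linarith
  · have : 0 < |B| := abs_pos.mpr h
    have : 0 ≤ |A| := abs_nonneg A
    linarith

/-- The key inequality: a weighted mean of the two coordinate sums is at most the sum of the
relative widths. -/
theorem sq_key (A B w : ι → ℝ) (hAB : ∀ j, A j ≠ 0 ∨ B j ≠ 0) (hw : ∀ j, 0 ≤ w j) {t : ℝ}
    (ht : 0 < t) :
    t * (∑ j, w j * |A j| / (A j ^ 2 + t * B j ^ 2))
        + ∑ j, w j * (t * |B j|) / (A j ^ 2 + t * B j ^ 2)
      ≤ (1 + t) * ∑ j, w j / (|A j| + |B j|) := by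
  rw [Finset.mul_sum, Finset.mul_sum, ← Finset.sum_add_distrib]
  apply Finset.sum_le_sum
  intro j _
  have hD : 0 < A j ^ 2 + t * B j ^ 2 := sq_denom_pos (hAB j) ht
  have hN : 0 < |A j| + |B j| := sq_norm_pos (hAB j)
  have e1 : t * (w j * |A j| / (A j ^ 2 + t * B j ^ 2))
      + w j * (t * |B j|) / (A j ^ 2 + t * B j ^ 2)
      = w j * (t * (|A j| + |B j|) / (A j ^ 2 + t * B j ^ 2)) := by
    field_simp
  have e2 : (1 + t) * (w j / (|A j| + |B j|)) = w j * ((1 + t) / (|A j| + |B j|)) := by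
    field_simp
  rw [e1, e2]
  apply mul_le_mul_of_nonneg_left _ (hw j)
  rw [div_le_div_iff₀ hD hN]
  have h3 : (1 + t) * (|A j| ^ 2 + t * |B j| ^ 2) - t * (|A j| + |B j|) * (|A j| + |B j|)
      = (|A j| - t * |B j|) ^ 2 := by ring
  have h4 := sq_nonneg (|A j| - t * |B j|)
  rw [← sq_abs (A j), ← sq_abs (B j)]
  linarith

/-- If the first coordinate sum exceeds `1` at `t = 1`, it equals `1` at some `t ≥ 1`. -/
theorem sq_exists_eq (A B w : ι → ℝ) (hAB : ∀ j, A j ≠ 0 ∨ B j ≠ 0) (hw : ∀ j, 0 ≤ w j)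
    (hσ : ∑ j, w j / (|A j| + |B j|) < 1)
    (h1 : 1 < ∑ j, w j * |A j| / (A j ^ 2 + 1 * B j ^ 2)) :
    ∃ t : ℝ, 1 ≤ t ∧ ∑ j, w j * |A j| / (A j ^ 2 + t * B j ^ 2) = 1 := by
  obtain ⟨F, hF⟩ : ∃ F : ℝ → ℝ,
      F = fun s => ∑ j, w j * |A j| / (A j ^ 2 + (1 + s ^ 2) * B j ^ 2) := ⟨_, rfl⟩
  have hFc : Continuous F := by
    rw [hF]
    apply continuous_finsetSum
    intro j _
    apply Continuous.div continuous_const (by fun_prop)
    intro s
    exact (sq_denom_pos (hAB j) (by positivity)).ne'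
  obtain ⟨C, hC⟩ : ∃ C : ι → ℝ,
      C = fun j => if B j = 0 then 0 else w j * |A j| / B j ^ 2 := ⟨_, rfl⟩
  have hC0 : ∀ j, 0 ≤ C j := by
    intro j
    rw [hC]
    by_cases hB : B j = 0
    · simp [hB]
    · simp only [hB, if_false]
      exact div_nonneg (mul_nonneg (hw j) (abs_nonneg _)) (sq_nonneg _)
  have hterm : ∀ T : ℝ, 0 < T → ∀ j,
      w j * |A j| / (A j ^ 2 + T * B j ^ 2) ≤ w j / (|A j| + |B j|) + C j / T := by
    intro T hT j
    by_cases hB : B j = 0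
    · have hA : A j ≠ 0 := by
        rcases hAB j with h | h
        · exact h
        · exact absurd hB h
      have hA' : 0 < |A j| := abs_pos.mpr hA
      have e : w j * |A j| / (A j ^ 2 + T * B j ^ 2) = w j / (|A j| + |B j|) := by
        rw [hB, ← sq_abs (A j)]
        simp only [abs_zero, add_zero]
        field_simp
        ring
      rw [e]
      have : 0 ≤ C j / T := div_nonneg (hC0 j) hT.le
      linarith
    · have hB2 : 0 < B j ^ 2 := by positivity
      have e : C j / T = w j * |A j| / (T * B j ^ 2) := by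
        rw [hC]
        simp only [hB, if_false]
        field_simp
      rw [e]
      have h5 : w j * |A j| / (A j ^ 2 + T * B j ^ 2) ≤ w j * |A j| / (T * B j ^ 2) := by
        apply div_le_div_of_nonneg_left (mul_nonneg (hw j) (abs_nonneg _)) (by positivity)
        have : 0 ≤ A j ^ 2 := sq_nonneg _
        linarith
      have h6 : 0 ≤ w j / (|A j| + |B j|) := div_nonneg (hw j) (sq_norm_pos (hAB j)).le
      linarith
  obtain ⟨σ, hσdef⟩ : ∃ σ : ℝ, σ = ∑ j, w j / (|A j| + |B j|) := ⟨_, rfl⟩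
  rw [← hσdef] at hσ
  have hCs : 0 ≤ ∑ j, C j := Finset.sum_nonneg (fun j _ => hC0 j)
  obtain ⟨S, hS⟩ : ∃ S : ℝ, S = (∑ j, C j) / (1 - σ) + 1 := ⟨_, rfl⟩
  have h1σ : 0 < 1 - σ := by linarith
  have hS1 : 1 ≤ S := by
    rw [hS]
    have : 0 ≤ (∑ j, C j) / (1 - σ) := div_nonneg hCs h1σ.le
    linarith
  have hT : 0 < 1 + S ^ 2 := by positivity
  have hFS : F S < 1 := by
    have hle : F S ≤ σ + (∑ j, C j) / (1 + S ^ 2) := by
      rw [hF, hσdef, Finset.sum_div, ← Finset.sum_add_distrib]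
      exact Finset.sum_le_sum (fun j _ => hterm _ hT j)
    have h7 : (∑ j, C j) / (1 + S ^ 2) < 1 - σ := by
      rw [div_lt_iff₀ hT]
      have h8 : (∑ j, C j) = (S - 1) * (1 - σ) := by
        rw [hS, add_sub_cancel_right, div_mul_cancel₀ _ h1σ.ne']
      rw [h8]
      have h9 : S - 1 < 1 + S ^ 2 := by nlinarith [sq_nonneg (S - 1)]
      nlinarith
    linarith
  have hF0 : 1 < F 0 := by
    rw [hF]
    simpa using h1
  have hivt := intermediate_value_Icc' (by linarith : (0 : ℝ) ≤ S) hFc.continuousOn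
  obtain ⟨s, -, hs⟩ := hivt ⟨hFS.le, hF0.le⟩
  refine ⟨1 + s ^ 2, by nlinarith [sq_nonneg s], ?_⟩
  rw [hF] at hs
  exact hs

/-- Existence of a good parameter `t`. -/
theorem sq_exists (A B w : ι → ℝ) (hAB : ∀ j, A j ≠ 0 ∨ B j ≠ 0) (hw : ∀ j, 0 ≤ w j)
    (hσ : ∑ j, w j / (|A j| + |B j|) < 1) :
    ∃ t : ℝ, 0 < t ∧ ∑ j, w j * |A j| / (A j ^ 2 + t * B j ^ 2) ≤ 1 ∧
      ∑ j, w j * (t * |B j|) / (A j ^ 2 + t * B j ^ 2) ≤ 1 := by
  by_cases h1 : ∑ j, w j * |A j| / (A j ^ 2 + 1 * B j ^ 2) ≤ 1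
  · by_cases h2 : ∑ j, w j * (1 * |B j|) / (A j ^ 2 + 1 * B j ^ 2) ≤ 1
    · exact ⟨1, one_pos, h1, h2⟩
    · push Not at h2
      have hσ' : ∑ j, w j / (|B j| + |A j|) < 1 := by
        have e : ∀ j, w j / (|B j| + |A j|) = w j / (|A j| + |B j|) := by
          intro j; rw [add_comm]
        simp_rw [e]
        exact hσ
      have h2' : 1 < ∑ j, w j * |B j| / (B j ^ 2 + 1 * A j ^ 2) := by
        have e : ∀ j, w j * |B j| / (B j ^ 2 + 1 * A j ^ 2)
            = w j * (1 * |B j|) / (A j ^ 2 + 1 * B j ^ 2) := by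
          intro j; rw [one_mul, one_mul, one_mul, add_comm]
        simp_rw [e]
        exact h2
      obtain ⟨s, hs1, hs⟩ := sq_exists_eq B A w (fun j => (hAB j).symm) hw hσ' h2'
      have hs0 : 0 < s := by linarith
      have ht : 0 < 1 / s := by positivity
      have hf2' : ∑ j, w j * (1 / s * |B j|) / (A j ^ 2 + 1 / s * B j ^ 2)
          = ∑ j, w j * |B j| / (B j ^ 2 + s * A j ^ 2) := by
        apply Finset.sum_congr rfl
        intro j _
        have hD1 : 0 < A j ^ 2 + 1 / s * B j ^ 2 := sq_denom_pos (hAB j) ht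
        have hD2 : 0 < B j ^ 2 + s * A j ^ 2 := sq_denom_pos (hAB j).symm hs0
        rw [div_eq_div_iff hD1.ne' hD2.ne']
        field_simp
        ring
      have hf2 : ∑ j, w j * (1 / s * |B j|) / (A j ^ 2 + 1 / s * B j ^ 2) = 1 := hf2'.trans hs
      have hkey := sq_key A B w hAB hw ht
      rw [hf2] at hkey
      refine ⟨1 / s, ht, ?_, hf2.le⟩
      by_contra hcon
      push Not at hcon
      have h3 : (1 + 1 / s) * ∑ j, w j / (|A j| + |B j|) < 1 + 1 / s := by
        have : (0 : ℝ) < 1 + 1 / s := by positivity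
        nlinarith
      have h4 : 1 / s * 1 < 1 / s * ∑ j, w j * |A j| / (A j ^ 2 + 1 / s * B j ^ 2) :=
        mul_lt_mul_of_pos_left hcon ht
      linarith
  · push Not at h1
    obtain ⟨t, ht1, ht⟩ := sq_exists_eq A B w hAB hw hσ h1
    have ht0 : 0 < t := by linarith
    have hkey := sq_key A B w hAB hw ht0
    rw [ht] at hkey
    refine ⟨t, ht0, ht.le, ?_⟩
    have h3 : (1 + t) * ∑ j, w j / (|A j| + |B j|) < 1 + t := by
      have : (0 : ℝ) < 1 + t := by positivity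
      nlinarith
    linarith

end existence

section bang

variable {ι : Type*} [Fintype ι]

/-- The sign attached to a Boolean. -/
def sgn (b : Bool) : ℝ := if b then 1 else -1

theorem sgn_sq (b : Bool) : sgn b * sgn b = 1 := by
  cases b <;> simp [sgn]

theorem sgn_not (b : Bool) : sgn (!b) = -sgn b := by
  cases b <;> simp [sgn]

theorem abs_sgn (b : Bool) : |sgn b| = 1 := by
  cases b <;> simp [sgn]

theorem sum_flip [DecidableEq ι] (ε : ι → Bool) (i : ι) (c F : ι → ℝ) :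
    ∑ j, sgn (Function.update ε i (!ε i) j) * c j * F j
      = ∑ j, sgn (ε j) * c j * F j - 2 * (sgn (ε i) * c i * F i) := by
  rw [← Finset.add_sum_erase _ _ (Finset.mem_univ i),
    ← Finset.add_sum_erase (f := fun j => sgn (ε j) * c j * F j) _ (Finset.mem_univ i)]
  have h1 : ∑ j ∈ Finset.univ.erase i, sgn (Function.update ε i (!ε i) j) * c j * F j
      = ∑ j ∈ Finset.univ.erase i, sgn (ε j) * c j * F j := by
    apply Finset.sum_congr rfl
    intro j hj
    rw [Function.update_of_ne (Finset.ne_of_mem_erase hj)]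
  rw [h1, Function.update_self, sgn_not]
  ring

/-- Bang's sign lemma for the symmetric kernel `A i * A j + t * B i * B j`. -/
theorem sq_bang (A B m c : ι → ℝ) (hc : ∀ j, 0 ≤ c j) (t : ℝ) :
    ∃ ε : ι → Bool, ∀ i, c i * (A i ^ 2 + t * B i ^ 2) ≤
      |A i * (∑ j, sgn (ε j) * c j * A j) + B i * (t * ∑ j, sgn (ε j) * c j * B j) - m i| := by
  classical
  obtain ⟨ε, hε⟩ := Finite.exists_max (fun ε : ι → Bool =>
    (∑ j, sgn (ε j) * c j * A j) ^ 2 + t * (∑ j, sgn (ε j) * c j * B j) ^ 2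
      - 2 * ∑ j, sgn (ε j) * c j * m j)
  refine ⟨ε, fun i => ?_⟩
  have h := hε (Function.update ε i (!ε i))
  rw [sum_flip ε i c A, sum_flip ε i c B, sum_flip ε i c m] at h
  obtain ⟨X, hX⟩ : ∃ X : ℝ, X = ∑ j, sgn (ε j) * c j * A j := ⟨_, rfl⟩
  obtain ⟨Y, hY⟩ : ∃ Y : ℝ, Y = ∑ j, sgn (ε j) * c j * B j := ⟨_, rfl⟩
  obtain ⟨M, hM⟩ : ∃ M : ℝ, M = ∑ j, sgn (ε j) * c j * m j := ⟨_, rfl⟩
  rw [← hX, ← hY, ← hM] at h
  rw [← hX, ← hY]
  obtain ⟨Δ, hΔ⟩ : ∃ Δ : ℝ, Δ = A i * X + B i * (t * Y) - m i := ⟨_, rfl⟩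
  rw [← hΔ]
  have hs := sgn_sq (ε i)
  obtain ⟨s, hsdef⟩ : ∃ s : ℝ, s = sgn (ε i) := ⟨_, rfl⟩
  rw [← hsdef] at h hs
  have h2 : c i * c i * (A i ^ 2 + t * B i ^ 2) ≤ s * c i * Δ := by
    have e : (X - 2 * (s * c i * A i)) ^ 2 + t * (Y - 2 * (s * c i * B i)) ^ 2
        - 2 * (M - 2 * (s * c i * m i)) - (X ^ 2 + t * Y ^ 2 - 2 * M)
        = 4 * ((s * s) * (c i * c i * (A i ^ 2 + t * B i ^ 2)) - s * c i * Δ) := by
      rw [hΔ]; ring
    rw [hs, one_mul] at e
    linarith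
  have h3 : s * c i * Δ ≤ c i * |Δ| := by
    have h4 : s * c i * Δ ≤ |s * c i * Δ| := le_abs_self _
    have hsabs : |s| = 1 := by rw [hsdef]; exact abs_sgn _
    rw [abs_mul, abs_mul, hsabs, one_mul, abs_of_nonneg (hc i)] at h4
    exact h4
  rcases (hc i).eq_or_lt with h0 | h0
  · rw [← h0, zero_mul]
    exact abs_nonneg _
  · have h5 : c i * (c i * (A i ^ 2 + t * B i ^ 2)) ≤ c i * |Δ| := by
      calc c i * (c i * (A i ^ 2 + t * B i ^ 2)) = c i * c i * (A i ^ 2 + t * B i ^ 2) := by ring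
        _ ≤ s * c i * Δ := h2
        _ ≤ c i * |Δ| := h3
    exact le_of_mul_le_mul_left h5 h0

end bang

section plank

variable {ι : Type*} [Fintype ι]

/-- The plank theorem for the square `[-1, 1] × [-1, 1]`. -/
theorem sq_plank_core (A B m w : ι → ℝ) (hAB : ∀ j, A j ≠ 0 ∨ B j ≠ 0) (hw : ∀ j, 0 ≤ w j)
    (hσ : ∑ j, w j / (|A j| + |B j|) < 1) :
    ∃ x y : ℝ, |x| ≤ 1 ∧ |y| ≤ 1 ∧ ∀ j, w j ≤ |A j * x + B j * y - m j| := by
  obtain ⟨t, ht, hf1, hf2⟩ := sq_exists A B w hAB hw hσ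
  have hD : ∀ j, 0 < A j ^ 2 + t * B j ^ 2 := fun j => sq_denom_pos (hAB j) ht
  obtain ⟨c, hc⟩ : ∃ c : ι → ℝ, c = fun j => w j / (A j ^ 2 + t * B j ^ 2) := ⟨_, rfl⟩
  have hc0 : ∀ j, 0 ≤ c j := by
    intro j; rw [hc]; exact div_nonneg (hw j) (hD j).le
  obtain ⟨ε, hε⟩ := sq_bang A B m c hc0 t
  refine ⟨∑ j, sgn (ε j) * c j * A j, t * ∑ j, sgn (ε j) * c j * B j, ?_, ?_, ?_⟩
  · calc |∑ j, sgn (ε j) * c j * A j| ≤ ∑ j, |sgn (ε j) * c j * A j| :=
          Finset.abs_sum_le_sum_abs _ _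
      _ = ∑ j, w j * |A j| / (A j ^ 2 + t * B j ^ 2) := by
          apply Finset.sum_congr rfl
          intro j _
          rw [abs_mul, abs_mul, abs_sgn, one_mul, abs_of_nonneg (hc0 j), hc]
          ring
      _ ≤ 1 := hf1
  · rw [abs_mul, abs_of_pos ht]
    calc t * |∑ j, sgn (ε j) * c j * B j| ≤ t * ∑ j, |sgn (ε j) * c j * B j| :=
          mul_le_mul_of_nonneg_left (Finset.abs_sum_le_sum_abs _ _) ht.le
      _ = ∑ j, w j * (t * |B j|) / (A j ^ 2 + t * B j ^ 2) := by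
          rw [Finset.mul_sum]
          apply Finset.sum_congr rfl
          intro j _
          rw [abs_mul, abs_mul, abs_sgn, one_mul, abs_of_nonneg (hc0 j), hc]
          ring
      _ ≤ 1 := hf2
  · intro j
    have h := hε j
    have e : c j * (A j ^ 2 + t * B j ^ 2) = w j := by
      rw [hc]
      exact div_mul_cancel₀ _ (hD j).ne'
    rw [e] at h
    exact h

/-- **Plank theorem for a rectangle.** Finitely many closed strips whose relative widths with
respect to the rectangle with centre `(p0, q0)` and half-sides `g`, `h` add up to less than `1`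
miss a point of the rectangle. -/
theorem rect_plank (a b m w : ι → ℝ) {p0 q0 g h : ℝ} (hg : 0 < g) (hh : 0 < h)
    (hab : ∀ j, a j ≠ 0 ∨ b j ≠ 0) (hw : ∀ j, 0 ≤ w j)
    (hσ : ∑ j, w j / (|a j| * g + |b j| * h) < 1) :
    ∃ p q : ℝ, |p - p0| ≤ g ∧ |q - q0| ≤ h ∧ ∀ j, w j < |a j * p + b j * q - m j| := by
  obtain ⟨σ, hσdef⟩ : ∃ σ : ℝ, σ = ∑ j, w j / (|a j| * g + |b j| * h) := ⟨_, rfl⟩
  rw [← hσdef] at hσ
  obtain ⟨n, hn⟩ : ∃ n : ℝ, n = (Fintype.card ι : ℝ) := ⟨_, rfl⟩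
  have hn0 : 0 ≤ n := by rw [hn]; positivity
  obtain ⟨η, hη⟩ : ∃ η : ℝ, η = (1 - σ) / (2 * (n + 1)) := ⟨_, rfl⟩
  have hη0 : 0 < η := by
    rw [hη]
    apply div_pos (by linarith) (by linarith)
  have hAB : ∀ j, a j * g ≠ 0 ∨ b j * h ≠ 0 := by
    intro j
    rcases hab j with h1 | h1
    · left; exact mul_ne_zero h1 hg.ne'
    · right; exact mul_ne_zero h1 hh.ne'
  have hN : ∀ j, |a j * g| + |b j * h| = |a j| * g + |b j| * h := by
    intro j
    rw [abs_mul, abs_mul, abs_of_pos hg, abs_of_pos hh]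
  have hNpos : ∀ j, 0 < |a j| * g + |b j| * h := by
    intro j
    rw [← hN j]
    exact sq_norm_pos (hAB j)
  have hσ' : ∑ j, (w j + η * (|a j| * g + |b j| * h)) / (|a j * g| + |b j * h|) < 1 := by
    have e : ∀ j, (w j + η * (|a j| * g + |b j| * h)) / (|a j * g| + |b j * h|)
        = w j / (|a j| * g + |b j| * h) + η := by
      intro j
      rw [hN j]
      have := (hNpos j).ne'
      field_simp
    simp_rw [e]
    rw [Finset.sum_add_distrib, ← hσdef]
    simp only [Finset.sum_const, Finset.card_univ, nsmul_eq_mul]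
    rw [← hn]
    have h2 : n * η = (1 - σ) * (n / (2 * (n + 1))) := by
      rw [hη]; field_simp
    have h3 : n / (2 * (n + 1)) < 1 := by
      rw [div_lt_one (by linarith)]
      linarith
    have h4 : (1 - σ) * (n / (2 * (n + 1))) < (1 - σ) * 1 :=
      mul_lt_mul_of_pos_left h3 (by linarith)
    linarith
  obtain ⟨x, y, hx, hy, hxy⟩ := sq_plank_core (fun j => a j * g) (fun j => b j * h)
    (fun j => m j - a j * p0 - b j * q0) (fun j => w j + η * (|a j| * g + |b j| * h)) hAB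
    (fun j => add_nonneg (hw j) (mul_nonneg hη0.le (hNpos j).le)) hσ'
  refine ⟨p0 + g * x, q0 + h * y, ?_, ?_, ?_⟩
  · rw [add_sub_cancel_left, abs_mul, abs_of_pos hg]
    nlinarith
  · rw [add_sub_cancel_left, abs_mul, abs_of_pos hh]
    nlinarith
  · intro j
    have h1 := hxy j
    have e : a j * (p0 + g * x) + b j * (q0 + h * y) - m j
        = a j * g * x + b j * h * y - (m j - a j * p0 - b j * q0) := by ring
    rw [e]
    have h2 : 0 < η * (|a j| * g + |b j| * h) := mul_pos hη0 (hNpos j)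
    linarith

end plank

end Vale.Agent.Helper11
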