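import Vale.Agent.Helper11.PlankCore

/-!
# The planar two-plank lemma (relative widths)
-/

namespace Vale.Agent.Helper11

open Set MeasureTheory

/-- Scaled version of `core`. -/
theorem core_scaled {w h A B E F P R S Q : ℝ} (hw : 0 < w) (hh : 0 < h)
    (hA : 0 ≤ A) (hB : 0 ≤ B) (hE : 0 ≤ E) (hF : 0 ≤ F)
    (hES : E ≤ S) (hSF : S ≤ h - F) (hEQ : E ≤ Q) (hQF : Q ≤ h - F)
    (hAP : A ≤ P) (hPB : P ≤ w - B) (hAR : A ≤ R) (hRB : R ≤ w - B)
    (hLL : A * S + E * P ≤ P * S) (hLR : B * Q + E * (w - P) ≤ (w - P) * Q)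
    (hUR : B * (h - Q) + F * (w - R) ≤ (w - R) * (h - Q))
    (hUL : A * (h - S) + F * R ≤ R * (h - S)) : (A + B) / w + (E + F) / h ≤ 1 := by
  have hwh : 0 < w * h := mul_pos hw hh
  have key := core (a := A / w) (b := B / w) (e := E / h) (f := F / h) (p := P / w) (r := R / w)
    (s := S / h) (q := Q / h) (div_nonneg hA hw.le) (div_nonneg hB hw.le) (div_nonneg hE hh.le)
    (div_nonneg hF hh.le) (div_le_div_of_nonneg_right hES hh.le)
    (by rw [le_sub_iff_add_le, ← add_div, div_le_one hh]; linarith)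
    (div_le_div_of_nonneg_right hEQ hh.le)
    (by rw [le_sub_iff_add_le, ← add_div, div_le_one hh]; linarith)
    (div_le_div_of_nonneg_right hAP hw.le)
    (by rw [le_sub_iff_add_le, ← add_div, div_le_one hw]; linarith)
    (div_le_div_of_nonneg_right hAR hw.le)
    (by rw [le_sub_iff_add_le, ← add_div, div_le_one hw]; linarith)
    (by
      have h1 : A / w * (S / h) + E / h * (P / w) = (A * S + E * P) / (w * h) := by
        field_simp
      have h2 : P / w * (S / h) = (P * S) / (w * h) := by field_simp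
      rw [h1, h2]
      exact div_le_div_of_nonneg_right hLL hwh.le)
    (by
      have h1 : B / w * (Q / h) + E / h * (1 - P / w) = (B * Q + E * (w - P)) / (w * h) := by
        field_simp
      have h2 : (1 - P / w) * (Q / h) = ((w - P) * Q) / (w * h) := by field_simp
      rw [h1, h2]
      exact div_le_div_of_nonneg_right hLR hwh.le)
    (by
      have h1 : B / w * (1 - Q / h) + F / h * (1 - R / w)
          = (B * (h - Q) + F * (w - R)) / (w * h) := by
        field_simp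
      have h2 : (1 - R / w) * (1 - Q / h) = ((w - R) * (h - Q)) / (w * h) := by field_simp
      rw [h1, h2]
      exact div_le_div_of_nonneg_right hUR hwh.le)
    (by
      have h1 : A / w * (1 - S / h) + F / h * (R / w) = (A * (h - S) + F * R) / (w * h) := by
        field_simp
      have h2 : R / w * (1 - S / h) = (R * (h - S)) / (w * h) := by field_simp
      rw [h1, h2]
      exact div_le_div_of_nonneg_right hUL hwh.le)
  have e1 : (A + B) / w + (E + F) / h = A / w + B / w + E / h + F / h := by ring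
  rw [e1]
  exact key

/-- One corner: if a convex set `L` avoids the corner `{φ < α} ∩ {ψ < β}`, `U ∈ L` has `φ U < α`
and `V ∈ L` has `ψ V < β`, then the segment `[U, V]` passes on the far side of the corner. -/
theorem corner {L : Set (ℝ × ℝ)} (hL : Convex ℝ L) (φ ψ : ℝ × ℝ →ₗ[ℝ] ℝ) {U V : ℝ × ℝ}
    (hU : U ∈ L) (hV : V ∈ L) {α β : ℝ} (hcov : ∀ z ∈ L, α ≤ φ z ∨ β ≤ ψ z)
    (hU1 : φ U < α) (hV2 : ψ V < β) :
    (α - φ U) * (ψ U - ψ V) + (β - ψ V) * (φ V - φ U) ≤ (φ V - φ U) * (ψ U - ψ V) := by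
  have hUψ : β ≤ ψ U := by
    rcases hcov U hU with h | h
    · exact absurd h (not_le.mpr hU1)
    · exact h
  have hVφ : α ≤ φ V := by
    rcases hcov V hV with h | h
    · exact h
    · exact absurd h (not_le.mpr hV2)
  by_contra hcon
  have hcon : (φ V - φ U) * (ψ U - ψ V) < (α - φ U) * (ψ U - ψ V) + (β - ψ V) * (φ V - φ U) :=
    not_le.mp hcon
  have hA : 0 < α - φ U := by linarith
  have hE : 0 < β - ψ V := by linarith
  have hP : 0 < φ V - φ U := by linarith
  have hS : 0 < ψ U - ψ V := by linarith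
  obtain ⟨τ, hτ⟩ : ∃ τ : ℝ, τ = ((α - φ U) / (φ V - φ U) + (1 - (β - ψ V) / (ψ U - ψ V))) / 2 :=
    ⟨_, rfl⟩
  have h1 : (α - φ U) / (φ V - φ U) ≤ 1 := by rw [div_le_one hP]; linarith
  have h2 : (β - ψ V) / (ψ U - ψ V) ≤ 1 := by rw [div_le_one hS]; linarith
  have h3 : 0 < (α - φ U) / (φ V - φ U) := div_pos hA hP
  have h4 : 0 < (β - ψ V) / (ψ U - ψ V) := div_pos hE hS
  have h5' : 1 < (α - φ U) / (φ V - φ U) + (β - ψ V) / (ψ U - ψ V) := by
    rw [div_add_div _ _ hP.ne' hS.ne', lt_div_iff₀ (mul_pos hP hS)]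
    linarith
  have h5 : 1 - (β - ψ V) / (ψ U - ψ V) < (α - φ U) / (φ V - φ U) := by linarith
  have hτ0 : 0 ≤ τ := by rw [hτ]; linarith
  have hτ1 : τ ≤ 1 := by rw [hτ]; linarith
  have hτA : τ * (φ V - φ U) < α - φ U := by
    have : τ < (α - φ U) / (φ V - φ U) := by rw [hτ]; linarith
    exact (lt_div_iff₀ hP).mp this
  have hτE : (1 - τ) * (ψ U - ψ V) < β - ψ V := by
    have : 1 - τ < (β - ψ V) / (ψ U - ψ V) := by rw [hτ]; linarith
    exact (lt_div_iff₀ hS).mp this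
  have hZ : (1 - τ) • U + τ • V ∈ L :=
    hL hU hV (by linarith) hτ0 (by ring)
  rcases hcov _ hZ with h | h
  · rw [map_add, map_smul, map_smul, smul_eq_mul, smul_eq_mul] at h
    nlinarith
  · rw [map_add, map_smul, map_smul, smul_eq_mul, smul_eq_mul] at h
    nlinarith

/-- Bookkeeping lemma for clamped parameters at a corner. -/
theorem clamp_corner {A E S P St Pt : ℝ} (hA : 0 ≤ A) (hE : 0 ≤ E) (hES : E ≤ S) (hAP : A ≤ P)
    (hS : 0 < A → S = St) (hP : 0 < E → P = Pt)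
    (hc : 0 < A → 0 < E → A * St + E * Pt ≤ Pt * St) : A * S + E * P ≤ P * S := by
  rcases hA.eq_or_lt with hA0 | hApos
  · rw [← hA0] at hAP ⊢
    nlinarith [mul_le_mul_of_nonneg_left hES hAP]
  · rcases hE.eq_or_lt with hE0 | hEpos
    · rw [← hE0] at hES ⊢
      nlinarith [mul_le_mul_of_nonneg_right hAP hES]
    · rw [hS hApos, hP hEpos]
      exact hc hApos hEpos

/-- **Two-plank lemma, real form.** A convex set `L` with bounding box `[i0,i1] × [j0,j1]`
(touching all four sides) which is covered by the vertical strip `a0 ≤ x ≤ a1` and the horizontal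
strip `b0 ≤ y ≤ b1` satisfies `(a1 - a0)/(i1 - i0) + (b1 - b0)/(j1 - j0) ≥ 1`. -/
theorem two_plank_real {L : Set (ℝ × ℝ)} (hL : Convex ℝ L) {i0 i1 j0 j1 a0 a1 b0 b1 : ℝ}
    (hi : i0 < i1) (hj : j0 < j1)
    {Tl Tr Tb Tt : ℝ × ℝ} (hTl : Tl ∈ L) (hTr : Tr ∈ L) (hTb : Tb ∈ L) (hTt : Tt ∈ L)
    (hTl1 : Tl.1 = i0) (hTr1 : Tr.1 = i1) (hTb2 : Tb.2 = j0) (hTt2 : Tt.2 = j1)
    (ha : i0 ≤ a0) (ha' : a0 ≤ a1) (ha1 : a1 ≤ i1) (hb : j0 ≤ b0) (hb' : b0 ≤ b1) (hb1 : b1 ≤ j1)
    (hcov : ∀ z ∈ L, (a0 ≤ z.1 ∧ z.1 ≤ a1) ∨ (b0 ≤ z.2 ∧ z.2 ≤ b1)) :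
    1 ≤ (a1 - a0) / (i1 - i0) + (b1 - b0) / (j1 - j0) := by
  have hw : 0 < i1 - i0 := by linarith
  have hh : 0 < j1 - j0 := by linarith
  -- true parameters
  obtain ⟨St, hSt⟩ : ∃ St : ℝ, St = Tl.2 - j0 := ⟨_, rfl⟩
  obtain ⟨Qt, hQt⟩ : ∃ Qt : ℝ, Qt = Tr.2 - j0 := ⟨_, rfl⟩
  obtain ⟨Pt, hPt⟩ : ∃ Pt : ℝ, Pt = Tb.1 - i0 := ⟨_, rfl⟩
  obtain ⟨Rt, hRt⟩ : ∃ Rt : ℝ, Rt = Tt.1 - i0 := ⟨_, rfl⟩
  -- margins
  obtain ⟨A, hAdef⟩ : ∃ A : ℝ, A = a0 - i0 := ⟨_, rfl⟩
  obtain ⟨B, hBdef⟩ : ∃ B : ℝ, B = i1 - a1 := ⟨_, rfl⟩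
  obtain ⟨E, hEdef⟩ : ∃ E : ℝ, E = b0 - j0 := ⟨_, rfl⟩
  obtain ⟨F, hFdef⟩ : ∃ F : ℝ, F = j1 - b1 := ⟨_, rfl⟩
  have hA : 0 ≤ A := by linarith
  have hB : 0 ≤ B := by linarith
  have hE : 0 ≤ E := by linarith
  have hF : 0 ≤ F := by linarith
  -- facts about true parameters when margins are positive
  have fS : 0 < A → E ≤ St ∧ St ≤ (j1 - j0) - F := by
    intro hpos
    rcases hcov Tl hTl with h | h
    · exfalso; rw [hTl1] at h; linarith [h.1]
    · constructor <;> linarith [h.1, h.2]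
  have fQ : 0 < B → E ≤ Qt ∧ Qt ≤ (j1 - j0) - F := by
    intro hpos
    rcases hcov Tr hTr with h | h
    · exfalso; rw [hTr1] at h; linarith [h.2]
    · constructor <;> linarith [h.1, h.2]
  have fP : 0 < E → A ≤ Pt ∧ Pt ≤ (i1 - i0) - B := by
    intro hpos
    rcases hcov Tb hTb with h | h
    · constructor <;> linarith [h.1, h.2]
    · exfalso; rw [hTb2] at h; linarith [h.1]
  have fR : 0 < F → A ≤ Rt ∧ Rt ≤ (i1 - i0) - B := by
    intro hpos
    rcases hcov Tt hTt with h | h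
    · constructor <;> linarith [h.1, h.2]
    · exfalso; rw [hTt2] at h; linarith [h.2]
  -- clamped parameters
  obtain ⟨S, hS⟩ : ∃ S : ℝ, S = max E (min St ((j1 - j0) - F)) := ⟨_, rfl⟩
  obtain ⟨Q, hQ⟩ : ∃ Q : ℝ, Q = max E (min Qt ((j1 - j0) - F)) := ⟨_, rfl⟩
  obtain ⟨P, hP⟩ : ∃ P : ℝ, P = max A (min Pt ((i1 - i0) - B)) := ⟨_, rfl⟩
  obtain ⟨R, hR⟩ : ∃ R : ℝ, R = max A (min Rt ((i1 - i0) - B)) := ⟨_, rfl⟩
  have hEF : E ≤ (j1 - j0) - F := by linarith
  have hAB : A ≤ (i1 - i0) - B := by linarith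
  have hES : E ≤ S := by rw [hS]; exact le_max_left _ _
  have hSF : S ≤ (j1 - j0) - F := by rw [hS]; exact max_le hEF (min_le_right _ _)
  have hEQ : E ≤ Q := by rw [hQ]; exact le_max_left _ _
  have hQF : Q ≤ (j1 - j0) - F := by rw [hQ]; exact max_le hEF (min_le_right _ _)
  have hAP : A ≤ P := by rw [hP]; exact le_max_left _ _
  have hPB : P ≤ (i1 - i0) - B := by rw [hP]; exact max_le hAB (min_le_right _ _)
  have hAR : A ≤ R := by rw [hR]; exact le_max_left _ _
  have hRB : R ≤ (i1 - i0) - B := by rw [hR]; exact max_le hAB (min_le_right _ _)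
  have eS : 0 < A → S = St := by
    intro hpos
    rw [hS, min_eq_left (fS hpos).2, max_eq_right (fS hpos).1]
  have eQ : 0 < B → Q = Qt := by
    intro hpos
    rw [hQ, min_eq_left (fQ hpos).2, max_eq_right (fQ hpos).1]
  have eP : 0 < E → P = Pt := by
    intro hpos
    rw [hP, min_eq_left (fP hpos).2, max_eq_right (fP hpos).1]
  have eR : 0 < F → R = Rt := by
    intro hpos
    rw [hR, min_eq_left (fR hpos).2, max_eq_right (fR hpos).1]
  -- the four corner inequalities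
  have cLL : A * S + E * P ≤ P * S := by
    apply clamp_corner hA hE hES hAP eS eP
    intro hApos hEpos
    have := corner hL (LinearMap.fst ℝ ℝ ℝ) (LinearMap.snd ℝ ℝ ℝ) hTl hTb (α := a0) (β := b0)
      (fun z hz => by
        rcases hcov z hz with h | h
        · left; exact h.1
        · right; exact h.1)
      (by simp only [LinearMap.fst_apply]; rw [hTl1]; linarith)
      (by simp only [LinearMap.snd_apply]; rw [hTb2]; linarith)
    simp only [LinearMap.fst_apply, LinearMap.snd_apply] at this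
    rw [hTl1, hTb2] at this
    rw [hAdef, hEdef, hSt, hPt]
    linarith
  have cLR : B * Q + E * ((i1 - i0) - P) ≤ ((i1 - i0) - P) * Q := by
    apply clamp_corner hB hE hEQ (by linarith) eQ (fun hpos => by rw [eP hpos])
    intro hBpos hEpos
    have := corner hL (-LinearMap.fst ℝ ℝ ℝ) (LinearMap.snd ℝ ℝ ℝ) hTr hTb (α := -a1) (β := b0)
      (fun z hz => by
        rcases hcov z hz with h | h
        · left; simp only [LinearMap.neg_apply, LinearMap.fst_apply]; linarith [h.2]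
        · right; exact h.1)
      (by simp only [LinearMap.neg_apply, LinearMap.fst_apply]; rw [hTr1]; linarith)
      (by simp only [LinearMap.snd_apply]; rw [hTb2]; linarith)
    simp only [LinearMap.neg_apply, LinearMap.fst_apply, LinearMap.snd_apply] at this
    rw [hTr1, hTb2] at this
    rw [hBdef, hEdef, hQt, hPt]
    linarith
  have cUR : B * ((j1 - j0) - Q) + F * ((i1 - i0) - R) ≤ ((i1 - i0) - R) * ((j1 - j0) - Q) := by
    apply clamp_corner hB hF (by linarith) (by linarith) (fun hpos => by rw [eQ hpos])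
      (fun hpos => by rw [eR hpos])
    intro hBpos hFpos
    have := corner hL (-LinearMap.fst ℝ ℝ ℝ) (-LinearMap.snd ℝ ℝ ℝ) hTr hTt (α := -a1) (β := -b1)
      (fun z hz => by
        rcases hcov z hz with h | h
        · left; simp only [LinearMap.neg_apply, LinearMap.fst_apply]; linarith [h.2]
        · right; simp only [LinearMap.neg_apply, LinearMap.snd_apply]; linarith [h.2])
      (by simp only [LinearMap.neg_apply, LinearMap.fst_apply]; rw [hTr1]; linarith)
      (by simp only [LinearMap.neg_apply, LinearMap.snd_apply]; rw [hTt2]; linarith)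
    simp only [LinearMap.neg_apply, LinearMap.fst_apply, LinearMap.snd_apply] at this
    rw [hTr1, hTt2] at this
    rw [hBdef, hFdef, hQt, hRt]
    linarith
  have cUL : A * ((j1 - j0) - S) + F * R ≤ R * ((j1 - j0) - S) := by
    apply clamp_corner hA hF (by linarith) hAR (fun hpos => by rw [eS hpos]) eR
    intro hApos hFpos
    have := corner hL (LinearMap.fst ℝ ℝ ℝ) (-LinearMap.snd ℝ ℝ ℝ) hTl hTt (α := a0) (β := -b1)
      (fun z hz => by
        rcases hcov z hz with h | h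
        · left; exact h.1
        · right; simp only [LinearMap.neg_apply, LinearMap.snd_apply]; linarith [h.2])
      (by simp only [LinearMap.fst_apply]; rw [hTl1]; linarith)
      (by simp only [LinearMap.neg_apply, LinearMap.snd_apply]; rw [hTt2]; linarith)
    simp only [LinearMap.neg_apply, LinearMap.fst_apply, LinearMap.snd_apply] at this
    rw [hTl1, hTt2] at this
    rw [hAdef, hFdef, hSt, hRt]
    linarith
  have key := core_scaled hw hh hA hB hE hF hES hSF hEQ hQF hAP hPB hAR hRB cLL cLR cUR cUL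
  have e1 : (a1 - a0) / (i1 - i0) = 1 - (A + B) / (i1 - i0) := by
    rw [hAdef, hBdef]; field_simp; ring
  have e2 : (b1 - b0) / (j1 - j0) = 1 - (E + F) / (j1 - j0) := by
    rw [hEdef, hFdef]; field_simp; ring
  rw [e1, e2]
  linarith

end Vale.Agent.Helper11

namespace Vale.Agent.Helper11

open Set MeasureTheory

theorem exists_Icc_of_compact_convex {I : Set ℝ} (hc : IsCompact I) (hconv : Convex ℝ I)
    (hne : I.Nonempty) : ∃ i0 i1 : ℝ, i0 ≤ i1 ∧ I = Icc i0 i1 := by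
  obtain ⟨i0, hi0⟩ := hc.exists_isLeast hne
  obtain ⟨i1, hi1⟩ := hc.exists_isGreatest hne
  refine ⟨i0, i1, hi0.2 hi1.1, ?_⟩
  apply Subset.antisymm
  · intro x hx
    exact ⟨hi0.2 hx, hi1.2 hx⟩
  · exact hconv.ordConnected.out hi0.1 hi1.1

theorem ordConnected_volume_ge {S : Set ℝ} (hS : S.OrdConnected) (hne : S.Nonempty)
    (hb : BddBelow S) (ha : BddAbove S) :
    ENNReal.ofReal (sSup S - sInf S) ≤ volume S ∧ S ⊆ Icc (sInf S) (sSup S) := by
  constructor
  · have hsub : Ioo (sInf S) (sSup S) ⊆ S := by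
      intro x hx
      obtain ⟨u, hu, hux⟩ := exists_lt_of_csInf_lt hne hx.1
      obtain ⟨v, hv, hxv⟩ := exists_lt_of_lt_csSup hne hx.2
      exact hS.out hu hv ⟨hux.le, hxv.le⟩
    calc ENNReal.ofReal (sSup S - sInf S) = volume (Ioo (sInf S) (sSup S)) := by
          rw [Real.volume_Ioo]
      _ ≤ volume S := measure_mono hsub
  · intro x hx
    exact ⟨csInf_le hb hx, le_csSup ha hx⟩

/-- **Two-plank lemma, measure form.** If a compact convex planar set `L` is covered by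
`{x ∈ A}` and `{y ∈ B}` with `A, B ⊆ ℝ` order-connected (intervals), then the relative lengths of
`A` and `B` in the two coordinate projections of `L` add up to at least `1`. -/
theorem two_plank_measure {L : Set (ℝ × ℝ)} (hL : Convex ℝ L) (hLc : IsCompact L) {A B : Set ℝ}
    (hA : A.OrdConnected) (hB : B.OrdConnected) (hcov : ∀ z ∈ L, z.1 ∈ A ∨ z.2 ∈ B)
    (hI : volume (Prod.fst '' L) ≠ 0) (hJ : volume (Prod.snd '' L) ≠ 0) :
    1 ≤ volume (A ∩ Prod.fst '' L) / volume (Prod.fst '' L)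
      + volume (B ∩ Prod.snd '' L) / volume (Prod.snd '' L) := by
  have hIc : IsCompact (Prod.fst '' L) := hLc.image continuous_fst
  have hJc : IsCompact (Prod.snd '' L) := hLc.image continuous_snd
  have hIconv : Convex ℝ (Prod.fst '' L) := by
    have := hL.linear_image (LinearMap.fst ℝ ℝ ℝ)
    simpa using this
  have hJconv : Convex ℝ (Prod.snd '' L) := by
    have := hL.linear_image (LinearMap.snd ℝ ℝ ℝ)
    simpa using this
  have hIne : (Prod.fst '' L).Nonempty := by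
    by_contra h
    rw [not_nonempty_iff_eq_empty] at h
    rw [h] at hI
    simp at hI
  have hJne : (Prod.snd '' L).Nonempty := by
    by_contra h
    rw [not_nonempty_iff_eq_empty] at h
    rw [h] at hJ
    simp at hJ
  obtain ⟨i0, i1, hi01, hIeq⟩ := exists_Icc_of_compact_convex hIc hIconv hIne
  obtain ⟨j0, j1, hj01, hJeq⟩ := exists_Icc_of_compact_convex hJc hJconv hJne
  have hi : i0 < i1 := by
    rcases hi01.eq_or_lt with h | h
    · rw [hIeq, h] at hI; simp at hI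
    · exact h
  have hj : j0 < j1 := by
    rcases hj01.eq_or_lt with h | h
    · rw [hJeq, h] at hJ; simp at hJ
    · exact h
  have hvI : volume (Prod.fst '' L) = ENNReal.ofReal (i1 - i0) := by rw [hIeq, Real.volume_Icc]
  have hvJ : volume (Prod.snd '' L) = ENNReal.ofReal (j1 - j0) := by rw [hJeq, Real.volume_Icc]
  have hvI0 : volume (Prod.fst '' L) ≠ ⊤ := by rw [hvI]; exact ENNReal.ofReal_ne_top
  have hvJ0 : volume (Prod.snd '' L) ≠ ⊤ := by rw [hvJ]; exact ENNReal.ofReal_ne_top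
  -- trivial cases
  by_cases hAI : (A ∩ Prod.fst '' L) = ∅
  · have hsub : Prod.snd '' L ⊆ B := by
      rintro y ⟨z, hz, rfl⟩
      rcases hcov z hz with h | h
      · exfalso
        have : z.1 ∈ A ∩ Prod.fst '' L := ⟨h, mem_image_of_mem _ hz⟩
        rw [hAI] at this
        exact this
      · exact h
    rw [inter_eq_self_of_subset_right hsub, ENNReal.div_self hJ hvJ0]
    exact le_add_self
  by_cases hBJ : (B ∩ Prod.snd '' L) = ∅
  · have hsub : Prod.fst '' L ⊆ A := by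
      rintro x ⟨z, hz, rfl⟩
      rcases hcov z hz with h | h
      · exact h
      · exfalso
        have : z.2 ∈ B ∩ Prod.snd '' L := ⟨h, mem_image_of_mem _ hz⟩
        rw [hBJ] at this
        exact this
    rw [inter_eq_self_of_subset_right hsub, ENNReal.div_self hI hvI0]
    exact le_self_add
  have hAIne : (A ∩ Prod.fst '' L).Nonempty := nonempty_iff_ne_empty.mpr hAI
  have hBJne : (B ∩ Prod.snd '' L).Nonempty := nonempty_iff_ne_empty.mpr hBJ
  have hAIb : BddBelow (A ∩ Prod.fst '' L) := ⟨i0, fun x hx => by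
    have := hx.2; rw [hIeq] at this; exact this.1⟩
  have hAIa : BddAbove (A ∩ Prod.fst '' L) := ⟨i1, fun x hx => by
    have := hx.2; rw [hIeq] at this; exact this.2⟩
  have hBJb : BddBelow (B ∩ Prod.snd '' L) := ⟨j0, fun x hx => by
    have := hx.2; rw [hJeq] at this; exact this.1⟩
  have hBJa : BddAbove (B ∩ Prod.snd '' L) := ⟨j1, fun x hx => by
    have := hx.2; rw [hJeq] at this; exact this.2⟩
  have hAIoc : (A ∩ Prod.fst '' L).OrdConnected := hA.inter hIconv.ordConnected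
  have hBJoc : (B ∩ Prod.snd '' L).OrdConnected := hB.inter hJconv.ordConnected
  obtain ⟨hvA, hsubA⟩ := ordConnected_volume_ge hAIoc hAIne hAIb hAIa
  obtain ⟨hvB, hsubB⟩ := ordConnected_volume_ge hBJoc hBJne hBJb hBJa
  obtain ⟨a0, ha0⟩ : ∃ a0 : ℝ, a0 = sInf (A ∩ Prod.fst '' L) := ⟨_, rfl⟩
  obtain ⟨a1, ha1⟩ : ∃ a1 : ℝ, a1 = sSup (A ∩ Prod.fst '' L) := ⟨_, rfl⟩
  obtain ⟨b0, hb0⟩ : ∃ b0 : ℝ, b0 = sInf (B ∩ Prod.snd '' L) := ⟨_, rfl⟩
  obtain ⟨b1, hb1⟩ : ∃ b1 : ℝ, b1 = sSup (B ∩ Prod.snd '' L) := ⟨_, rfl⟩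
  rw [← ha0, ← ha1] at hvA hsubA
  rw [← hb0, ← hb1] at hvB hsubB
  -- touching points
  obtain ⟨Tl, hTl, hTl1⟩ : ∃ Tl ∈ L, Tl.1 = i0 := by
    have : i0 ∈ Prod.fst '' L := by rw [hIeq]; exact left_mem_Icc.mpr hi01
    obtain ⟨z, hz, hz1⟩ := this
    exact ⟨z, hz, hz1⟩
  obtain ⟨Tr, hTr, hTr1⟩ : ∃ Tr ∈ L, Tr.1 = i1 := by
    have : i1 ∈ Prod.fst '' L := by rw [hIeq]; exact right_mem_Icc.mpr hi01
    obtain ⟨z, hz, hz1⟩ := this
    exact ⟨z, hz, hz1⟩
  obtain ⟨Tb, hTb, hTb2⟩ : ∃ Tb ∈ L, Tb.2 = j0 := by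
    have : j0 ∈ Prod.snd '' L := by rw [hJeq]; exact left_mem_Icc.mpr hj01
    obtain ⟨z, hz, hz1⟩ := this
    exact ⟨z, hz, hz1⟩
  obtain ⟨Tt, hTt, hTt2⟩ : ∃ Tt ∈ L, Tt.2 = j1 := by
    have : j1 ∈ Prod.snd '' L := by rw [hJeq]; exact right_mem_Icc.mpr hj01
    obtain ⟨z, hz, hz1⟩ := this
    exact ⟨z, hz, hz1⟩
  obtain ⟨xA, hxA⟩ := hAIne
  obtain ⟨yB, hyB⟩ := hBJne
  have hxA' := hsubA hxA
  have hyB' := hsubB hyB
  have hxAI : xA ∈ Icc i0 i1 := by rw [← hIeq]; exact hxA.2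
  have hyBJ : yB ∈ Icc j0 j1 := by rw [← hJeq]; exact hyB.2
  have hia0 : i0 ≤ a0 := by
    rw [ha0]
    apply le_csInf ⟨xA, hxA⟩
    intro x hx
    have := hx.2; rw [hIeq] at this; exact this.1
  have ha1i : a1 ≤ i1 := by
    rw [ha1]
    apply csSup_le ⟨xA, hxA⟩
    intro x hx
    have := hx.2; rw [hIeq] at this; exact this.2
  have hjb0 : j0 ≤ b0 := by
    rw [hb0]
    apply le_csInf ⟨yB, hyB⟩
    intro x hx
    have := hx.2; rw [hJeq] at this; exact this.1
  have hb1j : b1 ≤ j1 := by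
    rw [hb1]
    apply csSup_le ⟨yB, hyB⟩
    intro x hx
    have := hx.2; rw [hJeq] at this; exact this.2
  have hreal := two_plank_real hL hi hj hTl hTr hTb hTt hTl1 hTr1 hTb2 hTt2 hia0
    (hxA'.1.trans hxA'.2) ha1i hjb0 (hyB'.1.trans hyB'.2) hb1j
    (fun z hz => by
      rcases hcov z hz with h | h
      · left; exact hsubA ⟨h, mem_image_of_mem _ hz⟩
      · right; exact hsubB ⟨h, mem_image_of_mem _ hz⟩)
  have hw : 0 < i1 - i0 := by linarith
  have hh : 0 < j1 - j0 := by linarith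
  have h1 : ENNReal.ofReal ((a1 - a0) / (i1 - i0)) ≤
      volume (A ∩ Prod.fst '' L) / volume (Prod.fst '' L) := by
    rw [ENNReal.ofReal_div_of_pos hw, hvI]
    exact ENNReal.div_le_div_right hvA _
  have h2 : ENNReal.ofReal ((b1 - b0) / (j1 - j0)) ≤
      volume (B ∩ Prod.snd '' L) / volume (Prod.snd '' L) := by
    rw [ENNReal.ofReal_div_of_pos hh, hvJ]
    exact ENNReal.div_le_div_right hvB _
  have hx0 : 0 ≤ (a1 - a0) / (i1 - i0) := div_nonneg (by linarith [hxA'.1, hxA'.2]) hw.le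
  have hy0 : 0 ≤ (b1 - b0) / (j1 - j0) := div_nonneg (by linarith [hyB'.1, hyB'.2]) hh.le
  calc (1 : ENNReal) = ENNReal.ofReal 1 := by simp
    _ ≤ ENNReal.ofReal ((a1 - a0) / (i1 - i0) + (b1 - b0) / (j1 - j0)) :=
        ENNReal.ofReal_le_ofReal hreal
    _ = ENNReal.ofReal ((a1 - a0) / (i1 - i0)) + ENNReal.ofReal ((b1 - b0) / (j1 - j0)) :=
        ENNReal.ofReal_add hx0 hy0
    _ ≤ _ := add_le_add h1 h2

end Vale.Agent.Helper11
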