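import Vale.Agent.Helper11.SqPlank
import Vale.Agent.Helper11.TwoPlank

/-!
# The plank theorem for a rectangle, for arbitrary sets of offsets

If a rectangle `[p1, p2] × [q1, q2]` is covered by the sets `{(p, q) : a j * p + b j * q ∈ S j}`
(finitely many `j`, arbitrary sets `S j ⊆ ℝ`), then the relative measures of the `S j` add up to
at least `1`.
-/

namespace Vale.Agent.Helper11

open Set MeasureTheory

theorem ordConnected_bdd {C : Set ℝ} (hC : C.OrdConnected) (hfin : volume C ≠ ⊤) :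
    BddBelow C ∧ BddAbove C := by
  rcases C.eq_empty_or_nonempty with h | ⟨x0, hx0⟩
  · rw [h]; exact ⟨bddBelow_empty, bddAbove_empty⟩
  constructor
  · by_contra hb
    rw [not_bddBelow_iff] at hb
    have hsub : Iic x0 ⊆ C := by
      intro z hz
      obtain ⟨y, hy, hyz⟩ := hb z
      exact hC.out hy hx0 ⟨hyz.le, hz⟩
    apply hfin
    rw [← top_le_iff, ← Real.volume_Iic (a := x0)]
    exact measure_mono hsub
  · by_contra hb
    rw [not_bddAbove_iff] at hb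
    have hsub : Ici x0 ⊆ C := by
      intro z hz
      obtain ⟨y, hy, hyz⟩ := hb z
      exact hC.out hx0 hy ⟨hz, hyz.le⟩
    apply hfin
    rw [← top_le_iff, ← Real.volume_Ici (a := x0)]
    exact measure_mono hsub

/-- An open subset of the line is covered by a family of open intervals (its components) whose
lengths add up to at most its measure. -/
theorem open_components {O : Set ℝ} (hO : IsOpen O) :
    ∃ 𝒞 : Set (Set ℝ), (∀ C ∈ 𝒞, IsOpen C ∧ C.OrdConnected ∧ C.Nonempty ∧ C ⊆ O) ∧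
      (∀ y ∈ O, ∃ C ∈ 𝒞, y ∈ C) ∧ ∑' C : 𝒞, volume (C : Set ℝ) ≤ volume O := by
  obtain ⟨𝒞, h𝒞⟩ : ∃ 𝒞 : Set (Set ℝ), 𝒞 = (fun y => connectedComponentIn O y) '' O := ⟨_, rfl⟩
  have hCopen : ∀ C ∈ 𝒞, IsOpen C := by
    intro C hC
    rw [h𝒞] at hC
    obtain ⟨y, -, rfl⟩ := hC
    exact hO.connectedComponentIn
  have hCord : ∀ C ∈ 𝒞, C.OrdConnected := by
    intro C hC
    rw [h𝒞] at hC
    obtain ⟨y, -, rfl⟩ := hC
    exact isPreconnected_connectedComponentIn.ordConnected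
  have hCne : ∀ C ∈ 𝒞, C.Nonempty := by
    intro C hC
    rw [h𝒞] at hC
    obtain ⟨y, hy, rfl⟩ := hC
    exact ⟨y, mem_connectedComponentIn hy⟩
  have hCsub : ∀ C ∈ 𝒞, C ⊆ O := by
    intro C hC
    rw [h𝒞] at hC
    obtain ⟨y, -, rfl⟩ := hC
    exact connectedComponentIn_subset O y
  have hdisj : 𝒞.PairwiseDisjoint (fun C : Set ℝ => C) := by
    intro C hC C' hC' hne
    rw [h𝒞] at hC hC'
    obtain ⟨y, -, rfl⟩ := hC
    obtain ⟨y', -, rfl⟩ := hC'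
    rw [Function.onFun, Set.disjoint_iff_inter_eq_empty]
    by_contra hcon
    obtain ⟨z, hz1, hz2⟩ := nonempty_iff_ne_empty.mpr hcon
    apply hne
    show connectedComponentIn O y = connectedComponentIn O y'
    rw [connectedComponentIn_eq hz1, connectedComponentIn_eq hz2]
  have hcount : 𝒞.Countable := hdisj.countable_of_isOpen hCopen hCne
  refine ⟨𝒞, fun C hC => ⟨hCopen C hC, hCord C hC, hCne C hC, hCsub C hC⟩, ?_, ?_⟩
  · intro y hy
    refine ⟨connectedComponentIn O y, ?_, mem_connectedComponentIn hy⟩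
    rw [h𝒞]
    exact ⟨y, hy, rfl⟩
  · rw [← measure_biUnion hcount hdisj (fun C hC => (hCopen C hC).measurableSet)]
    apply measure_mono
    intro y hy
    obtain ⟨C, hC, hyC⟩ := mem_iUnion₂.mp hy
    exact hCsub C hC hyC

/-- **Plank theorem for a rectangle, measure form.** -/
theorem rect_plank_measure {ι : Type*} [Fintype ι] (a b : ι → ℝ) (S : ι → Set ℝ)
    {p1 p2 q1 q2 : ℝ} (hp : p1 < p2) (hq : q1 < q2) (hab : ∀ j, a j ≠ 0 ∨ b j ≠ 0)
    (hcov : ∀ p ∈ Icc p1 p2, ∀ q ∈ Icc q1 q2, ∃ j, a j * p + b j * q ∈ S j) :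
    1 ≤ ∑ j, volume (S j) / ENNReal.ofReal (|a j| * (p2 - p1) + |b j| * (q2 - q1)) := by
  classical
  by_contra hlt
  push Not at hlt
  obtain ⟨d, hd⟩ : ∃ d : ι → ℝ, d = fun j => |a j| * (p2 - p1) + |b j| * (q2 - q1) := ⟨_, rfl⟩
  have hdpos : ∀ j, 0 < d j := by
    intro j
    rw [hd]
    have h1 : 0 < p2 - p1 := by linarith
    have h2 : 0 < q2 - q1 := by linarith
    rcases hab j with h | h
    · have : 0 < |a j| * (p2 - p1) := mul_pos (abs_pos.mpr h) h1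
      have : 0 ≤ |b j| * (q2 - q1) := mul_nonneg (abs_nonneg _) h2.le
      linarith
    · have : 0 < |b j| * (q2 - q1) := mul_pos (abs_pos.mpr h) h2
      have : 0 ≤ |a j| * (p2 - p1) := mul_nonneg (abs_nonneg _) h1.le
      linarith
  have hdE : ∀ j, ENNReal.ofReal (|a j| * (p2 - p1) + |b j| * (q2 - q1)) = ENNReal.ofReal (d j) := by
    intro j; rw [hd]
  simp_rw [hdE] at hlt
  have hd0 : ∀ j, ENNReal.ofReal (d j) ≠ 0 := fun j => (ENNReal.ofReal_pos.mpr (hdpos j)).ne'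
  have hdt : ∀ j, ENNReal.ofReal (d j) ≠ ⊤ := fun j => ENNReal.ofReal_ne_top
  obtain ⟨sE, hsE⟩ : ∃ sE : ENNReal, sE = ∑ j, volume (S j) / ENNReal.ofReal (d j) := ⟨_, rfl⟩
  rw [← hsE] at hlt
  have hsEfin : sE ≠ ⊤ := (hlt.trans ENNReal.one_lt_top).ne
  have hSfin : ∀ j, volume (S j) ≠ ⊤ := by
    intro j hj
    have h1 : volume (S j) / ENNReal.ofReal (d j) ≤ sE := by
      rw [hsE]
      exact Finset.single_le_sum (f := fun j => volume (S j) / ENNReal.ofReal (d j))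
        (fun i _ => zero_le) (Finset.mem_univ j)
    rw [hj, ENNReal.top_div_of_ne_top (hdt j)] at h1
    exact hsEfin (top_le_iff.mp h1)
  obtain ⟨σ, hσ⟩ : ∃ σ : ℝ, σ = sE.toReal := ⟨_, rfl⟩
  have hσ1 : σ < 1 := by
    rw [hσ]
    have := (ENNReal.toReal_lt_toReal hsEfin ENNReal.one_ne_top).mpr hlt
    simpa using this
  have hσ0 : 0 ≤ σ := by rw [hσ]; exact ENNReal.toReal_nonneg
  have hσE : ENNReal.ofReal σ = sE := by rw [hσ]; exact ENNReal.ofReal_toReal hsEfin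
  obtain ⟨D, hD⟩ : ∃ D : ℝ, D = ∑ j, 1 / d j := ⟨_, rfl⟩
  have hD0 : 0 ≤ D := by
    rw [hD]
    exact Finset.sum_nonneg (fun j _ => (div_pos one_pos (hdpos j)).le)
  obtain ⟨η, hη⟩ : ∃ η : ℝ, η = (1 - σ) / (2 * (D + 1)) := ⟨_, rfl⟩
  have hη0 : 0 < η := by
    rw [hη]
    exact div_pos (by linarith) (by linarith)
  have hηD : σ + η * D < 1 := by
    have h2 : η * D = (1 - σ) * (D / (2 * (D + 1))) := by
      rw [hη]; field_simp
    have h3 : D / (2 * (D + 1)) < 1 := by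
      rw [div_lt_one (by linarith)]
      linarith
    have h4 : (1 - σ) * (D / (2 * (D + 1))) < (1 - σ) * 1 :=
      mul_lt_mul_of_pos_left h3 (by linarith)
    linarith
  -- open supersets
  have hopen : ∀ j, ∃ U : Set ℝ, S j ⊆ U ∧ IsOpen U ∧
      volume U < volume (S j) + ENNReal.ofReal η := by
    intro j
    obtain ⟨U, hSU, hUo, hUv⟩ := (S j).exists_isOpen_lt_add (hSfin j)
      (ENNReal.ofReal_pos.mpr hη0).ne'
    exact ⟨U, hSU, hUo, hUv⟩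
  choose U hSU hUo hUv using hopen
  have hcomp : ∀ j, ∃ 𝒞 : Set (Set ℝ),
      (∀ C ∈ 𝒞, IsOpen C ∧ C.OrdConnected ∧ C.Nonempty ∧ C ⊆ U j) ∧
      (∀ y ∈ U j, ∃ C ∈ 𝒞, y ∈ C) ∧ ∑' C : 𝒞, volume (C : Set ℝ) ≤ volume (U j) :=
    fun j => open_components (hUo j)
  choose 𝒞 h𝒞 h𝒞cov h𝒞vol using hcomp
  have hUfin : ∀ j, volume (U j) ≠ ⊤ := by
    intro j
    exact ((hUv j).trans_le le_top).ne
  have hCfin : ∀ j, ∀ C ∈ 𝒞 j, volume C ≠ ⊤ := by
    intro j C hC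
    exact ne_top_of_le_ne_top (hUfin j) (measure_mono (h𝒞 j C hC).2.2.2)
  -- finite subcover
  obtain ⟨V, hV⟩ : ∃ V : (Σ j : ι, ↥(𝒞 j)) → Set (ℝ × ℝ),
      V = fun k => {x : ℝ × ℝ | a k.1 * x.1 + b k.1 * x.2 ∈ (k.2 : Set ℝ)} := ⟨_, rfl⟩
  have hVo : ∀ k, IsOpen (V k) := by
    intro k
    rw [hV]
    exact (h𝒞 k.1 k.2 k.2.2).1.preimage (by fun_prop)
  have hRc : IsCompact (Icc p1 p2 ×ˢ Icc q1 q2) := isCompact_Icc.prod isCompact_Icc
  have hRcov : Icc p1 p2 ×ˢ Icc q1 q2 ⊆ ⋃ k, V k := by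
    rintro ⟨p, q⟩ ⟨hpp, hqq⟩
    obtain ⟨j, hj⟩ := hcov p hpp q hqq
    obtain ⟨C, hC, hyC⟩ := h𝒞cov j _ (hSU j hj)
    refine mem_iUnion.mpr ⟨⟨j, ⟨C, hC⟩⟩, ?_⟩
    rw [hV]
    exact hyC
  obtain ⟨t, ht⟩ := hRc.elim_finite_subcover V hVo hRcov
  -- the finite family of strips
  have hg : 0 < (p2 - p1) / 2 := by linarith
  have hh : 0 < (q2 - q1) / 2 := by linarith
  have hbdd : ∀ k : (Σ j : ι, ↥(𝒞 j)), BddBelow (k.2 : Set ℝ) ∧ BddAbove (k.2 : Set ℝ) :=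
    fun k => ordConnected_bdd (h𝒞 k.1 k.2 k.2.2).2.1 (hCfin k.1 k.2 k.2.2)
  have hvg : ∀ k : (Σ j : ι, ↥(𝒞 j)),
      ENNReal.ofReal (sSup (k.2 : Set ℝ) - sInf (k.2 : Set ℝ)) ≤ volume (k.2 : Set ℝ) ∧
      (k.2 : Set ℝ) ⊆ Icc (sInf (k.2 : Set ℝ)) (sSup (k.2 : Set ℝ)) :=
    fun k => ordConnected_volume_ge (h𝒞 k.1 k.2 k.2.2).2.1 (h𝒞 k.1 k.2 k.2.2).2.2.1
      (hbdd k).1 (hbdd k).2
  have hw0 : ∀ k : (Σ j : ι, ↥(𝒞 j)), 0 ≤ (sSup (k.2 : Set ℝ) - sInf (k.2 : Set ℝ)) / 2 := by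
    intro k
    obtain ⟨y, hy⟩ := (h𝒞 k.1 k.2 k.2.2).2.2.1
    have := (hvg k).2 hy
    have : sInf (k.2 : Set ℝ) ≤ sSup (k.2 : Set ℝ) := this.1.trans this.2
    linarith
  have hsum : ∑ k : ↥t, ((sSup ((k : Σ j : ι, ↥(𝒞 j)).2 : Set ℝ)
      - sInf ((k : Σ j : ι, ↥(𝒞 j)).2 : Set ℝ)) / 2)
      / (|a (k : Σ j : ι, ↥(𝒞 j)).1| * ((p2 - p1) / 2)
        + |b (k : Σ j : ι, ↥(𝒞 j)).1| * ((q2 - q1) / 2)) < 1 := by
    rw [← ENNReal.ofReal_lt_ofReal_iff one_pos, ENNReal.ofReal_one]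
    rw [ENNReal.ofReal_sum_of_nonneg (fun k _ => div_nonneg (hw0 _)
      (by
        have h1 := abs_nonneg (a (k : Σ j : ι, ↥(𝒞 j)).1)
        have h2 := abs_nonneg (b (k : Σ j : ι, ↥(𝒞 j)).1)
        positivity))]
    have hterm : ∀ k : (Σ j : ι, ↥(𝒞 j)),
        ENNReal.ofReal (((sSup (k.2 : Set ℝ) - sInf (k.2 : Set ℝ)) / 2)
          / (|a k.1| * ((p2 - p1) / 2) + |b k.1| * ((q2 - q1) / 2)))
        ≤ volume (k.2 : Set ℝ) / ENNReal.ofReal (d k.1) := by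
      intro k
      have e : ((sSup (k.2 : Set ℝ) - sInf (k.2 : Set ℝ)) / 2)
          / (|a k.1| * ((p2 - p1) / 2) + |b k.1| * ((q2 - q1) / 2))
          = (sSup (k.2 : Set ℝ) - sInf (k.2 : Set ℝ)) / d k.1 := by
        have h1 := (hdpos k.1).ne'
        have h2 : |a k.1| * ((p2 - p1) / 2) + |b k.1| * ((q2 - q1) / 2) = d k.1 / 2 := by
          rw [hd]; ring
        rw [h2]
        field_simp
      rw [e, ENNReal.ofReal_div_of_pos (hdpos k.1)]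
      exact ENNReal.div_le_div_right (hvg k).1 _
    calc ∑ k : ↥t, ENNReal.ofReal (((sSup ((k : Σ j : ι, ↥(𝒞 j)).2 : Set ℝ)
          - sInf ((k : Σ j : ι, ↥(𝒞 j)).2 : Set ℝ)) / 2)
          / (|a (k : Σ j : ι, ↥(𝒞 j)).1| * ((p2 - p1) / 2)
            + |b (k : Σ j : ι, ↥(𝒞 j)).1| * ((q2 - q1) / 2)))
        ≤ ∑ k : ↥t, volume (((k : Σ j : ι, ↥(𝒞 j)).2 : Set ℝ))
            / ENNReal.ofReal (d (k : Σ j : ι, ↥(𝒞 j)).1) :=
          Finset.sum_le_sum (fun k _ => hterm k)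
      _ = ∑ k ∈ t, volume ((k.2 : Set ℝ)) / ENNReal.ofReal (d k.1) :=
          Finset.sum_coe_sort t (fun k => volume ((k.2 : Set ℝ)) / ENNReal.ofReal (d k.1))
      _ ≤ ∑' k : (Σ j : ι, ↥(𝒞 j)), volume ((k.2 : Set ℝ)) / ENNReal.ofReal (d k.1) :=
          ENNReal.sum_le_tsum t
      _ = ∑' j : ι, ∑' C : ↥(𝒞 j), volume (C : Set ℝ) / ENNReal.ofReal (d j) :=
          ENNReal.tsum_sigma (fun j (C : ↥(𝒞 j)) => volume (C : Set ℝ) / ENNReal.ofReal (d j))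
      _ = ∑ j : ι, ∑' C : ↥(𝒞 j), volume (C : Set ℝ) / ENNReal.ofReal (d j) := tsum_fintype _
      _ = ∑ j : ι, (∑' C : ↥(𝒞 j), volume (C : Set ℝ)) / ENNReal.ofReal (d j) := by
          apply Finset.sum_congr rfl
          intro j _
          simp_rw [div_eq_mul_inv]
          rw [ENNReal.tsum_mul_right]
      _ ≤ ∑ j : ι, (volume (S j) + ENNReal.ofReal η) / ENNReal.ofReal (d j) := by
          apply Finset.sum_le_sum
          intro j _
          exact ENNReal.div_le_div_right ((h𝒞vol j).trans (hUv j).le) _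
      _ = sE + ENNReal.ofReal (η * D) := by
          simp_rw [ENNReal.add_div]
          rw [Finset.sum_add_distrib, ← hsE]
          congr 1
          rw [hD, Finset.mul_sum, ENNReal.ofReal_sum_of_nonneg
            (fun j _ => mul_nonneg hη0.le (div_pos one_pos (hdpos j)).le)]
          apply Finset.sum_congr rfl
          intro j _
          rw [← ENNReal.ofReal_div_of_pos (hdpos j)]
          congr 1
          ring
      _ = ENNReal.ofReal (σ + η * D) := by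
          rw [ENNReal.ofReal_add hσ0 (mul_nonneg hη0.le hD0), hσE]
      _ < 1 := by
          rw [← ENNReal.ofReal_one]
          exact (ENNReal.ofReal_lt_ofReal_iff one_pos).mpr hηD
  obtain ⟨p, q, hpg, hqh, hpq⟩ := rect_plank
    (fun k : ↥t => a (k : Σ j : ι, ↥(𝒞 j)).1) (fun k : ↥t => b (k : Σ j : ι, ↥(𝒞 j)).1)
    (fun k : ↥t => (sInf ((k : Σ j : ι, ↥(𝒞 j)).2 : Set ℝ)
      + sSup ((k : Σ j : ι, ↥(𝒞 j)).2 : Set ℝ)) / 2)
    (fun k : ↥t => (sSup ((k : Σ j : ι, ↥(𝒞 j)).2 : Set ℝ)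
      - sInf ((k : Σ j : ι, ↥(𝒞 j)).2 : Set ℝ)) / 2)
    (p0 := (p1 + p2) / 2) (q0 := (q1 + q2) / 2) hg hh
    (fun k => hab _) (fun k => hw0 _) hsum
  have hpR : p ∈ Icc p1 p2 := by
    rw [abs_le] at hpg
    constructor <;> linarith [hpg.1, hpg.2]
  have hqR : q ∈ Icc q1 q2 := by
    rw [abs_le] at hqh
    constructor <;> linarith [hqh.1, hqh.2]
  have hmem := ht (mk_mem_prod hpR hqR)
  obtain ⟨k, hk, hkV⟩ := mem_iUnion₂.mp hmem
  rw [hV] at hkV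
  have hin := (hvg k).2 hkV
  have hlt2 := hpq ⟨k, hk⟩
  simp only at hlt2
  have : |a k.1 * p + b k.1 * q - (sInf (k.2 : Set ℝ) + sSup (k.2 : Set ℝ)) / 2|
      ≤ (sSup (k.2 : Set ℝ) - sInf (k.2 : Set ℝ)) / 2 := by
    rw [abs_le]
    constructor <;> linarith [hin.1, hin.2]
  linarith

end Vale.Agent.Helper11
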