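import Vale.Agent.Helper11.TetraEdges

/-!
# Sub-body bounds for cylinder coverings

Two bounds for the part of a subset of a convex body inside a cylinder:

* `sub_cyl_frame`: if every chord of a subset `H` of a convex body `K`, stretched by the factor
  `θ⁻¹`, is a translate of a chord of `K`, then the part of `H` inside a cylinder has volume at
  most `3 θ |K| |B ∩ P K| / |P K|`;
* `diam_cyl_frame`: the part of a set of diameter at most `δ` inside a cylinder with base `B` has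
  volume at most `δ |B|`.

Also the chord inequality `‖d‖ |P K| ≤ 3 |K|` for a chord `x₁ + [0, 1] • d` of `K` parallel to the
axis of the projection `P`.
-/

namespace Vale.Agent.Helper11

open Set MeasureTheory
open scoped InnerProductSpace

/-- Fibres of a convex set are convex. -/
theorem fib_convex {G : Set ((ℝ × ℝ) × ℝ)} (hG : Convex ℝ G) (p : ℝ × ℝ) : Convex ℝ (fib G p) := by
  intro z hz z' hz' a b ha hb hab
  have h := hG hz hz' ha hb hab
  have e : a • ((p, z) : (ℝ × ℝ) × ℝ) + b • ((p, z') : (ℝ × ℝ) × ℝ) = (p, a • z + b • z') := by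
    refine Prod.ext ?_ rfl
    show a • p + b • p = p
    rw [← add_smul, hab, one_smul]
  rw [e] at h
  exact h

/-- The chord bound: every fibre of a convex body `G`, times the area of the projection of `G`,
is at most `3 |G|`. -/
theorem fib_chord {G : Set ((ℝ × ℝ) × ℝ)} (hG : Convex ℝ G) (hGc : IsCompact G) (p : ℝ × ℝ) :
    volume (fib G p) * volume (Prod.fst '' G) ≤ 3 * volume G := by
  have hGm : MeasurableSet G := hGc.isClosed.measurableSet
  have hDc : IsCompact (Prod.fst '' G) := hGc.image continuous_fst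
  have hDm : MeasurableSet (Prod.fst '' G) := hDc.isClosed.measurableSet
  by_cases hp : p ∈ Prod.fst '' G
  · have h := lintegral_diff_ge hG hGc (B := ∅) MeasurableSet.empty (s := 0) le_rfl zero_le_one
      (by simp) hp
    have e1 : Prod.fst '' G \ (∅ : Set (ℝ × ℝ)) = Prod.fst '' G := by simp
    have hsubD : G ⊆ Prod.fst ⁻¹' (Prod.fst '' G) := fun x hx => ⟨x, hx, rfl⟩
    rw [e1, ← volume_inter_cyl hGm hDm, inter_eq_self_of_subset_left hsubD] at h
    have e2 : ENNReal.ofReal ((1 - 3 * (0 : ℝ) ^ 2 + 2 * (0 : ℝ) ^ 3) / 3) = 3⁻¹ := by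
      have : (1 - 3 * (0 : ℝ) ^ 2 + 2 * (0 : ℝ) ^ 3) / 3 = 3⁻¹ := by norm_num
      rw [this, ENNReal.ofReal_inv_of_pos (by norm_num)]
      simp
    rw [e2] at h
    calc volume (fib G p) * volume (Prod.fst '' G)
        = 3 * (volume (fib G p) * (3⁻¹ * volume (Prod.fst '' G))) := by
          rw [← mul_assoc, ← mul_assoc, mul_comm 3, mul_assoc _ 3, ENNReal.mul_inv_cancel
            (by norm_num) (by norm_num), mul_one]
      _ ≤ 3 * volume G := by gcongr
  · rw [fib_empty_of_notMem hp]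
    simp

/-- The sub-body bound in the model space: if every vertical chord of a subset `H` of a convex
body `G`, stretched by `θ⁻¹`, is a translate of a vertical chord of `G`, then the part of `H`
inside the cylinder over `B` has volume at most `3 θ |G| |B ∩ D| / |D|`, where `D` is the
projection of `G`. -/
theorem sub_cyl_bound {G H : Set ((ℝ × ℝ) × ℝ)} (hG : Convex ℝ G) (hGc : IsCompact G)
    (hHm : MeasurableSet H) (hHG : H ⊆ G) (hD0 : volume (Prod.fst '' G) ≠ 0) {θ : ℝ} (hθ : 0 < θ)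
    (hch : ∀ (p : ℝ × ℝ) (z z' : ℝ), (p, z) ∈ H → (p, z') ∈ H →
      ∃ (p' : ℝ × ℝ) (ζ : ℝ), (p', ζ) ∈ G ∧ (p', ζ + θ⁻¹ * (z' - z)) ∈ G)
    {B : Set (ℝ × ℝ)} (hB : MeasurableSet B) :
    volume (H ∩ Prod.fst ⁻¹' B)
      ≤ ENNReal.ofReal θ *
        (3 * volume G * (volume (B ∩ Prod.fst '' G) / volume (Prod.fst '' G))) := by
  have hGm : MeasurableSet G := hGc.isClosed.measurableSet
  have hDc : IsCompact (Prod.fst '' G) := hGc.image continuous_fst
  have hDm : MeasurableSet (Prod.fst '' G) := hDc.isClosed.measurableSet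
  have hDt : volume (Prod.fst '' G) ≠ ⊤ := hDc.measure_lt_top.ne
  have hpt : ∀ p, volume (fib H p) ≤ (Prod.fst '' G).indicator
      (fun _ => ENNReal.ofReal θ * (3 * volume G / volume (Prod.fst '' G))) p := by
    intro p
    by_cases hp : p ∈ Prod.fst '' G
    · rw [indicator_of_mem hp]
      refine (Real.volume_le_diam _).trans (Metric.ediam_le ?_)
      intro z hz z' hz'
      obtain ⟨p', ζ, h1, h2⟩ := hch p z z' hz hz'
      have hseg : uIcc ζ (ζ + θ⁻¹ * (z' - z)) ⊆ fib G p' :=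
        (fib_convex hG p').ordConnected.uIcc_subset h1 h2
      have hvol : ENNReal.ofReal (θ⁻¹ * |z' - z|) ≤ volume (fib G p') := by
        refine le_trans ?_ (measure_mono hseg)
        rw [Real.volume_interval]
        apply ENNReal.ofReal_le_ofReal
        have : ζ + θ⁻¹ * (z' - z) - ζ = θ⁻¹ * (z' - z) := by ring
        rw [this, abs_mul, abs_of_pos (inv_pos.mpr hθ)]
      have hle : volume (fib G p') ≤ 3 * volume G / volume (Prod.fst '' G) := by
        rw [ENNReal.le_div_iff_mul_le (Or.inl hD0) (Or.inl hDt)]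
        exact fib_chord hG hGc p'
      rw [edist_dist, Real.dist_eq, abs_sub_comm]
      calc ENNReal.ofReal |z' - z| = ENNReal.ofReal θ * ENNReal.ofReal (θ⁻¹ * |z' - z|) := by
            rw [← ENNReal.ofReal_mul hθ.le, ← mul_assoc, mul_inv_cancel₀ hθ.ne', one_mul]
        _ ≤ ENNReal.ofReal θ * (3 * volume G / volume (Prod.fst '' G)) := by
            gcongr
            exact hvol.trans hle
    · have hp' : p ∉ Prod.fst '' H := fun h => hp (image_mono hHG h)
      rw [indicator_of_notMem hp, fib_empty_of_notMem hp']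
      simp
  rw [volume_inter_cyl hHm hB]
  calc ∫⁻ p in B, volume (fib H p)
      ≤ ∫⁻ p in B, (Prod.fst '' G).indicator
          (fun _ => ENNReal.ofReal θ * (3 * volume G / volume (Prod.fst '' G))) p :=
        lintegral_mono hpt
    _ = ENNReal.ofReal θ * (3 * volume G / volume (Prod.fst '' G))
          * volume (Prod.fst '' G ∩ B) := by
        rw [lintegral_indicator_const hDm, Measure.restrict_apply hDm]
    _ = ENNReal.ofReal θ *
          (3 * volume G * (volume (B ∩ Prod.fst '' G) / volume (Prod.fst '' G))) := by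
        rw [inter_comm, div_eq_mul_inv, div_eq_mul_inv]
        ring

section frames

variable {E : Type*} [NormedAddCommGroup E] [InnerProductSpace ℝ E] [FiniteDimensional ℝ E]
  [MeasurableSpace E] [BorelSpace E]

/-- A frame equivalence together with the Pythagorean identity of the frame. -/
theorem exists_frame_equiv_sq (hdim : Module.finrank ℝ E = 3) {v w : E} (hv : ‖v‖ = 1)
    (hw : ‖w‖ = 1) (hvw : ⟪v, w⟫_ℝ = 0) :
    ∃ (u : E) (e : E ≃ᵐ (ℝ × ℝ) × ℝ), MeasurePreserving e volume volume ∧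
      (∀ x, e x = ((⟪v, x⟫_ℝ, ⟪w, x⟫_ℝ), ⟪u, x⟫_ℝ)) ∧
      ∀ x : E, ‖x‖ ^ 2 = ⟪v, x⟫_ℝ ^ 2 + ⟪w, x⟫_ℝ ^ 2 + ⟪u, x⟫_ℝ ^ 2 := by
  have hon : Orthonormal ℝ (({0, 1} : Set (Fin 3)).domRestrict ![v, w, 0]) := by
    constructor
    · rintro ⟨i, hi⟩
      rcases hi with rfl | rfl
      · simpa using hv
      · simpa using hw
    · rintro ⟨i, hi⟩ ⟨j, hj⟩ hij
      rcases hi with rfl | rfl <;> rcases hj with rfl | rfl
      · exact absurd rfl hij
      · simpa using hvw
      · simpa [real_inner_comm] using hvw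
      · exact absurd rfl hij
  obtain ⟨b, hb⟩ := Orthonormal.exists_orthonormalBasis_extension_of_card_eq (𝕜 := ℝ)
    (by simp [hdim]) hon
  have hb0 : b 0 = v := by simpa using hb 0 (by simp)
  have hb1 : b 1 = w := by simpa using hb 1 (by simp)
  refine ⟨b 2, b.measurableEquiv.trans ((MeasurableEquiv.toLp 2 (Fin 3 → ℝ)).symm.trans
    ((MeasurableEquiv.piFinSuccAbove (fun _ => ℝ) 2).trans
    ((MeasurableEquiv.prodCongr (MeasurableEquiv.refl ℝ) MeasurableEquiv.finTwoArrow).trans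
    MeasurableEquiv.prodComm))), ?_, ?_, ?_⟩
  · refine b.measurePreserving_measurableEquiv.trans ?_
    refine (EuclideanSpace.volume_preserving_symm_measurableEquiv_toLp (Fin 3)).trans ?_
    refine (volume_preserving_piFinSuccAbove (fun _ : Fin 3 => ℝ) 2).trans ?_
    refine MeasurePreserving.trans ?_ ?_ (μb := volume)
    · exact (MeasurePreserving.id volume).prod (volume_preserving_finTwoArrow ℝ)
    · exact Measure.measurePreserving_swap
  · intro x
    have h0 := b.repr_apply_apply x 0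
    have h1 := b.repr_apply_apply x 1
    have h2 := b.repr_apply_apply x 2
    rw [hb0] at h0
    rw [hb1] at h1
    rw [← h0, ← h1, ← h2]
    rfl
  · intro x
    have h := b.sum_sq_inner_right x
    rw [Fin.sum_univ_three, hb0, hb1] at h
    rw [← h]

/-- The sub-body bound for a cylinder given by an orthonormal frame `(v, w)` of its base plane:
if every chord of `H ⊆ K`, stretched by `θ⁻¹`, is a translate of a chord of the convex body `K`,
then the part of `H` inside the cylinder has volume at most `3 θ |K| |B ∩ P K| / |P K|`. -/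
theorem sub_cyl_frame (hdim : Module.finrank ℝ E = 3) {K H : Set E} (hK : Convex ℝ K)
    (hKc : IsCompact K) (hKi : (interior K).Nonempty) (hHm : MeasurableSet H) (hHK : H ⊆ K)
    {θ : ℝ} (hθ : 0 < θ)
    (hch : ∀ x ∈ H, ∀ y ∈ H, ∃ x' ∈ K, x' + θ⁻¹ • (y - x) ∈ K)
    {v w : E} (hv : ‖v‖ = 1) (hw : ‖w‖ = 1) (hvw : ⟪v, w⟫_ℝ = 0)
    {B : Set (ℝ × ℝ)} (hB : MeasurableSet B) :
    volume (H ∩ (fun x : E => (⟪v, x⟫_ℝ, ⟪w, x⟫_ℝ)) ⁻¹' B)
      ≤ ENNReal.ofReal θ *
        (3 * volume K * (volume (B ∩ (fun x : E => (⟪v, x⟫_ℝ, ⟪w, x⟫_ℝ)) '' K)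
          / volume ((fun x : E => (⟪v, x⟫_ℝ, ⟪w, x⟫_ℝ)) '' K))) := by
  obtain ⟨u, e, hmp, hex⟩ := exists_frame_equiv hdim hv hw hvw
  have hlin : IsLinearMap ℝ e := by
    constructor
    · intro x y
      rw [hex, hex, hex]
      simp [inner_add_right]
    · intro c x
      rw [hex, hex]
      simp [inner_smul_right]
  have hcont : Continuous e := by
    have he : (e : E → (ℝ × ℝ) × ℝ) = fun x => ((⟪v, x⟫_ℝ, ⟪w, x⟫_ℝ), ⟪u, x⟫_ℝ) := funext hex
    rw [he]
    fun_prop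
  have hG : Convex ℝ (e '' K) := hK.is_linear_image hlin
  have hGc : IsCompact (e '' K) := hKc.image hcont
  have hfst : Prod.fst '' (e '' K) = (fun x : E => (⟪v, x⟫_ℝ, ⟪w, x⟫_ℝ)) '' K := by
    rw [image_image]
    exact image_congr (fun x _ => by rw [hex])
  have hvolK : volume (e '' K) = volume K := by
    rw [← hmp.measure_preimage_equiv, e.injective.preimage_image]
  have hpre : e ⁻¹' (Prod.fst ⁻¹' B) = (fun x : E => (⟪v, x⟫_ℝ, ⟪w, x⟫_ℝ)) ⁻¹' B := by
    ext x
    simp [hex]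
  have hvolC : volume (e '' H ∩ Prod.fst ⁻¹' B)
      = volume (H ∩ (fun x : E => (⟪v, x⟫_ℝ, ⟪w, x⟫_ℝ)) ⁻¹' B) := by
    rw [← hmp.measure_preimage_equiv, preimage_inter, e.injective.preimage_image, hpre]
  have hD0 : volume (Prod.fst '' (e '' K)) ≠ 0 := by
    rw [hfst]
    exact frame_volume_ne_zero hKi hv hw hvw
  have hHm' : MeasurableSet (e '' H) := (e.measurableSet_image).mpr hHm
  have hch' : ∀ (p : ℝ × ℝ) (z z' : ℝ), (p, z) ∈ e '' H → (p, z') ∈ e '' H →
      ∃ (p' : ℝ × ℝ) (ζ : ℝ), (p', ζ) ∈ e '' K ∧ (p', ζ + θ⁻¹ * (z' - z)) ∈ e '' K := by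
    rintro p z z' ⟨x, hx, hxe⟩ ⟨y, hy, hye⟩
    obtain ⟨x', hx', hx''⟩ := hch x hx y hy
    refine ⟨(e x').1, (e x').2, ⟨x', hx', rfl⟩, ⟨x' + θ⁻¹ • (y - x), hx'', ?_⟩⟩
    rw [hex] at hxe hye
    have h1 : ⟪v, x⟫_ℝ = ⟪v, y⟫_ℝ :=
      (congrArg (fun q : (ℝ × ℝ) × ℝ => q.1.1) hxe).trans
        (congrArg (fun q : (ℝ × ℝ) × ℝ => q.1.1) hye).symm
    have h2 : ⟪w, x⟫_ℝ = ⟪w, y⟫_ℝ :=
      (congrArg (fun q : (ℝ × ℝ) × ℝ => q.1.2) hxe).trans
        (congrArg (fun q : (ℝ × ℝ) × ℝ => q.1.2) hye).symm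
    have h3 : ⟪u, x⟫_ℝ = z := congrArg Prod.snd hxe
    have h4 : ⟪u, y⟫_ℝ = z' := congrArg Prod.snd hye
    rw [hex, hex]
    simp only [inner_add_right, inner_smul_right, inner_sub_right]
    rw [h1, h2, h3, h4]
    simp
  have main := sub_cyl_bound hG hGc hHm' (image_mono hHK) hD0 hθ hch' hB
  rwa [hvolK, hvolC, hfst] at main

/-- The part of a set of diameter at most `δ` inside a cylinder with base `B` has volume at most
`δ |B|`. -/
theorem diam_cyl_frame (hdim : Module.finrank ℝ E = 3) {S : Set E} (hSm : MeasurableSet S)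
    {δ : ℝ} (hS : ∀ x ∈ S, ∀ y ∈ S, dist x y ≤ δ)
    {v w : E} (hv : ‖v‖ = 1) (hw : ‖w‖ = 1) (hvw : ⟪v, w⟫_ℝ = 0)
    {B : Set (ℝ × ℝ)} (hB : MeasurableSet B) :
    volume (S ∩ (fun x : E => (⟪v, x⟫_ℝ, ⟪w, x⟫_ℝ)) ⁻¹' B) ≤ ENNReal.ofReal δ * volume B := by
  obtain ⟨u, e, hmp, hex, hsq⟩ := exists_frame_equiv_sq hdim hv hw hvw
  have hpre : e ⁻¹' (Prod.fst ⁻¹' B) = (fun x : E => (⟪v, x⟫_ℝ, ⟪w, x⟫_ℝ)) ⁻¹' B := by
    ext x
    simp [hex]
  have hvolC : volume (e '' S ∩ Prod.fst ⁻¹' B)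
      = volume (S ∩ (fun x : E => (⟪v, x⟫_ℝ, ⟪w, x⟫_ℝ)) ⁻¹' B) := by
    rw [← hmp.measure_preimage_equiv, preimage_inter, e.injective.preimage_image, hpre]
  have hSm' : MeasurableSet (e '' S) := (e.measurableSet_image).mpr hSm
  have hpt : ∀ p, volume (fib (e '' S) p) ≤ ENNReal.ofReal δ := by
    intro p
    refine (Real.volume_le_diam _).trans (Metric.ediam_le ?_)
    rintro z ⟨x, hx, hxe⟩ z' ⟨y, hy, hye⟩
    rw [hex] at hxe hye
    have h1 : ⟪v, x⟫_ℝ = ⟪v, y⟫_ℝ :=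
      (congrArg (fun q : (ℝ × ℝ) × ℝ => q.1.1) hxe).trans
        (congrArg (fun q : (ℝ × ℝ) × ℝ => q.1.1) hye).symm
    have h2 : ⟪w, x⟫_ℝ = ⟪w, y⟫_ℝ :=
      (congrArg (fun q : (ℝ × ℝ) × ℝ => q.1.2) hxe).trans
        (congrArg (fun q : (ℝ × ℝ) × ℝ => q.1.2) hye).symm
    have h3 : ⟪u, x⟫_ℝ = z := congrArg Prod.snd hxe
    have h4 : ⟪u, y⟫_ℝ = z' := congrArg Prod.snd hye
    have hn := hsq (x - y)
    rw [inner_sub_right, inner_sub_right, inner_sub_right, h1, h2, h3, h4] at hn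
    have hd := hS x hx y hy
    rw [dist_eq_norm] at hd
    rw [edist_dist, Real.dist_eq]
    apply ENNReal.ofReal_le_ofReal
    have h5 : |z - z'| = ‖x - y‖ := by
      have h6 : (z - z') ^ 2 = ‖x - y‖ ^ 2 := by rw [hn]; ring
      have h7 : |z - z'| ^ 2 = ‖x - y‖ ^ 2 := by rw [sq_abs]; exact h6
      exact (sq_eq_sq₀ (abs_nonneg _) (norm_nonneg _)).mp h7
    rw [h5]
    exact hd
  rw [← hvolC, volume_inter_cyl hSm' hB]
  calc ∫⁻ p in B, volume (fib (e '' S) p) ≤ ∫⁻ _ in B, ENNReal.ofReal δ := lintegral_mono hpt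
    _ = ENNReal.ofReal δ * volume B := by
        rw [lintegral_const, Measure.restrict_apply MeasurableSet.univ, univ_inter]

/-- The chord inequality for a projection given by an orthonormal frame `(v, w)`: if the convex
body `K` contains the segment `x₁ + [0, 1] • d` and `d` is orthogonal to `v` and `w`, then
`‖d‖ |P K| ≤ 3 |K|`. -/
theorem chord_frame (hdim : Module.finrank ℝ E = 3) {K : Set E} (hK : Convex ℝ K)
    (hKc : IsCompact K) {v w : E} (hv : ‖v‖ = 1) (hw : ‖w‖ = 1) (hvw : ⟪v, w⟫_ℝ = 0)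
    {d : E} (hvd : ⟪v, d⟫_ℝ = 0) (hwd : ⟪w, d⟫_ℝ = 0)
    {x₁ : E} (hx0 : x₁ ∈ K) (hx1 : x₁ + d ∈ K) :
    ENNReal.ofReal ‖d‖ * volume ((fun x : E => (⟪v, x⟫_ℝ, ⟪w, x⟫_ℝ)) '' K) ≤ 3 * volume K := by
  obtain ⟨u, e, hmp, hex, hsq⟩ := exists_frame_equiv_sq hdim hv hw hvw
  have hlin : IsLinearMap ℝ e := by
    constructor
    · intro x y
      rw [hex, hex, hex]
      simp [inner_add_right]
    · intro c x
      rw [hex, hex]
      simp [inner_smul_right]
  have hcont : Continuous e := by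
    have he : (e : E → (ℝ × ℝ) × ℝ) = fun x => ((⟪v, x⟫_ℝ, ⟪w, x⟫_ℝ), ⟪u, x⟫_ℝ) := funext hex
    rw [he]
    fun_prop
  have hG : Convex ℝ (e '' K) := hK.is_linear_image hlin
  have hGc : IsCompact (e '' K) := hKc.image hcont
  have hfst : Prod.fst '' (e '' K) = (fun x : E => (⟪v, x⟫_ℝ, ⟪w, x⟫_ℝ)) '' K := by
    rw [image_image]
    exact image_congr (fun x _ => by rw [hex])
  have hvolK : volume (e '' K) = volume K := by
    rw [← hmp.measure_preimage_equiv, e.injective.preimage_image]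
  have hn := hsq d
  rw [hvd, hwd] at hn
  have hκ : |⟪u, d⟫_ℝ| = ‖d‖ := by
    have h7 : |⟪u, d⟫_ℝ| ^ 2 = ‖d‖ ^ 2 := by rw [sq_abs, hn]; ring
    exact (sq_eq_sq₀ (abs_nonneg _) (norm_nonneg _)).mp h7
  have h1 : ((e x₁).1, (e x₁).2) ∈ e '' K := ⟨x₁, hx0, rfl⟩
  have h2 : ((e x₁).1, (e x₁).2 + ⟪u, d⟫_ℝ) ∈ e '' K := by
    refine ⟨x₁ + d, hx1, ?_⟩
    rw [hex, hex]
    simp [inner_add_right, hvd, hwd]
  have hseg : uIcc (e x₁).2 ((e x₁).2 + ⟪u, d⟫_ℝ) ⊆ fib (e '' K) (e x₁).1 :=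
    (fib_convex hG _).ordConnected.uIcc_subset h1 h2
  have hvol : ENNReal.ofReal ‖d‖ ≤ volume (fib (e '' K) (e x₁).1) := by
    refine le_trans ?_ (measure_mono hseg)
    rw [Real.volume_interval]
    apply ENNReal.ofReal_le_ofReal
    have : (e x₁).2 + ⟪u, d⟫_ℝ - (e x₁).2 = ⟪u, d⟫_ℝ := by ring
    rw [this, hκ]
  have main := fib_chord hG hGc (e x₁).1
  rw [hvolK, hfst] at main
  exact (mul_le_mul_left hvol _).trans main

end frames

end Vale.Agent.Helper11
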