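import Vale.Agent.Helper11.BM
import Vale.Agent.Helper11.TwoDirections

/-!
# A planar area inequality for centrally symmetric convex sets

For a centrally symmetric compact convex set `D` of the plane, a boundary point `b` of `D` and
`γ, θ ∈ [0, 1]`, the set `(1 - θ) D + θ [-γ b, γ b]` has area at least
`((1 - θ)² + γ θ (1 - θ)) |D|`.  Consequently a concave even function `X ≥ 0` on `D` satisfies
`∫_D X ≥ X (γ b) (1 / 3 + γ / 6) |D|`.
-/

namespace Vale.Agent.Helper11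

open Set MeasureTheory

theorem sec_diam_le {D : Set (ℝ × ℝ)} (hDconv : Convex ℝ D) (hDsym : ∀ q ∈ D, -q ∈ D) {β : ℝ}
    (hmax : ∀ s : ℝ, β < s → ((s, 0) : ℝ × ℝ) ∉ D) {x₁ x₂ y : ℝ} (h₁ : (x₁, y) ∈ D)
    (h₂ : (x₂, y) ∈ D) : x₂ - x₁ ≤ 2 * β := by
  by_contra hcon
  push Not at hcon
  have h3 : -((x₁, y) : ℝ × ℝ) ∈ D := hDsym _ h₁
  have h4 : (1 / 2 : ℝ) • ((x₂, y) : ℝ × ℝ) + (1 / 2 : ℝ) • (-((x₁, y) : ℝ × ℝ)) ∈ D :=
    hDconv h₂ h3 (by norm_num) (by norm_num) (by norm_num)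
  have e : (1 / 2 : ℝ) • ((x₂, y) : ℝ × ℝ) + (1 / 2 : ℝ) • (-((x₁, y) : ℝ × ℝ))
      = ((x₂ - x₁) / 2, 0) := by
    ext
    · simp; ring
    · simp
  rw [e] at h4
  exact hmax _ (by linarith) h4

theorem sec_volume_le {D : Set (ℝ × ℝ)} (hDconv : Convex ℝ D) (hDsym : ∀ q ∈ D, -q ∈ D) {β : ℝ}
    (hmax : ∀ s : ℝ, β < s → ((s, 0) : ℝ × ℝ) ∉ D) (y : ℝ) :
    volume {x : ℝ | (x, y) ∈ D} ≤ ENNReal.ofReal (2 * β) := by
  calc volume {x : ℝ | (x, y) ∈ D} ≤ Metric.ediam {x : ℝ | (x, y) ∈ D} := Real.volume_le_diam _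
    _ ≤ ENNReal.ofReal (2 * β) := Metric.ediam_le (fun x₁ h₁ x₂ h₂ => by
        rw [edist_dist, Real.dist_eq]
        apply ENNReal.ofReal_le_ofReal
        rw [abs_le]
        have a1 := sec_diam_le hDconv hDsym hmax h₁ h₂
        have a2 := sec_diam_le hDconv hDsym hmax h₂ h₁
        constructor <;> linarith)

/-- The area inequality when the boundary point lies on the first coordinate axis. -/
theorem hip_area_axis {D : Set (ℝ × ℝ)} (hDc : IsCompact D) (hDconv : Convex ℝ D)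
    (hDsym : ∀ q ∈ D, -q ∈ D) {β : ℝ} (hβ : 0 ≤ β)
    (hmax : ∀ s : ℝ, β < s → ((s, 0) : ℝ × ℝ) ∉ D)
    {γ θ : ℝ} (hγ0 : 0 ≤ γ) (hθ0 : 0 < θ) (hθ1 : θ < 1)
    {S : Set (ℝ × ℝ)} (hS : MeasurableSet S)
    (hsub : ∀ q ∈ D, ∀ τ : ℝ, |τ| ≤ γ * β → ((1 - θ) * q.1 + θ * τ, (1 - θ) * q.2) ∈ S) :
    ENNReal.ofReal ((1 - θ) ^ 2 + γ * θ * (1 - θ)) * volume D ≤ volume S := by
  have hDm : MeasurableSet D := hDc.isClosed.measurableSet
  have h1θ : 0 < 1 - θ := by linarith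
  have hγβ : 0 ≤ γ * β := mul_nonneg hγ0 hβ
  -- the rescaled set
  obtain ⟨S', hS'⟩ : ∃ S' : Set (ℝ × ℝ), S' = lin2 1 0 0 (1 - θ) ⁻¹' S := ⟨_, rfl⟩
  have hlinm : Measurable (lin2 1 0 0 (1 - θ)) := by
    unfold lin2
    fun_prop
  have hS'm : MeasurableSet S' := by
    rw [hS']
    exact hlinm hS
  have hmemS' : ∀ x y : ℝ, (x, y) ∈ S' ↔ (x, (1 - θ) * y) ∈ S := by
    intro x y
    rw [hS']
    show lin2 1 0 0 (1 - θ) (x, y) ∈ S ↔ _
    unfold lin2
    simp
  have hvolS' : ENNReal.ofReal (1 - θ) * volume S' = volume S := by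
    rw [hS', lin2_eq, Measure.addHaar_preimage_linearMap volume
      (by rw [det_lin2]; simp; linarith), det_lin2, ← mul_assoc, ← ENNReal.ofReal_mul h1θ.le]
    have e : (1 - θ) * |(1 * (1 - θ) - 0 * 0)⁻¹| = 1 := by
      rw [abs_inv]
      have e1 : |1 * (1 - θ) - 0 * 0| = 1 - θ := by
        rw [abs_of_pos (by linarith)]; ring
      rw [e1]
      field_simp
    rw [e]
    simp
  -- sections
  obtain ⟨Y, hY⟩ : ∃ Y : Set ℝ, Y = Prod.snd '' D := ⟨_, rfl⟩
  have hYm : MeasurableSet Y := by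
    rw [hY]; exact (hDc.image continuous_snd).isClosed.measurableSet
  have hsec : ∀ y ∈ Y, ENNReal.ofReal (1 - θ) * volume {x : ℝ | (x, y) ∈ D}
      + ENNReal.ofReal θ * ENNReal.ofReal (2 * (γ * β)) ≤ volume {x : ℝ | (x, y) ∈ S'} := by
    intro y hy
    rw [hY] at hy
    obtain ⟨⟨x₀, y₀⟩, hq, rfl⟩ := hy
    have hbm := one_dim_bm (I := {x : ℝ | (x, y₀) ∈ D}) (J := Icc (-(γ * β)) (γ * β))
      (W := {x : ℝ | (x, y₀) ∈ S'}) measurableSet_Icc ⟨x₀, hq⟩
      ⟨0, by constructor <;> linarith⟩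
      ((hDc.image continuous_fst).bddAbove.mono
        (show {x : ℝ | (x, y₀) ∈ D} ⊆ Prod.fst '' D from fun x hx => ⟨(x, y₀), hx, rfl⟩))
      bddBelow_Icc h1θ hθ0 (by
        intro x hx τ hτ
        show ((1 - θ) * x + θ * τ, y₀) ∈ S'
        rw [hmemS']
        exact hsub (x, y₀) hx τ (abs_le.mpr hτ))
    rw [Real.volume_Icc] at hbm
    have e : γ * β - -(γ * β) = 2 * (γ * β) := by ring
    rw [e] at hbm
    exact hbm
  have hsecm : Measurable fun y : ℝ => volume {x : ℝ | (x, y) ∈ D} :=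
    measurable_measure_prodMk_right hDm
  have hoff : ∀ y, y ∉ Y → volume {x : ℝ | (x, y) ∈ D} = 0 := by
    intro y hy
    have : {x : ℝ | (x, y) ∈ D} = ∅ := by
      ext x
      simp only [mem_ofPred_eq, mem_empty_iff_false, iff_false]
      intro hx
      exact hy (by rw [hY]; exact ⟨(x, y), hx, rfl⟩)
    rw [this, measure_empty]
  have hvolD : volume D = ∫⁻ y in Y, volume {x : ℝ | (x, y) ∈ D} := by
    rw [Measure.volume_eq_prod, Measure.prod_apply_symm hDm, ← lintegral_indicator hYm]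
    apply lintegral_congr
    intro y
    by_cases hy : y ∈ Y
    · rw [indicator_of_mem hy]
      rfl
    · rw [indicator_of_notMem hy]
      exact hoff y hy
  have hvolS : volume S' = ∫⁻ y, volume {x : ℝ | (x, y) ∈ S'} := by
    rw [Measure.volume_eq_prod, Measure.prod_apply_symm hS'm]
    rfl
  have hDle : volume D ≤ ENNReal.ofReal (2 * β) * volume Y := by
    rw [hvolD]
    calc ∫⁻ y in Y, volume {x : ℝ | (x, y) ∈ D}
        ≤ ∫⁻ _y in Y, ENNReal.ofReal (2 * β) :=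
          lintegral_mono (fun y => sec_volume_le hDconv hDsym hmax y)
      _ = ENNReal.ofReal (2 * β) * volume Y := by
          rw [lintegral_const, Measure.restrict_apply_univ]
  have hS'ge : ENNReal.ofReal (1 - θ) * volume D + ENNReal.ofReal θ * (ENNReal.ofReal γ * volume D)
      ≤ volume S' := by
    calc ENNReal.ofReal (1 - θ) * volume D + ENNReal.ofReal θ * (ENNReal.ofReal γ * volume D)
        ≤ ENNReal.ofReal (1 - θ) * volume D
          + ENNReal.ofReal θ * (ENNReal.ofReal γ * (ENNReal.ofReal (2 * β) * volume Y)) := by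
          gcongr
      _ = ENNReal.ofReal (1 - θ) * (∫⁻ y in Y, volume {x : ℝ | (x, y) ∈ D})
          + ENNReal.ofReal θ * ENNReal.ofReal (2 * (γ * β)) * volume Y := by
          rw [← hvolD]
          congr 1
          rw [← mul_assoc, ← mul_assoc, mul_assoc (ENNReal.ofReal θ), ← ENNReal.ofReal_mul hγ0]
          congr 3
          ring
      _ = ∫⁻ y in Y, (ENNReal.ofReal (1 - θ) * volume {x : ℝ | (x, y) ∈ D}
          + ENNReal.ofReal θ * ENNReal.ofReal (2 * (γ * β))) := by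
          rw [lintegral_add_right _ measurable_const, lintegral_const_mul _ hsecm, lintegral_const,
            Measure.restrict_apply_univ]
      _ ≤ ∫⁻ y in Y, volume {x : ℝ | (x, y) ∈ S'} :=
          setLIntegral_mono' hYm (fun y hy => hsec y hy)
      _ ≤ ∫⁻ y, volume {x : ℝ | (x, y) ∈ S'} := setLIntegral_le_lintegral _ _
      _ = volume S' := hvolS.symm
  calc ENNReal.ofReal ((1 - θ) ^ 2 + γ * θ * (1 - θ)) * volume D
      = ENNReal.ofReal (1 - θ) * (ENNReal.ofReal (1 - θ) * volume D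
          + ENNReal.ofReal θ * (ENNReal.ofReal γ * volume D)) := by
        have e : (1 - θ) ^ 2 + γ * θ * (1 - θ) = (1 - θ) * ((1 - θ) + θ * γ) := by ring
        rw [e, ENNReal.ofReal_mul h1θ.le, ENNReal.ofReal_add h1θ.le (mul_nonneg hθ0.le hγ0),
          ENNReal.ofReal_mul hθ0.le]
        ring
    _ ≤ ENNReal.ofReal (1 - θ) * volume S' := by gcongr
    _ = volume S := hvolS'

theorem refl2_add_smul (α β : ℝ) (c d : ℝ) (q r : ℝ × ℝ) :
    refl2 α β (c • q + d • r) = c • refl2 α β q + d • refl2 α β r := by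
  unfold refl2
  ext
  · simp; ring
  · simp; ring

/-- The area inequality for a boundary point `b` in general position. -/
theorem hip_area {D : Set (ℝ × ℝ)} (hDc : IsCompact D) (hDconv : Convex ℝ D)
    (hDsym : ∀ q ∈ D, -q ∈ D) {b : ℝ × ℝ} (hmax : ∀ s : ℝ, 1 < s → s • b ∉ D)
    {γ θ : ℝ} (hγ0 : 0 ≤ γ) (hθ0 : 0 < θ) (hθ1 : θ < 1)
    {S : Set (ℝ × ℝ)} (hS : MeasurableSet S)
    (hsub : ∀ q ∈ D, ∀ τ : ℝ, |τ| ≤ γ → (1 - θ) • q + (θ * τ) • b ∈ S) :
    ENNReal.ofReal ((1 - θ) ^ 2 + γ * θ * (1 - θ)) * volume D ≤ volume S := by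
  by_cases hDe : D = ∅
  · rw [hDe]; simp
  obtain ⟨q₀, hq₀⟩ := nonempty_iff_ne_empty.mpr hDe
  have h0D : (0 : ℝ × ℝ) ∈ D := by
    have h := hDconv hq₀ (hDsym _ hq₀) (by norm_num : (0 : ℝ) ≤ 1 / 2)
      (by norm_num : (0 : ℝ) ≤ 1 / 2) (by norm_num)
    simpa using h
  have hb0 : b ≠ 0 := by
    intro hb
    apply hmax 2 (by norm_num)
    rw [hb]
    simpa using h0D
  obtain ⟨n, hn⟩ : ∃ n : ℝ, n = Real.sqrt (b.1 ^ 2 + b.2 ^ 2) := ⟨_, rfl⟩
  have hnsq : n ^ 2 = b.1 ^ 2 + b.2 ^ 2 := by rw [hn]; exact Real.sq_sqrt (by positivity)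
  have hnpos : 0 < n := by
    rw [hn]
    apply Real.sqrt_pos.mpr
    by_contra hcon
    push Not at hcon
    have h1 : b.1 = 0 := by nlinarith [sq_nonneg b.1, sq_nonneg b.2]
    have h2 : b.2 = 0 := by nlinarith [sq_nonneg b.1, sq_nonneg b.2]
    exact hb0 (Prod.ext h1 h2)
  obtain ⟨α, hα⟩ : ∃ α : ℝ, α = b.2 / n := ⟨_, rfl⟩
  obtain ⟨β, hβ⟩ : ∃ β : ℝ, β = -b.1 / n := ⟨_, rfl⟩
  have hαβ : α ^ 2 + β ^ 2 = 1 := by
    rw [hα, hβ]
    field_simp
    rw [hnsq]; ring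
  -- the reflection maps `(s, 0)` to `(s / n) • b`
  have hRaxis : ∀ s : ℝ, refl2 α β (s, 0) = (s / n) • b := by
    intro s
    unfold refl2
    rw [hα, hβ]
    ext
    · simp; field_simp
    · simp; field_simp
  have hD₁c : IsCompact (refl2 α β ⁻¹' D) := by
    rw [← image_refl2 hαβ]
    exact hDc.image (continuous_refl2 α β)
  have hD₁conv : Convex ℝ (refl2 α β ⁻¹' D) := by
    intro q hq r hr c d hc hd hcd
    show refl2 α β (c • q + d • r) ∈ D
    rw [refl2_add_smul]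
    exact hDconv hq hr hc hd hcd
  have hD₁sym : ∀ q ∈ refl2 α β ⁻¹' D, -q ∈ refl2 α β ⁻¹' D := by
    intro q hq
    show refl2 α β (-q) ∈ D
    have e : refl2 α β (-q) = -refl2 α β q := by
      unfold refl2
      ext
      · simp; ring
      · simp; ring
    rw [e]
    exact hDsym _ hq
  have hmax₁ : ∀ s : ℝ, n < s → ((s, 0) : ℝ × ℝ) ∉ refl2 α β ⁻¹' D := by
    intro s hs
    show refl2 α β (s, 0) ∉ D
    rw [hRaxis]
    exact hmax _ (by rw [lt_div_iff₀ hnpos]; linarith)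
  have hS₁ : MeasurableSet (refl2 α β ⁻¹' S) := (continuous_refl2 α β).measurable hS
  have main := hip_area_axis hD₁c hD₁conv hD₁sym hnpos.le hmax₁ hγ0 hθ0 hθ1 hS₁ (by
    intro q hq τ hτ
    show refl2 α β ((1 - θ) * q.1 + θ * τ, (1 - θ) * q.2) ∈ S
    have e : (((1 - θ) * q.1 + θ * τ, (1 - θ) * q.2) : ℝ × ℝ)
        = (1 - θ) • q + θ • ((τ, 0) : ℝ × ℝ) := by
      ext <;> simp
    rw [e, refl2_add_smul, hRaxis, smul_smul]
    apply hsub _ hq
    rw [abs_div, abs_of_pos hnpos, div_le_iff₀ hnpos]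
    exact hτ)
  rwa [volume_preimage_refl2 hαβ, volume_preimage_refl2 hαβ] at main

theorem lintegral_hip {a γ : ℝ} (ha : 0 < a) (hγ0 : 0 ≤ γ) :
    ∫⁻ t in Ioo (0 : ℝ) a, ENNReal.ofReal ((1 - t / a) ^ 2 + γ * (t / a) * (1 - t / a))
      = ENNReal.ofReal (a * (1 / 3 + γ / 6)) := by
  rw [restrict_Ioo_eq_restrict_Ioc]
  have hcont : Continuous fun t : ℝ => (1 - t / a) ^ 2 + γ * (t / a) * (1 - t / a) := by fun_prop
  have hint : IntegrableOn (fun t : ℝ => (1 - t / a) ^ 2 + γ * (t / a) * (1 - t / a)) (Ioc 0 a) :=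
    (hcont.integrableOn_Icc (a := 0) (b := a)).mono_set Ioc_subset_Icc_self
  have hnn : 0 ≤ᵐ[volume.restrict (Ioc 0 a)]
      fun t : ℝ => (1 - t / a) ^ 2 + γ * (t / a) * (1 - t / a) := by
    filter_upwards [ae_restrict_mem measurableSet_Ioc] with t ht
    have h1 : 0 ≤ t / a := div_nonneg ht.1.le ha.le
    have h2 : 0 ≤ 1 - t / a := by
      rw [sub_nonneg, div_le_one ha]
      exact ht.2
    positivity
  rw [← ofReal_integral_eq_lintegral_ofReal hint hnn]
  congr 1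
  rw [← intervalIntegral.integral_of_le ha.le]
  have hderiv : ∀ t ∈ Set.uIcc 0 a,
      HasDerivAt (fun t : ℝ => t + (γ - 2) * t ^ 2 / (2 * a) + (1 - γ) * t ^ 3 / (3 * a ^ 2))
        ((1 - t / a) ^ 2 + γ * (t / a) * (1 - t / a)) t := by
    intro t _
    have h1 : HasDerivAt (fun t : ℝ => t ^ 2) (2 * t) t := by
      simpa using hasDerivAt_pow 2 t
    have h2 : HasDerivAt (fun t : ℝ => t ^ 3) (3 * t ^ 2) t := by
      simpa using hasDerivAt_pow 3 t
    have h3 := ((hasDerivAt_id t).add ((h1.const_mul (γ - 2)).div_const (2 * a))).add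
      ((h2.const_mul (1 - γ)).div_const (3 * a ^ 2))
    have e : 1 + (γ - 2) * (2 * t) / (2 * a) + (1 - γ) * (3 * t ^ 2) / (3 * a ^ 2)
        = (1 - t / a) ^ 2 + γ * (t / a) * (1 - t / a) := by
      field_simp
      ring
    rw [e] at h3
    exact h3
  rw [intervalIntegral.integral_eq_sub_of_hasDerivAt hderiv (hcont.intervalIntegrable _ _)]
  field_simp
  ring

/-- A concave even function on a centrally symmetric planar convex set: the integral is at least
`X (γ b) (1 / 3 + γ / 6) |D|` when `b` is a boundary point of `D` and `0 ≤ γ ≤ 1`. -/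
theorem ridge_integral {D : Set (ℝ × ℝ)} (hDc : IsCompact D) (hDconv : Convex ℝ D)
    (hDsym : ∀ q ∈ D, -q ∈ D) {X : ℝ × ℝ → ℝ} (hXm : Measurable X) (hX0 : ∀ p, 0 ≤ X p)
    (hXeven : ∀ q, X (-q) = X q)
    (hconc : ∀ p ∈ D, ∀ q ∈ D, ∀ θ : ℝ, 0 < θ → θ < 1 →
      (1 - θ) * X p + θ * X q ≤ X ((1 - θ) • p + θ • q))
    {b : ℝ × ℝ} (hb : b ∈ D) (hmax : ∀ s : ℝ, 1 < s → s • b ∉ D) {γ : ℝ} (hγ0 : 0 ≤ γ)
    (hγ1 : γ ≤ 1) :
    ENNReal.ofReal (X (γ • b) * (1 / 3 + γ / 6)) * volume D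
      ≤ ∫⁻ q in D, ENNReal.ofReal (X q) := by
  have hDm : MeasurableSet D := hDc.isClosed.measurableSet
  have hPt : volume D ≠ ⊤ := hDc.measure_lt_top.ne
  obtain ⟨a, ha⟩ : ∃ a : ℝ, a = X (γ • b) := ⟨_, rfl⟩
  rw [← ha]
  rcases (hX0 (γ • b)).eq_or_lt with h0 | hapos
  · rw [ha, ← h0]; simp
  rw [← ha] at hapos
  have hnb : -b ∈ D := hDsym _ hb
  -- points of the ridge
  have hridge : ∀ τ : ℝ, |τ| ≤ γ → τ • b ∈ D ∧ a ≤ X (τ • b) := by
    intro τ hτ
    have hτ' := abs_le.mp hτ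
    have hmem : τ • b ∈ D := by
      have h := hDconv hnb hb (by linarith : (0 : ℝ) ≤ (1 - τ) / 2)
        (by linarith : (0 : ℝ) ≤ (1 + τ) / 2) (by ring)
      have e : ((1 - τ) / 2) • (-b) + ((1 + τ) / 2) • b = τ • b := by
        ext <;> simp <;> ring
      rwa [e] at h
    refine ⟨hmem, ?_⟩
    rcases hγ0.eq_or_lt with hγz | hγpos
    · have : τ = 0 := by
        rw [← hγz] at hτ'
        linarith [hτ'.1, hτ'.2]
      rw [this, ha, ← hγz]
    · have hγb : γ • b ∈ D := by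
        have h := hDconv hnb hb (by linarith : (0 : ℝ) ≤ (1 - γ) / 2)
          (by linarith : (0 : ℝ) ≤ (1 + γ) / 2) (by ring)
        have e : ((1 - γ) / 2) • (-b) + ((1 + γ) / 2) • b = γ • b := by
          ext <;> simp <;> ring
        rwa [e] at h
      have hnγb : -(γ • b) ∈ D := hDsym _ hγb
      rcases hτ'.1.eq_or_lt with he1 | hl1
      · have e : τ • b = -(γ • b) := by
          rw [← he1]; simp
        rw [e, hXeven, ha]
      rcases hτ'.2.eq_or_lt with he2 | hl2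
      · rw [he2, ha]
      obtain ⟨s, hs⟩ : ∃ s : ℝ, s = (1 + τ / γ) / 2 := ⟨_, rfl⟩
      have hs0 : 0 < s := by
        rw [hs]
        have : -1 < τ / γ := by rw [lt_div_iff₀ hγpos]; linarith
        linarith
      have hs1 : s < 1 := by
        rw [hs]
        have : τ / γ < 1 := by rw [div_lt_one hγpos]; exact hl2
        linarith
      have h := hconc _ hnγb _ hγb s hs0 hs1
      have e : (1 - s) • (-(γ • b)) + s • (γ • b) = τ • b := by
        have e1 : (2 * s - 1) * γ = τ := by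
          rw [hs]; field_simp; ring
        ext
        · simp; linear_combination b.1 * e1
        · simp; linear_combination b.2 * e1
      rw [e, hXeven, ← ha] at h
      linarith
  -- level sets
  have hlevm : ∀ t : ℝ, MeasurableSet {q | t ≤ X q} := fun t => measurableSet_le measurable_const hXm
  have hlev : ∀ t ∈ Ioo (0 : ℝ) a,
      ENNReal.ofReal ((1 - t / a) ^ 2 + γ * (t / a) * (1 - t / a)) * volume D
        ≤ (volume.restrict D) {q | t ≤ X q} := by
    intro t ht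
    rw [Measure.restrict_apply (hlevm t)]
    have hθ0 : 0 < t / a := div_pos ht.1 hapos
    have hθ1 : t / a < 1 := by rw [div_lt_one hapos]; exact ht.2
    have e : (1 - t / a) ^ 2 + γ * (t / a) * (1 - t / a)
        = (1 - t / a) ^ 2 + γ * (t / a) * (1 - t / a) := rfl
    exact hip_area hDc hDconv hDsym hmax hγ0 hθ0 hθ1 ((hlevm t).inter hDm) (by
      intro q hq τ hτ
      obtain ⟨hmem, hXτ⟩ := hridge τ hτ
      have e1 : (1 - t / a) • q + (t / a * τ) • b = (1 - t / a) • q + (t / a) • (τ • b) := by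
        rw [smul_smul]
      rw [e1]
      refine ⟨?_, hDconv hq hmem (by linarith) hθ0.le (by ring)⟩
      show t ≤ X ((1 - t / a) • q + (t / a) • (τ • b))
      have h := hconc q hq _ hmem (t / a) hθ0 hθ1
      have h2 : 0 ≤ (1 - t / a) * X q := mul_nonneg (by linarith) (hX0 q)
      have h3 : t / a * a ≤ t / a * X (τ • b) := mul_le_mul_of_nonneg_left hXτ hθ0.le
      have h4 : t / a * a = t := by field_simp
      linarith)
  have lc := lintegral_eq_lintegral_meas_le (volume.restrict D) (f := X)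
    (Filter.Eventually.of_forall hX0) hXm.aemeasurable
  calc ENNReal.ofReal (a * (1 / 3 + γ / 6)) * volume D
      = (∫⁻ t in Ioo (0 : ℝ) a, ENNReal.ofReal ((1 - t / a) ^ 2 + γ * (t / a) * (1 - t / a)))
          * volume D := by rw [lintegral_hip hapos hγ0]
    _ = ∫⁻ t in Ioo (0 : ℝ) a,
          ENNReal.ofReal ((1 - t / a) ^ 2 + γ * (t / a) * (1 - t / a)) * volume D :=
        (lintegral_mul_const' _ _ hPt).symm
    _ ≤ ∫⁻ t in Ioo (0 : ℝ) a, (volume.restrict D) {q | t ≤ X q} :=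
        setLIntegral_mono' measurableSet_Ioo hlev
    _ ≤ ∫⁻ t in Ioi (0 : ℝ), (volume.restrict D) {q | t ≤ X q} :=
        lintegral_mono_set Ioo_subset_Ioi_self
    _ = ∫⁻ q in D, ENNReal.ofReal (X q) := lc.symm

end Vale.Agent.Helper11
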