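import Vale.Agent.Helper11.Sym2D
import Vale.Agent.Helper11.SharpChord

/-!
# Centrally symmetric convex bodies: the weighted volume of the part inside a cylinder

Model space: `(ℝ × ℝ) × ℝ`.  For a centrally symmetric convex body `G`, the measure with density
`1 / 2 + ‖x‖_G` (written here through the volumes of the sets `A \ t • G`, `0 < t < 1`) of the
part of `G` inside the cylinder over `B` is at most `3 |G| |B ∩ D| / |D|`, where `D` is the
projection of `G`.
-/

namespace Vale.Agent.Helper11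

open Set MeasureTheory
open scoped Pointwise

/-- Concavity of the fibre length of a convex compact set. -/
theorem fib_concave {G : Set ((ℝ × ℝ) × ℝ)} (hG : Convex ℝ G) (hGc : IsCompact G) {p q : ℝ × ℝ}
    (hp : p ∈ Prod.fst '' G) (hq : q ∈ Prod.fst '' G) {θ : ℝ} (hθ0 : 0 < θ) (hθ1 : θ < 1) :
    (1 - θ) * (volume (fib G p)).toReal + θ * (volume (fib G q)).toReal
      ≤ (volume (fib G ((1 - θ) • p + θ • q))).toReal := by
  have hGm : MeasurableSet G := hGc.isClosed.measurableSet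
  have hZc : IsCompact (Prod.snd '' G) := hGc.image continuous_snd
  have hZt : volume (Prod.snd '' G) ≠ ⊤ := hZc.measure_lt_top.ne
  have hXt : ∀ p, volume (fib G p) ≠ ⊤ := fun p => ne_top_of_le_ne_top hZt (volume_fib_le p)
  have hfibsub : ∀ p, fib G p ⊆ Prod.snd '' G := fun p y hy => ⟨(p, y), hy, rfl⟩
  have h1θ : 0 < 1 - θ := by linarith
  have hIne : (fib G p).Nonempty := by
    obtain ⟨x, hx, rfl⟩ := hp
    exact ⟨x.2, hx⟩
  have hJne : (fib G q).Nonempty := by
    obtain ⟨x, hx, rfl⟩ := hq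
    exact ⟨x.2, hx⟩
  have hbm := one_dim_bm (I := fib G p) (J := fib G q) (W := fib G ((1 - θ) • p + θ • q))
    (measurable_prodMk_left hGm) hIne hJne (hZc.bddAbove.mono (hfibsub p))
    (hZc.bddBelow.mono (hfibsub q)) h1θ hθ0 (fun η hη ζ hζ => by
      have h := hG hη hζ h1θ.le hθ0.le (by ring)
      exact h)
  have hr := ENNReal.toReal_mono (hXt _) hbm
  rw [ENNReal.toReal_add (ENNReal.mul_ne_top ENNReal.ofReal_ne_top (hXt p))
    (ENNReal.mul_ne_top ENNReal.ofReal_ne_top (hXt q)), ENNReal.toReal_mul, ENNReal.toReal_mul,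
    ENNReal.toReal_ofReal h1θ.le, ENNReal.toReal_ofReal hθ0.le] at hr
  exact hr

/-- The fibre of the dilate `t • G` over `γ • b` contains an affine image, of ratio
`(t - γ) / (1 - γ)`, of the fibre of `G`. -/
theorem fib_smul_ge {G : Set ((ℝ × ℝ) × ℝ)} (hG : Convex ℝ G) {b : ℝ × ℝ} {η₀ : ℝ}
    (hbη : (b, η₀) ∈ G) {γ t : ℝ} (hγ0 : 0 ≤ γ) (hγt : γ < t) (ht1 : t ≤ 1) :
    ENNReal.ofReal ((t - γ) / (1 - γ)) * volume (fib G (γ • b))
      ≤ volume (fib (t • G) (γ • b)) := by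
  have h1γ : 0 < 1 - γ := by linarith
  have htpos : 0 < t := by linarith
  obtain ⟨A, hA⟩ : ∃ A : ℝ, A = (t - γ) / (1 - γ) := ⟨_, rfl⟩
  obtain ⟨Bc, hBc⟩ : ∃ Bc : ℝ, Bc = γ * (1 - t) / (1 - γ) := ⟨_, rfl⟩
  have hApos : 0 < A := by rw [hA]; exact div_pos (by linarith) h1γ
  have hB0 : 0 ≤ Bc := by rw [hBc]; exact div_nonneg (mul_nonneg hγ0 (by linarith)) h1γ.le
  have hAB : A + Bc = t := by rw [hA, hBc]; field_simp; ring
  have hAγ : A * γ + Bc = γ := by rw [hA, hBc]; field_simp; ring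
  rw [← hA]
  obtain ⟨W, hW⟩ : ∃ W : Set ℝ,
      W = (fun w => w + -(Bc * η₀)) ⁻¹' ((· * A⁻¹) ⁻¹' fib G (γ • b)) := ⟨_, rfl⟩
  have hvW : volume W = ENNReal.ofReal A * volume (fib G (γ • b)) := by
    rw [hW, measure_preimage_add_right, Real.volume_preimage_mul_right (inv_ne_zero hApos.ne')]
    simp [abs_of_pos hApos]
  rw [← hvW]
  apply measure_mono
  intro w hw
  rw [hW] at hw
  have hw' : (γ • b, (w + -(Bc * η₀)) * A⁻¹) ∈ G := hw
  have hcomb := hG hw' hbη (div_nonneg hApos.le htpos.le) (div_nonneg hB0 htpos.le)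
    (by rw [← add_div, hAB]; exact div_self htpos.ne')
  show (γ • b, w) ∈ t • G
  refine mem_smul_set.mpr ⟨_, hcomb, ?_⟩
  have e1 : t * (A / t) = A := by field_simp
  have e2 : t * (Bc / t) = Bc := by field_simp
  refine Prod.ext (Prod.ext ?_ ?_) ?_
  · simp only [Prod.smul_mk, Prod.mk_add_mk, Prod.smul_fst, smul_eq_mul, Prod.fst_add]
    linear_combination (γ * b.1) * e1 + b.1 * e2 + b.1 * hAγ
  · simp only [Prod.smul_mk, Prod.mk_add_mk, Prod.smul_snd, smul_eq_mul, Prod.snd_add]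
    linear_combination (γ * b.2) * e1 + b.2 * e2 + b.2 * hAγ
  · simp only [Prod.smul_mk, Prod.mk_add_mk, smul_eq_mul]
    have e3 : A * A⁻¹ = 1 := mul_inv_cancel₀ hApos.ne'
    linear_combination ((w + -(Bc * η₀)) * A⁻¹) * e1 + η₀ * e2 + (w - Bc * η₀) * e3

/-- Every nonzero point of a compact set is a multiple `γ • b`, `0 < γ ≤ 1`, of a point `b` of
the set beyond which the ray leaves the set. -/
theorem exists_boundary_rep {D : Set (ℝ × ℝ)} (hDc : IsCompact D) {p : ℝ × ℝ} (hp : p ∈ D)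
    (hp0 : p ≠ 0) :
    ∃ b ∈ D, ∃ γ : ℝ, 0 < γ ∧ γ ≤ 1 ∧ p = γ • b ∧ ∀ s : ℝ, 1 < s → s • b ∉ D := by
  obtain ⟨T, hT⟩ : ∃ T : Set ℝ, T = {s : ℝ | s • p ∈ D} := ⟨_, rfl⟩
  have hTmem : ∀ s : ℝ, s ∈ T ↔ s • p ∈ D := fun s => by rw [hT]; rfl
  have hTclosed : IsClosed T := by
    rw [hT]
    exact hDc.isClosed.preimage (by fun_prop)
  have hpn : 0 < ‖p‖ := norm_pos_iff.mpr hp0
  have hTbdd : BddAbove T := by
    obtain ⟨R, hR⟩ := hDc.isBounded.exists_norm_le
    refine ⟨R / ‖p‖, ?_⟩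
    intro s hs
    have h1 := hR _ ((hTmem s).mp hs)
    rw [norm_smul, Real.norm_eq_abs] at h1
    rw [le_div_iff₀ hpn]
    exact (mul_le_mul_of_nonneg_right (le_abs_self s) hpn.le).trans h1
  have h1T : (1 : ℝ) ∈ T := by
    rw [hTmem]
    simpa using hp
  have hsup : sSup T ∈ T := hTclosed.csSup_mem ⟨1, h1T⟩ hTbdd
  have hs1 : 1 ≤ sSup T := le_csSup hTbdd h1T
  have hsupD : sSup T • p ∈ D := (hTmem _).mp hsup
  refine ⟨sSup T • p, hsupD, (sSup T)⁻¹, by positivity, inv_le_one_of_one_le₀ hs1, ?_, ?_⟩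
  · rw [smul_smul, inv_mul_cancel₀ (by linarith), one_smul]
  · intro s hs hmem
    rw [smul_smul] at hmem
    have h2 : s * sSup T ∈ T := (hTmem _).mpr hmem
    have h3 := le_csSup hTbdd h2
    nlinarith

theorem lintegral_one_sub {γ c : ℝ} (hγ1 : γ ≤ 1) (hc : 0 ≤ c) :
    ∫⁻ t in Ioo γ 1, ENNReal.ofReal (c * (1 - t)) = ENNReal.ofReal (c * (1 - γ) ^ 2 / 2) := by
  rw [restrict_Ioo_eq_restrict_Ioc]
  have hcont : Continuous fun t : ℝ => c * (1 - t) := by fun_prop
  have hint : IntegrableOn (fun t : ℝ => c * (1 - t)) (Ioc γ 1) :=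
    (hcont.integrableOn_Icc (a := γ) (b := 1)).mono_set Ioc_subset_Icc_self
  have hnn : 0 ≤ᵐ[volume.restrict (Ioc γ 1)] fun t : ℝ => c * (1 - t) := by
    filter_upwards [ae_restrict_mem measurableSet_Ioc] with t ht
    exact mul_nonneg hc (by linarith [ht.2])
  rw [← ofReal_integral_eq_lintegral_ofReal hint hnn]
  congr 1
  rw [← intervalIntegral.integral_of_le hγ1]
  have hderiv : ∀ t ∈ Set.uIcc γ 1,
      HasDerivAt (fun t : ℝ => c * (t - t ^ 2 / 2)) (c * (1 - t)) t := by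
    intro t _
    have h1 : HasDerivAt (fun t : ℝ => t ^ 2) (2 * t) t := by
      simpa using hasDerivAt_pow 2 t
    have h3 := ((hasDerivAt_id t).sub (h1.div_const 2)).const_mul c
    have e : c * (1 - 2 * t / 2) = c * (1 - t) := by ring
    rw [e] at h3
    exact h3
  rw [intervalIntegral.integral_eq_sub_of_hasDerivAt hderiv (hcont.intervalIntegrable _ _)]
  ring

/-- The pointwise bound: for every point `p` of the plane, the weighted length of the fibre of a
centrally symmetric convex body `G` over `p`, times the area of the projection of `G`, is at most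
`3 |G|`. -/
theorem sym_pointwise {G : Set ((ℝ × ℝ) × ℝ)} (hG : Convex ℝ G) (hGc : IsCompact G)
    (hGsym : ∀ x ∈ G, -x ∈ G) (p : ℝ × ℝ) :
    (ENNReal.ofReal (1 / 2) * volume (fib G p)
      + ∫⁻ t in Ioo (0 : ℝ) 1, volume (fib G p \ fib (t • G) p)) * volume (Prod.fst '' G)
      ≤ 3 * volume G := by
  have hGm : MeasurableSet G := hGc.isClosed.measurableSet
  have hDc : IsCompact (Prod.fst '' G) := hGc.image continuous_fst
  have hDm : MeasurableSet (Prod.fst '' G) := hDc.isClosed.measurableSet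
  have hDconv : Convex ℝ (Prod.fst '' G) := by
    have := hG.linear_image (LinearMap.fst ℝ (ℝ × ℝ) ℝ)
    simpa using this
  have hDsym : ∀ q ∈ Prod.fst '' G, -q ∈ Prod.fst '' G := by
    rintro _ ⟨x, hx, rfl⟩
    exact ⟨-x, hGsym x hx, rfl⟩
  by_cases hpD : p ∈ Prod.fst '' G
  swap
  · rw [fib_empty_of_notMem hpD]
    simp
  by_cases hD0 : volume (Prod.fst '' G) = 0
  · rw [hD0, mul_zero]
    exact zero_le
  have hZc : IsCompact (Prod.snd '' G) := hGc.image continuous_snd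
  have hZt : volume (Prod.snd '' G) ≠ ⊤ := hZc.measure_lt_top.ne
  have hXt : ∀ q, volume (fib G q) ≠ ⊤ := fun q => ne_top_of_le_ne_top hZt (volume_fib_le q)
  obtain ⟨X, hX⟩ : ∃ X : ℝ × ℝ → ℝ, X = fun q => (volume (fib G q)).toReal := ⟨_, rfl⟩
  have hXm : Measurable X := by
    rw [hX]; exact (measurable_volume_fib hGm).ennreal_toReal
  have hX0 : ∀ q, 0 ≤ X q := fun q => by rw [hX]; exact ENNReal.toReal_nonneg
  have hofX : ∀ q, ENNReal.ofReal (X q) = volume (fib G q) := fun q => by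
    rw [hX]; exact ENNReal.ofReal_toReal (hXt q)
  have hXeven : ∀ q, X (-q) = X q := by
    intro q
    rw [hX]
    simp only
    congr 1
    have e : fib G (-q) = -fib G q := by
      ext z
      rw [Set.mem_neg]
      constructor
      · intro h
        have h2 := hGsym _ h
        simpa [fib] using h2
      · intro h
        have h2 := hGsym _ h
        simpa [fib] using h2
    rw [e, Measure.measure_neg]
  have hconc : ∀ p ∈ Prod.fst '' G, ∀ q ∈ Prod.fst '' G, ∀ θ : ℝ, 0 < θ → θ < 1 →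
      (1 - θ) * X p + θ * X q ≤ X ((1 - θ) • p + θ • q) := by
    intro p hp q hq θ hθ0 hθ1
    rw [hX]
    exact fib_concave hG hGc hp hq hθ0 hθ1
  -- the origin belongs to `G`, so the dilates `t • G`, `0 ≤ t ≤ 1`, are contained in `G`
  have h0G : (0 : (ℝ × ℝ) × ℝ) ∈ G := by
    obtain ⟨x₀, hx₀, -⟩ := hpD
    have h := hG hx₀ (hGsym _ hx₀) (by norm_num : (0 : ℝ) ≤ 1 / 2)
      (by norm_num : (0 : ℝ) ≤ 1 / 2) (by norm_num)
    simpa using h
  have htG : ∀ t ∈ Icc (0 : ℝ) 1, t • G ⊆ G := by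
    intro t ht y hy
    obtain ⟨g, hg, rfl⟩ := mem_smul_set.mp hy
    exact hG.smul_mem_of_zero_mem h0G hg ht
  -- representation of `p`
  obtain ⟨b, hbD, γ, hγ0, hγ1, hpγ, hmax⟩ : ∃ b ∈ Prod.fst '' G, ∃ γ : ℝ, 0 ≤ γ ∧ γ ≤ 1 ∧
      p = γ • b ∧ ∀ s : ℝ, 1 < s → s • b ∉ Prod.fst '' G := by
    by_cases hp0 : p = 0
    · have hex : ∃ q ∈ Prod.fst '' G, q ≠ 0 := by
        by_contra hcon
        push Not at hcon
        apply hD0
        apply measure_mono_null (t := {(0 : ℝ × ℝ)}) (fun q hq => hcon q hq)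
        simp
      obtain ⟨q, hq, hq0⟩ := hex
      obtain ⟨b, hb, γ', -, -, -, hmax⟩ := exists_boundary_rep hDc hq hq0
      exact ⟨b, hb, 0, le_rfl, zero_le_one, by rw [hp0, zero_smul], hmax⟩
    · obtain ⟨b, hb, γ, hγ0, hγ1, hpγ, hmax⟩ := exists_boundary_rep hDc hpD hp0
      exact ⟨b, hb, γ, hγ0.le, hγ1, hpγ, hmax⟩
  obtain ⟨y, hy, hyb⟩ := hbD
  have hbη : (b, y.2) ∈ G := by
    rw [← hyb]
    exact hy
  have hbD' : b ∈ Prod.fst '' G := ⟨y, hy, hyb⟩
  obtain ⟨x, hx⟩ : ∃ x : ℝ, x = X p := ⟨_, rfl⟩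
  have hx0 : 0 ≤ x := by rw [hx]; exact hX0 p
  have hxp : volume (fib G p) = ENNReal.ofReal x := by rw [hx]; exact (hofX p).symm
  -- bounds for the integrand
  have hF1 : ∀ t : ℝ, volume (fib G p \ fib (t • G) p) ≤ ENNReal.ofReal x := by
    intro t
    rw [← hxp]
    exact measure_mono sdiff_subset
  have hF2 : ∀ t ∈ Ioo γ 1, volume (fib G p \ fib (t • G) p)
      ≤ ENNReal.ofReal (x / (1 - γ) * (1 - t)) := by
    intro t ht
    have h1γ : 0 < 1 - γ := by linarith [ht.1, ht.2]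
    have hsub : fib (t • G) p ⊆ fib G p := fun z hz =>
      htG t ⟨by linarith [ht.1], ht.2.le⟩ hz
    have hmeas : MeasurableSet (fib (t • G) p) :=
      measurable_prodMk_left (hGc.smul t).isClosed.measurableSet
    rw [measure_sdiff_le_iff_le_add hmeas.nullMeasurableSet hsub
      (ne_top_of_le_ne_top (hXt p) (measure_mono hsub))]
    have hge := fib_smul_ge hG hbη hγ0 ht.1 ht.2.le
    rw [← hpγ, hxp] at hge
    have hnn1 : 0 ≤ (t - γ) / (1 - γ) := div_nonneg (by linarith [ht.1]) h1γ.le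
    have hnn2 : 0 ≤ x / (1 - γ) * (1 - t) :=
      mul_nonneg (div_nonneg hx0 h1γ.le) (by linarith [ht.2])
    calc volume (fib G p) = ENNReal.ofReal x := hxp
      _ = ENNReal.ofReal ((t - γ) / (1 - γ) * x) + ENNReal.ofReal (x / (1 - γ) * (1 - t)) := by
          rw [← ENNReal.ofReal_add (mul_nonneg hnn1 hx0) hnn2]
          congr 1
          field_simp
          ring
      _ ≤ volume (fib (t • G) p) + ENNReal.ofReal (x / (1 - γ) * (1 - t)) := by
          gcongr
          rw [ENNReal.ofReal_mul hnn1]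
          exact hge
  have hint : ∫⁻ t in Ioo (0 : ℝ) 1, volume (fib G p \ fib (t • G) p)
      ≤ ENNReal.ofReal (x * (1 + γ) / 2) := by
    rcases hγ1.eq_or_lt with hγe | hγlt
    · calc ∫⁻ t in Ioo (0 : ℝ) 1, volume (fib G p \ fib (t • G) p)
          ≤ ∫⁻ _t in Ioo (0 : ℝ) 1, ENNReal.ofReal x := lintegral_mono (fun t => hF1 t)
        _ = ENNReal.ofReal x := by
            rw [lintegral_const, Measure.restrict_apply_univ, Real.volume_Ioo]
            simp
        _ = ENNReal.ofReal (x * (1 + γ) / 2) := by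
            rw [hγe]
            congr 1
            ring
    · have h1γ : 0 < 1 - γ := by linarith
      calc ∫⁻ t in Ioo (0 : ℝ) 1, volume (fib G p \ fib (t • G) p)
          ≤ ∫⁻ t in Ioc 0 γ ∪ Ioo γ 1, volume (fib G p \ fib (t • G) p) := by
            apply lintegral_mono_set
            intro t ht
            by_cases h : t ≤ γ
            · exact Or.inl ⟨ht.1, h⟩
            · exact Or.inr ⟨not_le.mp h, ht.2⟩
        _ ≤ (∫⁻ t in Ioc 0 γ, volume (fib G p \ fib (t • G) p))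
            + ∫⁻ t in Ioo γ 1, volume (fib G p \ fib (t • G) p) := lintegral_union_le _ _ _
        _ ≤ (∫⁻ _t in Ioc 0 γ, ENNReal.ofReal x)
            + ∫⁻ t in Ioo γ 1, ENNReal.ofReal (x / (1 - γ) * (1 - t)) :=
            add_le_add (lintegral_mono (fun t => hF1 t))
              (setLIntegral_mono' measurableSet_Ioo hF2)
        _ = ENNReal.ofReal (x * γ) + ENNReal.ofReal (x / (1 - γ) * (1 - γ) ^ 2 / 2) := by
            rw [lintegral_const, Measure.restrict_apply_univ, Real.volume_Ioc,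
              lintegral_one_sub hγ1 (div_nonneg hx0 h1γ.le), ENNReal.ofReal_mul hx0]
            simp
        _ = ENNReal.ofReal (x * (1 + γ) / 2) := by
            rw [← ENNReal.ofReal_add (mul_nonneg hx0 hγ0) (by positivity)]
            congr 1
            field_simp
            ring
  have hsubD : G ⊆ Prod.fst ⁻¹' (Prod.fst '' G) := fun x hx => ⟨x, hx, rfl⟩
  have eV : volume G = ∫⁻ q in Prod.fst '' G, ENNReal.ofReal (X q) := by
    simp_rw [hofX]
    rw [← volume_inter_cyl hGm hDm, inter_eq_self_of_subset_left hsubD]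
  have hB := ridge_integral hDc hDconv hDsym hXm hX0 hXeven hconc hbD' hmax hγ0 hγ1
  rw [← hpγ, ← hx, ← eV] at hB
  calc (ENNReal.ofReal (1 / 2) * volume (fib G p)
        + ∫⁻ t in Ioo (0 : ℝ) 1, volume (fib G p \ fib (t • G) p)) * volume (Prod.fst '' G)
      ≤ (ENNReal.ofReal (1 / 2) * ENNReal.ofReal x + ENNReal.ofReal (x * (1 + γ) / 2))
          * volume (Prod.fst '' G) := by
        gcongr
        exact hxp.le
    _ = 3 * (ENNReal.ofReal (x * (1 / 3 + γ / 6)) * volume (Prod.fst '' G)) := by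
        rw [← ENNReal.ofReal_mul (by norm_num), ← ENNReal.ofReal_add (by positivity)
          (by positivity), ← mul_assoc]
        congr 1
        rw [show (3 : ENNReal) = ENNReal.ofReal 3 by simp, ← ENNReal.ofReal_mul (by norm_num)]
        congr 1
        ring
    _ ≤ 3 * volume G := by gcongr

/-- Joint measurability of the lengths of the fibres of `G \ t • G`, for `0 ≤ t ≤ 1`. -/
theorem measurable_fib_diff {G : Set ((ℝ × ℝ) × ℝ)} (hGc : IsCompact G) :
    ∃ F' : ℝ × (ℝ × ℝ) → ENNReal, Measurable F' ∧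
      ∀ t ∈ Icc (0 : ℝ) 1, ∀ p, F' (t, p) = volume (fib G p \ fib (t • G) p) := by
  obtain ⟨Z, hZ⟩ : ∃ Z : Set (ℝ × ((ℝ × ℝ) × ℝ)),
      Z = (fun tg : ℝ × ((ℝ × ℝ) × ℝ) => (tg.1, tg.1 • tg.2)) '' (Icc (0 : ℝ) 1 ×ˢ G) := ⟨_, rfl⟩
  have hZc : IsCompact Z := by
    rw [hZ]
    exact (isCompact_Icc.prod hGc).image (by fun_prop)
  have hZm : MeasurableSet Z := hZc.isClosed.measurableSet
  obtain ⟨W, hW⟩ : ∃ W : Set ((ℝ × (ℝ × ℝ)) × ℝ),
      W = {x | (x.1.2, x.2) ∈ G ∧ (x.1.1, (x.1.2, x.2)) ∉ Z} := ⟨_, rfl⟩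
  have hWm : MeasurableSet W := by
    rw [hW]
    have m1 : Measurable fun x : (ℝ × (ℝ × ℝ)) × ℝ => ((x.1.2, x.2) : (ℝ × ℝ) × ℝ) := by
      fun_prop
    have m2 : Measurable fun x : (ℝ × (ℝ × ℝ)) × ℝ =>
        ((x.1.1, (x.1.2, x.2)) : ℝ × ((ℝ × ℝ) × ℝ)) := by fun_prop
    exact (m1 hGc.isClosed.measurableSet).inter (m2 hZm).compl
  refine ⟨fun x => volume (Prod.mk x ⁻¹' W), measurable_measure_prodMk_left hWm, ?_⟩
  intro t ht p
  show volume (Prod.mk (t, p) ⁻¹' W) = volume (fib G p \ fib (t • G) p)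
  have hset : Prod.mk (t, p) ⁻¹' W = fib G p \ fib (t • G) p := by
    ext z
    have hmemW : z ∈ Prod.mk (t, p) ⁻¹' W ↔ (p, z) ∈ G ∧ (t, (p, z)) ∉ Z := by
      rw [hW]
      rfl
    rw [hmemW]
    show _ ↔ (p, z) ∈ G ∧ (p, z) ∉ t • G
    constructor
    · rintro ⟨h1, h2⟩
      refine ⟨h1, fun h3 => h2 ?_⟩
      obtain ⟨g, hg, hge⟩ := mem_smul_set.mp h3
      rw [hZ]
      exact ⟨(t, g), ⟨ht, hg⟩, by rw [← hge]⟩
    · rintro ⟨h1, h2⟩
      refine ⟨h1, fun h3 => h2 ?_⟩
      rw [hZ] at h3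
      obtain ⟨⟨t', g⟩, ⟨-, hg⟩, he⟩ := h3
      have e1 : t' = t := congrArg Prod.fst he
      have e2 : t' • g = (p, z) := congrArg Prod.snd he
      exact mem_smul_set.mpr ⟨g, hg, by rw [← e1]; exact e2⟩
  rw [hset]

/-- The weighted volume of the part of a centrally symmetric convex body `G` inside the cylinder
over a measurable set `B` is at most `3 |G| |B ∩ D| / |D|`, where `D` is the projection of `G`. -/
theorem sym_cyl_bound {G : Set ((ℝ × ℝ) × ℝ)} (hG : Convex ℝ G) (hGc : IsCompact G)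
    (hGsym : ∀ x ∈ G, -x ∈ G) (hD0 : volume (Prod.fst '' G) ≠ 0) {B : Set (ℝ × ℝ)}
    (hB : MeasurableSet B) :
    ENNReal.ofReal (1 / 2) * volume (G ∩ Prod.fst ⁻¹' B)
      + ∫⁻ t in Ioo (0 : ℝ) 1, volume ((G ∩ Prod.fst ⁻¹' B) \ t • G)
      ≤ 3 * volume G * (volume (B ∩ Prod.fst '' G) / volume (Prod.fst '' G)) := by
  have hGm : MeasurableSet G := hGc.isClosed.measurableSet
  have hDc : IsCompact (Prod.fst '' G) := hGc.image continuous_fst
  have hDm : MeasurableSet (Prod.fst '' G) := hDc.isClosed.measurableSet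
  have hDt : volume (Prod.fst '' G) ≠ ⊤ := hDc.measure_lt_top.ne
  obtain ⟨F', hF'm, hF'⟩ := measurable_fib_diff hGc
  have h1 : ∀ t : ℝ, volume ((G ∩ Prod.fst ⁻¹' B) \ t • G)
      = ∫⁻ p in B, volume (fib G p \ fib (t • G) p) := by
    intro t
    have hm : MeasurableSet (G \ t • G) := hGm.diff (hGc.smul t).isClosed.measurableSet
    have e : (G ∩ Prod.fst ⁻¹' B) \ t • G = (G \ t • G) ∩ Prod.fst ⁻¹' B := by
      ext x
      simp only [mem_sdiff, mem_inter_iff]
      tauto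
    rw [e, volume_inter_cyl hm hB]
    rfl
  have h2 : ∫⁻ t in Ioo (0 : ℝ) 1, volume ((G ∩ Prod.fst ⁻¹' B) \ t • G)
      = ∫⁻ p in B, ∫⁻ t in Ioo (0 : ℝ) 1, volume (fib G p \ fib (t • G) p) := by
    have hunc : Function.uncurry (fun (t : ℝ) (p : ℝ × ℝ) => F' (t, p)) = F' := by
      funext x
      rfl
    calc ∫⁻ t in Ioo (0 : ℝ) 1, volume ((G ∩ Prod.fst ⁻¹' B) \ t • G)
        = ∫⁻ t in Ioo (0 : ℝ) 1, ∫⁻ p in B, F' (t, p) := by
          apply setLIntegral_congr_fun measurableSet_Ioo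
          intro t ht
          simp only
          rw [h1 t]
          apply lintegral_congr
          intro p
          rw [hF' t ⟨ht.1.le, ht.2.le⟩ p]
      _ = ∫⁻ p in B, ∫⁻ t in Ioo (0 : ℝ) 1, F' (t, p) :=
          lintegral_lintegral_swap (f := fun t p => F' (t, p)) (by
            rw [hunc]
            exact hF'm.aemeasurable)
      _ = ∫⁻ p in B, ∫⁻ t in Ioo (0 : ℝ) 1, volume (fib G p \ fib (t • G) p) := by
          apply lintegral_congr
          intro p
          apply setLIntegral_congr_fun measurableSet_Ioo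
          intro t ht
          exact hF' t ⟨ht.1.le, ht.2.le⟩ p
  have hm1 : Measurable fun p => ENNReal.ofReal (1 / 2) * volume (fib G p) :=
    (measurable_volume_fib hGm).const_mul _
  rw [h2, volume_inter_cyl hGm hB, ← lintegral_const_mul _ (measurable_volume_fib hGm),
    ← lintegral_add_left hm1]
  have hpt : ∀ p, ENNReal.ofReal (1 / 2) * volume (fib G p)
      + ∫⁻ t in Ioo (0 : ℝ) 1, volume (fib G p \ fib (t • G) p)
      ≤ (Prod.fst '' G).indicator (fun _ => 3 * volume G / volume (Prod.fst '' G)) p := by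
    intro p
    by_cases hp : p ∈ Prod.fst '' G
    · rw [indicator_of_mem hp, ENNReal.le_div_iff_mul_le (Or.inl hD0) (Or.inl hDt)]
      exact sym_pointwise hG hGc hGsym p
    · rw [indicator_of_notMem hp, fib_empty_of_notMem hp]
      simp
  calc ∫⁻ p in B, (ENNReal.ofReal (1 / 2) * volume (fib G p)
        + ∫⁻ t in Ioo (0 : ℝ) 1, volume (fib G p \ fib (t • G) p))
      ≤ ∫⁻ p in B, (Prod.fst '' G).indicator
          (fun _ => 3 * volume G / volume (Prod.fst '' G)) p := lintegral_mono hpt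
    _ = 3 * volume G / volume (Prod.fst '' G) * volume (Prod.fst '' G ∩ B) := by
        rw [lintegral_indicator_const hDm, Measure.restrict_apply hDm]
    _ = 3 * volume G * (volume (B ∩ Prod.fst '' G) / volume (Prod.fst '' G)) := by
        rw [inter_comm, div_eq_mul_inv, div_eq_mul_inv]
        ring

end Vale.Agent.Helper11
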