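import Vale.Agent.Helper11.SymCore
import Vale.Agent.Helper11.ManyCyl

/-!
# Coverings of a centrally symmetric convex body by cylinders: the bound `5 / 12`

Every finite covering of a centrally symmetric convex body in a three-dimensional Euclidean space
by cylinders has directionwise relative area at least `5 / 12`.
-/

namespace Vale.Agent.Helper11

open Set MeasureTheory
open scoped InnerProductSpace Pointwise

theorem lintegral_one_sub_cube :
    ∫⁻ t in Ioo (0 : ℝ) 1, ENNReal.ofReal (1 - t ^ 3) = ENNReal.ofReal (3 / 4) := by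
  rw [restrict_Ioo_eq_restrict_Ioc]
  have hcont : Continuous fun t : ℝ => 1 - t ^ 3 := by fun_prop
  have hint : IntegrableOn (fun t : ℝ => 1 - t ^ 3) (Ioc 0 1) :=
    (hcont.integrableOn_Icc (a := 0) (b := 1)).mono_set Ioc_subset_Icc_self
  have hnn : 0 ≤ᵐ[volume.restrict (Ioc (0 : ℝ) 1)] fun t : ℝ => 1 - t ^ 3 := by
    filter_upwards [ae_restrict_mem measurableSet_Ioc] with t ht
    have h1 : t ^ 3 ≤ 1 := pow_le_one₀ ht.1.le ht.2
    show (0 : ℝ) ≤ 1 - t ^ 3
    linarith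
  rw [← ofReal_integral_eq_lintegral_ofReal hint hnn]
  congr 1
  rw [← intervalIntegral.integral_of_le zero_le_one]
  have hderiv : ∀ t ∈ Set.uIcc (0 : ℝ) 1,
      HasDerivAt (fun t : ℝ => t - t ^ 4 / 4) (1 - t ^ 3) t := by
    intro t _
    have h1 : HasDerivAt (fun t : ℝ => t ^ 4) (4 * t ^ 3) t := by
      simpa using hasDerivAt_pow 4 t
    have h3 := (hasDerivAt_id t).sub (h1.div_const 4)
    have e : 1 - 4 * t ^ 3 / 4 = 1 - t ^ 3 := by ring
    rw [e] at h3
    exact h3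
  rw [intervalIntegral.integral_eq_sub_of_hasDerivAt hderiv (hcont.intervalIntegrable _ _)]
  norm_num

section frames

variable {E : Type*} [NormedAddCommGroup E] [InnerProductSpace ℝ E] [FiniteDimensional ℝ E]
  [MeasurableSpace E] [BorelSpace E]

/-- The weighted cylinder bound for a cylinder given by an orthonormal frame of its base plane. -/
theorem sym_cyl_frame (hdim : Module.finrank ℝ E = 3) {K : Set E} (hK : Convex ℝ K)
    (hKc : IsCompact K) (hKi : (interior K).Nonempty) (hKsym : ∀ x ∈ K, -x ∈ K)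
    {v w : E} (hv : ‖v‖ = 1) (hw : ‖w‖ = 1) (hvw : ⟪v, w⟫_ℝ = 0)
    {B : Set (ℝ × ℝ)} (hB : MeasurableSet B) :
    ENNReal.ofReal (1 / 2) * volume (K ∩ (fun x : E => (⟪v, x⟫_ℝ, ⟪w, x⟫_ℝ)) ⁻¹' B)
      + ∫⁻ t in Ioo (0 : ℝ) 1,
          volume ((K ∩ (fun x : E => (⟪v, x⟫_ℝ, ⟪w, x⟫_ℝ)) ⁻¹' B) \ t • K)
      ≤ 3 * volume K * (volume (B ∩ (fun x : E => (⟪v, x⟫_ℝ, ⟪w, x⟫_ℝ)) '' K)
          / volume ((fun x : E => (⟪v, x⟫_ℝ, ⟪w, x⟫_ℝ)) '' K)) := by
  obtain ⟨u, e, hmp, hex⟩ := exists_frame_equiv hdim hv hw hvw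
  have hlin : IsLinearMap ℝ e := by
    constructor
    · intro x y
      rw [hex, hex, hex]
      simp [inner_add_right]
    · intro c x
      rw [hex, hex]
      simp [inner_smul_right]
  have hcont : Continuous e := by
    have he : (e : E → (ℝ × ℝ) × ℝ) = fun x => ((⟪v, x⟫_ℝ, ⟪w, x⟫_ℝ), ⟪u, x⟫_ℝ) := funext hex
    rw [he]
    fun_prop
  have hG : Convex ℝ (e '' K) := hK.is_linear_image hlin
  have hGc : IsCompact (e '' K) := hKc.image hcont
  have hGsym : ∀ x ∈ e '' K, -x ∈ e '' K := by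
    rintro _ ⟨x, hx, rfl⟩
    exact ⟨-x, hKsym x hx, hlin.map_neg x⟩
  have hfst : Prod.fst '' (e '' K) = (fun x : E => (⟪v, x⟫_ℝ, ⟪w, x⟫_ℝ)) '' K := by
    rw [image_image]
    exact image_congr (fun x _ => by rw [hex])
  have hvolK : volume (e '' K) = volume K := by
    rw [← hmp.measure_preimage_equiv, e.injective.preimage_image]
  have hpre : e ⁻¹' (Prod.fst ⁻¹' B) = (fun x : E => (⟪v, x⟫_ℝ, ⟪w, x⟫_ℝ)) ⁻¹' B := by
    ext x
    simp [hex]
  have hvolKC : volume (e '' K ∩ Prod.fst ⁻¹' B)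
      = volume (K ∩ (fun x : E => (⟪v, x⟫_ℝ, ⟪w, x⟫_ℝ)) ⁻¹' B) := by
    rw [← hmp.measure_preimage_equiv, preimage_inter, e.injective.preimage_image, hpre]
  have hsmul : ∀ t : ℝ, e ⁻¹' (t • (e '' K)) = t • K := by
    intro t
    ext y
    simp only [mem_preimage, mem_smul_set]
    constructor
    · rintro ⟨_, ⟨k, hk, rfl⟩, h⟩
      exact ⟨k, hk, e.injective (by rw [hlin.map_smul]; exact h)⟩
    · rintro ⟨k, hk, rfl⟩
      exact ⟨e k, ⟨k, hk, rfl⟩, (hlin.map_smul t k).symm⟩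
  have hvolD : ∀ t : ℝ, volume ((e '' K ∩ Prod.fst ⁻¹' B) \ t • (e '' K))
      = volume ((K ∩ (fun x : E => (⟪v, x⟫_ℝ, ⟪w, x⟫_ℝ)) ⁻¹' B) \ t • K) := by
    intro t
    rw [← hmp.measure_preimage_equiv, preimage_sdiff, preimage_inter, e.injective.preimage_image,
      hsmul, hpre]
  have hD0 : volume (Prod.fst '' (e '' K)) ≠ 0 := by
    rw [hfst]
    exact frame_volume_ne_zero hKi hv hw hvw
  have main := sym_cyl_bound hG hGc hGsym hD0 hB
  simp_rw [hvolD] at main
  rwa [hvolK, hvolKC, hfst] at main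

/-- Every finite covering of a centrally symmetric convex body in a three-dimensional Euclidean
space by cylinders has directionwise relative area at least `5 / 12`. -/
theorem sym_cylinders (hdim : Module.finrank ℝ E = 3) (K : Set E) (hK : Convex ℝ K)
    (hKc : IsCompact K) (hKi : (interior K).Nonempty) (hKsym : ∀ x ∈ K, -x ∈ K)
    {ι : Type*} [Fintype ι] (v w : ι → E) (B : ι → Set (ℝ × ℝ))
    (hv : ∀ i, ‖v i‖ = 1) (hw : ∀ i, ‖w i‖ = 1) (hvw : ∀ i, ⟪v i, w i⟫_ℝ = 0)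
    (hcov : ∀ x ∈ K, ∃ i, (⟪v i, x⟫_ℝ, ⟪w i, x⟫_ℝ) ∈ B i) :
    ENNReal.ofReal (5 / 12) ≤
      ∑ i, volume (B i) / volume ((fun x : E => (⟪v i, x⟫_ℝ, ⟪w i, x⟫_ℝ)) '' K) := by
  have hV0 : volume K ≠ 0 :=
    ((isOpen_interior.measure_pos volume hKi).trans_le (measure_mono interior_subset)).ne'
  have hVt : volume K ≠ ⊤ := hKc.measure_lt_top.ne
  have hKm : MeasurableSet K := hKc.isClosed.measurableSet
  -- measurable hulls of the bases
  obtain ⟨B', hB'⟩ : ∃ B' : ι → Set (ℝ × ℝ), B' = fun i => toMeasurable volume (B i) := ⟨_, rfl⟩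
  have hB'm : ∀ i, MeasurableSet (B' i) := fun i => by
    rw [hB']; exact measurableSet_toMeasurable _ _
  have hB'sub : ∀ i, B i ⊆ B' i := fun i => by
    rw [hB']; exact subset_toMeasurable _ _
  have hB'vol : ∀ i, volume (B' i) = volume (B i) := fun i => by
    rw [hB']; exact measure_toMeasurable _
  -- the pieces of the covering
  obtain ⟨A, hA⟩ : ∃ A : ι → Set E,
      A = fun i => K ∩ (fun x : E => (⟪v i, x⟫_ℝ, ⟪w i, x⟫_ℝ)) ⁻¹' B' i := ⟨_, rfl⟩
  have hcovK : K ⊆ ⋃ i, A i := by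
    intro x hx
    obtain ⟨i, hi⟩ := hcov x hx
    rw [hA]
    exact mem_iUnion.mpr ⟨i, hx, hB'sub i hi⟩
  have h0K : (0 : E) ∈ K := by
    obtain ⟨x₀, hx₀⟩ := hKi
    have hx₀K := interior_subset hx₀
    have h := hK hx₀K (hKsym _ hx₀K) (by norm_num : (0 : ℝ) ≤ 1 / 2)
      (by norm_num : (0 : ℝ) ≤ 1 / 2) (by norm_num)
    simpa using h
  -- the dilates of `K` increase
  have hdil : ∀ s s' : ℝ, 0 ≤ s → s ≤ s' → s • K ⊆ s' • K := by
    intro s s' hs hss' y hy
    obtain ⟨k, hk, rfl⟩ := mem_smul_set.mp hy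
    rcases hs.eq_or_lt with h0 | hpos
    · rw [← h0, zero_smul]
      exact mem_smul_set.mpr ⟨0, h0K, smul_zero _⟩
    · have hs'pos : 0 < s' := lt_of_lt_of_le hpos hss'
      refine mem_smul_set.mpr ⟨(s / s') • k, hK.smul_mem_of_zero_mem h0K hk
        ⟨by positivity, by rw [div_le_one hs'pos]; exact hss'⟩, ?_⟩
      rw [smul_smul]
      congr 1
      field_simp
  have hvolt : ∀ t ∈ Ioo (0 : ℝ) 1, volume (K \ t • K) = ENNReal.ofReal (1 - t ^ 3) * volume K := by
    intro t ht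
    have hsub : t • K ⊆ K := by
      have h := hdil t 1 ht.1.le ht.2.le
      rwa [one_smul] at h
    have ht3 : 0 ≤ t ^ 3 := pow_nonneg ht.1.le 3
    rw [measure_sdiff hsub (hKc.smul t).isClosed.measurableSet.nullMeasurableSet
      (ne_top_of_le_ne_top hVt (measure_mono hsub)), Measure.addHaar_smul, hdim,
      abs_of_nonneg ht3, ENNReal.ofReal_sub _ ht3, ENNReal.ofReal_one,
      ENNReal.sub_mul (fun _ _ => hVt), one_mul]
  have hmeasA : ∀ i, AEMeasurable (fun t : ℝ => volume (A i \ t • K))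
      (volume.restrict (Ioo (0 : ℝ) 1)) := by
    intro i
    have hanti : Antitone fun t : ℝ => volume (A i \ (max t 0) • K) := by
      intro t t' htt'
      apply measure_mono
      apply sdiff_subset_sdiff_right
      exact hdil _ _ (le_max_right _ _) (max_le_max_right 0 htt')
    refine ⟨_, hanti.measurable, ?_⟩
    filter_upwards [ae_restrict_mem measurableSet_Ioo] with t ht
    rw [max_eq_left ht.1.le]
  have hI : ∫⁻ t in Ioo (0 : ℝ) 1, volume (K \ t • K)
      ≤ ∑ i, ∫⁻ t in Ioo (0 : ℝ) 1, volume (A i \ t • K) := by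
    rw [← lintegral_finsetSum' _ (fun i _ => hmeasA i)]
    apply lintegral_mono
    intro t
    calc volume (K \ t • K) ≤ volume (⋃ i, A i \ t • K) := measure_mono (by
          intro x hx
          obtain ⟨i, hi⟩ := mem_iUnion.mp (hcovK hx.1)
          exact mem_iUnion.mpr ⟨i, hi, hx.2⟩)
      _ ≤ ∑ i, volume (A i \ t • K) := measure_iUnion_fintype_le volume _
  have hI0 : ∫⁻ t in Ioo (0 : ℝ) 1, volume (K \ t • K) = ENNReal.ofReal (3 / 4) * volume K := by
    rw [setLIntegral_congr_fun measurableSet_Ioo hvolt, lintegral_mul_const' _ _ hVt,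
      lintegral_one_sub_cube]
  have hvolsum : volume K ≤ ∑ i, volume (A i) :=
    (measure_mono hcovK).trans (measure_iUnion_fintype_le volume _)
  have hpiece : ∀ i, ENNReal.ofReal (1 / 2) * volume (A i)
      + ∫⁻ t in Ioo (0 : ℝ) 1, volume (A i \ t • K)
      ≤ 3 * volume K * (volume (B i)
          / volume ((fun x : E => (⟪v i, x⟫_ℝ, ⟪w i, x⟫_ℝ)) '' K)) := by
    intro i
    rw [hA]
    refine (sym_cyl_frame hdim hK hKc hKi hKsym (hv i) (hw i) (hvw i) (hB'm i)).trans ?_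
    refine mul_le_mul_right (ENNReal.div_le_div_right ?_ _) _
    rw [← hB'vol i]
    exact measure_mono inter_subset_left
  have hmain : ENNReal.ofReal (5 / 4) * volume K ≤ 3 * volume K
      * ∑ i, volume (B i) / volume ((fun x : E => (⟪v i, x⟫_ℝ, ⟪w i, x⟫_ℝ)) '' K) := by
    calc ENNReal.ofReal (5 / 4) * volume K
        = ENNReal.ofReal (1 / 2) * volume K + ENNReal.ofReal (3 / 4) * volume K := by
          rw [← add_mul, ← ENNReal.ofReal_add (by norm_num) (by norm_num)]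
          norm_num
      _ ≤ ENNReal.ofReal (1 / 2) * ∑ i, volume (A i)
          + ∑ i, ∫⁻ t in Ioo (0 : ℝ) 1, volume (A i \ t • K) := by
          rw [← hI0]
          gcongr
      _ = ∑ i, (ENNReal.ofReal (1 / 2) * volume (A i)
          + ∫⁻ t in Ioo (0 : ℝ) 1, volume (A i \ t • K)) := by
          rw [Finset.mul_sum, Finset.sum_add_distrib]
      _ ≤ ∑ i, 3 * volume K * (volume (B i)
          / volume ((fun x : E => (⟪v i, x⟫_ℝ, ⟪w i, x⟫_ℝ)) '' K)) :=
          Finset.sum_le_sum (fun i _ => hpiece i)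
      _ = 3 * volume K
          * ∑ i, volume (B i) / volume ((fun x : E => (⟪v i, x⟫_ℝ, ⟪w i, x⟫_ℝ)) '' K) := by
          rw [Finset.mul_sum]
  have h3V0 : 3 * volume K ≠ 0 := mul_ne_zero (by norm_num) hV0
  have h3Vt : 3 * volume K ≠ ⊤ := ENNReal.mul_ne_top (by norm_num) hVt
  have e : ENNReal.ofReal (5 / 4) * volume K = 3 * volume K * ENNReal.ofReal (5 / 12) := by
    have e1 : ENNReal.ofReal (5 / 4) = 3 * ENNReal.ofReal (5 / 12) := by
      rw [show (3 : ENNReal) = ENNReal.ofReal 3 by simp, ← ENNReal.ofReal_mul (by norm_num)]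
      norm_num
    rw [e1]
    ring
  rw [e] at hmain
  exact (ENNReal.mul_le_mul_iff_right h3V0 h3Vt).mp hmain

/-- The same bound for a convex body symmetric about an arbitrary centre `c`. -/
theorem sym_cylinders_center (hdim : Module.finrank ℝ E = 3) (K : Set E) (hK : Convex ℝ K)
    (hKc : IsCompact K) (hKi : (interior K).Nonempty) (c : E) (hKsym : ∀ x ∈ K, c + c - x ∈ K)
    {ι : Type*} [Fintype ι] (v w : ι → E) (B : ι → Set (ℝ × ℝ))
    (hv : ∀ i, ‖v i‖ = 1) (hw : ∀ i, ‖w i‖ = 1) (hvw : ∀ i, ⟪v i, w i⟫_ℝ = 0)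
    (hcov : ∀ x ∈ K, ∃ i, (⟪v i, x⟫_ℝ, ⟪w i, x⟫_ℝ) ∈ B i) :
    ENNReal.ofReal (5 / 12) ≤
      ∑ i, volume (B i) / volume ((fun x : E => (⟪v i, x⟫_ℝ, ⟪w i, x⟫_ℝ)) '' K) := by
  obtain ⟨K₀, hK₀⟩ : ∃ K₀ : Set E, K₀ = (fun x => x + c) ⁻¹' K := ⟨_, rfl⟩
  have hmem : ∀ x, x ∈ K₀ ↔ x + c ∈ K := fun x => by rw [hK₀]; rfl
  have hK₀conv : Convex ℝ K₀ := by
    rw [hK₀]
    exact hK.translate_preimage_left c
  have hK₀c : IsCompact K₀ := by
    have e : K₀ = (fun x => x - c) '' K := by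
      ext x
      rw [hmem]
      constructor
      · intro h
        exact ⟨x + c, h, by simp⟩
      · rintro ⟨y, hy, rfl⟩
        simpa using hy
    rw [e]
    exact hKc.image (by fun_prop)
  have hK₀i : (interior K₀).Nonempty := by
    obtain ⟨x₀, hx₀⟩ := hKi
    refine ⟨x₀ - c, ?_⟩
    rw [hK₀]
    have hcont : Continuous fun x : E => x + c := by fun_prop
    apply preimage_interior_subset_interior_preimage hcont
    show x₀ - c + c ∈ interior K
    simpa using hx₀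
  have hK₀sym : ∀ x ∈ K₀, -x ∈ K₀ := by
    intro x hx
    rw [hmem] at hx ⊢
    have h := hKsym _ hx
    have e : c + c - (x + c) = -x + c := by abel
    rwa [e] at h
  have main := sym_cylinders hdim K₀ hK₀conv hK₀c hK₀i hK₀sym v w
    (fun i => (fun q : ℝ × ℝ => q + (⟪v i, c⟫_ℝ, ⟪w i, c⟫_ℝ)) ⁻¹' B i) hv hw hvw (by
      intro x hx
      obtain ⟨i, hi⟩ := hcov _ ((hmem x).mp hx)
      refine ⟨i, ?_⟩
      show (⟪v i, x⟫_ℝ, ⟪w i, x⟫_ℝ) + (⟪v i, c⟫_ℝ, ⟪w i, c⟫_ℝ) ∈ B i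
      simpa [inner_add_right] using hi)
  have e1 : ∀ i, volume ((fun q : ℝ × ℝ => q + (⟪v i, c⟫_ℝ, ⟪w i, c⟫_ℝ)) ⁻¹' B i)
      = volume (B i) := fun i => measure_preimage_add_right _ _ _
  have e2 : ∀ i, volume ((fun x : E => (⟪v i, x⟫_ℝ, ⟪w i, x⟫_ℝ)) '' K₀)
      = volume ((fun x : E => (⟪v i, x⟫_ℝ, ⟪w i, x⟫_ℝ)) '' K) := by
    intro i
    have e : (fun x : E => (⟪v i, x⟫_ℝ, ⟪w i, x⟫_ℝ)) '' K₀
        = (fun q : ℝ × ℝ => q + (⟪v i, c⟫_ℝ, ⟪w i, c⟫_ℝ)) ⁻¹'
          ((fun x : E => (⟪v i, x⟫_ℝ, ⟪w i, x⟫_ℝ)) '' K) := by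
      ext q
      constructor
      · rintro ⟨x, hx, rfl⟩
        exact ⟨x + c, (hmem x).mp hx, by simp [inner_add_right]⟩
      · rintro ⟨y, hy, hyq⟩
        refine ⟨y - c, (hmem _).mpr (by simpa using hy), ?_⟩
        have h1 := congrArg Prod.fst hyq
        have h2 := congrArg Prod.snd hyq
        simp only [Prod.fst_add, Prod.snd_add] at h1 h2
        ext
        · simp only [inner_sub_right]; linarith
        · simp only [inner_sub_right]; linarith
    rw [e, measure_preimage_add_right]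
  simp_rw [e1, e2] at main
  exact main

end frames

/-- From a directionwise inequality to an absolute one: if `A` is at most every `D i`, then
`c * A` is at most the sum of the `b i`. -/
theorem abs_form {ι : Type*} [Fintype ι] (b D : ι → ENNReal) (c A : ENNReal)
    (h : c ≤ ∑ i, b i / D i) (hA : ∀ i, A ≤ D i) :
    c * A ≤ ∑ i, b i := by
  have h1 : c ≤ (∑ i, b i) / A := by
    calc c ≤ ∑ i, b i / D i := h
      _ ≤ ∑ i, b i / A := Finset.sum_le_sum (fun i _ => ENNReal.div_le_div_left (hA i) _)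
      _ = (∑ i, b i) / A := by
          simp_rw [div_eq_mul_inv]
          rw [Finset.sum_mul]
  calc c * A = A * c := mul_comm _ _
    _ ≤ A * ((∑ i, b i) / A) := by gcongr
    _ ≤ ∑ i, b i := ENNReal.mul_div_le

end Vale.Agent.Helper11
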