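import Vale.Agent.Helper11.CoplanarRel
import Vale.Agent.Helper11.BallPlank

/-!
# Cylinders with coplanar axes: bodies with centrally symmetric sections

Coordinate form.  The axes of the cylinders are parallel to the plane of the first two
coordinates, and every section of the body `K` by a plane `x.2.2 = z` is centrally symmetric.
On each such section the cylinders induce strips; the plank theorem for centrally symmetric
planar convex bodies bounds the sum of their relative widths from below by `1`, and the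
concavity of the section lengths of the projections of `K` turns this into a lower bound for
the sum of the relative base areas.
-/

namespace Vale.Agent.Helper11

open Set MeasureTheory

section symsec

variable {K : Set (ℝ × ℝ × ℝ)}

theorem mem_sec_prj {α β z : ℝ} {q : ℝ × ℝ} (hq : q ∈ slice K z) :
    α * q.1 + β * q.2 ∈ sec (prj α β '' K) z :=
  ⟨(q.1, q.2, z), hq, rfl⟩

theorem interior_box {o : ℝ × ℝ × ℝ} (ho : o ∈ interior K) :
    ∃ r : ℝ, 0 < r ∧ ∀ s t u : ℝ, |s| ≤ r → |t| ≤ r → |u| ≤ r →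
      (o.1 + s, o.2.1 + t, o.2.2 + u) ∈ K := by
  obtain ⟨ε, hε, hball⟩ := Metric.mem_nhds_iff.mp (mem_interior_iff_mem_nhds.mp ho)
  refine ⟨ε / 2, by linarith, ?_⟩
  intro s t u hs ht hu
  apply hball
  rw [Metric.mem_ball, Prod.dist_eq, Prod.dist_eq, Real.dist_eq, Real.dist_eq, Real.dist_eq]
  simp only [add_sub_cancel_left]
  rw [max_lt_iff, max_lt_iff]
  exact ⟨by linarith, by linarith, by linarith⟩

/-- Every height strictly inside the height range of a convex body is the height of an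
interior point. -/
theorem exists_interior_height (hK : Convex ℝ K) (hKi : (interior K).Nonempty) {z0 z1 : ℝ}
    (hZ : (fun x : ℝ × ℝ × ℝ => x.2.2) '' K = Icc z0 z1) {z : ℝ} (hz : z ∈ Ioo z0 z1) :
    ∃ x ∈ interior K, x.2.2 = z := by
  obtain ⟨o, ho⟩ := hKi
  have h01 : z0 ≤ z1 := hz.1.le.trans hz.2.le
  obtain ⟨t, ht, htz⟩ : ∃ t ∈ K, t.2.2 = z1 := by
    have : z1 ∈ (fun x : ℝ × ℝ × ℝ => x.2.2) '' K := by rw [hZ]; exact right_mem_Icc.mpr h01
    exact this
  obtain ⟨bt, hbt, hbtz⟩ : ∃ t ∈ K, t.2.2 = z0 := by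
    have : z0 ∈ (fun x : ℝ × ℝ × ℝ => x.2.2) '' K := by rw [hZ]; exact left_mem_Icc.mpr h01
    exact this
  rcases le_total o.2.2 z with hoz | hoz
  · have hd : 0 < z1 - o.2.2 := by linarith [hz.2]
    obtain ⟨τ, hτ⟩ : ∃ τ : ℝ, τ = (z1 - z) / (z1 - o.2.2) := ⟨_, rfl⟩
    have hτI : τ ∈ Ioc (0 : ℝ) 1 := by
      rw [hτ]
      constructor
      · exact div_pos (by linarith [hz.2]) hd
      · rw [div_le_one hd]; linarith
    refine ⟨t + τ • (o - t), hK.add_smul_sub_mem_interior ht ho hτI, ?_⟩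
    simp only [Prod.snd_add, Prod.smul_snd, Prod.snd_sub, smul_eq_mul]
    rw [htz, hτ]
    field_simp
    ring
  · have hd : 0 < o.2.2 - z0 := by linarith [hz.1]
    obtain ⟨τ, hτ⟩ : ∃ τ : ℝ, τ = (z - z0) / (o.2.2 - z0) := ⟨_, rfl⟩
    have hτI : τ ∈ Ioc (0 : ℝ) 1 := by
      rw [hτ]
      constructor
      · exact div_pos (by linarith [hz.1]) hd
      · rw [div_le_one hd]; linarith
    refine ⟨bt + τ • (o - bt), hK.add_smul_sub_mem_interior hbt ho hτI, ?_⟩
    simp only [Prod.snd_add, Prod.smul_snd, Prod.snd_sub, smul_eq_mul]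
    rw [hbtz, hτ]
    field_simp
    ring

/-- The width data of a centrally symmetric slice in a given direction. -/
theorem symsec_width (hK : Convex ℝ K) (hKc : IsCompact K) {z p0 q0 r : ℝ} (hr : 0 < r)
    (hsymL : ∀ x ∈ slice K z, (2 * p0 - x.1, 2 * q0 - x.2) ∈ slice K z)
    (hr1 : (p0 + r, q0) ∈ slice K z) (hr2 : (p0, q0 + r) ∈ slice K z)
    {α β : ℝ} (hαβ : α ≠ 0 ∨ β ≠ 0) :
    ∃ H : ℝ, 0 < H ∧ (∃ X Y : ℝ, (p0 + X, q0 + Y) ∈ slice K z ∧ α * X + β * Y = H) ∧
      volume (sec (prj α β '' K) z) = ENNReal.ofReal (2 * H) := by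
  have hPc : IsCompact (prj α β '' K) := hKc.image (continuous_prj α β)
  have hPconv : Convex ℝ (prj α β '' K) := hK.is_linear_image (isLinearMap_prj α β)
  have hne : (sec (prj α β '' K) z).Nonempty := ⟨_, mem_sec_prj hr1⟩
  obtain ⟨u, v, huv, hsec⟩ := exists_Icc_aux (isCompact_sec hPc z)
    (ordConnected_sec hPconv z).convex hne
  have hu : u ∈ sec (prj α β '' K) z := by rw [hsec]; exact left_mem_Icc.mpr huv
  have hv : v ∈ sec (prj α β '' K) z := by rw [hsec]; exact right_mem_Icc.mpr huv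
  obtain ⟨x, hx, hxu⟩ := hu
  obtain ⟨y, hy, hyv⟩ := hv
  have hx1 : α * x.1 + β * x.2.1 = u := congrArg Prod.fst hxu
  have hx2 : x.2.2 = z := congrArg Prod.snd hxu
  have hy1 : α * y.1 + β * y.2.1 = v := congrArg Prod.fst hyv
  have hy2 : y.2.2 = z := congrArg Prod.snd hyv
  have hxs : (x.1, x.2.1) ∈ slice K z := by
    show (x.1, x.2.1, z) ∈ K
    rw [← hx2]; exact hx
  have hys : (y.1, y.2.1) ∈ slice K z := by
    show (y.1, y.2.1, z) ∈ K
    rw [← hy2]; exact hy
  have hb : ∀ q ∈ slice K z, u ≤ α * q.1 + β * q.2 ∧ α * q.1 + β * q.2 ≤ v := by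
    intro q hq
    have h := mem_sec_prj (α := α) (β := β) hq
    rw [hsec] at h
    exact h
  have h1 := hb _ (hsymL _ hxs)
  have h2 := hb _ (hsymL _ hys)
  have h3 := hb _ hr1
  have h4 := hb _ (hsymL _ hr1)
  have h5 := hb _ hr2
  have h6 := hb _ (hsymL _ hr2)
  simp only at h1 h2 h3 h4 h5 h6
  have hμ : 2 * (α * p0 + β * q0) = u + v := by linarith [h1.2, h2.1]
  have hpos : 0 < v - u := by
    rcases hαβ with h | h
    · rcases lt_or_gt_of_ne h with hneg | hpos'
      · have := mul_pos (neg_pos.mpr hneg) hr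
        linarith [h3.1, h4.2]
      · have := mul_pos hpos' hr
        linarith [h3.2, h4.1]
    · rcases lt_or_gt_of_ne h with hneg | hpos'
      · have := mul_pos (neg_pos.mpr hneg) hr
        linarith [h5.1, h6.2]
      · have := mul_pos hpos' hr
        linarith [h5.2, h6.1]
  refine ⟨(v - u) / 2, by linarith, ⟨y.1 - p0, y.2.1 - q0, ?_, ?_⟩, ?_⟩
  · have e : ((p0 + (y.1 - p0), q0 + (y.2.1 - q0)) : ℝ × ℝ) = (y.1, y.2.1) := by
      ext <;> simp
    rw [e]; exact hys
  · linarith
  · rw [hsec, Real.volume_Icc]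
    congr 1
    ring

/-- The slice inequality: on a centrally symmetric slice through an interior point, the
relative lengths of the traces of the cylinder bases add up to at least `1`. -/
theorem symsec_slice {ι : Type*} [Fintype ι] (hK : Convex ℝ K) (hKc : IsCompact K)
    (a b : ι → ℝ) (hab : ∀ i, a i ≠ 0 ∨ b i ≠ 0) (T : ι → Set ℝ) {z : ℝ}
    (hint : ∃ x ∈ interior K, x.2.2 = z)
    (hsym : ∃ c : ℝ × ℝ, ∀ x ∈ K, x.2.2 = z → (2 * c.1 - x.1, 2 * c.2 - x.2.1, z) ∈ K)
    (hcov : ∀ x ∈ K, x.2.2 = z → ∃ i, a i * x.1 + b i * x.2.1 ∈ T i) :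
    1 ≤ ∑ i, volume (T i) / volume (sec (prj (a i) (b i) '' K) z) := by
  obtain ⟨c, hc⟩ := hsym
  have hsymL : ∀ x ∈ slice K z, (2 * c.1 - x.1, 2 * c.2 - x.2) ∈ slice K z := by
    intro x hx
    exact hc (x.1, x.2, z) hx rfl
  obtain ⟨o, ho, hoz⟩ := hint
  obtain ⟨r, hr0, hbox⟩ := interior_box ho
  have hmemK : ∀ s t : ℝ, |s| ≤ r → |t| ≤ r → (o.1 + s, o.2.1 + t) ∈ slice K z := by
    intro s t hs ht
    have h := hbox s t 0 hs ht (by rw [abs_zero]; exact hr0.le)
    rw [add_zero, hoz] at h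
    exact h
  have hconv := convex_slice hK z
  have habs : |r| ≤ r := by rw [abs_of_pos hr0]
  have habs' : |(-r)| ≤ r := by rw [abs_neg, abs_of_pos hr0]
  have habs0 : |(0 : ℝ)| ≤ r := by rw [abs_zero]; exact hr0.le
  have hr1 : (c.1 + r, c.2) ∈ slice K z := by
    have hA := hmemK r 0 habs habs0
    have hB := hsymL _ (hmemK (-r) 0 habs' habs0)
    have h := hconv hA hB (by norm_num : (0 : ℝ) ≤ 1 / 2) (by norm_num : (0 : ℝ) ≤ 1 / 2)
      (by norm_num)
    convert h using 1
    ext
    · simp only [Prod.fst_add, Prod.smul_fst, smul_eq_mul]; ring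
    · simp only [Prod.snd_add, Prod.smul_snd, smul_eq_mul]; ring
  have hr2 : (c.1, c.2 + r) ∈ slice K z := by
    have hA := hmemK 0 r habs0 habs
    have hB := hsymL _ (hmemK 0 (-r) habs0 habs')
    have h := hconv hA hB (by norm_num : (0 : ℝ) ≤ 1 / 2) (by norm_num : (0 : ℝ) ≤ 1 / 2)
      (by norm_num)
    convert h using 1
    ext
    · simp only [Prod.fst_add, Prod.smul_fst, smul_eq_mul]; ring
    · simp only [Prod.snd_add, Prod.smul_snd, smul_eq_mul]; ring
  have hw : ∀ i, ∃ H : ℝ, 0 < H ∧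
      (∃ X Y : ℝ, (c.1 + X, c.2 + Y) ∈ slice K z ∧ a i * X + b i * Y = H) ∧
      volume (sec (prj (a i) (b i) '' K) z) = ENNReal.ofReal (2 * H) :=
    fun i => symsec_width hK hKc hr0 hsymL hr1 hr2 (hab i)
  choose H hH hHat hvol using hw
  have main := sym_plank_measure (slice K z) (isCompact_slice hKc z) hconv hr0 hsymL hr1 hr2
    a b H T hH hHat (fun x hx => hcov (x.1, x.2, z) hx rfl)
  rw [Finset.sum_congr rfl (fun i _ => by rw [hvol i])]
  exact main

/-- Integration of the slice inequality against a weight `τ` which bounds the section lengths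
of the projections from below. -/
theorem symsec_integrate {ι : Type*} [Fintype ι] (hK : Convex ℝ K) (hKc : IsCompact K)
    (hKi : (interior K).Nonempty)
    (hsec : ∀ z : ℝ, ∃ c : ℝ × ℝ, ∀ x ∈ K, x.2.2 = z →
      (2 * c.1 - x.1, 2 * c.2 - x.2.1, z) ∈ K)
    (a b : ι → ℝ) (hab : ∀ i, a i ≠ 0 ∨ b i ≠ 0)
    (S : ι → Set (ℝ × ℝ)) (hS : ∀ i, MeasurableSet (S i))
    (hcov : ∀ x ∈ K, ∃ i, prj (a i) (b i) x ∈ S i) (τ : ℝ → ℝ)
    (hτ : ∀ z, (∃ x ∈ interior K, x.2.2 = z) → ∀ i,
      τ z * (volume (prj (a i) (b i) '' K)).toReal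
        ≤ (volume (sec (prj (a i) (b i) '' K) z)).toReal)
    (hτ0 : ∀ z, (¬ ∃ x ∈ interior K, x.2.2 = z) → τ z ≤ 0) :
    ∫⁻ z, ENNReal.ofReal (τ z) ≤ ∑ i, volume (S i) / volume (prj (a i) (b i) '' K) := by
  have hPc : ∀ i, IsCompact (prj (a i) (b i) '' K) := fun i => hKc.image (continuous_prj _ _)
  have hC0 : ∀ i, volume (prj (a i) (b i) '' K) ≠ 0 :=
    fun i => (volume_prj_pos hKi (hab i)).ne'
  have hCt : ∀ i, volume (prj (a i) (b i) '' K) ≠ ⊤ := fun i => (hPc i).measure_lt_top.ne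
  have hslice : ∀ z, ENNReal.ofReal (τ z)
      ≤ ∑ i, volume (sec (S i) z) / volume (prj (a i) (b i) '' K) := by
    intro z
    by_cases hz : ∃ x ∈ interior K, x.2.2 = z
    · have h1 := symsec_slice hK hKc a b hab (fun i => sec (S i) z) hz (hsec z)
        (fun x hx hxz => by
          obtain ⟨i, hi⟩ := hcov x hx
          refine ⟨i, ?_⟩
          show (a i * x.1 + b i * x.2.1, z) ∈ S i
          rw [← hxz]; exact hi)
      rcases le_or_gt (τ z) 0 with hneg | hpos
      · rw [ENNReal.ofReal_of_nonpos hneg]; exact zero_le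
      · have hterm : ∀ i, ENNReal.ofReal (τ z)
            * (volume (sec (S i) z) / volume (sec (prj (a i) (b i) '' K) z))
            ≤ volume (sec (S i) z) / volume (prj (a i) (b i) '' K) := by
          intro i
          have h2 : ENNReal.ofReal (τ z) * volume (prj (a i) (b i) '' K)
              ≤ volume (sec (prj (a i) (b i) '' K) z) := by
            have h3 := hτ z hz i
            calc ENNReal.ofReal (τ z) * volume (prj (a i) (b i) '' K)
                = ENNReal.ofReal (τ z)
                  * ENNReal.ofReal (volume (prj (a i) (b i) '' K)).toReal := by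
                  rw [ENNReal.ofReal_toReal (hCt i)]
              _ = ENNReal.ofReal (τ z * (volume (prj (a i) (b i) '' K)).toReal) :=
                  (ENNReal.ofReal_mul hpos.le).symm
              _ ≤ ENNReal.ofReal (volume (sec (prj (a i) (b i) '' K) z)).toReal :=
                  ENNReal.ofReal_le_ofReal h3
              _ = volume (sec (prj (a i) (b i) '' K) z) :=
                  ENNReal.ofReal_toReal (volume_sec_ne_top (hPc i) z)
          rw [ENNReal.le_div_iff_mul_le (Or.inl (hC0 i)) (Or.inl (hCt i))]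
          calc ENNReal.ofReal (τ z)
                * (volume (sec (S i) z) / volume (sec (prj (a i) (b i) '' K) z))
                * volume (prj (a i) (b i) '' K)
              = (ENNReal.ofReal (τ z) * volume (prj (a i) (b i) '' K))
                * (volume (sec (S i) z) / volume (sec (prj (a i) (b i) '' K) z)) := by ring
            _ ≤ volume (sec (prj (a i) (b i) '' K) z)
                * (volume (sec (S i) z) / volume (sec (prj (a i) (b i) '' K) z)) := by
                gcongr
            _ ≤ volume (sec (S i) z) := ENNReal.mul_div_le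
        calc ENNReal.ofReal (τ z) = ENNReal.ofReal (τ z) * 1 := (mul_one _).symm
          _ ≤ ENNReal.ofReal (τ z)
              * ∑ i, volume (sec (S i) z) / volume (sec (prj (a i) (b i) '' K) z) := by
              gcongr
          _ = ∑ i, ENNReal.ofReal (τ z)
              * (volume (sec (S i) z) / volume (sec (prj (a i) (b i) '' K) z)) :=
              Finset.mul_sum _ _ _
          _ ≤ ∑ i, volume (sec (S i) z) / volume (prj (a i) (b i) '' K) :=
              Finset.sum_le_sum (fun i _ => hterm i)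
    · rw [ENNReal.ofReal_of_nonpos (hτ0 z hz)]; exact zero_le
  have hint : ∑ i, volume (S i) / volume (prj (a i) (b i) '' K)
      = ∫⁻ z, ∑ i, volume (sec (S i) z) / volume (prj (a i) (b i) '' K) := by
    rw [lintegral_finsetSum _ (fun i _ => (measurable_volume_sec (hS i)).div_const _)]
    apply Finset.sum_congr rfl
    intro i _
    rw [volume_eq_lintegral_sec (hS i)]
    simp_rw [div_eq_mul_inv]
    rw [lintegral_mul_const _ (measurable_volume_sec (hS i))]
  rw [hint]
  exact lintegral_mono hslice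

theorem tent_zero_left {u v z : ℝ} (h : z ≤ u) : tent u v z = 0 := by
  unfold tent
  exact max_eq_right ((min_le_left _ _).trans (by linarith))

theorem tent_zero_right {u v z : ℝ} (h : v ≤ z) : tent u v z = 0 := by
  unfold tent
  exact max_eq_right ((min_le_right _ _).trans (by linarith))

theorem lintegral_three_tents (k z0 z1 : ℝ) (hk0 : 0 ≤ k) (h01 : z0 ≤ z1) :
    ENNReal.ofReal (3 * k * (z1 - z0) ^ 2 / 8)
      ≤ ∫⁻ z, ENNReal.ofReal (k * tent z0 z1 z + k * tent z0 ((z0 + z1) / 2) z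
        + k * tent ((z0 + z1) / 2) z1 z) := by
  obtain ⟨cm, hcm⟩ : ∃ cm : ℝ, cm = (z0 + z1) / 2 := ⟨_, rfl⟩
  rw [← hcm]
  have hcm0 : z0 ≤ cm := by rw [hcm]; linarith
  have hcm1 : cm ≤ z1 := by rw [hcm]; linarith
  have hT : ∀ u v : ℝ, Measurable (fun z : ℝ => ENNReal.ofReal (k * tent u v z)) :=
    fun u v => (continuous_const.mul (continuous_tent u v)).measurable.ennreal_ofReal
  have hnn : ∀ u v z : ℝ, 0 ≤ k * tent u v z :=
    fun u v z => mul_nonneg hk0 (tent_nonneg u v z)
  have e : ∀ z : ℝ, ENNReal.ofReal (k * tent z0 z1 z + k * tent z0 cm z + k * tent cm z1 z)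
      = ENNReal.ofReal (k * tent z0 z1 z) + ENNReal.ofReal (k * tent z0 cm z)
        + ENNReal.ofReal (k * tent cm z1 z) := by
    intro z
    rw [ENNReal.ofReal_add (add_nonneg (hnn _ _ _) (hnn _ _ _)) (hnn _ _ _),
      ENNReal.ofReal_add (hnn _ _ _) (hnn _ _ _)]
  simp_rw [e]
  have hm12 : Measurable (fun z : ℝ => ENNReal.ofReal (k * tent z0 z1 z)
      + ENNReal.ofReal (k * tent z0 cm z)) := (hT z0 z1).add (hT z0 cm)
  rw [lintegral_add_left hm12, lintegral_add_left (hT z0 z1)]
  have h1 := lintegral_tent_ge k z0 z1 hk0 h01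
  have h2 := lintegral_tent_ge k z0 cm hk0 hcm0
  have h3 := lintegral_tent_ge k cm z1 hk0 hcm1
  refine le_trans (le_of_eq ?_) (add_le_add (add_le_add h1 h2) h3)
  have n1 : 0 ≤ k * ((z1 - z0) / 2) * ((z1 - z0) / 2) :=
    mul_nonneg (mul_nonneg hk0 (by linarith)) (by linarith)
  have n2 : 0 ≤ k * ((cm - z0) / 2) * ((cm - z0) / 2) :=
    mul_nonneg (mul_nonneg hk0 (by linarith)) (by linarith)
  have n3 : 0 ≤ k * ((z1 - cm) / 2) * ((z1 - cm) / 2) :=
    mul_nonneg (mul_nonneg hk0 (by linarith)) (by linarith)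
  rw [← ENNReal.ofReal_add n1 n2, ← ENNReal.ofReal_add (add_nonneg n1 n2) n3]
  congr 1
  rw [hcm]
  ring

/-- **Coordinate form: centrally symmetric sections.**  The axes are parallel to the plane of
the first two coordinates and every section of `K` by a plane `x.2.2 = z` is centrally
symmetric.  Then the relative base areas add up to at least `1 / 2`, and to at least `3 / 4`
if `K` itself is centrally symmetric. -/
theorem symsec_core {ι : Type*} [Fintype ι] (K : Set (ℝ × ℝ × ℝ)) (hK : Convex ℝ K)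
    (hKc : IsCompact K) (hKi : (interior K).Nonempty)
    (hsec : ∀ z : ℝ, ∃ c : ℝ × ℝ, ∀ x ∈ K, x.2.2 = z →
      (2 * c.1 - x.1, 2 * c.2 - x.2.1, z) ∈ K)
    (a b : ι → ℝ) (hab : ∀ i, a i ≠ 0 ∨ b i ≠ 0)
    (S : ι → Set (ℝ × ℝ)) (hS : ∀ i, MeasurableSet (S i))
    (hcov : ∀ x ∈ K, ∃ i, prj (a i) (b i) x ∈ S i) :
    1 / 2 ≤ ∑ i, volume (S i) / volume (prj (a i) (b i) '' K) ∧
    ((∃ c : ℝ × ℝ × ℝ, ∀ x ∈ K, (2 * c.1 - x.1, 2 * c.2.1 - x.2.1, 2 * c.2.2 - x.2.2) ∈ K) →
      3 / 4 ≤ ∑ i, volume (S i) / volume (prj (a i) (b i) '' K)) := by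
  have hKne : K.Nonempty := hKi.mono interior_subset
  have hZc : IsCompact ((fun x : ℝ × ℝ × ℝ => x.2.2) '' K) := hKc.image (by fun_prop)
  have hZconv : Convex ℝ ((fun x : ℝ × ℝ × ℝ => x.2.2) '' K) := by
    apply hK.is_linear_image
    constructor
    · intro x y; simp
    · intro c x; simp
  obtain ⟨z0, z1, h01, hZ⟩ := exists_Icc_aux hZc hZconv (hKne.image _)
  have hproj : ∀ α β : ℝ, IsCompact (prj α β '' K) ∧ Convex ℝ (prj α β '' K) ∧
      Prod.snd '' (prj α β '' K) = Icc z0 z1 := by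
    intro α β
    refine ⟨hKc.image (continuous_prj α β), hK.is_linear_image (isLinearMap_prj α β), ?_⟩
    rw [image_image, ← hZ]
    rfl
  have h01' : z0 < z1 := by
    obtain ⟨o, ho⟩ := hKi
    obtain ⟨r, hr0, hbox⟩ := interior_box ho
    have habs0 : |(0 : ℝ)| ≤ r := by rw [abs_zero]; exact hr0.le
    have h1 : o.2.2 + r ∈ (fun x : ℝ × ℝ × ℝ => x.2.2) '' K :=
      ⟨_, hbox 0 0 r habs0 habs0 (by rw [abs_of_pos hr0]), rfl⟩
    have h2 : o.2.2 + (-r) ∈ (fun x : ℝ × ℝ × ℝ => x.2.2) '' K :=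
      ⟨_, hbox 0 0 (-r) habs0 habs0 (by rw [abs_neg, abs_of_pos hr0]), rfl⟩
    rw [hZ] at h1 h2
    linarith [h1.2, h2.1]
  have hΔ : 0 < z1 - z0 := by linarith
  obtain ⟨k, hk⟩ : ∃ k : ℝ, k = 2 / (z1 - z0) ^ 2 := ⟨_, rfl⟩
  have hk0 : 0 ≤ k := by rw [hk]; positivity
  have hmemI : ∀ z, (∃ x ∈ interior K, x.2.2 = z) → z ∈ Icc z0 z1 := by
    rintro z ⟨x, hx, hxz⟩
    rw [← hZ]
    exact ⟨x, interior_subset hx, hxz⟩
  have hout : ∀ z, (¬ ∃ x ∈ interior K, x.2.2 = z) → z ≤ z0 ∨ z1 ≤ z := by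
    intro z hz
    by_contra hcon
    push Not at hcon
    exact hz (exists_interior_height hK hKi hZ ⟨hcon.1, hcon.2⟩)
  constructor
  · have h := symsec_integrate hK hKc hKi hsec a b hab S hS hcov (fun z => k * tent z0 z1 z)
      (by
        intro z hz i
        obtain ⟨hPc, hPconv, hPZ⟩ := hproj (a i) (b i)
        have hzI := hmemI z hz
        have h1 := sec_ge_of_area hPc hPconv h01' hPZ hzI
        rw [tent_of_mem hzI, hk]
        refine le_trans (le_of_eq ?_) h1
        ring)
      (by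
        intro z hz
        rcases hout z hz with h | h
        · rw [tent_zero_left h, mul_zero]
        · rw [tent_zero_right h, mul_zero])
    refine le_trans ?_ h
    refine le_trans (le_of_eq ?_) (lintegral_tent_ge k z0 z1 hk0 h01)
    have e : k * ((z1 - z0) / 2) * ((z1 - z0) / 2) = 1 / 2 := by
      rw [hk]; field_simp
    rw [e, ENNReal.ofReal_div_of_pos (by norm_num), ENNReal.ofReal_one, ENNReal.ofReal_ofNat]
  · rintro ⟨c, hc⟩
    have hcz : z0 + z1 = 2 * c.2.2 := by
      have hz0 : z0 ∈ (fun x : ℝ × ℝ × ℝ => x.2.2) '' K := by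
        rw [hZ]; exact left_mem_Icc.mpr h01
      have hz1 : z1 ∈ (fun x : ℝ × ℝ × ℝ => x.2.2) '' K := by
        rw [hZ]; exact right_mem_Icc.mpr h01
      obtain ⟨x, hx, hxz⟩ := hz0
      obtain ⟨y, hy, hyz⟩ := hz1
      have h1 : 2 * c.2.2 - x.2.2 ∈ (fun x : ℝ × ℝ × ℝ => x.2.2) '' K := ⟨_, hc x hx, rfl⟩
      have h2 : 2 * c.2.2 - y.2.2 ∈ (fun x : ℝ × ℝ × ℝ => x.2.2) '' K := ⟨_, hc y hy, rfl⟩
      rw [hZ] at h1 h2
      simp only at hxz hyz
      rw [hxz] at h1
      rw [hyz] at h2
      linarith [h1.2, h2.1]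
    obtain ⟨cm, hcm⟩ : ∃ cm : ℝ, cm = (z0 + z1) / 2 := ⟨_, rfl⟩
    have hcm0 : z0 ≤ cm := by rw [hcm]; linarith
    have hcm1 : cm ≤ z1 := by rw [hcm]; linarith
    have h := symsec_integrate hK hKc hKi hsec a b hab S hS hcov
      (fun z => k * tent z0 z1 z + k * tent z0 cm z + k * tent cm z1 z)
      (by
        intro z hz i
        obtain ⟨hPc, hPconv, hPZ⟩ := hproj (a i) (b i)
        have hzI := hmemI z hz
        have hPsym : ∀ y ∈ prj (a i) (b i) '' K,
            (2 * (a i * c.1 + b i * c.2.1) - y.1, z0 + z1 - y.2) ∈ prj (a i) (b i) '' K := by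
          rintro _ ⟨x, hx, rfl⟩
          refine ⟨_, hc x hx, ?_⟩
          unfold prj
          simp only
          rw [hcz]
          ext
          · simp only; ring
          · simp only
        obtain ⟨m, hm⟩ : ∃ m : ℝ,
            m = (tent z0 z1 z + tent z0 cm z + tent cm z1 z) / 2 := ⟨_, rfl⟩
        have hm0 : 0 ≤ m := by
          rw [hm]
          have := tent_nonneg z0 z1 z
          have := tent_nonneg z0 cm z
          have := tent_nonneg cm z1 z
          linarith
        have hz0' := hzI.1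
        have hz1' := hzI.2
        have hm1 : m ≤ z - z0 := by
          rw [hm]
          unfold tent
          simp only [min_def, max_def]
          split_ifs <;> linarith
        have hm2 : m ≤ z1 - z := by
          rw [hm]
          unfold tent
          simp only [min_def, max_def]
          split_ifs <;> linarith
        have hm3 : m ≤ (z1 - z0) / 4 := by
          rw [hm]
          unfold tent
          simp only [min_def, max_def]
          split_ifs <;> linarith
        have h1 := sec_ge_of_area_sym hPc hPconv h01' hPZ (a i * c.1 + b i * c.2.1) hPsym hm0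
          hm1 hm2 hm3
        refine le_trans (le_of_eq ?_) h1
        rw [hm, hk]
        field_simp
        ring)
      (by
        intro z hz
        rcases hout z hz with h | h
        · rw [tent_zero_left h, tent_zero_left h, tent_zero_left (h.trans hcm0)]
          simp
        · rw [tent_zero_right h, tent_zero_right (hcm1.trans h), tent_zero_right h]
          simp)
    refine le_trans ?_ h
    have h3 := lintegral_three_tents k z0 z1 hk0 h01
    rw [← hcm] at h3
    refine le_trans (le_of_eq ?_) h3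
    have e : 3 * k * (z1 - z0) ^ 2 / 8 = 3 / 4 := by
      rw [hk]; field_simp; ring
    rw [e, ENNReal.ofReal_div_of_pos (by norm_num), ENNReal.ofReal_ofNat, ENNReal.ofReal_ofNat]

end symsec

end Vale.Agent.Helper11
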