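import Vale.Agent.Helper11.CoplanarE
import Vale.Agent.Helper11.SymSections

/-!
# Cylinders with coplanar axes: bodies with centrally symmetric sections, space form

The statement in a three-dimensional Euclidean space, obtained from the coordinate form by
choosing an orthonormal frame adapted to the plane of the axes.
-/

namespace Vale.Agent.Helper11

open Set MeasureTheory
open scoped InnerProductSpace

section space

variable {E : Type*} [NormedAddCommGroup E] [InnerProductSpace ℝ E]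

/-- **Centrally symmetric sections, coplanar axes.**  A convex body `K` in a three-dimensional
Euclidean space is covered by finitely many cylinders, the `i`-th being the set of all `x` with
`(⟪v i, x⟫, ⟪w i, x⟫) ∈ B i` for an orthonormal pair `(v i, w i)`; every axis is orthogonal to
the fixed nonzero vector `n`, and every section of `K` by a plane orthogonal to `n` is centrally
symmetric.  Then the sum of the base areas, each divided by the area of the orthogonal
projection of `K` along the axis of its cylinder, is at least `1 / 2`, and at least `3 / 4` if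
`K` itself is centrally symmetric. -/
theorem coplanar_symsec [FiniteDimensional ℝ E] (hdim : Module.finrank ℝ E = 3)
    (K : Set E) (hK : Convex ℝ K) (hKc : IsCompact K) (hKi : (interior K).Nonempty)
    {ι : Type*} [Fintype ι] (v w : ι → E) (B : ι → Set (ℝ × ℝ))
    (hv : ∀ i, ‖v i‖ = 1) (hw : ∀ i, ‖w i‖ = 1) (hvw : ∀ i, ⟪v i, w i⟫_ℝ = 0)
    (n : E) (hn : n ≠ 0)
    (hax : ∀ i, ∃ d : E, d ≠ 0 ∧ ⟪n, d⟫_ℝ = 0 ∧ ⟪v i, d⟫_ℝ = 0 ∧ ⟪w i, d⟫_ℝ = 0)
    (hsec : ∀ t : ℝ, ∃ c : E, ⟪n, c⟫_ℝ = t ∧ ∀ x ∈ K, ⟪n, x⟫_ℝ = t → (2 : ℝ) • c - x ∈ K)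
    (hcov : ∀ x ∈ K, ∃ i, (⟪v i, x⟫_ℝ, ⟪w i, x⟫_ℝ) ∈ B i) :
    1 / 2 ≤ ∑ i, volume (B i) / volume ((fun x : E => (⟪v i, x⟫_ℝ, ⟪w i, x⟫_ℝ)) '' K) ∧
    ((∃ c : E, ∀ x ∈ K, (2 : ℝ) • c - x ∈ K) →
      3 / 4 ≤ ∑ i, volume (B i) / volume ((fun x : E => (⟪v i, x⟫_ℝ, ⟪w i, x⟫_ℝ)) '' K)) := by
  obtain ⟨K', a, b, S, hK'conv, hK'c, hab, hSm, hSvol, hcov', hPvol, hint, hsym', -, hsec'⟩ :=
    coplanar_coords hdim K hK hKc v w B hv hw hvw n hn hax hcov
  have hab' : ∀ i, a i ≠ 0 ∨ b i ≠ 0 := by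
    intro i
    by_contra h
    push Not at h
    have h1 := hab i
    rw [h.1, h.2] at h1
    norm_num at h1
  have main := symsec_core K' hK'conv hK'c (hint hKi) (fun z => hsec' z (hsec (‖n‖ * z)))
    a b hab' S hSm hcov'
  have hsum : ∑ i, volume (S i) / volume (prj (a i) (b i) '' K')
      = ∑ i, volume (B i) / volume ((fun x : E => (⟪v i, x⟫_ℝ, ⟪w i, x⟫_ℝ)) '' K) :=
    Finset.sum_congr rfl (fun i _ => by rw [hSvol i, hPvol i])
  rw [hsum] at main
  refine ⟨main.1, ?_⟩
  rintro ⟨c, hc⟩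
  exact main.2 (hsym' c hc)

end space

end Vale.Agent.Helper11
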