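import Vale.Agent.Helper11.SymSections
import Vale.Agent.Helper11.TwoDirections

/-!
# Centrally symmetric convex bodies covered by cylinders with at most two axis directions

If a centrally symmetric convex body in a three-dimensional Euclidean space is covered by
cylinders whose axes are parallel to one of two given directions, then the sum of the base
areas, each divided by the area of the projection of the body along the axis of its cylinder,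
is at least `3 / 4`.
-/

namespace Vale.Agent.Helper11

open Set MeasureTheory
open scoped InnerProductSpace

/-- A planar set of positive area whose heights fill `[z0, z1]` has `z0 < z1`. -/
theorem height_lt_of_volume_ne_zero {P : Set (ℝ × ℝ)} {z0 z1 : ℝ}
    (hZ : Prod.snd '' P = Icc z0 z1) (hP0 : volume P ≠ 0) : z0 < z1 := by
  by_contra h
  push Not at h
  apply hP0
  have hsub : P ⊆ (univ : Set ℝ) ×ˢ ({z0} : Set ℝ) := by
    intro p hp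
    have h1 : p.2 ∈ Icc z0 z1 := by rw [← hZ]; exact ⟨p, hp, rfl⟩
    refine ⟨mem_univ _, ?_⟩
    rw [mem_singleton_iff]
    exact le_antisymm (h1.2.trans h) h1.1
  apply measure_mono_null hsub
  rw [Measure.volume_eq_prod, Measure.prod_prod, Real.volume_singleton, mul_zero]

/-- For a centrally symmetric planar compact convex set, the normalized section length
dominates the sum of three tent functions. -/
theorem three_tents_le_sec {P : Set (ℝ × ℝ)} (hPc : IsCompact P) (hP : Convex ℝ P) {z0 z1 : ℝ}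
    (h01 : z0 < z1) (hZ : Prod.snd '' P = Icc z0 z1) (hP0 : volume P ≠ 0) (p₀ : ℝ)
    (hsym : ∀ x ∈ P, (2 * p₀ - x.1, z0 + z1 - x.2) ∈ P) (z : ℝ) :
    ENNReal.ofReal (2 / (z1 - z0) ^ 2 * tent z0 z1 z
        + 2 / (z1 - z0) ^ 2 * tent z0 ((z0 + z1) / 2) z
        + 2 / (z1 - z0) ^ 2 * tent ((z0 + z1) / 2) z1 z)
      ≤ volume (sec P z) / volume P := by
  obtain ⟨cm, hcm⟩ : ∃ cm : ℝ, cm = (z0 + z1) / 2 := ⟨_, rfl⟩
  rw [← hcm]
  have hcm0 : z0 ≤ cm := by rw [hcm]; linarith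
  have hcm1 : cm ≤ z1 := by rw [hcm]; linarith
  obtain ⟨k, hk⟩ : ∃ k : ℝ, k = 2 / (z1 - z0) ^ 2 := ⟨_, rfl⟩
  rw [← hk]
  have hΔ : 0 < z1 - z0 := by linarith
  have hk0 : 0 ≤ k := by rw [hk]; positivity
  by_cases hzI : z ∈ Icc z0 z1
  · obtain ⟨m, hm⟩ : ∃ m : ℝ,
        m = (tent z0 z1 z + tent z0 cm z + tent cm z1 z) / 2 := ⟨_, rfl⟩
    have hm0 : 0 ≤ m := by
      rw [hm]
      have := tent_nonneg z0 z1 z
      have := tent_nonneg z0 cm z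
      have := tent_nonneg cm z1 z
      linarith
    have hz0' := hzI.1
    have hz1' := hzI.2
    have hm1 : m ≤ z - z0 := by
      rw [hm]
      unfold tent
      simp only [min_def, max_def]
      split_ifs <;> linarith
    have hm2 : m ≤ z1 - z := by
      rw [hm]
      unfold tent
      simp only [min_def, max_def]
      split_ifs <;> linarith
    have hm3 : m ≤ (z1 - z0) / 4 := by
      rw [hm]
      unfold tent
      simp only [min_def, max_def]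
      split_ifs <;> linarith
    have h1 := sec_ge_of_area_sym hPc hP h01 hZ p₀ hsym hm0 hm1 hm2 hm3
    have hPt : volume P ≠ ⊤ := hPc.measure_lt_top.ne
    have hτ0 : 0 ≤ k * tent z0 z1 z + k * tent z0 cm z + k * tent cm z1 z := by
      have := mul_nonneg hk0 (tent_nonneg z0 z1 z)
      have := mul_nonneg hk0 (tent_nonneg z0 cm z)
      have := mul_nonneg hk0 (tent_nonneg cm z1 z)
      linarith
    rw [ENNReal.le_div_iff_mul_le (Or.inl hP0) (Or.inl hPt)]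
    calc ENNReal.ofReal (k * tent z0 z1 z + k * tent z0 cm z + k * tent cm z1 z) * volume P
        = ENNReal.ofReal (k * tent z0 z1 z + k * tent z0 cm z + k * tent cm z1 z)
          * ENNReal.ofReal (volume P).toReal := by rw [ENNReal.ofReal_toReal hPt]
      _ = ENNReal.ofReal ((k * tent z0 z1 z + k * tent z0 cm z + k * tent cm z1 z)
          * (volume P).toReal) := (ENNReal.ofReal_mul hτ0).symm
      _ ≤ ENNReal.ofReal (volume (sec P z)).toReal := by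
          apply ENNReal.ofReal_le_ofReal
          refine le_trans (le_of_eq ?_) h1
          rw [hm, hk]
          field_simp
          ring
      _ = volume (sec P z) := ENNReal.ofReal_toReal (volume_sec_ne_top hPc z)
  · have hout : z ≤ z0 ∨ z1 ≤ z := by
      by_contra hcon
      push Not at hcon
      exact hzI ⟨hcon.1.le, hcon.2.le⟩
    rcases hout with h | h
    · rw [tent_zero_left h, tent_zero_left h, tent_zero_left (h.trans hcm0)]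
      simp
    · rw [tent_zero_right h, tent_zero_right (hcm1.trans h), tent_zero_right h]
      simp

/-- The slicing argument for two cylinders with axes along the first two coordinate directions,
with an arbitrary weight `m` below both normalized section lengths. -/
theorem two_cyl_weight (K : Set (ℝ × ℝ × ℝ)) (hK : Convex ℝ K) (hKc : IsCompact K)
    (hV₁ : volume ((fun p : ℝ × ℝ × ℝ => (p.2.1, p.2.2)) '' K) ≠ 0)
    (hV₂ : volume ((fun p : ℝ × ℝ × ℝ => (p.1, p.2.2)) '' K) ≠ 0)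
    (B₁ B₂ : Set (ℝ × ℝ)) (hB₁m : MeasurableSet B₁) (hB₂m : MeasurableSet B₂)
    (hcov : ∀ p ∈ K, (p.2.1, p.2.2) ∈ B₁ ∨ (p.1, p.2.2) ∈ B₂) (m : ℝ → ENNReal)
    (hm₁ : ∀ z, m z ≤ volume (sec ((fun p : ℝ × ℝ × ℝ => (p.2.1, p.2.2)) '' K) z)
      / volume ((fun p : ℝ × ℝ × ℝ => (p.2.1, p.2.2)) '' K))
    (hm₂ : ∀ z, m z ≤ volume (sec ((fun p : ℝ × ℝ × ℝ => (p.1, p.2.2)) '' K) z)
      / volume ((fun p : ℝ × ℝ × ℝ => (p.1, p.2.2)) '' K)) :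
    ∫⁻ z, m z ≤
      volume B₁ / volume ((fun p : ℝ × ℝ × ℝ => (p.2.1, p.2.2)) '' K)
      + volume B₂ / volume ((fun p : ℝ × ℝ × ℝ => (p.1, p.2.2)) '' K) := by
  obtain ⟨P₁, hP₁⟩ : ∃ P₁ : Set (ℝ × ℝ), P₁ = (fun p : ℝ × ℝ × ℝ => (p.2.1, p.2.2)) '' K :=
    ⟨_, rfl⟩
  obtain ⟨P₂, hP₂⟩ : ∃ P₂ : Set (ℝ × ℝ), P₂ = (fun p : ℝ × ℝ × ℝ => (p.1, p.2.2)) '' K :=
    ⟨_, rfl⟩
  rw [← hP₁] at hm₁
  rw [← hP₂] at hm₂
  rw [← hP₁, ← hP₂]
  have hP₁c : IsCompact P₁ := by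
    rw [hP₁]; exact hKc.image (by fun_prop)
  have hP₂c : IsCompact P₂ := by
    rw [hP₂]; exact hKc.image (by fun_prop)
  have hP₁0 : volume P₁ ≠ 0 := by rw [hP₁]; exact hV₁
  have hP₂0 : volume P₂ ≠ 0 := by rw [hP₂]; exact hV₂
  have hpt : ∀ z : ℝ, m z ≤
      volume (sec (B₁ ∩ P₁) z) / volume P₁ + volume (sec (B₂ ∩ P₂) z) / volume P₂ := by
    intro z
    have hm1 := hm₁ z
    have hm2 := hm₂ z
    by_cases hw₁ : volume (sec P₁ z) = 0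
    · rw [hw₁, ENNReal.zero_div] at hm1
      exact hm1.trans zero_le
    by_cases hw₂ : volume (sec P₂ z) = 0
    · rw [hw₂, ENNReal.zero_div] at hm2
      exact hm2.trans zero_le
    have hfst : Prod.fst '' slice K z = sec P₂ z := by rw [hP₂]; exact fst_image_slice K z
    have hsnd : Prod.snd '' slice K z = sec P₁ z := by rw [hP₁]; exact snd_image_slice K z
    have h2D := plank_general (L := slice K z) (A := sec B₂ z) (B := sec B₁ z)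
      (convex_slice hK z) (isCompact_slice hKc z)
      (by rw [hfst]; exact hw₂) (by rw [hsnd]; exact hw₁) (measurable_prodMk_right hB₂m)
      (fun q hq => by
        rcases hcov (q.1, q.2, z) hq with h | h
        · right; exact h
        · left; exact h)
    rw [hfst, hsnd] at h2D
    have e1 : sec (B₁ ∩ P₁) z = sec B₁ z ∩ sec P₁ z := rfl
    have e2 : sec (B₂ ∩ P₂) z = sec B₂ z ∩ sec P₂ z := rfl
    rw [e1, e2]
    calc m z = m z * 1 := (mul_one (m z)).symm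
      _ ≤ m z * (volume (sec B₂ z ∩ sec P₂ z) / volume (sec P₂ z)
            + volume (sec B₁ z ∩ sec P₁ z) / volume (sec P₁ z)) := mul_le_mul_right h2D (m z)
      _ = m z * (volume (sec B₁ z ∩ sec P₁ z) / volume (sec P₁ z))
            + m z * (volume (sec B₂ z ∩ sec P₂ z) / volume (sec P₂ z)) := by
          rw [mul_add, add_comm]
      _ ≤ volume (sec B₁ z ∩ sec P₁ z) / volume P₁ + volume (sec B₂ z ∩ sec P₂ z) / volume P₂ :=
          add_le_add (ennreal_aux hw₁ (volume_sec_ne_top hP₁c z) hm1)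
            (ennreal_aux hw₂ (volume_sec_ne_top hP₂c z) hm2)
  have hBP₁ : MeasurableSet (B₁ ∩ P₁) := hB₁m.inter hP₁c.isClosed.measurableSet
  have hBP₂ : MeasurableSet (B₂ ∩ P₂) := hB₂m.inter hP₂c.isClosed.measurableSet
  have hint : ∫⁻ z, (volume (sec (B₁ ∩ P₁) z) / volume P₁ + volume (sec (B₂ ∩ P₂) z) / volume P₂)
      = volume (B₁ ∩ P₁) / volume P₁ + volume (B₂ ∩ P₂) / volume P₂ := by
    rw [lintegral_add_left ((measurable_volume_sec hBP₁).div_const _)]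
    simp_rw [div_eq_mul_inv]
    rw [lintegral_mul_const' _ _ (ENNReal.inv_ne_top.mpr hP₁0),
      lintegral_mul_const' _ _ (ENNReal.inv_ne_top.mpr hP₂0),
      ← volume_eq_lintegral_sec hBP₁, ← volume_eq_lintegral_sec hBP₂]
  calc ∫⁻ z, m z
      ≤ ∫⁻ z, (volume (sec (B₁ ∩ P₁) z) / volume P₁ + volume (sec (B₂ ∩ P₂) z) / volume P₂) :=
        lintegral_mono hpt
    _ = volume (B₁ ∩ P₁) / volume P₁ + volume (B₂ ∩ P₂) / volume P₂ := hint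
    _ ≤ volume B₁ / volume P₁ + volume B₂ / volume P₂ :=
        add_le_add (ENNReal.div_le_div_right (measure_mono inter_subset_left) _)
          (ENNReal.div_le_div_right (measure_mono inter_subset_left) _)

/-- Two cylinders with arbitrary measurable bases and axes along the first two coordinate
directions covering a centrally symmetric convex body. -/
theorem two_cyl_sym_measurable (K : Set (ℝ × ℝ × ℝ)) (hK : Convex ℝ K) (hKc : IsCompact K)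
    (hV₁ : volume ((fun p : ℝ × ℝ × ℝ => (p.2.1, p.2.2)) '' K) ≠ 0)
    (hV₂ : volume ((fun p : ℝ × ℝ × ℝ => (p.1, p.2.2)) '' K) ≠ 0)
    (hsym : ∃ c : ℝ × ℝ × ℝ, ∀ p ∈ K,
      (2 * c.1 - p.1, 2 * c.2.1 - p.2.1, 2 * c.2.2 - p.2.2) ∈ K)
    (B₁ B₂ : Set (ℝ × ℝ)) (hB₁m : MeasurableSet B₁) (hB₂m : MeasurableSet B₂)
    (hcov : ∀ p ∈ K, (p.2.1, p.2.2) ∈ B₁ ∨ (p.1, p.2.2) ∈ B₂) :
    (3 : ENNReal) / 4 ≤
      volume B₁ / volume ((fun p : ℝ × ℝ × ℝ => (p.2.1, p.2.2)) '' K)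
      + volume B₂ / volume ((fun p : ℝ × ℝ × ℝ => (p.1, p.2.2)) '' K) := by
  obtain ⟨c, hc⟩ := hsym
  have hP₁c : IsCompact ((fun p : ℝ × ℝ × ℝ => (p.2.1, p.2.2)) '' K) :=
    hKc.image (by fun_prop)
  have hP₂c : IsCompact ((fun p : ℝ × ℝ × ℝ => (p.1, p.2.2)) '' K) :=
    hKc.image (by fun_prop)
  have hP₁conv : Convex ℝ ((fun p : ℝ × ℝ × ℝ => (p.2.1, p.2.2)) '' K) :=
    hK.is_linear_image (IsLinearMap.mk (fun _ _ => rfl) (fun _ _ => rfl))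
  have hP₂conv : Convex ℝ ((fun p : ℝ × ℝ × ℝ => (p.1, p.2.2)) '' K) :=
    hK.is_linear_image (IsLinearMap.mk (fun _ _ => rfl) (fun _ _ => rfl))
  have hZ12 : Prod.snd '' ((fun p : ℝ × ℝ × ℝ => (p.2.1, p.2.2)) '' K)
      = Prod.snd '' ((fun p : ℝ × ℝ × ℝ => (p.1, p.2.2)) '' K) := by
    rw [image_image, image_image]
  have hZc : IsCompact (Prod.snd '' ((fun p : ℝ × ℝ × ℝ => (p.2.1, p.2.2)) '' K)) :=
    hP₁c.image continuous_snd
  have hZconv : Convex ℝ (Prod.snd '' ((fun p : ℝ × ℝ × ℝ => (p.2.1, p.2.2)) '' K)) := by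
    have := hP₁conv.linear_image (LinearMap.snd ℝ ℝ ℝ)
    simpa using this
  have hZne : (Prod.snd '' ((fun p : ℝ × ℝ × ℝ => (p.2.1, p.2.2)) '' K)).Nonempty := by
    have hne : ((fun p : ℝ × ℝ × ℝ => (p.2.1, p.2.2)) '' K).Nonempty := by
      by_contra h
      rw [not_nonempty_iff_eq_empty] at h
      rw [h] at hV₁
      simp at hV₁
    exact hne.image _
  obtain ⟨z0, z1, h01, hZ⟩ := exists_Icc_aux hZc hZconv hZne
  have hZ' : Prod.snd '' ((fun p : ℝ × ℝ × ℝ => (p.1, p.2.2)) '' K) = Icc z0 z1 := by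
    rw [← hZ12, hZ]
  have h01' : z0 < z1 := height_lt_of_volume_ne_zero hZ hV₁
  have hcz : z0 + z1 = 2 * c.2.2 := by
    have hz0 : z0 ∈ Prod.snd '' ((fun p : ℝ × ℝ × ℝ => (p.2.1, p.2.2)) '' K) := by
      rw [hZ]; exact left_mem_Icc.mpr h01
    have hz1 : z1 ∈ Prod.snd '' ((fun p : ℝ × ℝ × ℝ => (p.2.1, p.2.2)) '' K) := by
      rw [hZ]; exact right_mem_Icc.mpr h01
    obtain ⟨_, ⟨x, hx, rfl⟩, hxz⟩ := hz0
    obtain ⟨_, ⟨y, hy, rfl⟩, hyz⟩ := hz1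
    have h1 : 2 * c.2.2 - x.2.2 ∈ Prod.snd '' ((fun p : ℝ × ℝ × ℝ => (p.2.1, p.2.2)) '' K) :=
      ⟨_, ⟨_, hc x hx, rfl⟩, rfl⟩
    have h2 : 2 * c.2.2 - y.2.2 ∈ Prod.snd '' ((fun p : ℝ × ℝ × ℝ => (p.2.1, p.2.2)) '' K) :=
      ⟨_, ⟨_, hc y hy, rfl⟩, rfl⟩
    rw [hZ] at h1 h2
    simp only at hxz hyz
    rw [hxz] at h1
    rw [hyz] at h2
    linarith [h1.2, h2.1]
  have hsym₁ : ∀ y ∈ (fun p : ℝ × ℝ × ℝ => (p.2.1, p.2.2)) '' K,
      (2 * c.2.1 - y.1, z0 + z1 - y.2) ∈ (fun p : ℝ × ℝ × ℝ => (p.2.1, p.2.2)) '' K := by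
    rintro _ ⟨x, hx, rfl⟩
    refine ⟨_, hc x hx, ?_⟩
    simp only
    rw [hcz]
  have hsym₂ : ∀ y ∈ (fun p : ℝ × ℝ × ℝ => (p.1, p.2.2)) '' K,
      (2 * c.1 - y.1, z0 + z1 - y.2) ∈ (fun p : ℝ × ℝ × ℝ => (p.1, p.2.2)) '' K := by
    rintro _ ⟨x, hx, rfl⟩
    refine ⟨_, hc x hx, ?_⟩
    simp only
    rw [hcz]
  have main := two_cyl_weight K hK hKc hV₁ hV₂ B₁ B₂ hB₁m hB₂m hcov
    (fun z => ENNReal.ofReal (2 / (z1 - z0) ^ 2 * tent z0 z1 z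
        + 2 / (z1 - z0) ^ 2 * tent z0 ((z0 + z1) / 2) z
        + 2 / (z1 - z0) ^ 2 * tent ((z0 + z1) / 2) z1 z))
    (fun z => three_tents_le_sec hP₁c hP₁conv h01' hZ hV₁ c.2.1 hsym₁ z)
    (fun z => three_tents_le_sec hP₂c hP₂conv h01' hZ' hV₂ c.1 hsym₂ z)
  refine le_trans ?_ main
  have hΔ : 0 < z1 - z0 := by linarith
  have h3 := lintegral_three_tents (2 / (z1 - z0) ^ 2) z0 z1 (by positivity) h01
  refine le_trans (le_of_eq ?_) h3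
  have e : 3 * (2 / (z1 - z0) ^ 2) * (z1 - z0) ^ 2 / 8 = 3 / 4 := by
    field_simp
    ring
  rw [e, ENNReal.ofReal_div_of_pos (by norm_num), ENNReal.ofReal_ofNat, ENNReal.ofReal_ofNat]

section frames

variable {E : Type*} [NormedAddCommGroup E] [InnerProductSpace ℝ E]

/-- Two cylinders in a three-dimensional Euclidean space, with arbitrary axis directions and
arbitrary measurable bases, covering a centrally symmetric convex body. -/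
theorem two_cyl_sym_general [FiniteDimensional ℝ E] (hdim : Module.finrank ℝ E = 3)
    (K : Set E) (hK : Convex ℝ K) (hKc : IsCompact K) (hKi : (interior K).Nonempty)
    (hsym : ∃ c : E, ∀ x ∈ K, (2 : ℝ) • c - x ∈ K)
    (v₁ w₁ v₂ w₂ : E)
    (hv₁ : ‖v₁‖ = 1) (hw₁ : ‖w₁‖ = 1) (hvw₁ : ⟪v₁, w₁⟫_ℝ = 0)
    (hv₂ : ‖v₂‖ = 1) (hw₂ : ‖w₂‖ = 1) (hvw₂ : ⟪v₂, w₂⟫_ℝ = 0)
    (B₁ B₂ : Set (ℝ × ℝ)) (hB₁ : MeasurableSet B₁) (hB₂ : MeasurableSet B₂)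
    (hcov : ∀ x ∈ K, (⟪v₁, x⟫_ℝ, ⟪w₁, x⟫_ℝ) ∈ B₁ ∨ (⟪v₂, x⟫_ℝ, ⟪w₂, x⟫_ℝ) ∈ B₂) :
    (3 : ENNReal) / 4 ≤
      volume B₁ / volume ((fun x : E => (⟪v₁, x⟫_ℝ, ⟪w₁, x⟫_ℝ)) '' K)
      + volume B₂ / volume ((fun x : E => (⟪v₂, x⟫_ℝ, ⟪w₂, x⟫_ℝ)) '' K) := by
  obtain ⟨α₁, β₁, α₂, β₂, h1, h2, hn⟩ :=
    exists_common hdim v₁ w₁ v₂ w₂ hv₁ hw₁ hvw₁ hv₂ hw₂ hvw₂
  have hf₁ : ∀ x : E, (⟪(-β₁) • v₁ + α₁ • w₁, x⟫_ℝ, ⟪α₁ • v₁ + β₁ • w₁, x⟫_ℝ)
      = refl2 α₁ β₁ (⟪v₁, x⟫_ℝ, ⟪w₁, x⟫_ℝ) := by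
    intro x
    simp [refl2, inner_add_left, inner_smul_left]
  have hf₂ : ∀ x : E, (⟪(-β₂) • v₂ + α₂ • w₂, x⟫_ℝ, ⟪α₁ • v₁ + β₁ • w₁, x⟫_ℝ)
      = refl2 α₂ β₂ (⟪v₂, x⟫_ℝ, ⟪w₂, x⟫_ℝ) := by
    intro x
    rw [hn]
    simp [refl2, inner_add_left, inner_smul_left]
  obtain ⟨T, hT⟩ : ∃ T : E → ℝ × ℝ × ℝ, T = fun x =>
      (⟪(-β₂) • v₂ + α₂ • w₂, x⟫_ℝ, ⟪(-β₁) • v₁ + α₁ • w₁, x⟫_ℝ, ⟪α₁ • v₁ + β₁ • w₁, x⟫_ℝ) :=
    ⟨_, rfl⟩
  have hTlin : IsLinearMap ℝ T := by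
    rw [hT]
    constructor
    · intro x y
      simp only [inner_add_right, Prod.mk_add_mk]
    · intro c x
      simp only [inner_smul_right, Prod.smul_mk, smul_eq_mul]
  have hTcont : Continuous T := by
    rw [hT]
    fun_prop
  have hK' : Convex ℝ (T '' K) := hK.is_linear_image hTlin
  have hKc' : IsCompact (T '' K) := hKc.image hTcont
  have hsym' : ∃ c : ℝ × ℝ × ℝ, ∀ p ∈ T '' K,
      (2 * c.1 - p.1, 2 * c.2.1 - p.2.1, 2 * c.2.2 - p.2.2) ∈ T '' K := by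
    obtain ⟨c, hc⟩ := hsym
    refine ⟨T c, ?_⟩
    rintro _ ⟨x, hx, rfl⟩
    refine ⟨_, hc x hx, ?_⟩
    rw [hT]
    simp only [inner_sub_right, inner_smul_right]
  have himg₁ : (fun p : ℝ × ℝ × ℝ => (p.2.1, p.2.2)) '' (T '' K)
      = refl2 α₁ β₁ ⁻¹' ((fun x : E => (⟪v₁, x⟫_ℝ, ⟪w₁, x⟫_ℝ)) '' K) := by
    rw [← image_refl2 h1, image_image, image_image]
    apply image_congr
    intro x _
    rw [hT]
    exact hf₁ x
  have himg₂ : (fun p : ℝ × ℝ × ℝ => (p.1, p.2.2)) '' (T '' K)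
      = refl2 α₂ β₂ ⁻¹' ((fun x : E => (⟪v₂, x⟫_ℝ, ⟪w₂, x⟫_ℝ)) '' K) := by
    rw [← image_refl2 h2, image_image, image_image]
    apply image_congr
    intro x _
    rw [hT]
    exact hf₂ x
  have hV₁ : volume ((fun p : ℝ × ℝ × ℝ => (p.2.1, p.2.2)) '' (T '' K)) ≠ 0 := by
    rw [himg₁, volume_preimage_refl2 h1]
    exact frame_volume_ne_zero hKi hv₁ hw₁ hvw₁
  have hV₂ : volume ((fun p : ℝ × ℝ × ℝ => (p.1, p.2.2)) '' (T '' K)) ≠ 0 := by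
    rw [himg₂, volume_preimage_refl2 h2]
    exact frame_volume_ne_zero hKi hv₂ hw₂ hvw₂
  have hcov' : ∀ p ∈ T '' K, (p.2.1, p.2.2) ∈ refl2 α₁ β₁ ⁻¹' B₁ ∨
      (p.1, p.2.2) ∈ refl2 α₂ β₂ ⁻¹' B₂ := by
    rintro p ⟨x, hx, rfl⟩
    rcases hcov x hx with h | h
    · left
      show refl2 α₁ β₁ ((T x).2.1, (T x).2.2) ∈ B₁
      have : ((T x).2.1, (T x).2.2) = refl2 α₁ β₁ (⟪v₁, x⟫_ℝ, ⟪w₁, x⟫_ℝ) := by
        rw [hT]; exact hf₁ x
      rw [this, refl2_refl2 h1]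
      exact h
    · right
      show refl2 α₂ β₂ ((T x).1, (T x).2.2) ∈ B₂
      have : ((T x).1, (T x).2.2) = refl2 α₂ β₂ (⟪v₂, x⟫_ℝ, ⟪w₂, x⟫_ℝ) := by
        rw [hT]; exact hf₂ x
      rw [this, refl2_refl2 h2]
      exact h
  have main := two_cyl_sym_measurable (T '' K) hK' hKc' hV₁ hV₂ hsym' (refl2 α₁ β₁ ⁻¹' B₁)
    (refl2 α₂ β₂ ⁻¹' B₂) ((continuous_refl2 α₁ β₁).measurable hB₁)
    ((continuous_refl2 α₂ β₂).measurable hB₂) hcov'
  rw [himg₁, himg₂, volume_preimage_refl2 h1, volume_preimage_refl2 h1,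
    volume_preimage_refl2 h2, volume_preimage_refl2 h2] at main
  exact main

/-- The same statement for arbitrary bases (`volume` of a non-measurable set is its outer
measure). -/
theorem two_cyl_sym_general' [FiniteDimensional ℝ E] (hdim : Module.finrank ℝ E = 3)
    (K : Set E) (hK : Convex ℝ K) (hKc : IsCompact K) (hKi : (interior K).Nonempty)
    (hsym : ∃ c : E, ∀ x ∈ K, (2 : ℝ) • c - x ∈ K)
    (v₁ w₁ v₂ w₂ : E)
    (hv₁ : ‖v₁‖ = 1) (hw₁ : ‖w₁‖ = 1) (hvw₁ : ⟪v₁, w₁⟫_ℝ = 0)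
    (hv₂ : ‖v₂‖ = 1) (hw₂ : ‖w₂‖ = 1) (hvw₂ : ⟪v₂, w₂⟫_ℝ = 0)
    (B₁ B₂ : Set (ℝ × ℝ))
    (hcov : ∀ x ∈ K, (⟪v₁, x⟫_ℝ, ⟪w₁, x⟫_ℝ) ∈ B₁ ∨ (⟪v₂, x⟫_ℝ, ⟪w₂, x⟫_ℝ) ∈ B₂) :
    (3 : ENNReal) / 4 ≤
      volume B₁ / volume ((fun x : E => (⟪v₁, x⟫_ℝ, ⟪w₁, x⟫_ℝ)) '' K)
      + volume B₂ / volume ((fun x : E => (⟪v₂, x⟫_ℝ, ⟪w₂, x⟫_ℝ)) '' K) := by
  have main := two_cyl_sym_general hdim K hK hKc hKi hsym v₁ w₁ v₂ w₂ hv₁ hw₁ hvw₁ hv₂ hw₂ hvw₂
    (toMeasurable volume B₁) (toMeasurable volume B₂) (measurableSet_toMeasurable _ _)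
    (measurableSet_toMeasurable _ _) (fun x hx => by
      rcases hcov x hx with h | h
      · left; exact subset_toMeasurable _ _ h
      · right; exact subset_toMeasurable _ _ h)
  rwa [measure_toMeasurable, measure_toMeasurable] at main

/-- Finite coverings of a centrally symmetric convex body in a three-dimensional Euclidean
space by cylinders each of whose axes is parallel to one of two given nonzero vectors `a`,
`b`: the relative base areas add up to at least `3 / 4`. -/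
theorem two_directions_sym [FiniteDimensional ℝ E] (hdim : Module.finrank ℝ E = 3)
    (K : Set E) (hK : Convex ℝ K) (hKc : IsCompact K) (hKi : (interior K).Nonempty)
    (hsym : ∃ c : E, ∀ x ∈ K, (2 : ℝ) • c - x ∈ K)
    {ι : Type*} [Fintype ι] (v w : ι → E) (B : ι → Set (ℝ × ℝ))
    (hv : ∀ i, ‖v i‖ = 1) (hw : ∀ i, ‖w i‖ = 1) (hvw : ∀ i, ⟪v i, w i⟫_ℝ = 0)
    (a b : E) (ha : a ≠ 0) (hb : b ≠ 0)
    (hax : ∀ i, (⟪v i, a⟫_ℝ = 0 ∧ ⟪w i, a⟫_ℝ = 0) ∨ (⟪v i, b⟫_ℝ = 0 ∧ ⟪w i, b⟫_ℝ = 0))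
    (hcov : ∀ x ∈ K, ∃ i, (⟪v i, x⟫_ℝ, ⟪w i, x⟫_ℝ) ∈ B i) :
    (3 : ENNReal) / 4 ≤
      ∑ i, volume (B i) / volume ((fun x : E => (⟪v i, x⟫_ℝ, ⟪w i, x⟫_ℝ)) '' K) := by
  classical
  obtain ⟨x₀, hx₀⟩ := hKi
  obtain ⟨i₀, -⟩ := hcov x₀ (interior_subset hx₀)
  obtain ⟨P, hP⟩ : ∃ P : ι → Prop, P = fun i => ⟪v i, a⟫_ℝ = 0 ∧ ⟪w i, a⟫_ℝ = 0 := ⟨_, rfl⟩
  have hPi : ∀ i, P i → ⟪v i, a⟫_ℝ = 0 ∧ ⟪w i, a⟫_ℝ = 0 := by
    intro i h
    rw [hP] at h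
    exact h
  have hPn : ∀ i, ¬ P i → ⟪v i, b⟫_ℝ = 0 ∧ ⟪w i, b⟫_ℝ = 0 := by
    intro i h
    rw [hP] at h
    exact (hax i).resolve_left h
  obtain ⟨j₁, hj₁⟩ : ∃ j₁ : ι, ∀ i, P i → P j₁ := by
    by_cases h : ∃ i, P i
    · obtain ⟨j, hj⟩ := h
      exact ⟨j, fun _ _ => hj⟩
    · exact ⟨i₀, fun i hi => absurd ⟨i, hi⟩ h⟩
  obtain ⟨j₂, hj₂⟩ : ∃ j₂ : ι, ∀ i, ¬ P i → ¬ P j₂ := by
    by_cases h : ∃ i, ¬ P i
    · obtain ⟨j, hj⟩ := h
      exact ⟨j, fun _ _ => hj⟩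
    · exact ⟨i₀, fun i hi => absurd ⟨i, hi⟩ h⟩
  obtain ⟨B₁', hc₁, hvol₁⟩ := merge_frames K v w B (v j₁) (w j₁) (Finset.univ.filter P) (by
    intro i hi
    have h1 : P i := (Finset.mem_filter.mp hi).2
    have h2 := hPi j₁ (hj₁ i h1)
    have h3 := hPi i h1
    exact frame_change hdim ha (hv j₁) (hw j₁) (hvw j₁) h2.1 h2.2 (hv i) (hw i) (hvw i) h3.1 h3.2)
  obtain ⟨B₂', hc₂, hvol₂⟩ := merge_frames K v w B (v j₂) (w j₂)
    (Finset.univ.filter (fun i => ¬ P i)) (by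
    intro i hi
    have h1 : ¬ P i := (Finset.mem_filter.mp hi).2
    have h2 := hPn j₂ (hj₂ i h1)
    have h3 := hPn i h1
    exact frame_change hdim hb (hv j₂) (hw j₂) (hvw j₂) h2.1 h2.2 (hv i) (hw i) (hvw i) h3.1 h3.2)
  have main := two_cyl_sym_general' hdim K hK hKc ⟨x₀, hx₀⟩ hsym (v j₁) (w j₁) (v j₂) (w j₂)
    (hv j₁) (hw j₁) (hvw j₁) (hv j₂) (hw j₂) (hvw j₂) B₁' B₂' (fun x hx => by
      obtain ⟨i, hi⟩ := hcov x hx
      by_cases h1 : P i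
      · left
        exact hc₁ x i (Finset.mem_filter.mpr ⟨Finset.mem_univ _, h1⟩) hi
      · right
        exact hc₂ x i (Finset.mem_filter.mpr ⟨Finset.mem_univ _, h1⟩) hi)
  calc (3 : ENNReal) / 4 ≤ _ := main
    _ ≤ (∑ i ∈ Finset.univ.filter P,
          volume (B i) / volume ((fun x : E => (⟪v i, x⟫_ℝ, ⟪w i, x⟫_ℝ)) '' K))
        + ∑ i ∈ Finset.univ.filter (fun i => ¬ P i),
          volume (B i) / volume ((fun x : E => (⟪v i, x⟫_ℝ, ⟪w i, x⟫_ℝ)) '' K) :=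
        add_le_add hvol₁ hvol₂
    _ = ∑ i, volume (B i) / volume ((fun x : E => (⟪v i, x⟫_ℝ, ⟪w i, x⟫_ℝ)) '' K) :=
        Finset.sum_filter_add_sum_filter_not Finset.univ P _

end frames

end Vale.Agent.Helper11
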