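import Vale.Agent.Helper11.SubBody

/-!
# Tetrahedra and arbitrary cylinders

Every finite covering of a tetrahedron by cylinders (with arbitrary axes) has directionwise
relative area at least `343 / 1000`, which is larger than the general bound `1 / 3`.

The proof applies the sub-body bound `sub_cyl_frame` to the part `H` of the tetrahedron `T` where
all barycentric coordinates are at most `33 / 35` and at most one of them is smaller than `1 / 35`:
every chord of `H`, stretched by `35 / 33`, is a translate of a chord of `T`, and `H` has more than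
`33 / 35` of the volume of `T`.
-/

namespace Vale.Agent.Helper11

open Set MeasureTheory
open scoped InnerProductSpace

/-- For four reals with zero sum whose absolute values and pair sums are bounded by `θ`, the
negative parts sum to at most `θ`. -/
theorem neg_part_sum_le {θ d0 d1 d2 d3 : ℝ} (hsum : d0 + d1 + d2 + d3 = 0)
    (h0 : |d0| ≤ θ) (h1 : |d1| ≤ θ) (h2 : |d2| ≤ θ) (h3 : |d3| ≤ θ)
    (h01 : |d0 + d1| ≤ θ) (h02 : |d0 + d2| ≤ θ) (h03 : |d0 + d3| ≤ θ) :
    max (-d0) 0 + max (-d1) 0 + max (-d2) 0 + max (-d3) 0 ≤ θ := by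
  rw [abs_le] at h0 h1 h2 h3 h01 h02 h03
  simp only [max_def]
  split_ifs <;> linarith

section simplex

variable {E : Type*} [NormedAddCommGroup E] [InnerProductSpace ℝ E] [FiniteDimensional ℝ E]
  [MeasurableSpace E] [BorelSpace E]

omit [FiniteDimensional ℝ E] [MeasurableSpace E] [BorelSpace E] in
/-- Barycentric coordinates along a line. -/
theorem coord_add_smul_sub (b : AffineBasis (Fin 4) ℝ E) (j : Fin 4) (x' x y : E) (s : ℝ) :
    b.coord j (x' + s • (y - x)) = b.coord j x' + s * (b.coord j y - b.coord j x) := by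
  have h1 : x' + s • (y - x) = (s • (y -ᵥ x)) +ᵥ x' := by
    rw [vsub_eq_sub, vadd_eq_add, add_comm]
  rw [h1, AffineMap.map_vadd, map_smul, AffineMap.linearMap_vsub]
  simp [add_comm]

omit [FiniteDimensional ℝ E] [MeasurableSpace E] [BorelSpace E] in
/-- Barycentric coordinates of a homothetic image. -/
theorem coord_homothety (b : AffineBasis (Fin 4) ℝ E) (j : Fin 4) (c x : E) (r : ℝ) :
    b.coord j (AffineMap.homothety c r x) = b.coord j c + r * (b.coord j x - b.coord j c) := by
  rw [AffineMap.homothety_apply, AffineMap.map_vadd, map_smul, AffineMap.linearMap_vsub]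
  simp [add_comm]

omit [FiniteDimensional ℝ E] [MeasurableSpace E] [BorelSpace E] in
/-- A corner simplex `{x | ∀ k, a k ≤ coord k x}` is a homothetic image of the simplex. -/
theorem corner_eq (b : AffineBasis (Fin 4) ℝ E) (a : Fin 4 → ℝ) {r : ℝ} (hr0 : 0 < r)
    (hr1 : r < 1) (ha : ∑ k, a k = 1 - r) :
    {x : E | ∀ k, a k ≤ b.coord k x}
      = AffineMap.homothety (Finset.univ.affineCombination ℝ b (fun k => a k / (1 - r))) r ''
          convexHull ℝ (range b) := by
  have h1r : 0 < 1 - r := by linarith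
  have hw : ∑ k, a k / (1 - r) = 1 := by
    rw [← Finset.sum_div, ha, div_self h1r.ne']
  have hc : ∀ k, b.coord k (Finset.univ.affineCombination ℝ b (fun k => a k / (1 - r)))
      = a k / (1 - r) := fun k =>
    b.coord_apply_combination_of_mem (Finset.mem_univ k) hw
  ext x
  constructor
  · intro hx
    refine ⟨AffineMap.homothety (Finset.univ.affineCombination ℝ b (fun k => a k / (1 - r)))
      r⁻¹ x, ?_, ?_⟩
    · rw [b.convexHull_eq_nonneg_coord]
      intro k
      show 0 ≤ b.coord k _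
      rw [coord_homothety, hc]
      have hxk : a k ≤ b.coord k x := hx k
      have e : a k / (1 - r) + r⁻¹ * (b.coord k x - a k / (1 - r))
          = r⁻¹ * (b.coord k x - a k) := by
        field_simp
        ring
      rw [e]
      exact mul_nonneg (inv_nonneg.mpr hr0.le) (by linarith)
    · rw [AffineMap.homothety_apply, AffineMap.homothety_apply]
      simp [smul_smul, hr0.ne']
  · rintro ⟨y, hy, rfl⟩
    rw [b.convexHull_eq_nonneg_coord] at hy
    intro k
    have hyk : 0 ≤ b.coord k y := hy k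
    rw [coord_homothety, hc]
    have e : a k / (1 - r) + r * (b.coord k y - a k / (1 - r)) = a k + r * b.coord k y := by
      field_simp
      ring
    rw [e]
    nlinarith

/-- The volume of a corner simplex. -/
theorem corner_volume (hdim : Module.finrank ℝ E = 3) (b : AffineBasis (Fin 4) ℝ E)
    (a : Fin 4 → ℝ) {r : ℝ} (hr0 : 0 < r) (hr1 : r < 1) (ha : ∑ k, a k = 1 - r) :
    volume {x : E | ∀ k, a k ≤ b.coord k x}
      = ENNReal.ofReal (r ^ 3) * volume (convexHull ℝ (range b)) := by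
  rw [corner_eq b a hr0 hr1 ha, Measure.addHaar_image_homothety, hdim,
    abs_of_nonneg (by positivity)]

omit [MeasurableSpace E] [BorelSpace E] in
/-- A corner simplex is closed. -/
theorem corner_closed (b : AffineBasis (Fin 4) ℝ E) (a : Fin 4 → ℝ) :
    IsClosed {x : E | ∀ k, a k ≤ b.coord k x} := by
  have e : {x : E | ∀ k, a k ≤ b.coord k x} = ⋂ k, {x | a k ≤ b.coord k x} := by
    ext x
    simp
  rw [e]
  exact isClosed_iInter (fun k =>
    isClosed_le continuous_const (AffineMap.continuous_of_finiteDimensional _))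

/-- The cap of a tetrahedron near a vertex. -/
theorem cap_volume_le (hdim : Module.finrank ℝ E = 3) (b : AffineBasis (Fin 4) ℝ E) (j : Fin 4)
    {s : ℝ} (hs0 : 0 < s) (hs1 : s < 1) :
    volume (convexHull ℝ (range b) ∩ {x | 1 - s < b.coord j x})
      ≤ ENNReal.ofReal (s ^ 3) * volume (convexHull ℝ (range b)) := by
  have ha : ∑ k, (if k = j then 1 - s else 0) = 1 - s := by simp
  rw [← corner_volume hdim b (fun k => if k = j then 1 - s else 0) hs0 hs1 ha]
  refine measure_mono ?_
  rintro x ⟨hx, hxj⟩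
  rw [b.convexHull_eq_nonneg_coord] at hx
  intro k
  have hxk : 0 ≤ b.coord k x := hx k
  have hxj' : 1 - s < b.coord j x := hxj
  show (if k = j then 1 - s else 0) ≤ b.coord k x
  split_ifs with hkj
  · rw [hkj]
    exact hxj'.le
  · exact hxk

/-- The wedge of a tetrahedron near an edge: the part where two barycentric coordinates are
smaller than `t`. -/
theorem wedge_volume_le (hdim : Module.finrank ℝ E = 3) (b : AffineBasis (Fin 4) ℝ E)
    {i j : Fin 4} (hij : i ≠ j) {t : ℝ} (ht0 : 0 < t) (ht1 : t < 1 / 2) :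
    volume (convexHull ℝ (range b) ∩ {x | b.coord i x < t ∧ b.coord j x < t})
      ≤ ENNReal.ofReal (6 * t ^ 2 - 6 * t ^ 3) * volume (convexHull ℝ (range b)) := by
  obtain ⟨K, hKdef⟩ : ∃ K : Set E, K = convexHull ℝ (range b) := ⟨_, rfl⟩
  obtain ⟨Si, hSi⟩ : ∃ S : Set E, S = {x | ∀ k, (if k = i then t else 0) ≤ b.coord k x} :=
    ⟨_, rfl⟩
  obtain ⟨Sj, hSj⟩ : ∃ S : Set E, S = {x | ∀ k, (if k = j then t else 0) ≤ b.coord k x} :=
    ⟨_, rfl⟩
  have hKc : IsCompact K := by
    rw [hKdef]
    exact (finite_range b).isCompact_convexHull ℝ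
  have hVt : volume K ≠ ⊤ := hKc.measure_lt_top.ne
  have hSim : MeasurableSet Si := by
    rw [hSi]
    exact (corner_closed b _).measurableSet
  have hSjm : MeasurableSet Sj := by
    rw [hSj]
    exact (corner_closed b _).measurableSet
  have hvi : volume Si = ENNReal.ofReal ((1 - t) ^ 3) * volume K := by
    rw [hSi, hKdef]
    exact corner_volume hdim b _ (by linarith) (by linarith) (by simp)
  have hvj : volume Sj = ENNReal.ofReal ((1 - t) ^ 3) * volume K := by
    rw [hSj, hKdef]
    exact corner_volume hdim b _ (by linarith) (by linarith) (by simp)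
  have hSiK : Si ⊆ K := by
    intro x hx
    rw [hSi] at hx
    rw [hKdef, b.convexHull_eq_nonneg_coord]
    intro k
    have h := hx k
    show 0 ≤ b.coord k x
    split_ifs at h <;> linarith
  have hSjK : Sj ⊆ K := by
    intro x hx
    rw [hSj] at hx
    rw [hKdef, b.convexHull_eq_nonneg_coord]
    intro k
    have h := hx k
    show 0 ≤ b.coord k x
    split_ifs at h <;> linarith
  have hinter : volume (Si ∩ Sj) ≤ ENNReal.ofReal ((1 - 2 * t) ^ 3) * volume K := by
    have ha : ∑ k, ((if k = i then t else 0) + (if k = j then t else 0)) = 1 - (1 - 2 * t) := by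
      rw [Finset.sum_add_distrib]
      simp
      ring
    rw [hKdef, ← corner_volume hdim b _ (by linarith) (by linarith) ha]
    refine measure_mono ?_
    rintro x ⟨hxi, hxj⟩
    rw [hSi] at hxi
    rw [hSj] at hxj
    intro k
    have h1 := hxi k
    have h2 := hxj k
    show (if k = i then t else 0) + (if k = j then t else 0) ≤ b.coord k x
    by_cases hki : k = i
    · have hkj : k ≠ j := fun h => hij (hki.symm.trans h)
      simp only [hki, if_true] at h1
      simp only [hki, hij, if_false, if_true, add_zero]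
      exact h1
    · simp only [hki, if_false, zero_add]
      exact h2
  have hW : K ∩ {x | b.coord i x < t ∧ b.coord j x < t} ⊆ K \ (Si ∪ Sj) := by
    rintro x ⟨hx, hxi, hxj⟩
    refine ⟨hx, ?_⟩
    rintro (h | h)
    · rw [hSi] at h
      have h1 := h i
      simp only [if_true] at h1
      exact absurd hxi (not_lt.mpr h1)
    · rw [hSj] at h
      have h1 := h j
      simp only [if_true] at h1
      exact absurd hxj (not_lt.mpr h1)
  have h1 : volume (K \ (Si ∪ Sj)) + volume (Si ∪ Sj) = volume K := by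
    have h := measure_sdiff_add_inter (μ := volume) K (hSim.union hSjm)
    rwa [inter_eq_self_of_subset_right (union_subset hSiK hSjK)] at h
  have h2 : volume (Si ∪ Sj) + volume (Si ∩ Sj) = volume Si + volume Sj :=
    measure_union_add_inter Si hSjm
  have hXt : volume (K \ (Si ∪ Sj)) ≠ ⊤ := ne_top_of_le_ne_top hVt (measure_mono sdiff_subset)
  have hUt : volume (Si ∪ Sj) ≠ ⊤ :=
    ne_top_of_le_ne_top hVt (measure_mono (union_subset hSiK hSjK))
  have hIt : volume (Si ∩ Sj) ≠ ⊤ :=
    ne_top_of_le_ne_top hVt (measure_mono (inter_subset_left.trans hSiK))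
  have h1r := congrArg ENNReal.toReal h1
  rw [ENNReal.toReal_add hXt hUt] at h1r
  have h2r := congrArg ENNReal.toReal h2
  rw [hvi, hvj, ENNReal.toReal_add hUt hIt,
    ENNReal.toReal_add (ENNReal.mul_ne_top ENNReal.ofReal_ne_top hVt)
      (ENNReal.mul_ne_top ENNReal.ofReal_ne_top hVt),
    ENNReal.toReal_mul, ENNReal.toReal_ofReal (pow_nonneg (by linarith) 3)] at h2r
  have h3r := ENNReal.toReal_mono (ENNReal.mul_ne_top ENNReal.ofReal_ne_top hVt) hinter
  rw [ENNReal.toReal_mul, ENNReal.toReal_ofReal (pow_nonneg (by linarith) 3)] at h3r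
  have hVr : 0 ≤ (volume K).toReal := ENNReal.toReal_nonneg
  have hfin : (volume (K \ (Si ∪ Sj))).toReal ≤ (6 * t ^ 2 - 6 * t ^ 3) * (volume K).toReal := by
    have e : (6 * t ^ 2 - 6 * t ^ 3) * (volume K).toReal
        = (volume K).toReal - 2 * ((1 - t) ^ 3 * (volume K).toReal)
          + (1 - 2 * t) ^ 3 * (volume K).toReal := by ring
    rw [e]
    linarith
  rw [← hKdef]
  calc volume (K ∩ {x | b.coord i x < t ∧ b.coord j x < t})
      ≤ volume (K \ (Si ∪ Sj)) := measure_mono hW
    _ = ENNReal.ofReal (volume (K \ (Si ∪ Sj))).toReal := (ENNReal.ofReal_toReal hXt).symm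
    _ ≤ ENNReal.ofReal ((6 * t ^ 2 - 6 * t ^ 3) * (volume K).toReal) :=
        ENNReal.ofReal_le_ofReal hfin
    _ = ENNReal.ofReal (6 * t ^ 2 - 6 * t ^ 3) * volume K := by
        rw [ENNReal.ofReal_mul (by nlinarith [sq_nonneg t]), ENNReal.ofReal_toReal hVt]

omit [FiniteDimensional ℝ E] [MeasurableSpace E] [BorelSpace E] in
/-- In the truncated tetrahedron, any two barycentric coordinates sum to at least `t`. -/
theorem pair_sum_ge (b : AffineBasis (Fin 4) ℝ E) {t : ℝ} {x : E}
    (hx : ∀ k, 0 ≤ b.coord k x)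
    (hxp : ∀ i j, i = j ∨ t ≤ b.coord i x ∨ t ≤ b.coord j x) {i j : Fin 4} (hij : i ≠ j) :
    t ≤ b.coord i x + b.coord j x := by
  rcases hxp i j with h | h | h
  · exact absurd h hij
  · linarith [hx j]
  · linarith [hx i]

/-- Every finite covering of a tetrahedron in a three-dimensional Euclidean space by cylinders
has directionwise relative area at least `343 / 1000`. -/
theorem tetra_all (hdim : Module.finrank ℝ E = 3) (b : AffineBasis (Fin 4) ℝ E)
    {ι : Type*} [Fintype ι] (v w : ι → E) (B : ι → Set (ℝ × ℝ))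
    (hv : ∀ i, ‖v i‖ = 1) (hw : ∀ i, ‖w i‖ = 1) (hvw : ∀ i, ⟪v i, w i⟫_ℝ = 0)
    (hcov : ∀ x ∈ convexHull ℝ (range b), ∃ i, (⟪v i, x⟫_ℝ, ⟪w i, x⟫_ℝ) ∈ B i) :
    ENNReal.ofReal (343 / 1000) ≤
      ∑ i, volume (B i)
        / volume ((fun x : E => (⟪v i, x⟫_ℝ, ⟪w i, x⟫_ℝ)) '' convexHull ℝ (range b)) := by
  have hcap := fun j => cap_volume_le hdim b j (s := 2 / 35) (by norm_num) (by norm_num)
  have hwedge := fun (i j : Fin 4) (hij : i ≠ j) =>
    wedge_volume_le hdim b hij (t := 1 / 35) (by norm_num) (by norm_num)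
  obtain ⟨K, hKdef⟩ : ∃ K : Set E, K = convexHull ℝ (range b) := ⟨_, rfl⟩
  obtain ⟨H, hHdef⟩ : ∃ H : Set E, H = K ∩ ({x | ∀ j, b.coord j x ≤ 33 / 35}
      ∩ {x | ∀ i j, i = j ∨ 1 / 35 ≤ b.coord i x ∨ 1 / 35 ≤ b.coord j x}) := ⟨_, rfl⟩
  rw [← hKdef] at hcov ⊢
  simp_rw [← hKdef] at hcap hwedge
  have hK : Convex ℝ K := by
    rw [hKdef]
    exact convex_convexHull ℝ _
  have hKc : IsCompact K := by
    rw [hKdef]
    exact (finite_range b).isCompact_convexHull ℝ
  have hKi : (interior K).Nonempty := by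
    rw [hKdef]
    exact interior_convexHull_nonempty_iff_affineSpan_eq_top.mpr b.tot
  have hKm : MeasurableSet K := hKc.isClosed.measurableSet
  have hKmem : ∀ x, x ∈ K ↔ ∀ k, 0 ≤ b.coord k x := by
    intro x
    rw [hKdef, b.convexHull_eq_nonneg_coord]
    rfl
  have hO1 : MeasurableSet {x : E | ∀ j, b.coord j x ≤ 33 / 35} := by
    have e : {x : E | ∀ j, b.coord j x ≤ 33 / 35} = ⋂ j, {x | b.coord j x ≤ 33 / 35} := by
      ext x
      simp
    rw [e]
    exact MeasurableSet.iInter (fun j =>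
      (isClosed_le (AffineMap.continuous_of_finiteDimensional _) continuous_const).measurableSet)
  have hO2 : MeasurableSet
      {x : E | ∀ i j : Fin 4, i = j ∨ 1 / 35 ≤ b.coord i x ∨ 1 / 35 ≤ b.coord j x} := by
    have e : {x : E | ∀ i j : Fin 4, i = j ∨ 1 / 35 ≤ b.coord i x ∨ 1 / 35 ≤ b.coord j x}
        = ⋂ i : Fin 4, ⋂ j : Fin 4,
          ({x | i = j} ∪ ({x | 1 / 35 ≤ b.coord i x} ∪ {x | 1 / 35 ≤ b.coord j x})) := by
      ext x
      simp
    rw [e]
    exact MeasurableSet.iInter (fun i => MeasurableSet.iInter (fun j =>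
      (MeasurableSet.const _).union
        ((isClosed_le continuous_const
          (AffineMap.continuous_of_finiteDimensional _)).measurableSet.union
        (isClosed_le continuous_const
          (AffineMap.continuous_of_finiteDimensional _)).measurableSet)))
  have hHm : MeasurableSet H := by
    rw [hHdef]
    exact hKm.inter (hO1.inter hO2)
  have hHK : H ⊆ K := by
    rw [hHdef]
    exact inter_subset_left
  have hV0 : volume K ≠ 0 :=
    ((isOpen_interior.measure_pos volume hKi).trans_le (measure_mono interior_subset)).ne'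
  have hVt : volume K ≠ ⊤ := hKc.measure_lt_top.ne
  -- the chord property of `H`
  have hch : ∀ x ∈ H, ∀ y ∈ H, ∃ x' ∈ K, x' + (33 / 35 : ℝ)⁻¹ • (y - x) ∈ K := by
    intro x hx y hy
    rw [hHdef] at hx hy
    obtain ⟨hxK, hxθ, hxp⟩ := hx
    obtain ⟨hyK, hyθ, hyp⟩ := hy
    rw [hKmem] at hxK hyK
    have hxθ' : ∀ j, b.coord j x ≤ 33 / 35 := hxθ
    have hyθ' : ∀ j, b.coord j y ≤ 33 / 35 := hyθ
    have hxp' : ∀ i j, i = j ∨ 1 / 35 ≤ b.coord i x ∨ 1 / 35 ≤ b.coord j x := hxp
    have hyp' : ∀ i j, i = j ∨ 1 / 35 ≤ b.coord i y ∨ 1 / 35 ≤ b.coord j y := hyp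
    have hsx := b.sum_coord_apply_eq_one x
    have hsy := b.sum_coord_apply_eq_one y
    rw [Fin.sum_univ_four] at hsx hsy
    have px01 := pair_sum_ge b hxK hxp' (i := 0) (j := 1) (by decide)
    have px02 := pair_sum_ge b hxK hxp' (i := 0) (j := 2) (by decide)
    have px03 := pair_sum_ge b hxK hxp' (i := 0) (j := 3) (by decide)
    have px12 := pair_sum_ge b hxK hxp' (i := 1) (j := 2) (by decide)
    have px13 := pair_sum_ge b hxK hxp' (i := 1) (j := 3) (by decide)
    have px23 := pair_sum_ge b hxK hxp' (i := 2) (j := 3) (by decide)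
    have py01 := pair_sum_ge b hyK hyp' (i := 0) (j := 1) (by decide)
    have py02 := pair_sum_ge b hyK hyp' (i := 0) (j := 2) (by decide)
    have py03 := pair_sum_ge b hyK hyp' (i := 0) (j := 3) (by decide)
    have py12 := pair_sum_ge b hyK hyp' (i := 1) (j := 2) (by decide)
    have py13 := pair_sum_ge b hyK hyp' (i := 1) (j := 3) (by decide)
    have py23 := pair_sum_ge b hyK hyp' (i := 2) (j := 3) (by decide)
    obtain ⟨d, hd⟩ : ∃ d : Fin 4 → ℝ, d = fun k => b.coord k y - b.coord k x := ⟨_, rfl⟩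
    have hdk : ∀ k, d k = b.coord k y - b.coord k x := fun k => by rw [hd]
    have hN := neg_part_sum_le (θ := 33 / 35) (d0 := d 0) (d1 := d 1) (d2 := d 2) (d3 := d 3)
      (by rw [hdk, hdk, hdk, hdk]; linarith)
      (by rw [hdk, abs_le]; constructor <;> linarith [hxK 0, hyK 0, hxθ' 0, hyθ' 0])
      (by rw [hdk, abs_le]; constructor <;> linarith [hxK 1, hyK 1, hxθ' 1, hyθ' 1])
      (by rw [hdk, abs_le]; constructor <;> linarith [hxK 2, hyK 2, hxθ' 2, hyθ' 2])
      (by rw [hdk, abs_le]; constructor <;> linarith [hxK 3, hyK 3, hxθ' 3, hyθ' 3])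
      (by rw [hdk, hdk, abs_le]; constructor <;> linarith)
      (by rw [hdk, hdk, abs_le]; constructor <;> linarith)
      (by rw [hdk, hdk, abs_le]; constructor <;> linarith)
    obtain ⟨N, hNdef⟩ : ∃ N : ℝ,
        N = max (-d 0) 0 + max (-d 1) 0 + max (-d 2) 0 + max (-d 3) 0 := ⟨_, rfl⟩
    rw [← hNdef] at hN
    have hN0 : 0 ≤ N := by
      rw [hNdef]
      have := le_max_right (-d 0) 0
      have := le_max_right (-d 1) 0
      have := le_max_right (-d 2) 0
      have := le_max_right (-d 3) 0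
      linarith
    obtain ⟨w', hw'⟩ : ∃ w' : Fin 4 → ℝ, w' = fun k =>
        (33 / 35 : ℝ)⁻¹ * max (-d k) 0 + (if k = 0 then 1 - (33 / 35 : ℝ)⁻¹ * N else 0) :=
      ⟨_, rfl⟩
    have hw'k : ∀ k, w' k
        = (33 / 35 : ℝ)⁻¹ * max (-d k) 0 + (if k = 0 then 1 - (33 / 35 : ℝ)⁻¹ * N else 0) :=
      fun k => by rw [hw']
    have hw'sum : ∑ k, w' k = 1 := by
      rw [Fin.sum_univ_four, hw'k, hw'k, hw'k, hw'k, hNdef]
      simp
      ring
    have hw'0 : ∀ k, 0 ≤ w' k := by
      intro k
      rw [hw'k]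
      have h1 : 0 ≤ (33 / 35 : ℝ)⁻¹ * max (-d k) 0 :=
        mul_nonneg (by norm_num) (le_max_right _ _)
      have h2 : (33 / 35 : ℝ)⁻¹ * N ≤ 1 := by
        rw [inv_mul_le_iff₀ (by norm_num)]
        linarith
      split_ifs <;> linarith
    have hcx' : ∀ k, b.coord k (Finset.univ.affineCombination ℝ b w') = w' k := fun k =>
      b.coord_apply_combination_of_mem (Finset.mem_univ k) hw'sum
    refine ⟨Finset.univ.affineCombination ℝ b w', ?_, ?_⟩
    · rw [hKmem]
      intro k
      rw [hcx']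
      exact hw'0 k
    · rw [hKmem]
      intro k
      rw [coord_add_smul_sub, hcx', ← hdk, hw'k]
      have h1 : -d k ≤ max (-d k) 0 := le_max_left _ _
      have h2 : (33 / 35 : ℝ)⁻¹ * N ≤ 1 := by
        rw [inv_mul_le_iff₀ (by norm_num)]
        linarith
      have h3 : 0 ≤ (33 / 35 : ℝ)⁻¹ * (max (-d k) 0 + d k) :=
        mul_nonneg (by norm_num) (by linarith)
      split_ifs <;> linarith
  -- the volume of `H`
  obtain ⟨pairs, hpairs⟩ : ∃ pairs : Finset (Fin 4 × Fin 4),
      pairs = Finset.univ.filter (fun p : Fin 4 × Fin 4 => p.1 < p.2) := ⟨_, rfl⟩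
  have hcard : pairs.card = 6 := by
    rw [hpairs]
    decide
  have hsub : K ⊆ H ∪ ((⋃ j, K ∩ {x | 1 - 2 / 35 < b.coord j x})
      ∪ ⋃ p ∈ pairs, K ∩ {x | b.coord p.1 x < 1 / 35 ∧ b.coord p.2 x < 1 / 35}) := by
    intro x hx
    by_cases h1 : ∀ j, b.coord j x ≤ 33 / 35
    · by_cases h2 : ∀ i j, i = j ∨ 1 / 35 ≤ b.coord i x ∨ 1 / 35 ≤ b.coord j x
      · left
        rw [hHdef]
        exact ⟨hx, h1, h2⟩
      · push Not at h2
        obtain ⟨i, j, hij, hi, hj⟩ := h2
        right
        right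
        rcases lt_or_gt_of_ne hij with h | h
        · refine mem_iUnion₂.mpr ⟨(i, j), ?_, hx, hi, hj⟩
          rw [hpairs]
          exact Finset.mem_filter.mpr ⟨Finset.mem_univ _, h⟩
        · refine mem_iUnion₂.mpr ⟨(j, i), ?_, hx, hj, hi⟩
          rw [hpairs]
          exact Finset.mem_filter.mpr ⟨Finset.mem_univ _, h⟩
    · push Not at h1
      obtain ⟨j, hj⟩ := h1
      right
      left
      refine mem_iUnion.mpr ⟨j, hx, ?_⟩
      show 1 - 2 / 35 < b.coord j x
      linarith
  have hvol : volume K ≤ volume H + ENNReal.ofReal (1256 / 42875) * volume K := by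
    calc volume K
        ≤ volume (H ∪ ((⋃ j, K ∩ {x | 1 - 2 / 35 < b.coord j x})
            ∪ ⋃ p ∈ pairs, K ∩ {x | b.coord p.1 x < 1 / 35 ∧ b.coord p.2 x < 1 / 35})) :=
          measure_mono hsub
      _ ≤ volume H + (∑ j : Fin 4, volume (K ∩ {x | 1 - 2 / 35 < b.coord j x})
            + ∑ p ∈ pairs,
              volume (K ∩ {x | b.coord p.1 x < 1 / 35 ∧ b.coord p.2 x < 1 / 35})) :=
          (measure_union_le _ _).trans (add_le_add le_rfl
            ((measure_union_le _ _).trans (add_le_add (measure_iUnion_fintype_le _ _)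
              (measure_biUnion_finset_le _ _))))
      _ ≤ volume H + (∑ _j : Fin 4, ENNReal.ofReal ((2 / 35) ^ 3) * volume K
            + ∑ _p ∈ pairs, ENNReal.ofReal (6 * (1 / 35) ^ 2 - 6 * (1 / 35) ^ 3) * volume K) := by
          refine add_le_add le_rfl (add_le_add (Finset.sum_le_sum (fun j _ => hcap j))
            (Finset.sum_le_sum (fun p hp => ?_)))
          rw [hpairs] at hp
          exact hwedge p.1 p.2 (Finset.mem_filter.mp hp).2.ne
      _ = volume H + ENNReal.ofReal (1256 / 42875) * volume K := by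
          congr 1
          rw [Finset.sum_const, Finset.sum_const, Finset.card_univ, Fintype.card_fin, hcard,
            nsmul_eq_mul, nsmul_eq_mul, ← mul_assoc, ← mul_assoc, ← add_mul]
          congr 1
          have h4 : ((4 : ℕ) : ENNReal) = ENNReal.ofReal 4 := by simp
          have h6 : ((6 : ℕ) : ENNReal) = ENNReal.ofReal 6 := by simp
          rw [h4, h6, ← ENNReal.ofReal_mul (by norm_num), ← ENNReal.ofReal_mul (by norm_num),
            ← ENNReal.ofReal_add (by norm_num) (by norm_num)]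
          congr 1
          norm_num
  -- measurable hulls of the bases
  obtain ⟨B', hB'⟩ : ∃ B' : ι → Set (ℝ × ℝ), B' = fun i => toMeasurable volume (B i) := ⟨_, rfl⟩
  have hB'm : ∀ i, MeasurableSet (B' i) := fun i => by
    rw [hB']; exact measurableSet_toMeasurable _ _
  have hB'sub : ∀ i, B i ⊆ B' i := fun i => by
    rw [hB']; exact subset_toMeasurable _ _
  have hB'vol : ∀ i, volume (B' i) = volume (B i) := fun i => by
    rw [hB']; exact measure_toMeasurable _
  have hcovH : H ⊆ ⋃ i, H ∩ (fun x : E => (⟪v i, x⟫_ℝ, ⟪w i, x⟫_ℝ)) ⁻¹' B' i := by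
    intro x hx
    obtain ⟨i, hi⟩ := hcov x (hHK hx)
    exact mem_iUnion.mpr ⟨i, hx, hB'sub i hi⟩
  have hpiece : ∀ i, volume (H ∩ (fun x : E => (⟪v i, x⟫_ℝ, ⟪w i, x⟫_ℝ)) ⁻¹' B' i)
      ≤ ENNReal.ofReal (33 / 35) * (3 * volume K * (volume (B i)
          / volume ((fun x : E => (⟪v i, x⟫_ℝ, ⟪w i, x⟫_ℝ)) '' K))) := by
    intro i
    refine (sub_cyl_frame hdim hK hKc hKi hHm hHK (by norm_num) hch (hv i) (hw i) (hvw i)
      (hB'm i)).trans ?_
    refine mul_le_mul_right (mul_le_mul_right (ENNReal.div_le_div_right ?_ _) _) _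
    rw [← hB'vol i]
    exact measure_mono inter_subset_left
  have hsum : volume H ≤ ENNReal.ofReal (33 / 35) * (3 * volume K * ∑ i, volume (B i)
      / volume ((fun x : E => (⟪v i, x⟫_ℝ, ⟪w i, x⟫_ℝ)) '' K)) := by
    calc volume H
        ≤ ∑ i, volume (H ∩ (fun x : E => (⟪v i, x⟫_ℝ, ⟪w i, x⟫_ℝ)) ⁻¹' B' i) :=
          (measure_mono hcovH).trans (measure_iUnion_fintype_le volume _)
      _ ≤ ∑ i, ENNReal.ofReal (33 / 35) * (3 * volume K * (volume (B i)
          / volume ((fun x : E => (⟪v i, x⟫_ℝ, ⟪w i, x⟫_ℝ)) '' K))) :=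
          Finset.sum_le_sum (fun i _ => hpiece i)
      _ = ENNReal.ofReal (33 / 35) * (3 * volume K * ∑ i, volume (B i)
          / volume ((fun x : E => (⟪v i, x⟫_ℝ, ⟪w i, x⟫_ℝ)) '' K)) := by
          rw [← Finset.mul_sum, ← Finset.mul_sum]
  -- conclusion, in real numbers
  by_cases hR : (∑ i, volume (B i)
      / volume ((fun x : E => (⟪v i, x⟫_ℝ, ⟪w i, x⟫_ℝ)) '' K)) = ⊤
  · rw [hR]
    exact le_top
  obtain ⟨R, hRdef⟩ : ∃ R : ENNReal, R = ∑ i, volume (B i)
      / volume ((fun x : E => (⟪v i, x⟫_ℝ, ⟪w i, x⟫_ℝ)) '' K) := ⟨_, rfl⟩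
  rw [← hRdef] at hR hsum ⊢
  have hHt : volume H ≠ ⊤ := ne_top_of_le_ne_top hVt (measure_mono hHK)
  have hVpos : 0 < (volume K).toReal := ENNReal.toReal_pos hV0 hVt
  have h1r := ENNReal.toReal_mono
    (ENNReal.add_ne_top.mpr ⟨hHt, ENNReal.mul_ne_top ENNReal.ofReal_ne_top hVt⟩) hvol
  rw [ENNReal.toReal_add hHt (ENNReal.mul_ne_top ENNReal.ofReal_ne_top hVt), ENNReal.toReal_mul,
    ENNReal.toReal_ofReal (by norm_num)] at h1r
  have h2r := ENNReal.toReal_mono (ENNReal.mul_ne_top ENNReal.ofReal_ne_top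
    (ENNReal.mul_ne_top (ENNReal.mul_ne_top (by norm_num) hVt) hR)) hsum
  rw [ENNReal.toReal_mul, ENNReal.toReal_mul, ENNReal.toReal_mul,
    ENNReal.toReal_ofReal (by norm_num)] at h2r
  have h3 : (3 : ENNReal).toReal = 3 := by simp
  rw [h3] at h2r
  rw [ENNReal.ofReal_le_iff_le_toReal hR]
  by_contra hlt
  push Not at hlt
  nlinarith [mul_pos hVpos (sub_pos.mpr hlt)]

end simplex

end Vale.Agent.Helper11
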