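import Vale.Agent.Helper11.TetraAll

/-!
# Tetrahedra and cylinders whose axes lie in a cone spanned by four edges

Let `T = conv {p 0, p 1, p 2, p 3}` be a tetrahedron in a three-dimensional Euclidean space.  Every
finite covering of `T` by cylinders whose axis directions are nonnegative combinations of the four
edge vectors `p 2 - p 1`, `p 0 - p 3`, `p 1 - p 3`, `p 2 - p 0` has directionwise relative area at
least `1 / 2`.

The proof uses the thin slab `H` of `T` around the median triangle `{coord 2 = coord 3}`: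
`H = {x ∈ T | |coord 2 x - coord 3 x| ≤ ε}`.  It has volume at least `(1 - (1 - ε) ^ 3) |T|`; a
line parallel to an admissible axis direction `d` (with coefficient sum `σ`) meets `H` in a
segment of length at most `2 ε ‖d‖ / σ`, and `T` contains a chord of length `‖d‖ / σ` parallel to
`d`, so the projection of `T` along `d` has area at most `3 σ |T| / ‖d‖`.  Letting `ε` tend to `0`
gives the bound `1 / 2`.
-/

namespace Vale.Agent.Helper11

open Set MeasureTheory
open scoped InnerProductSpace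

section cone

variable {E : Type*} [NormedAddCommGroup E] [InnerProductSpace ℝ E] [FiniteDimensional ℝ E]
  [MeasurableSpace E] [BorelSpace E]

/-- The part of a measurable set inside a cylinder with base `B` has volume at most `δ |B|` if any
two points of the set on a common line parallel to the axis have distance at most `δ`. -/
theorem dir_cyl_frame (hdim : Module.finrank ℝ E = 3) {S : Set E} (hSm : MeasurableSet S)
    {δ : ℝ} {v w : E} (hv : ‖v‖ = 1) (hw : ‖w‖ = 1) (hvw : ⟪v, w⟫_ℝ = 0)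
    (hS : ∀ x ∈ S, ∀ y ∈ S, ⟪v, x⟫_ℝ = ⟪v, y⟫_ℝ → ⟪w, x⟫_ℝ = ⟪w, y⟫_ℝ → dist x y ≤ δ)
    {B : Set (ℝ × ℝ)} (hB : MeasurableSet B) :
    volume (S ∩ (fun x : E => (⟪v, x⟫_ℝ, ⟪w, x⟫_ℝ)) ⁻¹' B) ≤ ENNReal.ofReal δ * volume B := by
  obtain ⟨u, e, hmp, hex, hsq⟩ := exists_frame_equiv_sq hdim hv hw hvw
  have hpre : e ⁻¹' (Prod.fst ⁻¹' B) = (fun x : E => (⟪v, x⟫_ℝ, ⟪w, x⟫_ℝ)) ⁻¹' B := by
    ext x
    simp [hex]
  have hvolC : volume (e '' S ∩ Prod.fst ⁻¹' B)
      = volume (S ∩ (fun x : E => (⟪v, x⟫_ℝ, ⟪w, x⟫_ℝ)) ⁻¹' B) := by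
    rw [← hmp.measure_preimage_equiv, preimage_inter, e.injective.preimage_image, hpre]
  have hSm' : MeasurableSet (e '' S) := (e.measurableSet_image).mpr hSm
  have hpt : ∀ p, volume (fib (e '' S) p) ≤ ENNReal.ofReal δ := by
    intro p
    refine (Real.volume_le_diam _).trans (Metric.ediam_le ?_)
    rintro z ⟨x, hx, hxe⟩ z' ⟨y, hy, hye⟩
    rw [hex] at hxe hye
    have h1 : ⟪v, x⟫_ℝ = ⟪v, y⟫_ℝ :=
      (congrArg (fun q : (ℝ × ℝ) × ℝ => q.1.1) hxe).trans
        (congrArg (fun q : (ℝ × ℝ) × ℝ => q.1.1) hye).symm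
    have h2 : ⟪w, x⟫_ℝ = ⟪w, y⟫_ℝ :=
      (congrArg (fun q : (ℝ × ℝ) × ℝ => q.1.2) hxe).trans
        (congrArg (fun q : (ℝ × ℝ) × ℝ => q.1.2) hye).symm
    have h3 : ⟪u, x⟫_ℝ = z := congrArg Prod.snd hxe
    have h4 : ⟪u, y⟫_ℝ = z' := congrArg Prod.snd hye
    have hn := hsq (x - y)
    rw [inner_sub_right, inner_sub_right, inner_sub_right, h1, h2, h3, h4] at hn
    have hd := hS x hx y hy h1 h2
    rw [dist_eq_norm] at hd
    rw [edist_dist, Real.dist_eq]
    apply ENNReal.ofReal_le_ofReal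
    have h5 : |z - z'| = ‖x - y‖ := by
      have h6 : (z - z') ^ 2 = ‖x - y‖ ^ 2 := by rw [hn]; ring
      have h7 : |z - z'| ^ 2 = ‖x - y‖ ^ 2 := by rw [sq_abs]; exact h6
      exact (sq_eq_sq₀ (abs_nonneg _) (norm_nonneg _)).mp h7
    rw [h5]
    exact hd
  rw [← hvolC, volume_inter_cyl hSm' hB]
  calc ∫⁻ p in B, volume (fib (e '' S) p) ≤ ∫⁻ _ in B, ENNReal.ofReal δ := lintegral_mono hpt
    _ = ENNReal.ofReal δ * volume B := by
        rw [lintegral_const, Measure.restrict_apply MeasurableSet.univ, univ_inter]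

omit [MeasurableSpace E] [BorelSpace E] in
/-- In a three-dimensional space, the vectors orthogonal to an orthonormal pair `(v, w)` are the
multiples of any nonzero one of them. -/
theorem perp_line (hdim : Module.finrank ℝ E = 3) {v w : E} (hv : ‖v‖ = 1) (hw : ‖w‖ = 1)
    (hvw : ⟪v, w⟫_ℝ = 0) {d z : E} (hd : d ≠ 0) (hvd : ⟪v, d⟫_ℝ = 0) (hwd : ⟪w, d⟫_ℝ = 0)
    (hvz : ⟪v, z⟫_ℝ = 0) (hwz : ⟪w, z⟫_ℝ = 0) : ∃ s : ℝ, z = s • d := by
  let _ : MeasurableSpace E := borel E
  have _ : BorelSpace E := ⟨rfl⟩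
  obtain ⟨u, e, -, -, hsq⟩ := exists_frame_equiv_sq hdim hv hw hvw
  have hd2 := hsq d
  rw [hvd, hwd] at hd2
  have hud : ⟪u, d⟫_ℝ ≠ 0 := by
    intro h0
    rw [h0] at hd2
    have h1 : ‖d‖ ^ 2 = 0 := by rw [hd2]; ring
    exact hd (norm_eq_zero.mp ((pow_eq_zero_iff two_ne_zero).mp h1))
  refine ⟨⟪u, z⟫_ℝ / ⟪u, d⟫_ℝ, ?_⟩
  have hz := hsq (z - (⟪u, z⟫_ℝ / ⟪u, d⟫_ℝ) • d)
  simp only [inner_sub_right, inner_smul_right, hvz, hwz, hvd, hwd] at hz
  have h0 : ‖z - (⟪u, z⟫_ℝ / ⟪u, d⟫_ℝ) • d‖ ^ 2 = 0 := by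
    rw [hz]
    field_simp
    ring
  exact sub_eq_zero.mp (norm_eq_zero.mp ((pow_eq_zero_iff (two_ne_zero)).mp h0))

omit [FiniteDimensional ℝ E] [MeasurableSpace E] [BorelSpace E] in
/-- Barycentric coordinates along a line whose direction is a combination of the four edge vectors
`b 2 - b 1`, `b 0 - b 3`, `b 1 - b 3`, `b 2 - b 0`. -/
theorem coord_cone (b : AffineBasis (Fin 4) ℝ E) (α β γ δ : ℝ) (j : Fin 4) (x : E) (s : ℝ) :
    b.coord j (x + s • (α • (b 2 - b 1) + β • (b 0 - b 3) + γ • (b 1 - b 3) + δ • (b 2 - b 0)))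
      = b.coord j x + s * (α * ((if j = 2 then 1 else 0) - (if j = 1 then 1 else 0))
          + β * ((if j = 0 then 1 else 0) - (if j = 3 then 1 else 0))
          + γ * ((if j = 1 then 1 else 0) - (if j = 3 then 1 else 0))
          + δ * ((if j = 2 then 1 else 0) - (if j = 0 then 1 else 0))) := by
  have h1 : x + s • (α • (b 2 - b 1) + β • (b 0 - b 3) + γ • (b 1 - b 3) + δ • (b 2 - b 0))
      = (((x + (s * α) • (b 2 - b 1)) + (s * β) • (b 0 - b 3)) + (s * γ) • (b 1 - b 3))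
        + (s * δ) • (b 2 - b 0) := by
    rw [smul_add, smul_add, smul_add, smul_smul, smul_smul, smul_smul, smul_smul]
    abel
  rw [h1, coord_add_smul, coord_add_smul, coord_add_smul, coord_add_smul]
  ring

/-- The slab of a tetrahedron around a median triangle: the part where two barycentric coordinates
differ by at most `ε` has at least the fraction `1 - (1 - ε) ^ 3` of the volume. -/
theorem slab_volume (hdim : Module.finrank ℝ E = 3) (b : AffineBasis (Fin 4) ℝ E)
    {ε : ℝ} (hε1 : ε < 1) :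
    volume (convexHull ℝ (range b))
      ≤ volume (convexHull ℝ (range b) ∩ {x | |b.coord 2 x - b.coord 3 x| ≤ ε})
        + ENNReal.ofReal ((1 - ε) ^ 3) * volume (convexHull ℝ (range b)) := by
  obtain ⟨K, hKdef⟩ : ∃ K : Set E, K = convexHull ℝ (range b) := ⟨_, rfl⟩
  rw [← hKdef]
  have hKc : IsCompact K := by
    rw [hKdef]
    exact (finite_range b).isCompact_convexHull ℝ
  have hKm : MeasurableSet K := hKc.isClosed.measurableSet
  have hKmem : ∀ x, x ∈ K ↔ ∀ k, 0 ≤ b.coord k x := by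
    intro x
    rw [hKdef, b.convexHull_eq_nonneg_coord]
    rfl
  have h1ε : 0 < 1 - ε := by linarith
  have hc : ∀ k : Fin 4, Continuous fun x : E => b.coord k x := fun k =>
    AffineMap.continuous_of_finiteDimensional _
  obtain ⟨Kp, hKp⟩ : ∃ Kp : Set E, Kp = K ∩ {x | b.coord 3 x < b.coord 2 x} := ⟨_, rfl⟩
  obtain ⟨Kn, hKn⟩ : ∃ Kn : Set E, Kn = K ∩ {x | b.coord 2 x < b.coord 3 x} := ⟨_, rfl⟩
  have hKpm : MeasurableSet Kp := by
    rw [hKp]
    exact hKm.inter (isOpen_lt (hc 3) (hc 2)).measurableSet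
  have hKnm : MeasurableSet Kn := by
    rw [hKn]
    exact hKm.inter (isOpen_lt (hc 2) (hc 3)).measurableSet
  have hdisj : Disjoint Kp Kn := by
    rw [Set.disjoint_left]
    intro x hx hx'
    rw [hKp] at hx
    rw [hKn] at hx'
    have h1 : b.coord 3 x < b.coord 2 x := hx.2
    have h2 : b.coord 2 x < b.coord 3 x := hx'.2
    linarith
  have hunion : volume Kp + volume Kn ≤ volume K := by
    rw [← measure_union hdisj hKnm]
    refine measure_mono (union_subset ?_ ?_)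
    · rw [hKp]; exact inter_subset_left
    · rw [hKn]; exact inter_subset_left
  have hback : ∀ (j : Fin 4) (x : E),
      AffineMap.homothety (b j) (1 - ε) (AffineMap.homothety (b j) ((1 - ε)⁻¹) x) = x := by
    intro j x
    rw [AffineMap.homothety_apply, AffineMap.homothety_apply]
    simp [smul_smul, mul_inv_cancel₀ h1ε.ne']
  have hsub : K ⊆ (K ∩ {x | |b.coord 2 x - b.coord 3 x| ≤ ε})
      ∪ (AffineMap.homothety (b 2) (1 - ε) '' Kp ∪ AffineMap.homothety (b 3) (1 - ε) '' Kn) := by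
    intro x hx
    by_cases hslab : |b.coord 2 x - b.coord 3 x| ≤ ε
    · exact Or.inl ⟨hx, hslab⟩
    right
    have hxk := (hKmem x).mp hx
    rw [abs_le] at hslab
    push Not at hslab
    by_cases hlow : -ε ≤ b.coord 2 x - b.coord 3 x
    · have hhigh := hslab hlow
      left
      refine ⟨AffineMap.homothety (b 2) ((1 - ε)⁻¹) x, ?_, hback 2 x⟩
      have hcoord : ∀ k, b.coord k (AffineMap.homothety (b 2) ((1 - ε)⁻¹) x)
          = (if k = 2 then 1 else 0) + (1 - ε)⁻¹ * (b.coord k x - (if k = 2 then 1 else 0)) := by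
        intro k
        rw [coord_homothety, b.coord_apply]
      rw [hKp]
      refine ⟨(hKmem _).mpr ?_, ?_⟩
      · intro k
        rw [hcoord]
        by_cases hk : k = 2
        · subst hk
          simp only [if_true]
          have h3 := hxk 3
          have e1 : 1 + (1 - ε)⁻¹ * (b.coord 2 x - 1) = (1 - ε)⁻¹ * (b.coord 2 x - ε) := by
            field_simp
            ring
          rw [e1]
          exact mul_nonneg (inv_nonneg.mpr h1ε.le) (by linarith)
        · simp only [if_neg hk]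
          have := hxk k
          have e1 : (0 : ℝ) + (1 - ε)⁻¹ * (b.coord k x - 0) = (1 - ε)⁻¹ * b.coord k x := by ring
          rw [e1]
          exact mul_nonneg (inv_nonneg.mpr h1ε.le) this
      · show b.coord 3 (AffineMap.homothety (b 2) ((1 - ε)⁻¹) x)
          < b.coord 2 (AffineMap.homothety (b 2) ((1 - ε)⁻¹) x)
        rw [hcoord, hcoord]
        have h32 : ¬ ((3 : Fin 4) = 2) := by decide
        simp only [if_neg h32, if_true]
        have e1 : 1 + (1 - ε)⁻¹ * (b.coord 2 x - 1) - ((0 : ℝ) + (1 - ε)⁻¹ * (b.coord 3 x - 0))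
            = (1 - ε)⁻¹ * (b.coord 2 x - b.coord 3 x - ε) := by
          field_simp
          ring
        have e2 : 0 < (1 - ε)⁻¹ * (b.coord 2 x - b.coord 3 x - ε) :=
          mul_pos (inv_pos.mpr h1ε) (by linarith)
        linarith
    · push Not at hlow
      right
      refine ⟨AffineMap.homothety (b 3) ((1 - ε)⁻¹) x, ?_, hback 3 x⟩
      have hcoord : ∀ k, b.coord k (AffineMap.homothety (b 3) ((1 - ε)⁻¹) x)
          = (if k = 3 then 1 else 0) + (1 - ε)⁻¹ * (b.coord k x - (if k = 3 then 1 else 0)) := by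
        intro k
        rw [coord_homothety, b.coord_apply]
      rw [hKn]
      refine ⟨(hKmem _).mpr ?_, ?_⟩
      · intro k
        rw [hcoord]
        by_cases hk : k = 3
        · subst hk
          simp only [if_true]
          have h2 := hxk 2
          have e1 : 1 + (1 - ε)⁻¹ * (b.coord 3 x - 1) = (1 - ε)⁻¹ * (b.coord 3 x - ε) := by
            field_simp
            ring
          rw [e1]
          exact mul_nonneg (inv_nonneg.mpr h1ε.le) (by linarith)
        · simp only [if_neg hk]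
          have := hxk k
          have e1 : (0 : ℝ) + (1 - ε)⁻¹ * (b.coord k x - 0) = (1 - ε)⁻¹ * b.coord k x := by ring
          rw [e1]
          exact mul_nonneg (inv_nonneg.mpr h1ε.le) this
      · show b.coord 2 (AffineMap.homothety (b 3) ((1 - ε)⁻¹) x)
          < b.coord 3 (AffineMap.homothety (b 3) ((1 - ε)⁻¹) x)
        rw [hcoord, hcoord]
        have h23 : ¬ ((2 : Fin 4) = 3) := by decide
        simp only [if_neg h23, if_true]
        have e1 : 1 + (1 - ε)⁻¹ * (b.coord 3 x - 1) - ((0 : ℝ) + (1 - ε)⁻¹ * (b.coord 2 x - 0))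
            = (1 - ε)⁻¹ * (b.coord 3 x - b.coord 2 x - ε) := by
          field_simp
          ring
        have e2 : 0 < (1 - ε)⁻¹ * (b.coord 3 x - b.coord 2 x - ε) :=
          mul_pos (inv_pos.mpr h1ε) (by linarith)
        linarith
  have hscale : ∀ (j : Fin 4) (S : Set E), volume (AffineMap.homothety (b j) (1 - ε) '' S)
      = ENNReal.ofReal ((1 - ε) ^ 3) * volume S := by
    intro j S
    rw [Measure.addHaar_image_homothety, hdim, abs_of_nonneg (by positivity)]
  calc volume K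
      ≤ volume ((K ∩ {x | |b.coord 2 x - b.coord 3 x| ≤ ε})
          ∪ (AffineMap.homothety (b 2) (1 - ε) '' Kp
            ∪ AffineMap.homothety (b 3) (1 - ε) '' Kn)) := measure_mono hsub
    _ ≤ volume (K ∩ {x | |b.coord 2 x - b.coord 3 x| ≤ ε})
          + (volume (AffineMap.homothety (b 2) (1 - ε) '' Kp)
            + volume (AffineMap.homothety (b 3) (1 - ε) '' Kn)) :=
        (measure_union_le _ _).trans (add_le_add le_rfl (measure_union_le _ _))
    _ = volume (K ∩ {x | |b.coord 2 x - b.coord 3 x| ≤ ε})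
          + ENNReal.ofReal ((1 - ε) ^ 3) * (volume Kp + volume Kn) := by
        rw [hscale, hscale, mul_add]
    _ ≤ volume (K ∩ {x | |b.coord 2 x - b.coord 3 x| ≤ ε})
          + ENNReal.ofReal ((1 - ε) ^ 3) * volume K :=
        add_le_add le_rfl (mul_le_mul_right hunion _)

omit [FiniteDimensional ℝ E] [MeasurableSpace E] [BorelSpace E] in
/-- A chord of the tetrahedron parallel to a direction of the cone: it joins a point of the face
opposite to `b 2` to a point of the face opposite to `b 3`. -/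
theorem cone_chord (b : AffineBasis (Fin 4) ℝ E) {α β γ δ : ℝ} (hα : 0 ≤ α) (hβ : 0 ≤ β)
    (hγ : 0 ≤ γ) (hδ : 0 ≤ δ) (hσ : 0 < α + β + γ + δ) :
    ∃ x₁ ∈ convexHull ℝ (range b),
      x₁ + (α + β + γ + δ)⁻¹ • (α • (b 2 - b 1) + β • (b 0 - b 3) + γ • (b 1 - b 3)
        + δ • (b 2 - b 0)) ∈ convexHull ℝ (range b) := by
  obtain ⟨σ, hσdef⟩ : ∃ σ : ℝ, σ = α + β + γ + δ := ⟨_, rfl⟩
  rw [← hσdef] at hσ ⊢
  obtain ⟨w', hw'⟩ : ∃ w' : Fin 4 → ℝ, w' = ![δ / σ, α / σ, 0, (β + γ) / σ] := ⟨_, rfl⟩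
  have hw'sum : ∑ k, w' k = 1 := by
    rw [Fin.sum_univ_four, hw']
    have e : δ / σ + α / σ + 0 + (β + γ) / σ = (α + β + γ + δ) / σ := by ring
    show δ / σ + α / σ + 0 + (β + γ) / σ = 1
    rw [e, ← hσdef, div_self hσ.ne']
  have hcx : ∀ k, b.coord k (Finset.univ.affineCombination ℝ b w') = w' k := fun k =>
    b.coord_apply_combination_of_mem (Finset.mem_univ k) hw'sum
  have h0 : w' 0 = δ / σ := by rw [hw']; rfl
  have h1 : w' 1 = α / σ := by rw [hw']; rfl
  have h2 : w' 2 = 0 := by rw [hw']; rfl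
  have h3 : w' 3 = (β + γ) / σ := by rw [hw']; rfl
  have hσi : 0 ≤ σ⁻¹ := inv_nonneg.mpr hσ.le
  refine ⟨Finset.univ.affineCombination ℝ b w', ?_, ?_⟩
  · rw [b.convexHull_eq_nonneg_coord]
    intro k
    show 0 ≤ b.coord k _
    rw [hcx]
    fin_cases k
    · show 0 ≤ w' 0
      rw [h0]; positivity
    · show 0 ≤ w' 1
      rw [h1]; positivity
    · show 0 ≤ w' 2
      rw [h2]
    · show 0 ≤ w' 3
      rw [h3]; positivity
  · rw [b.convexHull_eq_nonneg_coord]
    intro k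
    show 0 ≤ b.coord k _
    rw [coord_cone, hcx]
    fin_cases k
    · show 0 ≤ w' 0 + σ⁻¹ * (α * ((if (0 : Fin 4) = 2 then 1 else 0) - (if (0 : Fin 4) = 1 then 1 else 0))
          + β * ((if (0 : Fin 4) = 0 then 1 else 0) - (if (0 : Fin 4) = 3 then 1 else 0))
          + γ * ((if (0 : Fin 4) = 1 then 1 else 0) - (if (0 : Fin 4) = 3 then 1 else 0))
          + δ * ((if (0 : Fin 4) = 2 then 1 else 0) - (if (0 : Fin 4) = 0 then 1 else 0)))
      rw [h0]
      have e : δ / σ + σ⁻¹ * (α * ((if (0 : Fin 4) = 2 then 1 else 0) - (if (0 : Fin 4) = 1 then 1 else 0))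
          + β * ((if (0 : Fin 4) = 0 then 1 else 0) - (if (0 : Fin 4) = 3 then 1 else 0))
          + γ * ((if (0 : Fin 4) = 1 then 1 else 0) - (if (0 : Fin 4) = 3 then 1 else 0))
          + δ * ((if (0 : Fin 4) = 2 then 1 else 0) - (if (0 : Fin 4) = 0 then 1 else 0)))
          = σ⁻¹ * β := by
        simp
        ring
      rw [e]
      exact mul_nonneg hσi hβ
    · show 0 ≤ w' 1 + σ⁻¹ * (α * ((if (1 : Fin 4) = 2 then 1 else 0) - (if (1 : Fin 4) = 1 then 1 else 0))
          + β * ((if (1 : Fin 4) = 0 then 1 else 0) - (if (1 : Fin 4) = 3 then 1 else 0))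
          + γ * ((if (1 : Fin 4) = 1 then 1 else 0) - (if (1 : Fin 4) = 3 then 1 else 0))
          + δ * ((if (1 : Fin 4) = 2 then 1 else 0) - (if (1 : Fin 4) = 0 then 1 else 0)))
      rw [h1]
      have e : α / σ + σ⁻¹ * (α * ((if (1 : Fin 4) = 2 then 1 else 0) - (if (1 : Fin 4) = 1 then 1 else 0))
          + β * ((if (1 : Fin 4) = 0 then 1 else 0) - (if (1 : Fin 4) = 3 then 1 else 0))
          + γ * ((if (1 : Fin 4) = 1 then 1 else 0) - (if (1 : Fin 4) = 3 then 1 else 0))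
          + δ * ((if (1 : Fin 4) = 2 then 1 else 0) - (if (1 : Fin 4) = 0 then 1 else 0)))
          = σ⁻¹ * γ := by
        simp
        ring
      rw [e]
      exact mul_nonneg hσi hγ
    · show 0 ≤ w' 2 + σ⁻¹ * (α * ((if (2 : Fin 4) = 2 then 1 else 0) - (if (2 : Fin 4) = 1 then 1 else 0))
          + β * ((if (2 : Fin 4) = 0 then 1 else 0) - (if (2 : Fin 4) = 3 then 1 else 0))
          + γ * ((if (2 : Fin 4) = 1 then 1 else 0) - (if (2 : Fin 4) = 3 then 1 else 0))
          + δ * ((if (2 : Fin 4) = 2 then 1 else 0) - (if (2 : Fin 4) = 0 then 1 else 0)))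
      rw [h2]
      have e : (0 : ℝ) + σ⁻¹ * (α * ((if (2 : Fin 4) = 2 then 1 else 0) - (if (2 : Fin 4) = 1 then 1 else 0))
          + β * ((if (2 : Fin 4) = 0 then 1 else 0) - (if (2 : Fin 4) = 3 then 1 else 0))
          + γ * ((if (2 : Fin 4) = 1 then 1 else 0) - (if (2 : Fin 4) = 3 then 1 else 0))
          + δ * ((if (2 : Fin 4) = 2 then 1 else 0) - (if (2 : Fin 4) = 0 then 1 else 0)))
          = σ⁻¹ * (α + δ) := by
        simp
      rw [e]
      exact mul_nonneg hσi (by linarith)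
    · show 0 ≤ w' 3 + σ⁻¹ * (α * ((if (3 : Fin 4) = 2 then 1 else 0) - (if (3 : Fin 4) = 1 then 1 else 0))
          + β * ((if (3 : Fin 4) = 0 then 1 else 0) - (if (3 : Fin 4) = 3 then 1 else 0))
          + γ * ((if (3 : Fin 4) = 1 then 1 else 0) - (if (3 : Fin 4) = 3 then 1 else 0))
          + δ * ((if (3 : Fin 4) = 2 then 1 else 0) - (if (3 : Fin 4) = 0 then 1 else 0)))
      rw [h3]
      have e : (β + γ) / σ + σ⁻¹ * (α * ((if (3 : Fin 4) = 2 then 1 else 0) - (if (3 : Fin 4) = 1 then 1 else 0))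
          + β * ((if (3 : Fin 4) = 0 then 1 else 0) - (if (3 : Fin 4) = 3 then 1 else 0))
          + γ * ((if (3 : Fin 4) = 1 then 1 else 0) - (if (3 : Fin 4) = 3 then 1 else 0))
          + δ * ((if (3 : Fin 4) = 2 then 1 else 0) - (if (3 : Fin 4) = 0 then 1 else 0)))
          = 0 := by
        simp
        ring
      rw [e]

/-- Every finite covering of a tetrahedron `conv {b 0, b 1, b 2, b 3}` in a three-dimensional
Euclidean space by cylinders whose axis directions are nonnegative combinations of the four edge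
vectors `b 2 - b 1`, `b 0 - b 3`, `b 1 - b 3`, `b 2 - b 0` has directionwise relative area at
least `1 / 2`. -/
theorem tetra_cone (hdim : Module.finrank ℝ E = 3) (b : AffineBasis (Fin 4) ℝ E)
    {ι : Type*} [Fintype ι] (v w : ι → E) (B : ι → Set (ℝ × ℝ))
    (hv : ∀ i, ‖v i‖ = 1) (hw : ∀ i, ‖w i‖ = 1) (hvw : ∀ i, ⟪v i, w i⟫_ℝ = 0)
    (hcone : ∀ i, ∃ α β γ δ : ℝ, 0 ≤ α ∧ 0 ≤ β ∧ 0 ≤ γ ∧ 0 ≤ δ ∧
      α • (b 2 - b 1) + β • (b 0 - b 3) + γ • (b 1 - b 3) + δ • (b 2 - b 0) ≠ 0 ∧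
      ⟪v i, α • (b 2 - b 1) + β • (b 0 - b 3) + γ • (b 1 - b 3) + δ • (b 2 - b 0)⟫_ℝ = 0 ∧
      ⟪w i, α • (b 2 - b 1) + β • (b 0 - b 3) + γ • (b 1 - b 3) + δ • (b 2 - b 0)⟫_ℝ = 0)
    (hcov : ∀ x ∈ convexHull ℝ (range b), ∃ i, (⟪v i, x⟫_ℝ, ⟪w i, x⟫_ℝ) ∈ B i) :
    ENNReal.ofReal (1 / 2) ≤
      ∑ i, volume (B i)
        / volume ((fun x : E => (⟪v i, x⟫_ℝ, ⟪w i, x⟫_ℝ)) '' convexHull ℝ (range b)) := by
  choose α β γ δ hα hβ hγ hδ hd0 hvd hwd using hcone
  obtain ⟨d, hddef⟩ : ∃ d : ι → E, d = fun i => α i • (b 2 - b 1) + β i • (b 0 - b 3)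
      + γ i • (b 1 - b 3) + δ i • (b 2 - b 0) := ⟨_, rfl⟩
  have hdi : ∀ i, d i = α i • (b 2 - b 1) + β i • (b 0 - b 3) + γ i • (b 1 - b 3)
      + δ i • (b 2 - b 0) := fun i => by rw [hddef]
  obtain ⟨σ, hσdef⟩ : ∃ σ : ι → ℝ, σ = fun i => α i + β i + γ i + δ i := ⟨_, rfl⟩
  have hσi : ∀ i, σ i = α i + β i + γ i + δ i := fun i => by rw [hσdef]
  have hσpos : ∀ i, 0 < σ i := by
    intro i
    rw [hσi]
    by_contra hneg
    have h0 : α i = 0 ∧ β i = 0 ∧ γ i = 0 ∧ δ i = 0 := by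
      refine ⟨?_, ?_, ?_, ?_⟩ <;> linarith [hα i, hβ i, hγ i, hδ i]
    apply hd0 i
    rw [h0.1, h0.2.1, h0.2.2.1, h0.2.2.2]
    simp
  have hd0' : ∀ i, d i ≠ 0 := fun i => by rw [hdi]; exact hd0 i
  have hvd' : ∀ i, ⟪v i, d i⟫_ℝ = 0 := fun i => by rw [hdi]; exact hvd i
  have hwd' : ∀ i, ⟪w i, d i⟫_ℝ = 0 := fun i => by rw [hdi]; exact hwd i
  obtain ⟨K, hKdef⟩ : ∃ K : Set E, K = convexHull ℝ (range b) := ⟨_, rfl⟩
  rw [← hKdef] at hcov ⊢
  have hK : Convex ℝ K := by
    rw [hKdef]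
    exact convex_convexHull ℝ _
  have hKc : IsCompact K := by
    rw [hKdef]
    exact (finite_range b).isCompact_convexHull ℝ
  have hKi : (interior K).Nonempty := by
    rw [hKdef]
    exact interior_convexHull_nonempty_iff_affineSpan_eq_top.mpr b.tot
  have hKm : MeasurableSet K := hKc.isClosed.measurableSet
  have hV0 : volume K ≠ 0 :=
    ((isOpen_interior.measure_pos volume hKi).trans_le (measure_mono interior_subset)).ne'
  have hVt : volume K ≠ ⊤ := hKc.measure_lt_top.ne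
  have hc : ∀ k : Fin 4, Continuous fun x : E => b.coord k x := fun k =>
    AffineMap.continuous_of_finiteDimensional _
  -- chords of the tetrahedron parallel to the axes
  have hchord : ∀ i, ENNReal.ofReal ‖(σ i)⁻¹ • d i‖
      * volume ((fun x : E => (⟪v i, x⟫_ℝ, ⟪w i, x⟫_ℝ)) '' K) ≤ 3 * volume K := by
    intro i
    obtain ⟨x₁, hx₁, hx₁'⟩ := cone_chord b (hα i) (hβ i) (hγ i) (hδ i)
      (by rw [← hσi]; exact hσpos i)
    rw [← hσi, ← hdi, ← hKdef] at hx₁'
    rw [← hKdef] at hx₁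
    refine chord_frame hdim hK hKc (hv i) (hw i) (hvw i) ?_ ?_ hx₁ hx₁'
    · rw [inner_smul_right, hvd' i, mul_zero]
    · rw [inner_smul_right, hwd' i, mul_zero]
  -- measurable hulls of the bases
  obtain ⟨B', hB'⟩ : ∃ B' : ι → Set (ℝ × ℝ), B' = fun i => toMeasurable volume (B i) := ⟨_, rfl⟩
  have hB'm : ∀ i, MeasurableSet (B' i) := fun i => by
    rw [hB']; exact measurableSet_toMeasurable _ _
  have hB'sub : ∀ i, B i ⊆ B' i := fun i => by
    rw [hB']; exact subset_toMeasurable _ _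
  have hB'vol : ∀ i, volume (B' i) = volume (B i) := fun i => by
    rw [hB']; exact measure_toMeasurable _
  obtain ⟨R, hRdef⟩ : ∃ R : ENNReal, R = ∑ i, volume (B i)
      / volume ((fun x : E => (⟪v i, x⟫_ℝ, ⟪w i, x⟫_ℝ)) '' K) := ⟨_, rfl⟩
  rw [← hRdef]
  have key : ∀ ε : ℝ, 0 < ε → ε < 1 → volume K
      ≤ ENNReal.ofReal (2 * ε) * (3 * volume K * R) + ENNReal.ofReal ((1 - ε) ^ 3) * volume K := by
    intro ε hε0 hε1
    obtain ⟨H, hHdef⟩ : ∃ H : Set E, H = K ∩ {x | |b.coord 2 x - b.coord 3 x| ≤ ε} := ⟨_, rfl⟩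
    have hHm : MeasurableSet H := by
      rw [hHdef]
      exact hKm.inter (isClosed_le (continuous_abs.comp ((hc 2).sub (hc 3)))
        continuous_const).measurableSet
    have hHK : H ⊆ K := by
      rw [hHdef]
      exact inter_subset_left
    have hslab := slab_volume hdim b hε1
    rw [← hKdef, ← hHdef] at hslab
    have hcovH : H ⊆ ⋃ i, H ∩ (fun x : E => (⟪v i, x⟫_ℝ, ⟪w i, x⟫_ℝ)) ⁻¹' B' i := by
      intro x hx
      obtain ⟨i, hi⟩ := hcov x (hHK hx)
      exact mem_iUnion.mpr ⟨i, hx, hB'sub i hi⟩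
    have hpiece : ∀ i, volume (H ∩ (fun x : E => (⟪v i, x⟫_ℝ, ⟪w i, x⟫_ℝ)) ⁻¹' B' i)
        ≤ ENNReal.ofReal (2 * ε) * (3 * volume K * (volume (B i)
            / volume ((fun x : E => (⟪v i, x⟫_ℝ, ⟪w i, x⟫_ℝ)) '' K))) := by
      intro i
      have hdir : ∀ x ∈ H, ∀ y ∈ H, ⟪v i, x⟫_ℝ = ⟪v i, y⟫_ℝ → ⟪w i, x⟫_ℝ = ⟪w i, y⟫_ℝ →
          dist x y ≤ 2 * ε * ‖(σ i)⁻¹ • d i‖ := by
        intro x hx y hy h1 h2
        obtain ⟨s, hs⟩ := perp_line hdim (hv i) (hw i) (hvw i) (d := d i) (z := y - x) (hd0' i)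
          (hvd' i) (hwd' i) (by rw [inner_sub_right, h1, sub_self])
          (by rw [inner_sub_right, h2, sub_self])
        have hy' : y = x + s • d i := by rw [← hs]; abel
        rw [hHdef] at hx hy
        have hzx : |b.coord 2 x - b.coord 3 x| ≤ ε := hx.2
        have hzy : |b.coord 2 y - b.coord 3 y| ≤ ε := hy.2
        have hz : b.coord 2 y - b.coord 3 y = b.coord 2 x - b.coord 3 x + s * σ i := by
          rw [hy', hdi, coord_cone, coord_cone, hσi]
          simp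
          ring
        have hsσ : |s| * σ i ≤ 2 * ε := by
          rw [abs_le] at hzx hzy
          have h3 : |s * σ i| ≤ 2 * ε := by
            rw [abs_le]
            constructor <;> linarith [hzx.1, hzx.2, hzy.1, hzy.2]
          rwa [abs_mul, abs_of_pos (hσpos i)] at h3
        rw [dist_eq_norm, norm_sub_rev, hs, norm_smul, norm_smul, Real.norm_eq_abs,
          Real.norm_eq_abs, abs_inv, abs_of_pos (hσpos i)]
        have h4 : |s| ≤ 2 * ε * (σ i)⁻¹ := by
          rw [← div_eq_mul_inv, le_div_iff₀ (hσpos i)]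
          exact hsσ
        calc |s| * ‖d i‖ ≤ (2 * ε * (σ i)⁻¹) * ‖d i‖ :=
              mul_le_mul_of_nonneg_right h4 (norm_nonneg _)
          _ = 2 * ε * ((σ i)⁻¹ * ‖d i‖) := by ring
      refine (dir_cyl_frame hdim hHm (hv i) (hw i) (hvw i) hdir (hB'm i)).trans ?_
      rw [hB'vol i]
      have hD0 := frame_volume_ne_zero hKi (hv i) (hw i) (hvw i)
      have hle : ENNReal.ofReal ‖(σ i)⁻¹ • d i‖
          ≤ 3 * volume K / volume ((fun x : E => (⟪v i, x⟫_ℝ, ⟪w i, x⟫_ℝ)) '' K) := by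
        rw [ENNReal.le_div_iff_mul_le (Or.inl hD0)
          (Or.inr (ENNReal.mul_ne_top (by norm_num) hVt))]
        exact hchord i
      rw [ENNReal.ofReal_mul (by positivity)]
      calc ENNReal.ofReal (2 * ε) * ENNReal.ofReal ‖(σ i)⁻¹ • d i‖ * volume (B i)
          ≤ ENNReal.ofReal (2 * ε)
              * (3 * volume K / volume ((fun x : E => (⟪v i, x⟫_ℝ, ⟪w i, x⟫_ℝ)) '' K))
              * volume (B i) := by gcongr
        _ = ENNReal.ofReal (2 * ε) * (3 * volume K * (volume (B i)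
              / volume ((fun x : E => (⟪v i, x⟫_ℝ, ⟪w i, x⟫_ℝ)) '' K))) := by
            rw [div_eq_mul_inv, div_eq_mul_inv]
            ring
    calc volume K ≤ volume H + ENNReal.ofReal ((1 - ε) ^ 3) * volume K := hslab
      _ ≤ ENNReal.ofReal (2 * ε) * (3 * volume K * R)
            + ENNReal.ofReal ((1 - ε) ^ 3) * volume K := by
          refine add_le_add ?_ le_rfl
          calc volume H
              ≤ ∑ i, volume (H ∩ (fun x : E => (⟪v i, x⟫_ℝ, ⟪w i, x⟫_ℝ)) ⁻¹' B' i) :=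
                (measure_mono hcovH).trans (measure_iUnion_fintype_le volume _)
            _ ≤ ∑ i, ENNReal.ofReal (2 * ε) * (3 * volume K * (volume (B i)
                  / volume ((fun x : E => (⟪v i, x⟫_ℝ, ⟪w i, x⟫_ℝ)) '' K))) :=
                Finset.sum_le_sum (fun i _ => hpiece i)
            _ = ENNReal.ofReal (2 * ε) * (3 * volume K * R) := by
                rw [hRdef, ← Finset.mul_sum, ← Finset.mul_sum]
  -- conclusion, in real numbers
  by_cases hR : R = ⊤
  · rw [hR]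
    exact le_top
  have hVpos : 0 < (volume K).toReal := ENNReal.toReal_pos hV0 hVt
  rw [ENNReal.ofReal_le_iff_le_toReal hR]
  by_contra hlt
  push Not at hlt
  obtain ⟨r, hrdef⟩ : ∃ r : ℝ, r = R.toReal := ⟨_, rfl⟩
  rw [← hrdef] at hlt
  have hr0 : 0 ≤ r := by rw [hrdef]; exact ENNReal.toReal_nonneg
  obtain ⟨ε, hεdef⟩ : ∃ ε : ℝ, ε = 1 / 2 - r := ⟨_, rfl⟩
  have hε0 : 0 < ε := by rw [hεdef]; linarith
  have hε1 : ε < 1 := by rw [hεdef]; linarith
  have h1 := key ε hε0 hε1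
  have hfin1 : ENNReal.ofReal (2 * ε) * (3 * volume K * R) ≠ ⊤ :=
    ENNReal.mul_ne_top ENNReal.ofReal_ne_top
      (ENNReal.mul_ne_top (ENNReal.mul_ne_top (by norm_num) hVt) hR)
  have hfin2 : ENNReal.ofReal ((1 - ε) ^ 3) * volume K ≠ ⊤ :=
    ENNReal.mul_ne_top ENNReal.ofReal_ne_top hVt
  have h2 := ENNReal.toReal_mono (ENNReal.add_ne_top.mpr ⟨hfin1, hfin2⟩) h1
  rw [ENNReal.toReal_add hfin1 hfin2, ENNReal.toReal_mul, ENNReal.toReal_mul,
    ENNReal.toReal_mul, ENNReal.toReal_mul, ENNReal.toReal_ofReal (by positivity),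
    ENNReal.toReal_ofReal (by have : 0 < 1 - ε := by linarith
                              positivity), ← hrdef] at h2
  have h3 : (3 : ENNReal).toReal = 3 := by simp
  rw [h3] at h2
  have hr : r = 1 / 2 - ε := by rw [hεdef]; ring
  rw [hr] at h2
  have e : 2 * ε * (3 * (volume K).toReal * (1 / 2 - ε)) + (1 - ε) ^ 3 * (volume K).toReal
      = (volume K).toReal - (3 * ε ^ 2 + ε ^ 3) * (volume K).toReal := by ring
  rw [e] at h2
  have h4 : 0 < (3 * ε ^ 2 + ε ^ 3) * (volume K).toReal := by positivity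
  linarith

end cone

end Vale.Agent.Helper11
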