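import Vale.Agent.Helper11.TetraThree

/-!
# Tetrahedra and cylinders whose axes join two opposite edges

Let `T = conv {p 0, p 1, p 2, p 3}` be a tetrahedron in a three-dimensional Euclidean space.  Every
finite covering of `T` by cylinders whose axis directions are nonnegative combinations of the four
edge vectors `p 0 - p 2`, `p 0 - p 3`, `p 1 - p 2`, `p 1 - p 3` (the directions of the segments
joining a point of the edge `p 2 p 3` to a point of the edge `p 0 p 1`) has directionwise relative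
area at least `1 / 2`.

The proof uses the central octahedron `O` of `T` (all barycentric coordinates at most `1 / 2`),
of volume at least `|T| / 2`, and its thin slab `H` around the parallelogram
`{coord 0 + coord 1 = 1 / 2}`.  The slab has volume at least `(1 - (1 - ε) ^ 3) |O|`; a line
parallel to an admissible axis direction `d` (with coefficient sum `σ`) meets `H` in a segment of
length at most `ε ‖d‖ / σ`, and `T` contains a chord of length `‖d‖ / σ` parallel to `d`.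
-/

namespace Vale.Agent.Helper11

open Set MeasureTheory
open scoped InnerProductSpace

section qcone

variable {E : Type*} [NormedAddCommGroup E] [InnerProductSpace ℝ E] [FiniteDimensional ℝ E]
  [MeasurableSpace E] [BorelSpace E]

omit [FiniteDimensional ℝ E] [MeasurableSpace E] [BorelSpace E] in
/-- Barycentric coordinates along a line whose direction is a combination of the four edge vectors
`b 0 - b 2`, `b 0 - b 3`, `b 1 - b 2`, `b 1 - b 3`. -/
theorem coord_qcone (b : AffineBasis (Fin 4) ℝ E) (α β γ δ : ℝ) (j : Fin 4) (x : E) (s : ℝ) :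
    b.coord j (x + s • (α • (b 0 - b 2) + β • (b 0 - b 3) + γ • (b 1 - b 2) + δ • (b 1 - b 3)))
      = b.coord j x + s * (α * ((if j = 0 then 1 else 0) - (if j = 2 then 1 else 0))
          + β * ((if j = 0 then 1 else 0) - (if j = 3 then 1 else 0))
          + γ * ((if j = 1 then 1 else 0) - (if j = 2 then 1 else 0))
          + δ * ((if j = 1 then 1 else 0) - (if j = 3 then 1 else 0))) := by
  have h1 : x + s • (α • (b 0 - b 2) + β • (b 0 - b 3) + γ • (b 1 - b 2) + δ • (b 1 - b 3))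
      = (((x + (s * α) • (b 0 - b 2)) + (s * β) • (b 0 - b 3)) + (s * γ) • (b 1 - b 2))
        + (s * δ) • (b 1 - b 3) := by
    rw [smul_add, smul_add, smul_add, smul_smul, smul_smul, smul_smul, smul_smul]
    abel
  rw [h1, coord_add_smul, coord_add_smul, coord_add_smul, coord_add_smul]
  ring

theorem hom_lo {ρ ε a : ℝ} (hρpos : 0 < ρ) (hρ : ρ * (1 - ε) = 1) (ha : ε / 2 ≤ a) :
    0 ≤ 1 / 2 + ρ * (a - 1 / 2) := by
  have e : 1 / 2 + ρ * (a - 1 / 2) = ρ * (a - ε / 2) := by linear_combination (-(1 / 2 : ℝ)) * hρ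
  rw [e]
  exact mul_nonneg hρpos.le (by linarith)

theorem hom_hi {ρ a : ℝ} (hρpos : 0 < ρ) (ha : a ≤ 1 / 2) : 1 / 2 + ρ * (a - 1 / 2) ≤ 1 / 2 := by
  have h := mul_nonneg hρpos.le (by linarith : (0 : ℝ) ≤ 1 / 2 - a)
  have e : ρ * (a - 1 / 2) = -(ρ * (1 / 2 - a)) := by ring
  rw [e]
  linarith

theorem hom_top {ρ ε a : ℝ} (hρpos : 0 < ρ) (hρ : ρ * (1 - ε) = 1) (ha : a ≤ (1 - ε) / 2) :
    ρ * a ≤ 1 / 2 := by
  have h := mul_nonneg hρpos.le (by linarith : (0 : ℝ) ≤ (1 - ε) / 2 - a)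
  have e : ρ * ((1 - ε) / 2 - a) = 1 / 2 - ρ * a := by linear_combination (1 / 2 : ℝ) * hρ
  rw [e] at h
  linarith

theorem hom_gt {ρ ε a₀ a₁ : ℝ} (hρpos : 0 < ρ) (hρ : ρ * (1 - ε) = 1)
    (hf : 1 / 2 + ε / 2 < a₀ + a₁) :
    1 / 2 < 1 / 2 + ρ * (a₀ - 1 / 2) + (1 / 2 + ρ * (a₁ - 1 / 2)) := by
  have h := mul_pos hρpos (by linarith : (0 : ℝ) < a₀ + a₁ - 1 / 2 - ε / 2)
  have e : ρ * (a₀ + a₁ - 1 / 2 - ε / 2)
      = 1 / 2 + ρ * (a₀ - 1 / 2) + (1 / 2 + ρ * (a₁ - 1 / 2)) - 1 / 2 := by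
    linear_combination (1 / 2 : ℝ) * hρ
  rw [e] at h
  linarith

theorem hom_lt {ρ ε a₀ a₁ : ℝ} (hρpos : 0 < ρ) (hρ : ρ * (1 - ε) = 1)
    (hf : a₀ + a₁ < 1 / 2 - ε / 2) : ρ * a₀ + ρ * a₁ < 1 / 2 := by
  have h := mul_pos hρpos (by linarith : (0 : ℝ) < (1 - ε) / 2 - a₀ - a₁)
  have e : ρ * ((1 - ε) / 2 - a₀ - a₁) = 1 / 2 - (ρ * a₀ + ρ * a₁) := by
    linear_combination (1 / 2 : ℝ) * hρ
  rw [e] at h
  linarith

/-- The slab of the central octahedron of a tetrahedron around the parallelogram midway between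
two opposite edges. -/
theorem oct_slab_volume (hdim : Module.finrank ℝ E = 3) (b : AffineBasis (Fin 4) ℝ E)
    {ε : ℝ} (hε1 : ε < 1) :
    volume (convexHull ℝ (range b) ∩ {x | ∀ j, b.coord j x ≤ 1 / 2})
      ≤ volume ((convexHull ℝ (range b) ∩ {x | ∀ j, b.coord j x ≤ 1 / 2})
          ∩ {x | |b.coord 0 x + b.coord 1 x - 1 / 2| ≤ ε / 2})
        + ENNReal.ofReal ((1 - ε) ^ 3)
          * volume (convexHull ℝ (range b) ∩ {x | ∀ j, b.coord j x ≤ 1 / 2}) := by
  obtain ⟨O, hOdef⟩ : ∃ O : Set E,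
      O = convexHull ℝ (range b) ∩ {x | ∀ j, b.coord j x ≤ 1 / 2} := ⟨_, rfl⟩
  rw [← hOdef]
  have hc : ∀ k : Fin 4, Continuous fun x : E => b.coord k x := fun k =>
    AffineMap.continuous_of_finiteDimensional _
  have hOmem : ∀ x, x ∈ O ↔ ∀ k, 0 ≤ b.coord k x ∧ b.coord k x ≤ 1 / 2 := by
    intro x
    rw [hOdef, mem_inter_iff, b.convexHull_eq_nonneg_coord]
    constructor
    · rintro ⟨h1, h2⟩ k
      exact ⟨h1 k, h2 k⟩
    · intro h
      exact ⟨fun k => (h k).1, fun k => (h k).2⟩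
  have hOm : MeasurableSet O := by
    have hO' : O = ⋂ k : Fin 4, ({x | 0 ≤ b.coord k x} ∩ {x | b.coord k x ≤ 1 / 2}) := by
      ext x
      rw [hOmem, mem_iInter]
      rfl
    rw [hO']
    exact MeasurableSet.iInter (fun k => ((isClosed_le continuous_const (hc k)).inter
      (isClosed_le (hc k) continuous_const)).measurableSet)
  have hsum : ∀ x : E, b.coord 0 x + b.coord 1 x + b.coord 2 x + b.coord 3 x = 1 := by
    intro x
    have h := b.sum_coord_apply_eq_one x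
    rw [Fin.sum_univ_four] at h
    exact h
  have h1ε : 0 < 1 - ε := by linarith
  obtain ⟨ρ, hρdef⟩ : ∃ ρ : ℝ, ρ = (1 - ε)⁻¹ := ⟨_, rfl⟩
  have hρpos : 0 < ρ := by rw [hρdef]; exact inv_pos.mpr h1ε
  have hρ : ρ * (1 - ε) = 1 := by rw [hρdef]; exact inv_mul_cancel₀ h1ε.ne'
  obtain ⟨Op, hOp⟩ : ∃ Op : Set E, Op = O ∩ {x | 1 / 2 < b.coord 0 x + b.coord 1 x} :=
    ⟨_, rfl⟩
  obtain ⟨On, hOn⟩ : ∃ On : Set E, On = O ∩ {x | b.coord 0 x + b.coord 1 x < 1 / 2} :=
    ⟨_, rfl⟩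
  have hOpm : MeasurableSet Op := by
    rw [hOp]
    exact hOm.inter (isOpen_lt continuous_const ((hc 0).add (hc 1))).measurableSet
  have hOnm : MeasurableSet On := by
    rw [hOn]
    exact hOm.inter (isOpen_lt ((hc 0).add (hc 1)) continuous_const).measurableSet
  have hdisj : Disjoint Op On := by
    rw [Set.disjoint_left]
    intro x hx hx'
    rw [hOp] at hx
    rw [hOn] at hx'
    have h1 : 1 / 2 < b.coord 0 x + b.coord 1 x := hx.2
    have h2 : b.coord 0 x + b.coord 1 x < 1 / 2 := hx'.2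
    linarith
  have hunion : volume Op + volume On ≤ volume O := by
    rw [← measure_union hdisj hOnm]
    refine measure_mono (union_subset ?_ ?_)
    · rw [hOp]; exact inter_subset_left
    · rw [hOn]; exact inter_subset_left
  have hback : ∀ (c x : E),
      AffineMap.homothety c (1 - ε) (AffineMap.homothety c ρ x) = x := by
    intro c x
    rw [AffineMap.homothety_apply, AffineMap.homothety_apply]
    simp [smul_smul, mul_comm, hρ]
  -- the two centres
  obtain ⟨m, hmdef⟩ : ∃ m : E, m = b 0 + (1 / 2 : ℝ) • (b 1 - b 0) := ⟨_, rfl⟩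
  obtain ⟨n, hndef⟩ : ∃ n : E, n = b 2 + (1 / 2 : ℝ) • (b 3 - b 2) := ⟨_, rfl⟩
  have hm0 : b.coord 0 m = 1 / 2 := by
    rw [hmdef, coord_add_smul, b.coord_apply]
    simp
    norm_num
  have hm1 : b.coord 1 m = 1 / 2 := by
    rw [hmdef, coord_add_smul, b.coord_apply]
    simp
  have hm2 : b.coord 2 m = 0 := by
    rw [hmdef, coord_add_smul, b.coord_apply]
    simp
  have hm3 : b.coord 3 m = 0 := by
    rw [hmdef, coord_add_smul, b.coord_apply]
    simp
  have hn0 : b.coord 0 n = 0 := by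
    rw [hndef, coord_add_smul, b.coord_apply]
    simp
  have hn1 : b.coord 1 n = 0 := by
    rw [hndef, coord_add_smul, b.coord_apply]
    simp
  have hn2 : b.coord 2 n = 1 / 2 := by
    rw [hndef, coord_add_smul, b.coord_apply]
    simp
    norm_num
  have hn3 : b.coord 3 n = 1 / 2 := by
    rw [hndef, coord_add_smul, b.coord_apply]
    simp
  have hsub : O ⊆ (O ∩ {x | |b.coord 0 x + b.coord 1 x - 1 / 2| ≤ ε / 2})
      ∪ (AffineMap.homothety m (1 - ε) '' Op ∪ AffineMap.homothety n (1 - ε) '' On) := by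
    intro x hx
    by_cases hslab : |b.coord 0 x + b.coord 1 x - 1 / 2| ≤ ε / 2
    · exact Or.inl ⟨hx, hslab⟩
    right
    have hxk := (hOmem x).mp hx
    have hs := hsum x
    obtain ⟨h0a, h0b⟩ := hxk 0
    obtain ⟨h1a, h1b⟩ := hxk 1
    obtain ⟨h2a, h2b⟩ := hxk 2
    obtain ⟨h3a, h3b⟩ := hxk 3
    rw [abs_le] at hslab
    push Not at hslab
    by_cases hlow : -(ε / 2) ≤ b.coord 0 x + b.coord 1 x - 1 / 2
    · have hhigh := hslab hlow
      left
      refine ⟨AffineMap.homothety m ρ x, ?_, hback m x⟩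
      have hy0 : b.coord 0 (AffineMap.homothety m ρ x) = 1 / 2 + ρ * (b.coord 0 x - 1 / 2) := by
        rw [coord_homothety, hm0]
      have hy1 : b.coord 1 (AffineMap.homothety m ρ x) = 1 / 2 + ρ * (b.coord 1 x - 1 / 2) := by
        rw [coord_homothety, hm1]
      have hy2 : b.coord 2 (AffineMap.homothety m ρ x) = ρ * b.coord 2 x := by
        rw [coord_homothety, hm2]
        ring
      have hy3 : b.coord 3 (AffineMap.homothety m ρ x) = ρ * b.coord 3 x := by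
        rw [coord_homothety, hm3]
        ring
      rw [hOp]
      refine ⟨(hOmem _).mpr ?_, ?_⟩
      · intro k
        fin_cases k
        · show 0 ≤ b.coord 0 (AffineMap.homothety m ρ x)
            ∧ b.coord 0 (AffineMap.homothety m ρ x) ≤ 1 / 2
          rw [hy0]
          constructor
          · exact hom_lo hρpos hρ (by linarith)
          · exact hom_hi hρpos h0b
        · show 0 ≤ b.coord 1 (AffineMap.homothety m ρ x)
            ∧ b.coord 1 (AffineMap.homothety m ρ x) ≤ 1 / 2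
          rw [hy1]
          constructor
          · exact hom_lo hρpos hρ (by linarith)
          · exact hom_hi hρpos h1b
        · show 0 ≤ b.coord 2 (AffineMap.homothety m ρ x)
            ∧ b.coord 2 (AffineMap.homothety m ρ x) ≤ 1 / 2
          rw [hy2]
          constructor
          · exact mul_nonneg hρpos.le h2a
          · exact hom_top hρpos hρ (by linarith)
        · show 0 ≤ b.coord 3 (AffineMap.homothety m ρ x)
            ∧ b.coord 3 (AffineMap.homothety m ρ x) ≤ 1 / 2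
          rw [hy3]
          constructor
          · exact mul_nonneg hρpos.le h3a
          · exact hom_top hρpos hρ (by linarith)
      · show 1 / 2 < b.coord 0 (AffineMap.homothety m ρ x)
          + b.coord 1 (AffineMap.homothety m ρ x)
        rw [hy0, hy1]
        exact hom_gt hρpos hρ (by linarith)
    · push Not at hlow
      right
      refine ⟨AffineMap.homothety n ρ x, ?_, hback n x⟩
      have hy0 : b.coord 0 (AffineMap.homothety n ρ x) = ρ * b.coord 0 x := by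
        rw [coord_homothety, hn0]
        ring
      have hy1 : b.coord 1 (AffineMap.homothety n ρ x) = ρ * b.coord 1 x := by
        rw [coord_homothety, hn1]
        ring
      have hy2 : b.coord 2 (AffineMap.homothety n ρ x) = 1 / 2 + ρ * (b.coord 2 x - 1 / 2) := by
        rw [coord_homothety, hn2]
      have hy3 : b.coord 3 (AffineMap.homothety n ρ x) = 1 / 2 + ρ * (b.coord 3 x - 1 / 2) := by
        rw [coord_homothety, hn3]
      rw [hOn]
      refine ⟨(hOmem _).mpr ?_, ?_⟩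
      · intro k
        fin_cases k
        · show 0 ≤ b.coord 0 (AffineMap.homothety n ρ x)
            ∧ b.coord 0 (AffineMap.homothety n ρ x) ≤ 1 / 2
          rw [hy0]
          constructor
          · exact mul_nonneg hρpos.le h0a
          · exact hom_top hρpos hρ (by linarith)
        · show 0 ≤ b.coord 1 (AffineMap.homothety n ρ x)
            ∧ b.coord 1 (AffineMap.homothety n ρ x) ≤ 1 / 2
          rw [hy1]
          constructor
          · exact mul_nonneg hρpos.le h1a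
          · exact hom_top hρpos hρ (by linarith)
        · show 0 ≤ b.coord 2 (AffineMap.homothety n ρ x)
            ∧ b.coord 2 (AffineMap.homothety n ρ x) ≤ 1 / 2
          rw [hy2]
          constructor
          · exact hom_lo hρpos hρ (by linarith)
          · exact hom_hi hρpos h2b
        · show 0 ≤ b.coord 3 (AffineMap.homothety n ρ x)
            ∧ b.coord 3 (AffineMap.homothety n ρ x) ≤ 1 / 2
          rw [hy3]
          constructor
          · exact hom_lo hρpos hρ (by linarith)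
          · exact hom_hi hρpos h3b
      · show b.coord 0 (AffineMap.homothety n ρ x) + b.coord 1 (AffineMap.homothety n ρ x)
          < 1 / 2
        rw [hy0, hy1]
        exact hom_lt hρpos hρ (by linarith)
  have hscale : ∀ (c : E) (S : Set E), volume (AffineMap.homothety c (1 - ε) '' S)
      = ENNReal.ofReal ((1 - ε) ^ 3) * volume S := by
    intro c S
    rw [Measure.addHaar_image_homothety, hdim, abs_of_nonneg (by positivity)]
  calc volume O
      ≤ volume ((O ∩ {x | |b.coord 0 x + b.coord 1 x - 1 / 2| ≤ ε / 2})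
          ∪ (AffineMap.homothety m (1 - ε) '' Op
            ∪ AffineMap.homothety n (1 - ε) '' On)) := measure_mono hsub
    _ ≤ volume (O ∩ {x | |b.coord 0 x + b.coord 1 x - 1 / 2| ≤ ε / 2})
          + (volume (AffineMap.homothety m (1 - ε) '' Op)
            + volume (AffineMap.homothety n (1 - ε) '' On)) :=
        (measure_union_le _ _).trans (add_le_add le_rfl (measure_union_le _ _))
    _ = volume (O ∩ {x | |b.coord 0 x + b.coord 1 x - 1 / 2| ≤ ε / 2})
          + ENNReal.ofReal ((1 - ε) ^ 3) * (volume Op + volume On) := by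
        rw [hscale, hscale, mul_add]
    _ ≤ volume (O ∩ {x | |b.coord 0 x + b.coord 1 x - 1 / 2| ≤ ε / 2})
          + ENNReal.ofReal ((1 - ε) ^ 3) * volume O :=
        add_le_add le_rfl (mul_le_mul_right hunion _)

omit [FiniteDimensional ℝ E] [MeasurableSpace E] [BorelSpace E] in
/-- A chord of the tetrahedron parallel to a direction of the cone: it joins a point of the edge
`b 2 b 3` to a point of the edge `b 0 b 1`. -/
theorem qcone_chord (b : AffineBasis (Fin 4) ℝ E) {α β γ δ : ℝ} (hα : 0 ≤ α) (hβ : 0 ≤ β)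
    (hγ : 0 ≤ γ) (hδ : 0 ≤ δ) (hσ : 0 < α + β + γ + δ) :
    ∃ x₁ ∈ convexHull ℝ (range b),
      x₁ + (α + β + γ + δ)⁻¹ • (α • (b 0 - b 2) + β • (b 0 - b 3) + γ • (b 1 - b 2)
        + δ • (b 1 - b 3)) ∈ convexHull ℝ (range b) := by
  obtain ⟨σ, hσdef⟩ : ∃ σ : ℝ, σ = α + β + γ + δ := ⟨_, rfl⟩
  rw [← hσdef] at hσ ⊢
  obtain ⟨w', hw'⟩ : ∃ w' : Fin 4 → ℝ, w' = ![0, 0, (α + γ) / σ, (β + δ) / σ] := ⟨_, rfl⟩
  have hw'sum : ∑ k, w' k = 1 := by
    rw [Fin.sum_univ_four, hw']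
    have e : (0 : ℝ) + 0 + (α + γ) / σ + (β + δ) / σ = (α + β + γ + δ) / σ := by ring
    show (0 : ℝ) + 0 + (α + γ) / σ + (β + δ) / σ = 1
    rw [e, ← hσdef, div_self hσ.ne']
  have hcx : ∀ k, b.coord k (Finset.univ.affineCombination ℝ b w') = w' k := fun k =>
    b.coord_apply_combination_of_mem (Finset.mem_univ k) hw'sum
  have h0 : w' 0 = 0 := by rw [hw']; rfl
  have h1 : w' 1 = 0 := by rw [hw']; rfl
  have h2 : w' 2 = (α + γ) / σ := by rw [hw']; rfl
  have h3 : w' 3 = (β + δ) / σ := by rw [hw']; rfl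
  have hσi : 0 ≤ σ⁻¹ := inv_nonneg.mpr hσ.le
  refine ⟨Finset.univ.affineCombination ℝ b w', ?_, ?_⟩
  · rw [b.convexHull_eq_nonneg_coord]
    intro k
    show 0 ≤ b.coord k _
    rw [hcx]
    fin_cases k
    · show 0 ≤ w' 0
      rw [h0]
    · show 0 ≤ w' 1
      rw [h1]
    · show 0 ≤ w' 2
      rw [h2]; positivity
    · show 0 ≤ w' 3
      rw [h3]; positivity
  · rw [b.convexHull_eq_nonneg_coord]
    intro k
    show 0 ≤ b.coord k _
    rw [coord_qcone, hcx]
    fin_cases k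
    · show 0 ≤ w' 0 + σ⁻¹ * (α * ((if (0 : Fin 4) = 0 then 1 else 0) - (if (0 : Fin 4) = 2 then 1 else 0))
          + β * ((if (0 : Fin 4) = 0 then 1 else 0) - (if (0 : Fin 4) = 3 then 1 else 0))
          + γ * ((if (0 : Fin 4) = 1 then 1 else 0) - (if (0 : Fin 4) = 2 then 1 else 0))
          + δ * ((if (0 : Fin 4) = 1 then 1 else 0) - (if (0 : Fin 4) = 3 then 1 else 0)))
      rw [h0]
      have e : (0 : ℝ) + σ⁻¹ * (α * ((if (0 : Fin 4) = 0 then 1 else 0) - (if (0 : Fin 4) = 2 then 1 else 0))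
          + β * ((if (0 : Fin 4) = 0 then 1 else 0) - (if (0 : Fin 4) = 3 then 1 else 0))
          + γ * ((if (0 : Fin 4) = 1 then 1 else 0) - (if (0 : Fin 4) = 2 then 1 else 0))
          + δ * ((if (0 : Fin 4) = 1 then 1 else 0) - (if (0 : Fin 4) = 3 then 1 else 0)))
          = σ⁻¹ * (α + β) := by
        simp
      rw [e]
      exact mul_nonneg hσi (by linarith)
    · show 0 ≤ w' 1 + σ⁻¹ * (α * ((if (1 : Fin 4) = 0 then 1 else 0) - (if (1 : Fin 4) = 2 then 1 else 0))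
          + β * ((if (1 : Fin 4) = 0 then 1 else 0) - (if (1 : Fin 4) = 3 then 1 else 0))
          + γ * ((if (1 : Fin 4) = 1 then 1 else 0) - (if (1 : Fin 4) = 2 then 1 else 0))
          + δ * ((if (1 : Fin 4) = 1 then 1 else 0) - (if (1 : Fin 4) = 3 then 1 else 0)))
      rw [h1]
      have e : (0 : ℝ) + σ⁻¹ * (α * ((if (1 : Fin 4) = 0 then 1 else 0) - (if (1 : Fin 4) = 2 then 1 else 0))
          + β * ((if (1 : Fin 4) = 0 then 1 else 0) - (if (1 : Fin 4) = 3 then 1 else 0))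
          + γ * ((if (1 : Fin 4) = 1 then 1 else 0) - (if (1 : Fin 4) = 2 then 1 else 0))
          + δ * ((if (1 : Fin 4) = 1 then 1 else 0) - (if (1 : Fin 4) = 3 then 1 else 0)))
          = σ⁻¹ * (γ + δ) := by
        simp
      rw [e]
      exact mul_nonneg hσi (by linarith)
    · show 0 ≤ w' 2 + σ⁻¹ * (α * ((if (2 : Fin 4) = 0 then 1 else 0) - (if (2 : Fin 4) = 2 then 1 else 0))
          + β * ((if (2 : Fin 4) = 0 then 1 else 0) - (if (2 : Fin 4) = 3 then 1 else 0))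
          + γ * ((if (2 : Fin 4) = 1 then 1 else 0) - (if (2 : Fin 4) = 2 then 1 else 0))
          + δ * ((if (2 : Fin 4) = 1 then 1 else 0) - (if (2 : Fin 4) = 3 then 1 else 0)))
      rw [h2]
      have e : (α + γ) / σ + σ⁻¹ * (α * ((if (2 : Fin 4) = 0 then 1 else 0) - (if (2 : Fin 4) = 2 then 1 else 0))
          + β * ((if (2 : Fin 4) = 0 then 1 else 0) - (if (2 : Fin 4) = 3 then 1 else 0))
          + γ * ((if (2 : Fin 4) = 1 then 1 else 0) - (if (2 : Fin 4) = 2 then 1 else 0))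
          + δ * ((if (2 : Fin 4) = 1 then 1 else 0) - (if (2 : Fin 4) = 3 then 1 else 0)))
          = 0 := by
        simp
        ring
      rw [e]
    · show 0 ≤ w' 3 + σ⁻¹ * (α * ((if (3 : Fin 4) = 0 then 1 else 0) - (if (3 : Fin 4) = 2 then 1 else 0))
          + β * ((if (3 : Fin 4) = 0 then 1 else 0) - (if (3 : Fin 4) = 3 then 1 else 0))
          + γ * ((if (3 : Fin 4) = 1 then 1 else 0) - (if (3 : Fin 4) = 2 then 1 else 0))
          + δ * ((if (3 : Fin 4) = 1 then 1 else 0) - (if (3 : Fin 4) = 3 then 1 else 0)))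
      rw [h3]
      have e : (β + δ) / σ + σ⁻¹ * (α * ((if (3 : Fin 4) = 0 then 1 else 0) - (if (3 : Fin 4) = 2 then 1 else 0))
          + β * ((if (3 : Fin 4) = 0 then 1 else 0) - (if (3 : Fin 4) = 3 then 1 else 0))
          + γ * ((if (3 : Fin 4) = 1 then 1 else 0) - (if (3 : Fin 4) = 2 then 1 else 0))
          + δ * ((if (3 : Fin 4) = 1 then 1 else 0) - (if (3 : Fin 4) = 3 then 1 else 0)))
          = 0 := by
        simp
        ring
      rw [e]

theorem q_real {V o h c ε r : ℝ} (hc0 : 0 ≤ 1 - c) (h1 : o ≤ h + c * o)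
    (h2 : h ≤ ε * (3 * V * r)) (h3 : V ≤ o + 1 / 2 * V) :
    V ≤ 2 * ε * (3 * V * r) + c * V := by
  have h5 : (1 - c) * (V / 2) ≤ (1 - c) * o := mul_le_mul_of_nonneg_left (by linarith) hc0
  nlinarith [h5]

/-- Every finite covering of a tetrahedron `conv {b 0, b 1, b 2, b 3}` in a three-dimensional
Euclidean space by cylinders whose axis directions are nonnegative combinations of the four edge
vectors `b 0 - b 2`, `b 0 - b 3`, `b 1 - b 2`, `b 1 - b 3` has directionwise relative area at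
least `1 / 2`. -/
theorem tetra_qcone (hdim : Module.finrank ℝ E = 3) (b : AffineBasis (Fin 4) ℝ E)
    {ι : Type*} [Fintype ι] (v w : ι → E) (B : ι → Set (ℝ × ℝ))
    (hv : ∀ i, ‖v i‖ = 1) (hw : ∀ i, ‖w i‖ = 1) (hvw : ∀ i, ⟪v i, w i⟫_ℝ = 0)
    (hcone : ∀ i, ∃ α β γ δ : ℝ, 0 ≤ α ∧ 0 ≤ β ∧ 0 ≤ γ ∧ 0 ≤ δ ∧
      α • (b 0 - b 2) + β • (b 0 - b 3) + γ • (b 1 - b 2) + δ • (b 1 - b 3) ≠ 0 ∧
      ⟪v i, α • (b 0 - b 2) + β • (b 0 - b 3) + γ • (b 1 - b 2) + δ • (b 1 - b 3)⟫_ℝ = 0 ∧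
      ⟪w i, α • (b 0 - b 2) + β • (b 0 - b 3) + γ • (b 1 - b 2) + δ • (b 1 - b 3)⟫_ℝ = 0)
    (hcov : ∀ x ∈ convexHull ℝ (range b), ∃ i, (⟪v i, x⟫_ℝ, ⟪w i, x⟫_ℝ) ∈ B i) :
    ENNReal.ofReal (1 / 2) ≤
      ∑ i, volume (B i)
        / volume ((fun x : E => (⟪v i, x⟫_ℝ, ⟪w i, x⟫_ℝ)) '' convexHull ℝ (range b)) := by
  choose α β γ δ hα hβ hγ hδ hd0 hvd hwd using hcone
  obtain ⟨d, hddef⟩ : ∃ d : ι → E, d = fun i => α i • (b 0 - b 2) + β i • (b 0 - b 3)
      + γ i • (b 1 - b 2) + δ i • (b 1 - b 3) := ⟨_, rfl⟩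
  have hdi : ∀ i, d i = α i • (b 0 - b 2) + β i • (b 0 - b 3) + γ i • (b 1 - b 2)
      + δ i • (b 1 - b 3) := fun i => by rw [hddef]
  obtain ⟨σ, hσdef⟩ : ∃ σ : ι → ℝ, σ = fun i => α i + β i + γ i + δ i := ⟨_, rfl⟩
  have hσi : ∀ i, σ i = α i + β i + γ i + δ i := fun i => by rw [hσdef]
  have hσpos : ∀ i, 0 < σ i := by
    intro i
    rw [hσi]
    by_contra hneg
    have h0 : α i = 0 ∧ β i = 0 ∧ γ i = 0 ∧ δ i = 0 := by
      refine ⟨?_, ?_, ?_, ?_⟩ <;> linarith [hα i, hβ i, hγ i, hδ i]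
    apply hd0 i
    rw [h0.1, h0.2.1, h0.2.2.1, h0.2.2.2]
    simp
  have hd0' : ∀ i, d i ≠ 0 := fun i => by rw [hdi]; exact hd0 i
  have hvd' : ∀ i, ⟪v i, d i⟫_ℝ = 0 := fun i => by rw [hdi]; exact hvd i
  have hwd' : ∀ i, ⟪w i, d i⟫_ℝ = 0 := fun i => by rw [hdi]; exact hwd i
  obtain ⟨K, hKdef⟩ : ∃ K : Set E, K = convexHull ℝ (range b) := ⟨_, rfl⟩
  rw [← hKdef] at hcov ⊢
  have hK : Convex ℝ K := by
    rw [hKdef]
    exact convex_convexHull ℝ _
  have hKc : IsCompact K := by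
    rw [hKdef]
    exact (finite_range b).isCompact_convexHull ℝ
  have hKi : (interior K).Nonempty := by
    rw [hKdef]
    exact interior_convexHull_nonempty_iff_affineSpan_eq_top.mpr b.tot
  have hKm : MeasurableSet K := hKc.isClosed.measurableSet
  have hV0 : volume K ≠ 0 :=
    ((isOpen_interior.measure_pos volume hKi).trans_le (measure_mono interior_subset)).ne'
  have hVt : volume K ≠ ⊤ := hKc.measure_lt_top.ne
  have hc : ∀ k : Fin 4, Continuous fun x : E => b.coord k x := fun k =>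
    AffineMap.continuous_of_finiteDimensional _
  -- chords of the tetrahedron parallel to the axes
  have hchord : ∀ i, ENNReal.ofReal ‖(σ i)⁻¹ • d i‖
      * volume ((fun x : E => (⟪v i, x⟫_ℝ, ⟪w i, x⟫_ℝ)) '' K) ≤ 3 * volume K := by
    intro i
    obtain ⟨x₁, hx₁, hx₁'⟩ := qcone_chord b (hα i) (hβ i) (hγ i) (hδ i)
      (by rw [← hσi]; exact hσpos i)
    rw [← hσi, ← hdi, ← hKdef] at hx₁'
    rw [← hKdef] at hx₁
    refine chord_frame hdim hK hKc (hv i) (hw i) (hvw i) ?_ ?_ hx₁ hx₁'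
    · rw [inner_smul_right, hvd' i, mul_zero]
    · rw [inner_smul_right, hwd' i, mul_zero]
  -- measurable hulls of the bases
  obtain ⟨B', hB'⟩ : ∃ B' : ι → Set (ℝ × ℝ), B' = fun i => toMeasurable volume (B i) := ⟨_, rfl⟩
  have hB'm : ∀ i, MeasurableSet (B' i) := fun i => by
    rw [hB']; exact measurableSet_toMeasurable _ _
  have hB'sub : ∀ i, B i ⊆ B' i := fun i => by
    rw [hB']; exact subset_toMeasurable _ _
  have hB'vol : ∀ i, volume (B' i) = volume (B i) := fun i => by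
    rw [hB']; exact measure_toMeasurable _
  obtain ⟨R, hRdef⟩ : ∃ R : ENNReal, R = ∑ i, volume (B i)
      / volume ((fun x : E => (⟪v i, x⟫_ℝ, ⟪w i, x⟫_ℝ)) '' K) := ⟨_, rfl⟩
  rw [← hRdef]
  by_cases hR : R = ⊤
  · rw [hR]
    exact le_top
  have hVpos : 0 < (volume K).toReal := ENNReal.toReal_pos hV0 hVt
  obtain ⟨r, hrdef⟩ : ∃ r : ℝ, r = R.toReal := ⟨_, rfl⟩
  have hr0 : 0 ≤ r := by rw [hrdef]; exact ENNReal.toReal_nonneg
  have h3 : (3 : ENNReal).toReal = 3 := by simp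
  -- the central octahedron
  obtain ⟨O, hOdef⟩ : ∃ O : Set E, O = K ∩ {x | ∀ j, b.coord j x ≤ 1 / 2} := ⟨_, rfl⟩
  have hOK : O ⊆ K := by
    rw [hOdef]
    exact inter_subset_left
  have hOt : volume O ≠ ⊤ := ne_top_of_le_ne_top hVt (measure_mono hOK)
  have hOm : MeasurableSet O := by
    have h1 : {x : E | ∀ j, b.coord j x ≤ 1 / 2} = ⋂ j : Fin 4, {x | b.coord j x ≤ 1 / 2} := by
      ext x
      simp
    rw [hOdef, h1]
    exact hKm.inter (MeasurableSet.iInter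
      (fun j => (isClosed_le (hc j) continuous_const).measurableSet))
  have hocta : (volume K).toReal ≤ (volume O).toReal + 1 / 2 * (volume K).toReal := by
    have h := tetra_octa hdim b
    rw [← hKdef, ← hOdef] at h
    have hf2 : ENNReal.ofReal (1 / 2) * volume K ≠ ⊤ :=
      ENNReal.mul_ne_top ENNReal.ofReal_ne_top hVt
    have h2 := ENNReal.toReal_mono (ENNReal.add_ne_top.mpr ⟨hOt, hf2⟩) h
    rwa [ENNReal.toReal_add hOt hf2, ENNReal.toReal_mul,
      ENNReal.toReal_ofReal (by norm_num)] at h2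
  have key : ∀ ε : ℝ, 0 < ε → ε < 1 → (volume K).toReal
      ≤ 2 * ε * (3 * (volume K).toReal * r) + (1 - ε) ^ 3 * (volume K).toReal := by
    intro ε hε0 hε1
    obtain ⟨H, hHdef⟩ : ∃ H : Set E,
        H = O ∩ {x | |b.coord 0 x + b.coord 1 x - 1 / 2| ≤ ε / 2} := ⟨_, rfl⟩
    have hHm : MeasurableSet H := by
      rw [hHdef]
      exact hOm.inter (isClosed_le (continuous_abs.comp
        (((hc 0).add (hc 1)).sub continuous_const)) continuous_const).measurableSet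
    have hHO : H ⊆ O := by
      rw [hHdef]
      exact inter_subset_left
    have hHK : H ⊆ K := hHO.trans hOK
    have hHt : volume H ≠ ⊤ := ne_top_of_le_ne_top hVt (measure_mono hHK)
    have hslab := oct_slab_volume hdim b hε1
    rw [← hKdef, ← hOdef, ← hHdef] at hslab
    have hcovH : H ⊆ ⋃ i, H ∩ (fun x : E => (⟪v i, x⟫_ℝ, ⟪w i, x⟫_ℝ)) ⁻¹' B' i := by
      intro x hx
      obtain ⟨i, hi⟩ := hcov x (hHK hx)
      exact mem_iUnion.mpr ⟨i, hx, hB'sub i hi⟩
    have hpiece : ∀ i, volume (H ∩ (fun x : E => (⟪v i, x⟫_ℝ, ⟪w i, x⟫_ℝ)) ⁻¹' B' i)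
        ≤ ENNReal.ofReal ε * (3 * volume K * (volume (B i)
            / volume ((fun x : E => (⟪v i, x⟫_ℝ, ⟪w i, x⟫_ℝ)) '' K))) := by
      intro i
      have hdir : ∀ x ∈ H, ∀ y ∈ H, ⟪v i, x⟫_ℝ = ⟪v i, y⟫_ℝ → ⟪w i, x⟫_ℝ = ⟪w i, y⟫_ℝ →
          dist x y ≤ ε * ‖(σ i)⁻¹ • d i‖ := by
        intro x hx y hy h1 h2
        obtain ⟨s, hs⟩ := perp_line hdim (hv i) (hw i) (hvw i) (d := d i) (z := y - x) (hd0' i)
          (hvd' i) (hwd' i) (by rw [inner_sub_right, h1, sub_self])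
          (by rw [inner_sub_right, h2, sub_self])
        have hy' : y = x + s • d i := by rw [← hs]; abel
        rw [hHdef] at hx hy
        have hzx : |b.coord 0 x + b.coord 1 x - 1 / 2| ≤ ε / 2 := hx.2
        have hzy : |b.coord 0 y + b.coord 1 y - 1 / 2| ≤ ε / 2 := hy.2
        have hz : b.coord 0 y + b.coord 1 y = b.coord 0 x + b.coord 1 x + s * σ i := by
          rw [hy', hdi, coord_qcone, coord_qcone, hσi]
          simp
          ring
        have hsσ : |s| * σ i ≤ ε := by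
          rw [abs_le] at hzx hzy
          have h3 : |s * σ i| ≤ ε := by
            rw [abs_le]
            constructor <;> linarith [hzx.1, hzx.2, hzy.1, hzy.2]
          rwa [abs_mul, abs_of_pos (hσpos i)] at h3
        rw [dist_eq_norm, norm_sub_rev, hs, norm_smul, norm_smul, Real.norm_eq_abs,
          Real.norm_eq_abs, abs_inv, abs_of_pos (hσpos i)]
        have h4 : |s| ≤ ε * (σ i)⁻¹ := by
          rw [← div_eq_mul_inv, le_div_iff₀ (hσpos i)]
          exact hsσ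
        calc |s| * ‖d i‖ ≤ (ε * (σ i)⁻¹) * ‖d i‖ :=
              mul_le_mul_of_nonneg_right h4 (norm_nonneg _)
          _ = ε * ((σ i)⁻¹ * ‖d i‖) := by ring
      refine (dir_cyl_frame hdim hHm (hv i) (hw i) (hvw i) hdir (hB'm i)).trans ?_
      rw [hB'vol i]
      have hD0 := frame_volume_ne_zero hKi (hv i) (hw i) (hvw i)
      have hle : ENNReal.ofReal ‖(σ i)⁻¹ • d i‖
          ≤ 3 * volume K / volume ((fun x : E => (⟪v i, x⟫_ℝ, ⟪w i, x⟫_ℝ)) '' K) := by
        rw [ENNReal.le_div_iff_mul_le (Or.inl hD0)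
          (Or.inr (ENNReal.mul_ne_top (by norm_num) hVt))]
        exact hchord i
      rw [ENNReal.ofReal_mul hε0.le]
      calc ENNReal.ofReal ε * ENNReal.ofReal ‖(σ i)⁻¹ • d i‖ * volume (B i)
          ≤ ENNReal.ofReal ε
              * (3 * volume K / volume ((fun x : E => (⟪v i, x⟫_ℝ, ⟪w i, x⟫_ℝ)) '' K))
              * volume (B i) := by gcongr
        _ = ENNReal.ofReal ε * (3 * volume K * (volume (B i)
              / volume ((fun x : E => (⟪v i, x⟫_ℝ, ⟪w i, x⟫_ℝ)) '' K))) := by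
            rw [div_eq_mul_inv, div_eq_mul_inv]
            ring
    have hH : volume H ≤ ENNReal.ofReal ε * (3 * volume K * R) := by
      calc volume H
          ≤ ∑ i, volume (H ∩ (fun x : E => (⟪v i, x⟫_ℝ, ⟪w i, x⟫_ℝ)) ⁻¹' B' i) :=
            (measure_mono hcovH).trans (measure_iUnion_fintype_le volume _)
        _ ≤ ∑ i, ENNReal.ofReal ε * (3 * volume K * (volume (B i)
              / volume ((fun x : E => (⟪v i, x⟫_ℝ, ⟪w i, x⟫_ℝ)) '' K))) :=
            Finset.sum_le_sum (fun i _ => hpiece i)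
        _ = ENNReal.ofReal ε * (3 * volume K * R) := by
            rw [hRdef, ← Finset.mul_sum, ← Finset.mul_sum]
    have hfin : ENNReal.ofReal ε * (3 * volume K * R) ≠ ⊤ :=
      ENNReal.mul_ne_top ENNReal.ofReal_ne_top
        (ENNReal.mul_ne_top (ENNReal.mul_ne_top (by norm_num) hVt) hR)
    have hHr : (volume H).toReal ≤ ε * (3 * (volume K).toReal * r) := by
      have h2 := ENNReal.toReal_mono hfin hH
      rwa [ENNReal.toReal_mul, ENNReal.toReal_mul, ENNReal.toReal_mul,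
        ENNReal.toReal_ofReal hε0.le, ← hrdef, h3] at h2
    have h1ε : 0 < 1 - ε := by linarith
    have hslabr : (volume O).toReal
        ≤ (volume H).toReal + (1 - ε) ^ 3 * (volume O).toReal := by
      have hf2 : ENNReal.ofReal ((1 - ε) ^ 3) * volume O ≠ ⊤ :=
        ENNReal.mul_ne_top ENNReal.ofReal_ne_top hOt
      have h2 := ENNReal.toReal_mono (ENNReal.add_ne_top.mpr ⟨hHt, hf2⟩) hslab
      rwa [ENNReal.toReal_add hHt hf2, ENNReal.toReal_mul,
        ENNReal.toReal_ofReal (by positivity)] at h2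
    have hc3 : 0 ≤ 1 - (1 - ε) ^ 3 := by
      have h5 : (1 - ε) ^ 3 ≤ 1 := pow_le_one₀ h1ε.le (by linarith)
      linarith
    exact q_real hc3 hslabr hHr hocta
  -- conclusion
  rw [ENNReal.ofReal_le_iff_le_toReal hR]
  by_contra hlt
  push Not at hlt
  rw [← hrdef] at hlt
  obtain ⟨ε, hεdef⟩ : ∃ ε : ℝ, ε = 1 / 2 - r := ⟨_, rfl⟩
  have hε0 : 0 < ε := by rw [hεdef]; linarith
  have hε1 : ε < 1 := by rw [hεdef]; linarith
  have h2 := key ε hε0 hε1
  have hr : r = 1 / 2 - ε := by rw [hεdef]; ring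
  rw [hr] at h2
  have e : 2 * ε * (3 * (volume K).toReal * (1 / 2 - ε)) + (1 - ε) ^ 3 * (volume K).toReal
      = (volume K).toReal - (3 * ε ^ 2 + ε ^ 3) * (volume K).toReal := by ring
  rw [e] at h2
  have h4 : 0 < (3 * ε ^ 2 + ε ^ 3) * (volume K).toReal := by positivity
  linarith

end qcone

section cycle

variable {E : Type*} [NormedAddCommGroup E] [InnerProductSpace ℝ E] [FiniteDimensional ℝ E]
  [MeasurableSpace E] [BorelSpace E]

/-- `tetra_cone` for the tetrahedron relabelled by exchanging `0, 1` with `2, 3`: the cone spanned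
by `b 0 - b 3`, `b 2 - b 1`, `b 3 - b 1`, `b 0 - b 2`. -/
theorem tetra_cone_swap (hdim : Module.finrank ℝ E = 3) (b : AffineBasis (Fin 4) ℝ E)
    {ι : Type*} [Fintype ι] (v w : ι → E) (B : ι → Set (ℝ × ℝ))
    (hv : ∀ i, ‖v i‖ = 1) (hw : ∀ i, ‖w i‖ = 1) (hvw : ∀ i, ⟪v i, w i⟫_ℝ = 0)
    (hcone : ∀ i, ∃ α β γ δ : ℝ, 0 ≤ α ∧ 0 ≤ β ∧ 0 ≤ γ ∧ 0 ≤ δ ∧
      α • (b 0 - b 3) + β • (b 2 - b 1) + γ • (b 3 - b 1) + δ • (b 0 - b 2) ≠ 0 ∧
      ⟪v i, α • (b 0 - b 3) + β • (b 2 - b 1) + γ • (b 3 - b 1) + δ • (b 0 - b 2)⟫_ℝ = 0 ∧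
      ⟪w i, α • (b 0 - b 3) + β • (b 2 - b 1) + γ • (b 3 - b 1) + δ • (b 0 - b 2)⟫_ℝ = 0)
    (hcov : ∀ x ∈ convexHull ℝ (range b), ∃ i, (⟪v i, x⟫_ℝ, ⟪w i, x⟫_ℝ) ∈ B i) :
    ENNReal.ofReal (1 / 2) ≤
      ∑ i, volume (B i)
        / volume ((fun x : E => (⟪v i, x⟫_ℝ, ⟪w i, x⟫_ℝ)) '' convexHull ℝ (range b)) :=
  tetra_cone_perm hdim b ![2, 3, 0, 1] (by decide) v w B hv hw hvw (fun i => hcone i) hcov

/-- Coefficients of a vector of the cone of `tetra_qcone`. -/
theorem qcone_coeff (L : Fin 4 → ℝ) (hsum : L 0 + L 1 + L 2 + L 3 = 0)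
    (h0 : 0 ≤ L 0) (h1 : 0 ≤ L 1) (h2 : L 2 ≤ 0) (h3 : L 3 ≤ 0) :
    ∃ α β γ δ : ℝ, 0 ≤ α ∧ 0 ≤ β ∧ 0 ≤ γ ∧ 0 ≤ δ ∧
      ∀ j : Fin 4, α * ((if j = 0 then 1 else 0) - (if j = 2 then 1 else 0))
          + β * ((if j = 0 then 1 else 0) - (if j = 3 then 1 else 0))
          + γ * ((if j = 1 then 1 else 0) - (if j = 2 then 1 else 0))
          + δ * ((if j = 1 then 1 else 0) - (if j = 3 then 1 else 0)) = L j := by
  obtain ⟨α, hα⟩ : ∃ α : ℝ, α = min (L 0) (-L 2) := ⟨_, rfl⟩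
  have hα0 : 0 ≤ α := by rw [hα]; exact le_min h0 (by linarith)
  have hα1 : α ≤ L 0 := by rw [hα]; exact min_le_left _ _
  have hα2 : α ≤ -L 2 := by rw [hα]; exact min_le_right _ _
  have hα3 : 0 ≤ L 1 + L 2 + α := by
    rw [hα]
    rcases le_total (L 0) (-L 2) with h | h
    · rw [min_eq_left h]; linarith
    · rw [min_eq_right h]; linarith
  refine ⟨α, L 0 - α, -L 2 - α, L 1 + L 2 + α, hα0, by linarith, by linarith, hα3, ?_⟩
  intro j
  fin_cases j <;> (simp; try linarith)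

/-- Coefficients of a vector of the cone of `tetra_cone`. -/
theorem gcone_coeff (L : Fin 4 → ℝ) (hsum : L 0 + L 1 + L 2 + L 3 = 0)
    (h2 : 0 ≤ L 2) (h3 : L 3 ≤ 0) (h02 : 0 ≤ L 0 + L 2) (h12 : 0 ≤ L 1 + L 2) :
    ∃ α β γ δ : ℝ, 0 ≤ α ∧ 0 ≤ β ∧ 0 ≤ γ ∧ 0 ≤ δ ∧
      ∀ j : Fin 4, α * ((if j = 2 then 1 else 0) - (if j = 1 then 1 else 0))
          + β * ((if j = 0 then 1 else 0) - (if j = 3 then 1 else 0))
          + γ * ((if j = 1 then 1 else 0) - (if j = 3 then 1 else 0))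
          + δ * ((if j = 2 then 1 else 0) - (if j = 0 then 1 else 0)) = L j := by
  obtain ⟨δ, hδ⟩ : ∃ δ : ℝ, δ = max 0 (-L 0) := ⟨_, rfl⟩
  have hδ0 : 0 ≤ δ := by rw [hδ]; exact le_max_left _ _
  have hδ1 : -L 0 ≤ δ := by rw [hδ]; exact le_max_right _ _
  have hδ2 : δ ≤ L 2 := by rw [hδ]; exact max_le h2 (by linarith)
  have hδ3 : δ ≤ L 1 + L 2 := by rw [hδ]; exact max_le h12 (by linarith)
  refine ⟨L 2 - δ, L 0 + δ, L 1 + L 2 - δ, δ, by linarith, by linarith, by linarith, hδ0, ?_⟩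
  intro j
  fin_cases j <;> (simp; try linarith)

/-- Coefficients of a vector of the cone of `tetra_cone_swap`. -/
theorem gcone_coeff_swap (L : Fin 4 → ℝ) (hsum : L 0 + L 1 + L 2 + L 3 = 0)
    (h0 : 0 ≤ L 0) (h1 : L 1 ≤ 0) (h20 : 0 ≤ L 2 + L 0) (h30 : 0 ≤ L 3 + L 0) :
    ∃ α β γ δ : ℝ, 0 ≤ α ∧ 0 ≤ β ∧ 0 ≤ γ ∧ 0 ≤ δ ∧
      ∀ j : Fin 4, α * ((if j = 0 then 1 else 0) - (if j = 3 then 1 else 0))
          + β * ((if j = 2 then 1 else 0) - (if j = 1 then 1 else 0))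
          + γ * ((if j = 3 then 1 else 0) - (if j = 1 then 1 else 0))
          + δ * ((if j = 0 then 1 else 0) - (if j = 2 then 1 else 0)) = L j := by
  obtain ⟨δ, hδ⟩ : ∃ δ : ℝ, δ = max 0 (-L 2) := ⟨_, rfl⟩
  have hδ0 : 0 ≤ δ := by rw [hδ]; exact le_max_left _ _
  have hδ1 : -L 2 ≤ δ := by rw [hδ]; exact le_max_right _ _
  have hδ2 : δ ≤ L 0 := by rw [hδ]; exact max_le h0 (by linarith)
  have hδ3 : δ ≤ L 3 + L 0 := by rw [hδ]; exact max_le h30 (by linarith)
  refine ⟨L 0 - δ, L 2 + δ, L 3 + L 0 - δ, δ, by linarith, by linarith, by linarith, hδ0, ?_⟩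
  intro j
  fin_cases j <;> (simp; try linarith)

omit [FiniteDimensional ℝ E] [MeasurableSpace E] [BorelSpace E] in
/-- Barycentric coordinates along a line whose direction is a combination of the four edge vectors
`b 0 - b 3`, `b 2 - b 1`, `b 3 - b 1`, `b 0 - b 2`. -/
theorem coord_cone_swap (b : AffineBasis (Fin 4) ℝ E) (α β γ δ : ℝ) (j : Fin 4) (x : E) (s : ℝ) :
    b.coord j (x + s • (α • (b 0 - b 3) + β • (b 2 - b 1) + γ • (b 3 - b 1) + δ • (b 0 - b 2)))
      = b.coord j x + s * (α * ((if j = 0 then 1 else 0) - (if j = 3 then 1 else 0))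
          + β * ((if j = 2 then 1 else 0) - (if j = 1 then 1 else 0))
          + γ * ((if j = 3 then 1 else 0) - (if j = 1 then 1 else 0))
          + δ * ((if j = 0 then 1 else 0) - (if j = 2 then 1 else 0))) := by
  have h1 : x + s • (α • (b 0 - b 3) + β • (b 2 - b 1) + γ • (b 3 - b 1) + δ • (b 0 - b 2))
      = (((x + (s * α) • (b 0 - b 3)) + (s * β) • (b 2 - b 1)) + (s * γ) • (b 3 - b 1))
        + (s * δ) • (b 0 - b 2) := by
    rw [smul_add, smul_add, smul_add, smul_smul, smul_smul, smul_smul, smul_smul]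
    abel
  rw [h1, coord_add_smul, coord_add_smul, coord_add_smul, coord_add_smul]
  ring

/-- The six sign patterns of the barycentric increments of a vector: the three cones attached to
a pair of opposite edges, and their negatives, cover all directions. -/
theorem six_cases {l0 l1 l2 l3 : ℝ} (hsum : l0 + l1 + l2 + l3 = 0) :
    (0 ≤ l0 ∧ 0 ≤ l1 ∧ l2 ≤ 0 ∧ l3 ≤ 0) ∨ (l0 ≤ 0 ∧ l1 ≤ 0 ∧ 0 ≤ l2 ∧ 0 ≤ l3)
    ∨ (0 ≤ l2 ∧ l3 ≤ 0 ∧ 0 ≤ l0 + l2 ∧ 0 ≤ l1 + l2)
    ∨ (l2 ≤ 0 ∧ 0 ≤ l3 ∧ l0 + l2 ≤ 0 ∧ l1 + l2 ≤ 0)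
    ∨ (0 ≤ l0 ∧ l1 ≤ 0 ∧ 0 ≤ l2 + l0 ∧ 0 ≤ l3 + l0)
    ∨ (l0 ≤ 0 ∧ 0 ≤ l1 ∧ l2 + l0 ≤ 0 ∧ l3 + l0 ≤ 0) := by
  rcases le_total 0 l0 with a | a <;> rcases le_total 0 l1 with b | b <;>
  rcases le_total 0 l2 with c | c <;> rcases le_total 0 l3 with d | d <;>
  rcases le_total 0 (l0 + l2) with e | e <;> rcases le_total 0 (l1 + l2) with f | f <;>
  first
    | exact Or.inl ⟨by linarith, by linarith, by linarith, by linarith⟩
    | exact Or.inr (Or.inl ⟨by linarith, by linarith, by linarith, by linarith⟩)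
    | exact Or.inr (Or.inr (Or.inl ⟨by linarith, by linarith, by linarith, by linarith⟩))
    | exact Or.inr (Or.inr (Or.inr (Or.inl
        ⟨by linarith, by linarith, by linarith, by linarith⟩)))
    | exact Or.inr (Or.inr (Or.inr (Or.inr (Or.inl
        ⟨by linarith, by linarith, by linarith, by linarith⟩))))
    | exact Or.inr (Or.inr (Or.inr (Or.inr (Or.inr
        ⟨by linarith, by linarith, by linarith, by linarith⟩))))

omit [FiniteDimensional ℝ E] [MeasurableSpace E] [BorelSpace E] in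
/-- An axis direction `a` that is, up to a nonzero factor, a nonnegative combination of four
vectors satisfies the cone condition for these vectors. -/
theorem cone_transfer {g₁ g₂ g₃ g₄ v w a : E} (ha : a ≠ 0) (hva : ⟪v, a⟫_ℝ = 0)
    (hwa : ⟪w, a⟫_ℝ = 0) {s α β γ δ : ℝ} (hs : s ≠ 0) (hα : 0 ≤ α) (hβ : 0 ≤ β) (hγ : 0 ≤ γ)
    (hδ : 0 ≤ δ) (hcomb : α • g₁ + β • g₂ + γ • g₃ + δ • g₄ = s • a) :
    ∃ α β γ δ : ℝ, 0 ≤ α ∧ 0 ≤ β ∧ 0 ≤ γ ∧ 0 ≤ δ ∧
      α • g₁ + β • g₂ + γ • g₃ + δ • g₄ ≠ 0 ∧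
      ⟪v, α • g₁ + β • g₂ + γ • g₃ + δ • g₄⟫_ℝ = 0 ∧
      ⟪w, α • g₁ + β • g₂ + γ • g₃ + δ • g₄⟫_ℝ = 0 :=
  ⟨α, β, γ, δ, hα, hβ, hγ, hδ, by rw [hcomb]; exact smul_ne_zero hs ha,
    by rw [hcomb, inner_smul_right, hva, mul_zero],
    by rw [hcomb, inner_smul_right, hwa, mul_zero]⟩

/-- Every finite covering of a tetrahedron `conv {b 0, b 1, b 2, b 3}` in a three-dimensional
Euclidean space by cylinders whose axes are parallel to one of the four edges `b 0 b 2`, `b 0 b 3`,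
`b 1 b 2`, `b 1 b 3` (all edges except the opposite pair `b 0 b 1`, `b 2 b 3`) or to one further
nonzero vector `c` has directionwise relative area at least `1 / 2`. -/
theorem tetra_cycle (hdim : Module.finrank ℝ E = 3) (b : AffineBasis (Fin 4) ℝ E)
    {ι : Type*} [Fintype ι] (v w : ι → E) (B : ι → Set (ℝ × ℝ))
    (hv : ∀ i, ‖v i‖ = 1) (hw : ∀ i, ‖w i‖ = 1) (hvw : ∀ i, ⟪v i, w i⟫_ℝ = 0)
    (c : E) (hc : c ≠ 0)
    (hax : ∀ i, (⟪v i, b 0 - b 2⟫_ℝ = 0 ∧ ⟪w i, b 0 - b 2⟫_ℝ = 0)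
      ∨ (⟪v i, b 0 - b 3⟫_ℝ = 0 ∧ ⟪w i, b 0 - b 3⟫_ℝ = 0)
      ∨ (⟪v i, b 1 - b 2⟫_ℝ = 0 ∧ ⟪w i, b 1 - b 2⟫_ℝ = 0)
      ∨ (⟪v i, b 1 - b 3⟫_ℝ = 0 ∧ ⟪w i, b 1 - b 3⟫_ℝ = 0)
      ∨ (⟪v i, c⟫_ℝ = 0 ∧ ⟪w i, c⟫_ℝ = 0))
    (hcov : ∀ x ∈ convexHull ℝ (range b), ∃ i, (⟪v i, x⟫_ℝ, ⟪w i, x⟫_ℝ) ∈ B i) :
    ENNReal.ofReal (1 / 2) ≤
      ∑ i, volume (B i)
        / volume ((fun x : E => (⟪v i, x⟫_ℝ, ⟪w i, x⟫_ℝ)) '' convexHull ℝ (range b)) := by
  obtain ⟨l, hl⟩ : ∃ l : Fin 4 → ℝ, l = fun j => b.coord j (b 0 + c) - b.coord j (b 0) :=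
    ⟨_, rfl⟩
  have hlj : ∀ j, l j = b.coord j (b 0 + c) - b.coord j (b 0) := fun j => by rw [hl]
  have hsum : l 0 + l 1 + l 2 + l 3 = 0 := by
    have h1 : ∑ j, l j = ∑ j, b.coord j (b 0 + c) - ∑ j, b.coord j (b 0) := by
      rw [← Finset.sum_sub_distrib]
      exact Finset.sum_congr rfl (fun j _ => hlj j)
    rw [b.sum_coord_apply_eq_one, b.sum_coord_apply_eq_one, Fin.sum_univ_four] at h1
    linarith
  have hne02 : b 0 - b 2 ≠ 0 := sub_ne_zero.mpr (b.ind.injective.ne (by decide))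
  have hne03 : b 0 - b 3 ≠ 0 := sub_ne_zero.mpr (b.ind.injective.ne (by decide))
  have hne12 : b 1 - b 2 ≠ 0 := sub_ne_zero.mpr (b.ind.injective.ne (by decide))
  have hne13 : b 1 - b 3 ≠ 0 := sub_ne_zero.mpr (b.ind.injective.ne (by decide))
  -- the coordinates of `b 0 + sgn • c`
  have hcc : ∀ (sgn : ℝ) (j : Fin 4), b.coord j (b 0 + sgn • c) = b.coord j (b 0) + sgn * l j := by
    intro sgn j
    have h2 : b 0 + sgn • c = b 0 + sgn • ((b 0 + c) - b 0) := by
      rw [add_sub_cancel_left]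
    rw [h2, coord_add_smul_sub, hlj j]
  have hvecQ : ∀ (sgn α β γ δ : ℝ),
      (∀ j : Fin 4, α * ((if j = 0 then 1 else 0) - (if j = 2 then 1 else 0))
          + β * ((if j = 0 then 1 else 0) - (if j = 3 then 1 else 0))
          + γ * ((if j = 1 then 1 else 0) - (if j = 2 then 1 else 0))
          + δ * ((if j = 1 then 1 else 0) - (if j = 3 then 1 else 0)) = sgn * l j) →
      α • (b 0 - b 2) + β • (b 0 - b 3) + γ • (b 1 - b 2) + δ • (b 1 - b 3) = sgn • c := by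
    intro sgn α β γ δ hcoef
    have h1 : b 0 + (1 : ℝ) • (α • (b 0 - b 2) + β • (b 0 - b 3) + γ • (b 1 - b 2)
        + δ • (b 1 - b 3)) = b 0 + sgn • c := by
      apply b.ext_elem
      intro j
      rw [coord_qcone, hcoef j, hcc]
      ring
    rw [one_smul] at h1
    exact add_left_cancel h1
  have hvecG : ∀ (sgn α β γ δ : ℝ),
      (∀ j : Fin 4, α * ((if j = 2 then 1 else 0) - (if j = 1 then 1 else 0))
          + β * ((if j = 0 then 1 else 0) - (if j = 3 then 1 else 0))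
          + γ * ((if j = 1 then 1 else 0) - (if j = 3 then 1 else 0))
          + δ * ((if j = 2 then 1 else 0) - (if j = 0 then 1 else 0)) = sgn * l j) →
      α • (b 2 - b 1) + β • (b 0 - b 3) + γ • (b 1 - b 3) + δ • (b 2 - b 0) = sgn • c := by
    intro sgn α β γ δ hcoef
    have h1 : b 0 + (1 : ℝ) • (α • (b 2 - b 1) + β • (b 0 - b 3) + γ • (b 1 - b 3)
        + δ • (b 2 - b 0)) = b 0 + sgn • c := by
      apply b.ext_elem
      intro j
      rw [coord_cone, hcoef j, hcc]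
      ring
    rw [one_smul] at h1
    exact add_left_cancel h1
  have hvecS : ∀ (sgn α β γ δ : ℝ),
      (∀ j : Fin 4, α * ((if j = 0 then 1 else 0) - (if j = 3 then 1 else 0))
          + β * ((if j = 2 then 1 else 0) - (if j = 1 then 1 else 0))
          + γ * ((if j = 3 then 1 else 0) - (if j = 1 then 1 else 0))
          + δ * ((if j = 0 then 1 else 0) - (if j = 2 then 1 else 0)) = sgn * l j) →
      α • (b 0 - b 3) + β • (b 2 - b 1) + γ • (b 3 - b 1) + δ • (b 0 - b 2) = sgn • c := by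
    intro sgn α β γ δ hcoef
    have h1 : b 0 + (1 : ℝ) • (α • (b 0 - b 3) + β • (b 2 - b 1) + γ • (b 3 - b 1)
        + δ • (b 0 - b 2)) = b 0 + sgn • c := by
      apply b.ext_elem
      intro j
      rw [coord_cone_swap, hcoef j, hcc]
      ring
    rw [one_smul] at h1
    exact add_left_cancel h1
  -- the three cones, each with a sign for `c`
  have caseQ : ∀ sgn : ℝ, sgn ≠ 0 → 0 ≤ sgn * l 0 → 0 ≤ sgn * l 1 → sgn * l 2 ≤ 0 →
      sgn * l 3 ≤ 0 → ENNReal.ofReal (1 / 2) ≤ ∑ i, volume (B i)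
        / volume ((fun x : E => (⟪v i, x⟫_ℝ, ⟪w i, x⟫_ℝ)) '' convexHull ℝ (range b)) := by
    intro sgn hsgn h0 h1 h2 h3
    obtain ⟨α, β, γ, δ, hα, hβ, hγ, hδ, hcoef⟩ := qcone_coeff (fun j => sgn * l j)
      (by show sgn * l 0 + sgn * l 1 + sgn * l 2 + sgn * l 3 = 0
          rw [← mul_add, ← mul_add, ← mul_add, hsum, mul_zero]) h0 h1 h2 h3
    refine tetra_qcone hdim b v w B hv hw hvw ?_ hcov
    intro i
    rcases hax i with ⟨e1, e2⟩ | ⟨e1, e2⟩ | ⟨e1, e2⟩ | ⟨e1, e2⟩ | ⟨e1, e2⟩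
    · exact cone_transfer hne02 e1 e2 (s := 1) (α := 1) (β := 0) (γ := 0) (δ := 0) one_ne_zero
        zero_le_one le_rfl le_rfl le_rfl (by simp)
    · exact cone_transfer hne03 e1 e2 (s := 1) (α := 0) (β := 1) (γ := 0) (δ := 0) one_ne_zero
        le_rfl zero_le_one le_rfl le_rfl (by simp)
    · exact cone_transfer hne12 e1 e2 (s := 1) (α := 0) (β := 0) (γ := 1) (δ := 0) one_ne_zero
        le_rfl le_rfl zero_le_one le_rfl (by simp)
    · exact cone_transfer hne13 e1 e2 (s := 1) (α := 0) (β := 0) (γ := 0) (δ := 1) one_ne_zero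
        le_rfl le_rfl le_rfl zero_le_one (by simp)
    · exact cone_transfer hc e1 e2 hsgn hα hβ hγ hδ (hvecQ sgn α β γ δ hcoef)
  have caseG : ∀ sgn : ℝ, sgn ≠ 0 → 0 ≤ sgn * l 2 → sgn * l 3 ≤ 0 →
      0 ≤ sgn * l 0 + sgn * l 2 → 0 ≤ sgn * l 1 + sgn * l 2 →
      ENNReal.ofReal (1 / 2) ≤ ∑ i, volume (B i)
        / volume ((fun x : E => (⟪v i, x⟫_ℝ, ⟪w i, x⟫_ℝ)) '' convexHull ℝ (range b)) := by
    intro sgn hsgn h2 h3 h02 h12
    obtain ⟨α, β, γ, δ, hα, hβ, hγ, hδ, hcoef⟩ := gcone_coeff (fun j => sgn * l j)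
      (by show sgn * l 0 + sgn * l 1 + sgn * l 2 + sgn * l 3 = 0
          rw [← mul_add, ← mul_add, ← mul_add, hsum, mul_zero]) h2 h3 h02 h12
    refine tetra_cone hdim b v w B hv hw hvw ?_ hcov
    intro i
    rcases hax i with ⟨e1, e2⟩ | ⟨e1, e2⟩ | ⟨e1, e2⟩ | ⟨e1, e2⟩ | ⟨e1, e2⟩
    · exact cone_transfer hne02 e1 e2 (s := -1) (α := 0) (β := 0) (γ := 0) (δ := 1)
        (by norm_num) le_rfl le_rfl le_rfl zero_le_one (by simp)
    · exact cone_transfer hne03 e1 e2 (s := 1) (α := 0) (β := 1) (γ := 0) (δ := 0) one_ne_zero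
        le_rfl zero_le_one le_rfl le_rfl (by simp)
    · exact cone_transfer hne12 e1 e2 (s := -1) (α := 1) (β := 0) (γ := 0) (δ := 0)
        (by norm_num) zero_le_one le_rfl le_rfl le_rfl (by simp)
    · exact cone_transfer hne13 e1 e2 (s := 1) (α := 0) (β := 0) (γ := 1) (δ := 0) one_ne_zero
        le_rfl le_rfl zero_le_one le_rfl (by simp)
    · exact cone_transfer hc e1 e2 hsgn hα hβ hγ hδ (hvecG sgn α β γ δ hcoef)
  have caseS : ∀ sgn : ℝ, sgn ≠ 0 → 0 ≤ sgn * l 0 → sgn * l 1 ≤ 0 →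
      0 ≤ sgn * l 2 + sgn * l 0 → 0 ≤ sgn * l 3 + sgn * l 0 →
      ENNReal.ofReal (1 / 2) ≤ ∑ i, volume (B i)
        / volume ((fun x : E => (⟪v i, x⟫_ℝ, ⟪w i, x⟫_ℝ)) '' convexHull ℝ (range b)) := by
    intro sgn hsgn h0 h1 h20 h30
    obtain ⟨α, β, γ, δ, hα, hβ, hγ, hδ, hcoef⟩ := gcone_coeff_swap (fun j => sgn * l j)
      (by show sgn * l 0 + sgn * l 1 + sgn * l 2 + sgn * l 3 = 0
          rw [← mul_add, ← mul_add, ← mul_add, hsum, mul_zero]) h0 h1 h20 h30
    refine tetra_cone_swap hdim b v w B hv hw hvw ?_ hcov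
    intro i
    rcases hax i with ⟨e1, e2⟩ | ⟨e1, e2⟩ | ⟨e1, e2⟩ | ⟨e1, e2⟩ | ⟨e1, e2⟩
    · exact cone_transfer hne02 e1 e2 (s := 1) (α := 0) (β := 0) (γ := 0) (δ := 1) one_ne_zero
        le_rfl le_rfl le_rfl zero_le_one (by simp)
    · exact cone_transfer hne03 e1 e2 (s := 1) (α := 1) (β := 0) (γ := 0) (δ := 0) one_ne_zero
        zero_le_one le_rfl le_rfl le_rfl (by simp)
    · exact cone_transfer hne12 e1 e2 (s := -1) (α := 0) (β := 1) (γ := 0) (δ := 0)
        (by norm_num) le_rfl zero_le_one le_rfl le_rfl (by simp)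
    · exact cone_transfer hne13 e1 e2 (s := -1) (α := 0) (β := 0) (γ := 1) (δ := 0)
        (by norm_num) le_rfl le_rfl zero_le_one le_rfl (by simp)
    · exact cone_transfer hc e1 e2 hsgn hα hβ hγ hδ (hvecS sgn α β γ δ hcoef)
  rcases six_cases hsum with h | h | h | h | h | h
  · exact caseQ 1 one_ne_zero (by linarith [h.1]) (by linarith [h.2.1]) (by linarith [h.2.2.1])
      (by linarith [h.2.2.2])
  · exact caseQ (-1) (by norm_num) (by linarith [h.1]) (by linarith [h.2.1])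
      (by linarith [h.2.2.1]) (by linarith [h.2.2.2])
  · exact caseG 1 one_ne_zero (by linarith [h.1]) (by linarith [h.2.1]) (by linarith [h.2.2.1])
      (by linarith [h.2.2.2])
  · exact caseG (-1) (by norm_num) (by linarith [h.1]) (by linarith [h.2.1])
      (by linarith [h.2.2.1]) (by linarith [h.2.2.2])
  · exact caseS 1 one_ne_zero (by linarith [h.1]) (by linarith [h.2.1]) (by linarith [h.2.2.1])
      (by linarith [h.2.2.2])
  · exact caseS (-1) (by norm_num) (by linarith [h.1]) (by linarith [h.2.1])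
      (by linarith [h.2.2.1]) (by linarith [h.2.2.2])

end cycle

end Vale.Agent.Helper11
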