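import Vale.Agent.Helper11.TetraCone

/-!
# Tetrahedra: two opposite edges and one further axis direction

Every finite covering of a tetrahedron by cylinders whose axes are parallel to one of two opposite
edges or to one further, arbitrary, direction has directionwise relative area at least `1 / 2`.

The four cones of `tetra_cone` attached to the four remaining edges all contain the directions of
the two opposite edges, and together with their negatives they cover all directions; the result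
follows by applying `tetra_cone` to a relabelled tetrahedron.
-/

namespace Vale.Agent.Helper11

open Set MeasureTheory
open scoped InnerProductSpace

section three

variable {E : Type*} [NormedAddCommGroup E] [InnerProductSpace ℝ E] [FiniteDimensional ℝ E]
  [MeasurableSpace E] [BorelSpace E]

/-- `tetra_cone` for a relabelled tetrahedron. -/
theorem tetra_cone_perm (hdim : Module.finrank ℝ E = 3) (b : AffineBasis (Fin 4) ℝ E)
    (p : Fin 4 → Fin 4) (hp : Function.Injective p)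
    {ι : Type*} [Fintype ι] (v w : ι → E) (B : ι → Set (ℝ × ℝ))
    (hv : ∀ i, ‖v i‖ = 1) (hw : ∀ i, ‖w i‖ = 1) (hvw : ∀ i, ⟪v i, w i⟫_ℝ = 0)
    (hcone : ∀ i, ∃ α β γ δ : ℝ, 0 ≤ α ∧ 0 ≤ β ∧ 0 ≤ γ ∧ 0 ≤ δ ∧
      α • (b (p 2) - b (p 1)) + β • (b (p 0) - b (p 3)) + γ • (b (p 1) - b (p 3))
        + δ • (b (p 2) - b (p 0)) ≠ 0 ∧
      ⟪v i, α • (b (p 2) - b (p 1)) + β • (b (p 0) - b (p 3)) + γ • (b (p 1) - b (p 3))
        + δ • (b (p 2) - b (p 0))⟫_ℝ = 0 ∧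
      ⟪w i, α • (b (p 2) - b (p 1)) + β • (b (p 0) - b (p 3)) + γ • (b (p 1) - b (p 3))
        + δ • (b (p 2) - b (p 0))⟫_ℝ = 0)
    (hcov : ∀ x ∈ convexHull ℝ (range b), ∃ i, (⟪v i, x⟫_ℝ, ⟪w i, x⟫_ℝ) ∈ B i) :
    ENNReal.ofReal (1 / 2) ≤
      ∑ i, volume (B i)
        / volume ((fun x : E => (⟪v i, x⟫_ℝ, ⟪w i, x⟫_ℝ)) '' convexHull ℝ (range b)) := by
  obtain ⟨τ, hτ⟩ : ∃ τ : Fin 4 ≃ Fin 4, ∀ k, τ k = p k :=
    ⟨Equiv.ofBijective p (Finite.injective_iff_bijective.mp hp), fun k => rfl⟩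
  have hb : ∀ k, (b.reindex τ.symm) k = b (p k) := fun k => by
    rw [AffineBasis.reindex_apply, Equiv.symm_symm, hτ]
  have hrange : range (b.reindex τ.symm) = range b := by
    ext x
    constructor
    · rintro ⟨k, rfl⟩
      exact ⟨p k, (hb k).symm⟩
    · rintro ⟨j, rfl⟩
      refine ⟨τ.symm j, ?_⟩
      rw [hb, ← hτ, Equiv.apply_symm_apply]
  have h := tetra_cone hdim (b.reindex τ.symm) v w B hv hw hvw ?_ ?_
  · rwa [hrange] at h
  · intro i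
    obtain ⟨α, β, γ, δ, hα, hβ, hγ, hδ, h1, h2, h3⟩ := hcone i
    refine ⟨α, β, γ, δ, hα, hβ, hγ, hδ, ?_, ?_, ?_⟩
    · rw [hb, hb, hb, hb]; exact h1
    · rw [hb, hb, hb, hb]; exact h2
    · rw [hb, hb, hb, hb]; exact h3
  · rw [hrange]
    exact hcov

omit [FiniteDimensional ℝ E] [MeasurableSpace E] [BorelSpace E] in
/-- Barycentric coordinates along a line whose direction is a combination of four edge vectors of
a relabelled tetrahedron. -/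
theorem coord_cone_perm (b : AffineBasis (Fin 4) ℝ E) (p : Fin 4 → Fin 4) (α β γ δ : ℝ)
    (j : Fin 4) (x : E) (s : ℝ) :
    b.coord j (x + s • (α • (b (p 2) - b (p 1)) + β • (b (p 0) - b (p 3))
        + γ • (b (p 1) - b (p 3)) + δ • (b (p 2) - b (p 0))))
      = b.coord j x + s * (α * ((if j = p 2 then 1 else 0) - (if j = p 1 then 1 else 0))
          + β * ((if j = p 0 then 1 else 0) - (if j = p 3 then 1 else 0))
          + γ * ((if j = p 1 then 1 else 0) - (if j = p 3 then 1 else 0))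
          + δ * ((if j = p 2 then 1 else 0) - (if j = p 0 then 1 else 0))) := by
  have h1 : x + s • (α • (b (p 2) - b (p 1)) + β • (b (p 0) - b (p 3))
        + γ • (b (p 1) - b (p 3)) + δ • (b (p 2) - b (p 0)))
      = (((x + (s * α) • (b (p 2) - b (p 1))) + (s * β) • (b (p 0) - b (p 3)))
          + (s * γ) • (b (p 1) - b (p 3))) + (s * δ) • (b (p 2) - b (p 0)) := by
    rw [smul_add, smul_add, smul_add, smul_smul, smul_smul, smul_smul, smul_smul]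
    abel
  rw [h1, coord_add_smul, coord_add_smul, coord_add_smul, coord_add_smul]
  ring

/-- Coefficients of a vector of the cone: if the barycentric increments `L` of a vector satisfy the
four sign conditions of the cone, the vector is a nonnegative combination of the four edges. -/
theorem cone_coeff (p : Fin 4 → Fin 4) (hp : Function.Injective p) (L : Fin 4 → ℝ)
    (hsum : L (p 0) + L (p 1) + L (p 2) + L (p 3) = 0)
    (h2 : 0 ≤ L (p 2)) (h3 : L (p 3) ≤ 0) (h02 : 0 ≤ L (p 0) + L (p 2))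
    (h12 : 0 ≤ L (p 1) + L (p 2)) :
    ∃ α β γ δ : ℝ, 0 ≤ α ∧ 0 ≤ β ∧ 0 ≤ γ ∧ 0 ≤ δ ∧
      ∀ j, α * ((if j = p 2 then 1 else 0) - (if j = p 1 then 1 else 0))
          + β * ((if j = p 0 then 1 else 0) - (if j = p 3 then 1 else 0))
          + γ * ((if j = p 1 then 1 else 0) - (if j = p 3 then 1 else 0))
          + δ * ((if j = p 2 then 1 else 0) - (if j = p 0 then 1 else 0)) = L j := by
  obtain ⟨δ, hδ⟩ : ∃ δ : ℝ, δ = max 0 (-L (p 0)) := ⟨_, rfl⟩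
  have hδ0 : 0 ≤ δ := by rw [hδ]; exact le_max_left _ _
  have hδ1 : -L (p 0) ≤ δ := by rw [hδ]; exact le_max_right _ _
  have hδ2 : δ ≤ L (p 2) := by rw [hδ]; exact max_le h2 (by linarith)
  have hδ3 : δ ≤ L (p 1) + L (p 2) := by rw [hδ]; exact max_le h12 (by linarith)
  have h01 : p 0 ≠ p 1 := hp.ne (by decide)
  have h02' : p 0 ≠ p 2 := hp.ne (by decide)
  have h03 : p 0 ≠ p 3 := hp.ne (by decide)
  have h12' : p 1 ≠ p 2 := hp.ne (by decide)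
  have h13 : p 1 ≠ p 3 := hp.ne (by decide)
  have h23 : p 2 ≠ p 3 := hp.ne (by decide)
  refine ⟨L (p 2) - δ, L (p 0) + δ, L (p 1) + L (p 2) - δ, δ, by linarith, by linarith,
    by linarith, hδ0, ?_⟩
  intro j
  obtain ⟨k, rfl⟩ := (Finite.injective_iff_surjective.mp hp) j
  fin_cases k
  · show (L (p 2) - δ) * ((if p 0 = p 2 then 1 else 0) - (if p 0 = p 1 then 1 else 0))
        + (L (p 0) + δ) * ((if p 0 = p 0 then 1 else 0) - (if p 0 = p 3 then 1 else 0))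
        + (L (p 1) + L (p 2) - δ) * ((if p 0 = p 1 then 1 else 0) - (if p 0 = p 3 then 1 else 0))
        + δ * ((if p 0 = p 2 then 1 else 0) - (if p 0 = p 0 then 1 else 0)) = L (p 0)
    rw [if_neg h02', if_neg h01, if_neg h03, if_pos rfl]
    ring
  · show (L (p 2) - δ) * ((if p 1 = p 2 then 1 else 0) - (if p 1 = p 1 then 1 else 0))
        + (L (p 0) + δ) * ((if p 1 = p 0 then 1 else 0) - (if p 1 = p 3 then 1 else 0))
        + (L (p 1) + L (p 2) - δ) * ((if p 1 = p 1 then 1 else 0) - (if p 1 = p 3 then 1 else 0))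
        + δ * ((if p 1 = p 2 then 1 else 0) - (if p 1 = p 0 then 1 else 0)) = L (p 1)
    rw [if_neg h12', if_neg h01.symm, if_neg h13, if_pos rfl]
    ring
  · show (L (p 2) - δ) * ((if p 2 = p 2 then 1 else 0) - (if p 2 = p 1 then 1 else 0))
        + (L (p 0) + δ) * ((if p 2 = p 0 then 1 else 0) - (if p 2 = p 3 then 1 else 0))
        + (L (p 1) + L (p 2) - δ) * ((if p 2 = p 1 then 1 else 0) - (if p 2 = p 3 then 1 else 0))
        + δ * ((if p 2 = p 2 then 1 else 0) - (if p 2 = p 0 then 1 else 0)) = L (p 2)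
    rw [if_neg h12'.symm, if_neg h02'.symm, if_neg h23, if_pos rfl]
    ring
  · show (L (p 2) - δ) * ((if p 3 = p 2 then 1 else 0) - (if p 3 = p 1 then 1 else 0))
        + (L (p 0) + δ) * ((if p 3 = p 0 then 1 else 0) - (if p 3 = p 3 then 1 else 0))
        + (L (p 1) + L (p 2) - δ) * ((if p 3 = p 1 then 1 else 0) - (if p 3 = p 3 then 1 else 0))
        + δ * ((if p 3 = p 2 then 1 else 0) - (if p 3 = p 0 then 1 else 0)) = L (p 3)
    rw [if_neg h23.symm, if_neg h13.symm, if_neg h03.symm, if_pos rfl]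
    linarith

/-- The three-direction bound for one of the cones: the axes are parallel to the two opposite
edges `b 0 - b 3`, `b 1 - b 2` or to a vector `c` which, up to the sign `sgn`, lies in the cone of
the relabelling `p`. -/
theorem tetra_three_perm (hdim : Module.finrank ℝ E = 3) (b : AffineBasis (Fin 4) ℝ E)
    (p : Fin 4 → Fin 4) (hp : Function.Injective p)
    {ι : Type*} [Fintype ι] (v w : ι → E) (B : ι → Set (ℝ × ℝ))
    (hv : ∀ i, ‖v i‖ = 1) (hw : ∀ i, ‖w i‖ = 1) (hvw : ∀ i, ⟪v i, w i⟫_ℝ = 0)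
    (c : E) (hc : c ≠ 0) (sgn : ℝ) (hsgn : sgn ≠ 0)
    (hray : (∃ t1 t2 : ℝ, b (p 2) - b (p 1) = t1 • (b 0 - b 3)
        ∧ b (p 0) - b (p 3) = t2 • (b 1 - b 2))
      ∨ (∃ t1 t2 : ℝ, b (p 2) - b (p 1) = t1 • (b 1 - b 2)
        ∧ b (p 0) - b (p 3) = t2 • (b 0 - b 3)))
    (L : Fin 4 → ℝ) (hL : ∀ j, L j = sgn * (b.coord j (b 0 + c) - b.coord j (b 0)))
    (h2 : 0 ≤ L (p 2)) (h3 : L (p 3) ≤ 0) (h02 : 0 ≤ L (p 0) + L (p 2))
    (h12 : 0 ≤ L (p 1) + L (p 2))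
    (hax : ∀ i, (⟪v i, b 0 - b 3⟫_ℝ = 0 ∧ ⟪w i, b 0 - b 3⟫_ℝ = 0)
      ∨ (⟪v i, b 1 - b 2⟫_ℝ = 0 ∧ ⟪w i, b 1 - b 2⟫_ℝ = 0)
      ∨ (⟪v i, c⟫_ℝ = 0 ∧ ⟪w i, c⟫_ℝ = 0))
    (hcov : ∀ x ∈ convexHull ℝ (range b), ∃ i, (⟪v i, x⟫_ℝ, ⟪w i, x⟫_ℝ) ∈ B i) :
    ENNReal.ofReal (1 / 2) ≤
      ∑ i, volume (B i)
        / volume ((fun x : E => (⟪v i, x⟫_ℝ, ⟪w i, x⟫_ℝ)) '' convexHull ℝ (range b)) := by
  have hbij : Function.Bijective p := Finite.injective_iff_bijective.mp hp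
  have hsumL : ∑ j, L j = 0 := by
    have h1 : ∑ j, L j = sgn * (∑ j, b.coord j (b 0 + c) - ∑ j, b.coord j (b 0)) := by
      rw [← Finset.sum_sub_distrib, Finset.mul_sum]
      exact Finset.sum_congr rfl (fun j _ => hL j)
    rw [h1, b.sum_coord_apply_eq_one, b.sum_coord_apply_eq_one]
    ring
  have hsum : L (p 0) + L (p 1) + L (p 2) + L (p 3) = 0 := by
    have h1 := hbij.sum_comp (fun j => L j)
    rw [Fin.sum_univ_four] at h1
    rw [h1]
    exact hsumL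
  obtain ⟨α, β, γ, δ, hα, hβ, hγ, hδ, hcoef⟩ := cone_coeff p hp L hsum h2 h3 h02 h12
  -- the vector `sgn • c` is the combination with these coefficients
  have hD : α • (b (p 2) - b (p 1)) + β • (b (p 0) - b (p 3)) + γ • (b (p 1) - b (p 3))
      + δ • (b (p 2) - b (p 0)) = sgn • c := by
    have h1 : b 0 + (1 : ℝ) • (α • (b (p 2) - b (p 1)) + β • (b (p 0) - b (p 3))
        + γ • (b (p 1) - b (p 3)) + δ • (b (p 2) - b (p 0))) = b 0 + sgn • c := by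
      apply b.ext_elem
      intro j
      rw [coord_cone_perm, hcoef j, hL j]
      have h2 : b 0 + sgn • c = b 0 + sgn • ((b 0 + c) - b 0) := by
        rw [add_sub_cancel_left]
      rw [h2, coord_add_smul_sub]
      ring
    rw [one_smul] at h1
    exact add_left_cancel h1
  have hDne : α • (b (p 2) - b (p 1)) + β • (b (p 0) - b (p 3)) + γ • (b (p 1) - b (p 3))
      + δ • (b (p 2) - b (p 0)) ≠ 0 := by
    rw [hD]
    exact smul_ne_zero hsgn hc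
  have hne21 : b (p 2) - b (p 1) ≠ 0 :=
    sub_ne_zero.mpr (b.ind.injective.ne (hp.ne (by decide)))
  have hne03 : b (p 0) - b (p 3) ≠ 0 :=
    sub_ne_zero.mpr (b.ind.injective.ne (hp.ne (by decide)))
  have hrayα : ∀ i, ⟪v i, b (p 2) - b (p 1)⟫_ℝ = 0 → ⟪w i, b (p 2) - b (p 1)⟫_ℝ = 0 →
      ∃ α β γ δ : ℝ, 0 ≤ α ∧ 0 ≤ β ∧ 0 ≤ γ ∧ 0 ≤ δ ∧
      α • (b (p 2) - b (p 1)) + β • (b (p 0) - b (p 3)) + γ • (b (p 1) - b (p 3))
        + δ • (b (p 2) - b (p 0)) ≠ 0 ∧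
      ⟪v i, α • (b (p 2) - b (p 1)) + β • (b (p 0) - b (p 3)) + γ • (b (p 1) - b (p 3))
        + δ • (b (p 2) - b (p 0))⟫_ℝ = 0 ∧
      ⟪w i, α • (b (p 2) - b (p 1)) + β • (b (p 0) - b (p 3)) + γ • (b (p 1) - b (p 3))
        + δ • (b (p 2) - b (p 0))⟫_ℝ = 0 := by
    intro i h1 h2
    have e : (1 : ℝ) • (b (p 2) - b (p 1)) + (0 : ℝ) • (b (p 0) - b (p 3))
        + (0 : ℝ) • (b (p 1) - b (p 3)) + (0 : ℝ) • (b (p 2) - b (p 0)) = b (p 2) - b (p 1) := by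
      simp
    refine ⟨1, 0, 0, 0, zero_le_one, le_rfl, le_rfl, le_rfl, ?_, ?_, ?_⟩
    · rw [e]; exact hne21
    · rw [e]; exact h1
    · rw [e]; exact h2
  have hrayβ : ∀ i, ⟪v i, b (p 0) - b (p 3)⟫_ℝ = 0 → ⟪w i, b (p 0) - b (p 3)⟫_ℝ = 0 →
      ∃ α β γ δ : ℝ, 0 ≤ α ∧ 0 ≤ β ∧ 0 ≤ γ ∧ 0 ≤ δ ∧
      α • (b (p 2) - b (p 1)) + β • (b (p 0) - b (p 3)) + γ • (b (p 1) - b (p 3))
        + δ • (b (p 2) - b (p 0)) ≠ 0 ∧
      ⟪v i, α • (b (p 2) - b (p 1)) + β • (b (p 0) - b (p 3)) + γ • (b (p 1) - b (p 3))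
        + δ • (b (p 2) - b (p 0))⟫_ℝ = 0 ∧
      ⟪w i, α • (b (p 2) - b (p 1)) + β • (b (p 0) - b (p 3)) + γ • (b (p 1) - b (p 3))
        + δ • (b (p 2) - b (p 0))⟫_ℝ = 0 := by
    intro i h1 h2
    have e : (0 : ℝ) • (b (p 2) - b (p 1)) + (1 : ℝ) • (b (p 0) - b (p 3))
        + (0 : ℝ) • (b (p 1) - b (p 3)) + (0 : ℝ) • (b (p 2) - b (p 0)) = b (p 0) - b (p 3) := by
      simp
    refine ⟨0, 1, 0, 0, le_rfl, zero_le_one, le_rfl, le_rfl, ?_, ?_, ?_⟩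
    · rw [e]; exact hne03
    · rw [e]; exact h1
    · rw [e]; exact h2
  refine tetra_cone_perm hdim b p hp v w B hv hw hvw ?_ hcov
  intro i
  rcases hax i with ⟨h1, h2⟩ | ⟨h1, h2⟩ | ⟨h1, h2⟩
  · rcases hray with ⟨t1, t2, e1, e2⟩ | ⟨t1, t2, e1, e2⟩
    · exact hrayα i (by rw [e1, inner_smul_right, h1, mul_zero])
        (by rw [e1, inner_smul_right, h2, mul_zero])
    · exact hrayβ i (by rw [e2, inner_smul_right, h1, mul_zero])
        (by rw [e2, inner_smul_right, h2, mul_zero])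
  · rcases hray with ⟨t1, t2, e1, e2⟩ | ⟨t1, t2, e1, e2⟩
    · exact hrayβ i (by rw [e2, inner_smul_right, h1, mul_zero])
        (by rw [e2, inner_smul_right, h2, mul_zero])
    · exact hrayα i (by rw [e1, inner_smul_right, h1, mul_zero])
        (by rw [e1, inner_smul_right, h2, mul_zero])
  · refine ⟨α, β, γ, δ, hα, hβ, hγ, hδ, hDne, ?_, ?_⟩
    · rw [hD, inner_smul_right, h1, mul_zero]
    · rw [hD, inner_smul_right, h2, mul_zero]

/-- Every finite covering of a tetrahedron `conv {b 0, b 1, b 2, b 3}` in a three-dimensional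
Euclidean space by cylinders whose axes are parallel to the edge `b 0 b 3`, to the opposite edge
`b 1 b 2`, or to one further nonzero vector `c` has directionwise relative area at least
`1 / 2`. -/
theorem tetra_three (hdim : Module.finrank ℝ E = 3) (b : AffineBasis (Fin 4) ℝ E)
    {ι : Type*} [Fintype ι] (v w : ι → E) (B : ι → Set (ℝ × ℝ))
    (hv : ∀ i, ‖v i‖ = 1) (hw : ∀ i, ‖w i‖ = 1) (hvw : ∀ i, ⟪v i, w i⟫_ℝ = 0)
    (c : E) (hc : c ≠ 0)
    (hax : ∀ i, (⟪v i, b 0 - b 3⟫_ℝ = 0 ∧ ⟪w i, b 0 - b 3⟫_ℝ = 0)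
      ∨ (⟪v i, b 1 - b 2⟫_ℝ = 0 ∧ ⟪w i, b 1 - b 2⟫_ℝ = 0)
      ∨ (⟪v i, c⟫_ℝ = 0 ∧ ⟪w i, c⟫_ℝ = 0))
    (hcov : ∀ x ∈ convexHull ℝ (range b), ∃ i, (⟪v i, x⟫_ℝ, ⟪w i, x⟫_ℝ) ∈ B i) :
    ENNReal.ofReal (1 / 2) ≤
      ∑ i, volume (B i)
        / volume ((fun x : E => (⟪v i, x⟫_ℝ, ⟪w i, x⟫_ℝ)) '' convexHull ℝ (range b)) := by
  obtain ⟨l, hl⟩ : ∃ l : Fin 4 → ℝ, l = fun j => b.coord j (b 0 + c) - b.coord j (b 0) :=
    ⟨_, rfl⟩
  have hlj : ∀ j, l j = b.coord j (b 0 + c) - b.coord j (b 0) := fun j => by rw [hl]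
  have hsum : l 0 + l 1 + l 2 + l 3 = 0 := by
    have h1 : ∑ j, l j = ∑ j, b.coord j (b 0 + c) - ∑ j, b.coord j (b 0) := by
      rw [← Finset.sum_sub_distrib]
      exact Finset.sum_congr rfl (fun j _ => hlj j)
    rw [b.sum_coord_apply_eq_one, b.sum_coord_apply_eq_one, Fin.sum_univ_four] at h1
    linarith
  have key : ∀ (p : Fin 4 → Fin 4) (_ : Function.Injective p) (sgn : ℝ) (_ : sgn ≠ 0)
      (_ : (∃ t1 t2 : ℝ, b (p 2) - b (p 1) = t1 • (b 0 - b 3)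
          ∧ b (p 0) - b (p 3) = t2 • (b 1 - b 2))
        ∨ (∃ t1 t2 : ℝ, b (p 2) - b (p 1) = t1 • (b 1 - b 2)
          ∧ b (p 0) - b (p 3) = t2 • (b 0 - b 3)))
      (_ : 0 ≤ sgn * l (p 2)) (_ : sgn * l (p 3) ≤ 0) (_ : 0 ≤ sgn * l (p 0) + sgn * l (p 2))
      (_ : 0 ≤ sgn * l (p 1) + sgn * l (p 2)),
      ENNReal.ofReal (1 / 2) ≤
        ∑ i, volume (B i)
          / volume ((fun x : E => (⟪v i, x⟫_ℝ, ⟪w i, x⟫_ℝ)) '' convexHull ℝ (range b)) :=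
    fun p hp sgn hsgn hray h2 h3 h02 h12 =>
      tetra_three_perm hdim b p hp v w B hv hw hvw c hc sgn hsgn hray (fun j => sgn * l j)
        (fun j => by rw [hlj]) h2 h3 h02 h12 hax hcov
  have hray1 : (∃ t1 t2 : ℝ, b ((![0, 1, 2, 3] : Fin 4 → Fin 4) 2) - b ((![0, 1, 2, 3] : Fin 4 → Fin 4) 1)
        = t1 • (b 0 - b 3)
        ∧ b ((![0, 1, 2, 3] : Fin 4 → Fin 4) 0) - b ((![0, 1, 2, 3] : Fin 4 → Fin 4) 3) = t2 • (b 1 - b 2))
      ∨ (∃ t1 t2 : ℝ, b ((![0, 1, 2, 3] : Fin 4 → Fin 4) 2) - b ((![0, 1, 2, 3] : Fin 4 → Fin 4) 1)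
        = t1 • (b 1 - b 2)
        ∧ b ((![0, 1, 2, 3] : Fin 4 → Fin 4) 0) - b ((![0, 1, 2, 3] : Fin 4 → Fin 4) 3) = t2 • (b 0 - b 3)) := by
    refine Or.inr ⟨-1, 1, ?_, ?_⟩
    · show b 2 - b 1 = (-1 : ℝ) • (b 1 - b 2)
      rw [neg_one_smul, neg_sub]
    · show b 0 - b 3 = (1 : ℝ) • (b 0 - b 3)
      rw [one_smul]
  have hray2 : (∃ t1 t2 : ℝ, b ((![2, 3, 0, 1] : Fin 4 → Fin 4) 2) - b ((![2, 3, 0, 1] : Fin 4 → Fin 4) 1)
        = t1 • (b 0 - b 3)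
        ∧ b ((![2, 3, 0, 1] : Fin 4 → Fin 4) 0) - b ((![2, 3, 0, 1] : Fin 4 → Fin 4) 3) = t2 • (b 1 - b 2))
      ∨ (∃ t1 t2 : ℝ, b ((![2, 3, 0, 1] : Fin 4 → Fin 4) 2) - b ((![2, 3, 0, 1] : Fin 4 → Fin 4) 1)
        = t1 • (b 1 - b 2)
        ∧ b ((![2, 3, 0, 1] : Fin 4 → Fin 4) 0) - b ((![2, 3, 0, 1] : Fin 4 → Fin 4) 3) = t2 • (b 0 - b 3)) := by
    refine Or.inl ⟨1, -1, ?_, ?_⟩
    · show b 0 - b 3 = (1 : ℝ) • (b 0 - b 3)
      rw [one_smul]
    · show b 2 - b 1 = (-1 : ℝ) • (b 1 - b 2)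
      rw [neg_one_smul, neg_sub]
  have hray3 : (∃ t1 t2 : ℝ, b ((![0, 2, 1, 3] : Fin 4 → Fin 4) 2) - b ((![0, 2, 1, 3] : Fin 4 → Fin 4) 1)
        = t1 • (b 0 - b 3)
        ∧ b ((![0, 2, 1, 3] : Fin 4 → Fin 4) 0) - b ((![0, 2, 1, 3] : Fin 4 → Fin 4) 3) = t2 • (b 1 - b 2))
      ∨ (∃ t1 t2 : ℝ, b ((![0, 2, 1, 3] : Fin 4 → Fin 4) 2) - b ((![0, 2, 1, 3] : Fin 4 → Fin 4) 1)
        = t1 • (b 1 - b 2)
        ∧ b ((![0, 2, 1, 3] : Fin 4 → Fin 4) 0) - b ((![0, 2, 1, 3] : Fin 4 → Fin 4) 3) = t2 • (b 0 - b 3)) := by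
    refine Or.inr ⟨1, 1, ?_, ?_⟩
    · show b 1 - b 2 = (1 : ℝ) • (b 1 - b 2)
      rw [one_smul]
    · show b 0 - b 3 = (1 : ℝ) • (b 0 - b 3)
      rw [one_smul]
  have hray4 : (∃ t1 t2 : ℝ, b ((![1, 3, 0, 2] : Fin 4 → Fin 4) 2) - b ((![1, 3, 0, 2] : Fin 4 → Fin 4) 1)
        = t1 • (b 0 - b 3)
        ∧ b ((![1, 3, 0, 2] : Fin 4 → Fin 4) 0) - b ((![1, 3, 0, 2] : Fin 4 → Fin 4) 3) = t2 • (b 1 - b 2))
      ∨ (∃ t1 t2 : ℝ, b ((![1, 3, 0, 2] : Fin 4 → Fin 4) 2) - b ((![1, 3, 0, 2] : Fin 4 → Fin 4) 1)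
        = t1 • (b 1 - b 2)
        ∧ b ((![1, 3, 0, 2] : Fin 4 → Fin 4) 0) - b ((![1, 3, 0, 2] : Fin 4 → Fin 4) 3) = t2 • (b 0 - b 3)) := by
    refine Or.inl ⟨1, 1, ?_, ?_⟩
    · show b 0 - b 3 = (1 : ℝ) • (b 0 - b 3)
      rw [one_smul]
    · show b 1 - b 2 = (1 : ℝ) • (b 1 - b 2)
      rw [one_smul]
  rcases le_total |l 0 + l 1| |l 0 + l 2| with hAB | hAB
  · rcases le_total 0 (l 0 + l 2) with hB | hB
    · rw [abs_of_nonneg hB, abs_le] at hAB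
      rcases le_total 0 (l 0 + l 3) with hC | hC
      · refine key ![2, 3, 0, 1] (by decide) 1 one_ne_zero hray2 ?_ ?_ ?_ ?_
        · show (0 : ℝ) ≤ 1 * l 0
          linarith [hAB.1, hAB.2]
        · show (1 : ℝ) * l 1 ≤ 0
          linarith [hAB.1, hAB.2]
        · show (0 : ℝ) ≤ 1 * l 2 + 1 * l 0
          linarith
        · show (0 : ℝ) ≤ 1 * l 3 + 1 * l 0
          linarith
      · refine key ![0, 1, 2, 3] (by decide) 1 one_ne_zero hray1 ?_ ?_ ?_ ?_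
        · show (0 : ℝ) ≤ 1 * l 2
          linarith [hAB.1, hAB.2]
        · show (1 : ℝ) * l 3 ≤ 0
          linarith [hAB.1, hAB.2]
        · show (0 : ℝ) ≤ 1 * l 0 + 1 * l 2
          linarith
        · show (0 : ℝ) ≤ 1 * l 1 + 1 * l 2
          linarith
    · rw [abs_of_nonpos hB, abs_le] at hAB
      rcases le_total 0 (l 0 + l 3) with hC | hC
      · refine key ![0, 1, 2, 3] (by decide) (-1) (by norm_num) hray1 ?_ ?_ ?_ ?_
        · show (0 : ℝ) ≤ -1 * l 2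
          linarith [hAB.1, hAB.2]
        · show (-1 : ℝ) * l 3 ≤ 0
          linarith [hAB.1, hAB.2]
        · show (0 : ℝ) ≤ -1 * l 0 + -1 * l 2
          linarith
        · show (0 : ℝ) ≤ -1 * l 1 + -1 * l 2
          linarith
      · refine key ![2, 3, 0, 1] (by decide) (-1) (by norm_num) hray2 ?_ ?_ ?_ ?_
        · show (0 : ℝ) ≤ -1 * l 0
          linarith [hAB.1, hAB.2]
        · show (-1 : ℝ) * l 1 ≤ 0
          linarith [hAB.1, hAB.2]
        · show (0 : ℝ) ≤ -1 * l 2 + -1 * l 0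
          linarith
        · show (0 : ℝ) ≤ -1 * l 3 + -1 * l 0
          linarith
  · rcases le_total 0 (l 0 + l 1) with hA | hA
    · rw [abs_of_nonneg hA, abs_le] at hAB
      rcases le_total 0 (l 0 + l 3) with hC | hC
      · refine key ![1, 3, 0, 2] (by decide) 1 one_ne_zero hray4 ?_ ?_ ?_ ?_
        · show (0 : ℝ) ≤ 1 * l 0
          linarith [hAB.1, hAB.2]
        · show (1 : ℝ) * l 2 ≤ 0
          linarith [hAB.1, hAB.2]
        · show (0 : ℝ) ≤ 1 * l 1 + 1 * l 0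
          linarith
        · show (0 : ℝ) ≤ 1 * l 3 + 1 * l 0
          linarith
      · refine key ![0, 2, 1, 3] (by decide) 1 one_ne_zero hray3 ?_ ?_ ?_ ?_
        · show (0 : ℝ) ≤ 1 * l 1
          linarith [hAB.1, hAB.2]
        · show (1 : ℝ) * l 3 ≤ 0
          linarith [hAB.1, hAB.2]
        · show (0 : ℝ) ≤ 1 * l 0 + 1 * l 1
          linarith
        · show (0 : ℝ) ≤ 1 * l 2 + 1 * l 1
          linarith
    · rw [abs_of_nonpos hA, abs_le] at hAB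
      rcases le_total 0 (l 0 + l 3) with hC | hC
      · refine key ![0, 2, 1, 3] (by decide) (-1) (by norm_num) hray3 ?_ ?_ ?_ ?_
        · show (0 : ℝ) ≤ -1 * l 1
          linarith [hAB.1, hAB.2]
        · show (-1 : ℝ) * l 3 ≤ 0
          linarith [hAB.1, hAB.2]
        · show (0 : ℝ) ≤ -1 * l 0 + -1 * l 1
          linarith
        · show (0 : ℝ) ≤ -1 * l 2 + -1 * l 1
          linarith
      · refine key ![1, 3, 0, 2] (by decide) (-1) (by norm_num) hray4 ?_ ?_ ?_ ?_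
        · show (0 : ℝ) ≤ -1 * l 0
          linarith [hAB.1, hAB.2]
        · show (-1 : ℝ) * l 2 ≤ 0
          linarith [hAB.1, hAB.2]
        · show (0 : ℝ) ≤ -1 * l 1 + -1 * l 0
          linarith
        · show (0 : ℝ) ≤ -1 * l 3 + -1 * l 0
          linarith

end three

end Vale.Agent.Helper11
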